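import Crest.Agent.LC.Defs

/-! Riemann sums of the Gaussian density. -/

set_option autoImplicit false
open Finset MeasureTheory

namespace Crest.Agent.LC

lemma sqrt2pi_ge : (2 : ℝ) ≤ Real.sqrt (2 * Real.pi) := by
  apply Real.le_sqrt_of_sq_le; nlinarith [Real.pi_gt_three]

lemma sqrt2pi_le : Real.sqrt (2 * Real.pi) ≤ 3 := by
  rw [Real.sqrt_le_left (by norm_num)]; nlinarith [Real.pi_lt_four]

lemma gau_pos (t : ℝ) : 0 < gau t :=
  div_pos (Real.exp_pos _) (lt_of_lt_of_le (by norm_num) sqrt2pi_ge)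

lemma gau_le_exp (t : ℝ) : gau t ≤ Real.exp (-t ^ 2 / 2) / 2 :=
  div_le_div_of_nonneg_left (Real.exp_pos _).le (by norm_num) sqrt2pi_ge

lemma exp_le_gau (t : ℝ) : Real.exp (-t ^ 2 / 2) / 3 ≤ gau t :=
  div_le_div_of_nonneg_left (Real.exp_pos _).le (lt_of_lt_of_le (by norm_num) sqrt2pi_ge)
    sqrt2pi_le

lemma gau_le_half (t : ℝ) : gau t ≤ 1 / 2 := by
  refine (gau_le_exp t).trans (div_le_div_of_nonneg_right ?_ (by norm_num))
  exact Real.exp_le_one_iff.2 (by nlinarith [sq_nonneg t])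

lemma gau_neg (t : ℝ) : gau (-t) = gau t := by simp [gau]

lemma gau_le_of_sq {s t : ℝ} (h : s ^ 2 ≤ t ^ 2) : gau t ≤ gau s :=
  div_le_div_of_nonneg_right (Real.exp_le_exp.2 (by linarith)) (Real.sqrt_nonneg _)

lemma gau_eq_mul (s t : ℝ) : gau t = Real.exp ((s ^ 2 - t ^ 2) / 2) * gau s := by
  unfold gau; rw [← mul_div_assoc, ← Real.exp_add]; congr 2; ring

lemma log_gau (t : ℝ) : Real.log (gau t) = -t ^ 2 / 2 - Real.log (Real.sqrt (2 * Real.pi)) := by
  unfold gau
  rw [Real.log_div (Real.exp_pos _).ne' (lt_of_lt_of_le (by norm_num) sqrt2pi_ge).ne',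
    Real.log_exp]

lemma continuous_gau : Continuous gau := by unfold gau; fun_prop

section
variable {η : ℝ}

lemma gs_eq (x : ℝ) : η * gau (η * x) =
    η / Real.sqrt (2 * Real.pi) * Real.exp (-(η ^ 2 / 2) * x ^ 2) := by
  unfold gau; rw [mul_div_assoc', div_mul_eq_mul_div]; congr 3; ring

lemma gs_integrableOn (hη : 0 < η) : IntegrableOn (fun x => η * gau (η * x)) (Set.Ioi 0) := by
  simp only [gs_eq]
  exact ((integrable_exp_neg_mul_sq (by positivity)).const_mul _).integrableOn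

lemma gs_integral (hη : 0 < η) : ∫ x in Set.Ioi (0 : ℝ), η * gau (η * x) = 1 / 2 := by
  simp only [gs_eq]
  rw [integral_const_mul, integral_gaussian_Ioi]
  have h1 : Real.pi / (η ^ 2 / 2) = 2 * Real.pi / η ^ 2 := by field_simp
  have h2 : 0 < Real.sqrt (2 * Real.pi) := lt_of_lt_of_le (by norm_num) sqrt2pi_ge
  rw [h1, Real.sqrt_div (by positivity), Real.sqrt_sq hη.le]
  field_simp

lemma gs_int_le (hη : 0 < η) {a : ℝ} (ha : 0 ≤ a) : ∫ x in (0 : ℝ)..a, η * gau (η * x) ≤ 1 / 2 := by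
  rw [intervalIntegral.integral_of_le ha, ← gs_integral hη]
  apply setIntegral_mono_set (gs_integrableOn hη)
  · exact Filter.Eventually.of_forall fun x => mul_nonneg hη.le (gau_pos _).le
  · exact Filter.Eventually.of_forall Set.Ioc_subset_Ioi_self

lemma gs_cont : Continuous (fun x => η * gau (η * x)) :=
  continuous_const.mul (continuous_gau.comp (continuous_const.mul continuous_id))

lemma gs_int_ge (hη : 0 < η) {a : ℝ} (ha : 0 ≤ a) :
    1 / 2 - Real.exp (-(η * a) ^ 2 / 2) / 2 ≤ ∫ x in (0 : ℝ)..a, η * gau (η * x) := by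
  have ht := intervalIntegral_tendsto_integral_Ioi 0 (gs_integrableOn hη)
    (Filter.tendsto_atTop_add_const_left Filter.atTop a Filter.tendsto_id)
  rw [gs_integral hη] at ht
  have : 1 / 2 ≤ (∫ x in (0 : ℝ)..a, η * gau (η * x)) + Real.exp (-(η * a) ^ 2 / 2) / 2 := by
    refine le_of_tendsto ht ?_
    filter_upwards [Filter.eventually_ge_atTop (0 : ℝ)] with R hR
    simp only [id]
    rw [← intervalIntegral.integral_add_adjacent_intervals (b := a)
      (gs_cont.intervalIntegrable _ _) (gs_cont.intervalIntegrable _ _)]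
    gcongr
    have e : ∫ x in a..a + R, η * gau (η * x) = ∫ x in (0 : ℝ)..R, η * gau (η * (a + x)) := by
      rw [intervalIntegral.integral_comp_add_left (fun x => η * gau (η * x)) a]; simp
    rw [e]
    calc _ ≤ ∫ x in (0 : ℝ)..R, Real.exp (-(η * a) ^ 2 / 2) * (η * gau (η * x)) := by
          apply intervalIntegral.integral_mono_on hR
          · exact (gs_cont.comp (continuous_const.add continuous_id)).intervalIntegrable _ _
          · exact (continuous_const.mul gs_cont).intervalIntegrable _ _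
          · intro x hx
            rw [gau_eq_mul (η * x) (η * (a + x)), mul_left_comm]
            apply mul_le_mul_of_nonneg_right _ (mul_nonneg hη.le (gau_pos _).le)
            apply Real.exp_le_exp.2
            have : 0 ≤ η ^ 2 * (a * x) := mul_nonneg (sq_nonneg _) (mul_nonneg ha hx.1)
            nlinarith
      _ ≤ _ := by
          rw [intervalIntegral.integral_const_mul]
          have := gs_int_le hη hR
          have h2 := Real.exp_pos (-(η * a) ^ 2 / 2)
          nlinarith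
  linarith

lemma gs_anti (hη : 0 < η) (s : Set ℝ) (hs : ∀ x ∈ s, 0 ≤ x) :
    AntitoneOn (fun x => η * gau (η * x)) s := by
  intro x hx y _ hxy
  apply mul_le_mul_of_nonneg_left _ hη.le
  apply gau_le_of_sq
  have := hs x hx
  gcongr

lemma sum_range_gs_le (hη : 0 < η) (N : ℕ) :
    ∑ i ∈ range N, η * gau (η * ((i : ℝ) + 1)) ≤ 1 / 2 := by
  have := (gs_anti hη (Set.Icc 0 (0 + N)) (fun x hx => hx.1)).sum_le_integral
  simp only [zero_add] at this
  push_cast at this
  exact this.trans (gs_int_le hη (Nat.cast_nonneg _))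

lemma sum_range_gs_ge (hη : 0 < η) (N : ℕ) :
    1 / 2 - Real.exp (-(η * N) ^ 2 / 2) / 2 ≤ ∑ i ∈ range N, η * gau (η * (i : ℝ)) := by
  have := (gs_anti hη (Set.Icc 0 (0 + N)) (fun x hx => hx.1)).integral_le_sum
  simp only [zero_add] at this
  exact (gs_int_ge hη (Nat.cast_nonneg _)).trans this

lemma sum_Ico_int (N : ℕ) (g : ℤ → ℝ) :
    ∑ x ∈ Finset.Ico (-(N : ℤ)) N, g x = ∑ i ∈ range N, g i + ∑ i ∈ range N, g (-((i : ℤ) + 1)) := by
  induction N with
  | zero => simp
  | succ N ih =>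
    have : Finset.Ico (-((N + 1 : ℕ) : ℤ)) ((N + 1 : ℕ) : ℤ) =
        insert (N : ℤ) (insert (-((N : ℤ) + 1)) (Finset.Ico (-(N : ℤ)) N)) := by
      ext x; simp only [mem_Ico, mem_insert]; push_cast; omega
    rw [this, sum_insert, sum_insert, ih, sum_range_succ, sum_range_succ]
    · ring
    · simp only [mem_Ico]; omega
    · simp only [mem_Ico, mem_insert]; omega

lemma range_shift (N : ℕ) (g : ℕ → ℝ) :
    ∑ i ∈ range N, g i + g N = g 0 + ∑ i ∈ range N, g (i + 1) := by
  rw [← sum_range_succ, sum_range_succ', add_comm]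

/-- upper Riemann sum bound -/
lemma sum_Ico_gs_le (hη : 0 < η) (N : ℕ) :
    ∑ x ∈ Finset.Ico (-(N : ℤ)) N, η * gau (η * x) ≤ 1 + η := by
  rw [sum_Ico_int N (fun x => η * gau (η * x))]
  have h1 := sum_range_gs_le hη N
  have h2 := range_shift N (fun i => η * gau (η * (i : ℝ)))
  have h3 : 0 ≤ η * gau (η * (N : ℝ)) := mul_nonneg hη.le (gau_pos _).le
  have h4 := gau_le_half (η * ((0 : ℕ) : ℝ))
  push_cast at h2 h4 ⊢
  simp only [mul_neg, gau_neg]
  nlinarith

/-- lower Riemann sum bound -/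
lemma sum_Ico_gs_ge (hη : 0 < η) (N : ℕ) :
    1 - Real.exp (-(η * N) ^ 2 / 2) - η ≤ ∑ x ∈ Finset.Ico (-(N : ℤ)) N, η * gau (η * x) := by
  rw [sum_Ico_int N (fun x => η * gau (η * x))]
  have h1 := sum_range_gs_ge hη N
  have h2 := range_shift N (fun i => η * gau (η * (i : ℝ)))
  have h3 : 0 ≤ η * gau (η * (N : ℝ)) := mul_nonneg hη.le (gau_pos _).le
  have h4 := gau_le_half (η * ((0 : ℕ) : ℝ))
  push_cast at h2 h4 ⊢
  simp only [mul_neg, gau_neg]
  nlinarith

/-- second moment -/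
lemma sum_Ico_gs_sq_le (hη : 0 < η) (hη1 : η ≤ 1) (N : ℕ) :
    ∑ x ∈ Finset.Ico (-(N : ℤ)) N, η * gau (η * x) * (η * x) ^ 2 ≤ 12 := by
  have h := sum_Ico_gs_le (η := η / 2) (by positivity) N
  calc _ ≤ ∑ x ∈ Finset.Ico (-(N : ℤ)) N, 6 * (η / 2 * gau (η / 2 * x)) := by
        apply sum_le_sum; intro x _
        rw [gau_eq_mul (η / 2 * x) (η * x)]
        have h1 := gau_pos (η / 2 * x)
        set t := (η * x) ^ 2 with ht
        have e : ((η / 2 * x) ^ 2 - t) / 2 = -(3 / 8 * t) := by rw [ht]; ring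
        rw [e]
        have ht0 : 0 ≤ t := sq_nonneg _
        have h2 : Real.exp (-(3 / 8 * t)) * t ≤ 3 := by
          have := Real.add_one_le_exp (3 / 8 * t)
          rw [Real.exp_neg, inv_mul_le_iff₀ (Real.exp_pos _)]
          linarith
        have := mul_le_mul_of_nonneg_left h2 (mul_nonneg hη.le h1.le)
        nlinarith
    _ ≤ 12 := by rw [← mul_sum]; linarith

end

end Crest.Agent.LC
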