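import Crest.Agent.LC.Cube
import Crest.Agent.LC.Gau

/-! Blocks of vertical coordinates and their composition. -/

set_option autoImplicit false
open Finset

namespace Crest.Agent.LC

/-- a block of vertical coordinates -/
structure Blk where
  k : ℕ
  T : Type
  [grp : AddCommGroup T]
  [fin : Fintype T]
  hm : (Fin k → ℤ) →+ T
  J : T → Finset (Fin k → ℤ)
  η : Fin k → ℝ
  ν : ℝ

attribute [instance] Blk.grp Blk.fin

noncomputable def Blk.wt (B : Blk) (x : Fin B.k → ℤ) : ℝ :=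
  B.ν * Fintype.card B.T * ∏ i, (B.η i * gau (B.η i * x i))

noncomputable def Blk.mass (B : Blk) (γ : B.T) : ℝ := ∑ x ∈ B.J γ, B.wt x

structure Blk.Basic (B : Blk) (lo hi : ℕ) (ρ y : ℝ) : Prop where
  surj : Function.Surjective B.hm
  hash : ∀ γ, ∀ x ∈ B.J γ, B.hm x = γ
  tree : ∀ γ, Tree (B.J γ)
  bd : ∀ γ, ∀ x ∈ B.J γ, ∀ i, 2 * |x i| ≤ hi
  inv : InvUp B.T lo
  ηpos : ∀ i, 0 < B.η i
  ηle : ∀ i, B.η i ≤ 1
  rob : ∀ γ, ∀ x ∈ B.J γ, ∑ i, B.η i * (|B.η i * x i| + B.η i) ≤ ρ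
  win : ∀ γ, ∀ x ∈ B.J γ, ∀ i, |B.η i * x i| ≤ y
  νge : 1 ≤ B.ν

lemma Blk.Basic.mono {B : Blk} {lo hi lo' hi' : ℕ} {ρ y ρ' y' : ℝ} (h : B.Basic lo hi ρ y)
    (h1 : lo' ≤ lo) (h2 : hi ≤ hi') (h3 : ρ ≤ ρ') (h4 : y ≤ y') : B.Basic lo' hi' ρ' y' where
  surj := h.surj
  hash := h.hash
  tree := h.tree
  bd γ x hx i := (h.bd γ x hx i).trans (by exact_mod_cast h2)
  inv := h.inv.mono h1
  ηpos := h.ηpos
  ηle := h.ηle
  rob γ x hx := (h.rob γ x hx).trans h3
  win γ x hx i := (h.win γ x hx i).trans h4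
  νge := h.νge

lemma Blk.Basic.wt_pos {B : Blk} {lo hi : ℕ} {ρ y : ℝ} (h : B.Basic lo hi ρ y) (x : Fin B.k → ℤ) :
    0 < B.wt x := by
  have := h.νge
  exact mul_pos (mul_pos (by linarith) (by positivity))
    (prod_pos fun i _ => mul_pos (h.ηpos i) (gau_pos _))

lemma Blk.Basic.mass_nonneg {B : Blk} {lo hi : ℕ} {ρ y : ℝ} (h : B.Basic lo hi ρ y) (γ : B.T) :
    0 ≤ B.mass γ := sum_nonneg fun x _ => (h.wt_pos x).le

structure Blk.Stage (B : Blk) (cap ω M ε : ℝ) : Prop where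
  wt_le : ∀ γ, ∀ x ∈ B.J γ, B.wt x ≤ ω
  card_le : ∀ γ, ((B.J γ).card : ℝ) ≤ M
  mass_le : ∀ γ, B.mass γ ≤ cap
  av_ge : 1 - ε ≤ av B.mass
  av_le : av B.mass ≤ 4

open Classical in
/-- composition: `A` on top of `L`, with shifts `b` -/
noncomputable def comp (A L : Blk) (b : Fin A.k → L.T) : Blk where
  k := A.k + L.k
  T := A.T × L.T
  hm := (A.hm.comp (AddMonoidHom.pi fun i => Pi.evalAddMonoidHom _ (Fin.castAdd L.k i))).prod
    (L.hm.comp (AddMonoidHom.pi fun i => Pi.evalAddMonoidHom _ (Fin.natAdd A.k i)) +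
      (dotX b).comp (AddMonoidHom.pi fun i => Pi.evalAddMonoidHom _ (Fin.castAdd L.k i)))
  J := fun γ => (A.J γ.1).biUnion fun x => (L.J (γ.2 - dotB x b)).image (Fin.append x)
  η := Fin.append A.η L.η
  ν := A.ν * L.ν

section comp
variable {A L : Blk} {b : Fin A.k → L.T}

lemma comp_hm (x : Fin A.k → ℤ) (x' : Fin L.k → ℤ) :
    (comp A L b).hm (Fin.append x x') = (A.hm x, L.hm x' + dotB x b) := by
  have h1 : (fun i => Fin.append x x' (Fin.castAdd L.k i)) = x := by funext i; simp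
  have h2 : (fun i => Fin.append x x' (Fin.natAdd A.k i)) = x' := by funext i; simp
  change (A.hm (fun i => Fin.append x x' (Fin.castAdd L.k i)),
    L.hm (fun i => Fin.append x x' (Fin.natAdd A.k i)) +
      dotX b (fun i => Fin.append x x' (Fin.castAdd L.k i))) = _
  rw [h1, h2]; rfl

lemma mem_comp_J {γ : A.T × L.T} {z : Fin (A.k + L.k) → ℤ} :
    z ∈ (comp A L b).J γ ↔ ∃ x ∈ A.J γ.1, ∃ x' ∈ L.J (γ.2 - dotB x b), Fin.append x x' = z := by
  classical
  have : (comp A L b).J γ =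
      (A.J γ.1).biUnion fun x => (L.J (γ.2 - dotB x b)).image (Fin.append x) := by
    unfold comp; congr
  rw [this]
  exact mem_biUnion.trans (by simp only [mem_image])

lemma comp_wt (x : Fin A.k → ℤ) (x' : Fin L.k → ℤ) :
    (comp A L b).wt (Fin.append x x') = A.wt x * L.wt x' := by
  have : Fintype.card (comp A L b).T = Fintype.card A.T * Fintype.card L.T :=
    Fintype.card_prod _ _
  unfold Blk.wt
  rw [this]
  change A.ν * L.ν * _ * ∏ i : Fin (A.k + L.k), Fin.append A.η L.η i *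
    gau (Fin.append A.η L.η i * (Fin.append x x' i : ℤ)) = _
  rw [Fin.prod_univ_add]
  simp only [Fin.append_left, Fin.append_right]
  push_cast; ring

lemma append_inj {m n : ℕ} {x y : Fin m → ℤ} {x' y' : Fin n → ℤ}
    (h : Fin.append x x' = Fin.append y y') : x = y ∧ x' = y' := by
  constructor
  · funext i; simpa using congrFun h (Fin.castAdd n i)
  · funext i; simpa using congrFun h (Fin.natAdd m i)

lemma comp_sum (γ : A.T × L.T) (g : (Fin (A.k + L.k) → ℤ) → ℝ) :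
    ∑ z ∈ (comp A L b).J γ, g z =
      ∑ x ∈ A.J γ.1, ∑ x' ∈ L.J (γ.2 - dotB x b), g (Fin.append x x') := by
  classical
  change ∑ z ∈ (A.J γ.1).biUnion fun x => (L.J (γ.2 - dotB x b)).image (Fin.append x), g z = _
  rw [sum_biUnion]
  · refine sum_congr rfl fun x _ => ?_
    rw [sum_image]
    intro u _ v _ h; exact (append_inj h).2
  · intro x _ y _ hxy
    rw [Function.onFun, disjoint_left]
    intro z hz hz'
    simp only [mem_image] at hz hz'
    obtain ⟨u, -, rfl⟩ := hz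
    obtain ⟨v, -, h⟩ := hz'
    exact hxy (append_inj h).1.symm

lemma comp_mass (γ : A.T × L.T) :
    (comp A L b).mass γ = ∑ x ∈ A.J γ.1, A.wt x * L.mass (γ.2 - dotB x b) := by
  unfold Blk.mass
  rw [comp_sum γ (fun z => (comp A L b).wt z)]
  simp only [comp_wt, mul_sum]

lemma tree_append {m n : ℕ} {J : Finset (Fin (m + n) → ℤ)} {J1 : Finset (Fin m → ℤ)}
    {J2 : (Fin m → ℤ) → Finset (Fin n → ℤ)}
    (h : ∀ z ∈ J, ∃ x ∈ J1, ∃ x' ∈ J2 x, Fin.append x x' = z) (hA : Tree J1)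
    (hL : ∀ x, Tree (J2 x)) : Tree J := by
  intro i z1 h1 z2 h2 z3 h3 hj
  obtain ⟨x, hx, x', hx', rfl⟩ := h _ h1
  obtain ⟨y, hy, y', hy', rfl⟩ := h _ h2
  obtain ⟨z, hz, z', hz', rfl⟩ := h _ h3
  refine Fin.addCases (fun i hj => ?_) (fun i hj => ?_) i hj
  · simp only [Fin.append_left]
    refine hA i x hx y hy z hz fun j hji => ?_
    simpa using hj (Fin.castAdd n j) (Fin.lt_def.2 (Fin.lt_def.1 hji))
  · simp only [Fin.append_right]
    have hlt : ∀ j : Fin m, Fin.castAdd n j < Fin.natAdd m i := by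
      intro j; rw [Fin.lt_def]; have := j.2; simp only [Fin.val_castAdd, Fin.val_natAdd]; omega
    have hxy : x = y ∧ x = z := by
      constructor <;> funext j
      · simpa using (hj (Fin.castAdd n j) (hlt j)).1
      · simpa using (hj (Fin.castAdd n j) (hlt j)).2
    obtain ⟨rfl, rfl⟩ := hxy
    refine hL _ i x' hx' y' hy' z' hz' fun j hji => ?_
    simpa using hj (Fin.natAdd m j) (by
      rw [Fin.lt_def] at hji ⊢; simp only [Fin.val_natAdd]; omega)

lemma comp_basic {lo hi : ℕ} {ρ ρ' y : ℝ} (hA : A.Basic lo hi ρ y) (hL : L.Basic lo hi ρ' y) :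
    (comp A L b).Basic lo hi (ρ + ρ') y where
  surj := by
    rintro ⟨γ, δ⟩
    obtain ⟨x, hx⟩ := hA.surj γ
    obtain ⟨x', hx'⟩ := hL.surj (δ - dotB x b)
    exact ⟨Fin.append x x', by rw [comp_hm, hx, hx']; simp⟩
  hash := by
    rintro ⟨γ, δ⟩ z hz
    obtain ⟨x, hx, x', hx', rfl⟩ := mem_comp_J.1 hz
    rw [comp_hm, hA.hash _ _ hx, hL.hash _ _ hx']; simp
  tree := by
    intro γ
    refine tree_append (fun z hz => mem_comp_J.1 hz) (hA.tree _) (fun x => hL.tree _)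
  bd := by
    intro γ z hz i
    obtain ⟨x, hx, x', hx', rfl⟩ := mem_comp_J.1 hz
    change Fin (A.k + L.k) at i
    refine Fin.addCases (fun i => ?_) (fun i => ?_) i
    · simpa using hA.bd _ _ hx i
    · simpa using hL.bd _ _ hx' i
  inv := hA.inv.prod hL.inv
  ηpos := by
    intro i
    change Fin (A.k + L.k) at i
    refine Fin.addCases (fun i => ?_) (fun i => ?_) i
    · simpa [comp] using hA.ηpos i
    · simpa [comp] using hL.ηpos i
  ηle := by
    intro i
    change Fin (A.k + L.k) at i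
    refine Fin.addCases (fun i => ?_) (fun i => ?_) i
    · simpa [comp] using hA.ηle i
    · simpa [comp] using hL.ηle i
  rob := by
    intro γ z hz
    obtain ⟨x, hx, x', hx', rfl⟩ := mem_comp_J.1 hz
    change ∑ i : Fin (A.k + L.k), Fin.append A.η L.η i *
      (|Fin.append A.η L.η i * (Fin.append x x' i : ℤ)| + Fin.append A.η L.η i) ≤ _
    rw [Fin.sum_univ_add]
    simp only [Fin.append_left, Fin.append_right]
    exact add_le_add (hA.rob _ _ hx) (hL.rob _ _ hx')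
  win := by
    intro γ z hz i
    obtain ⟨x, hx, x', hx', rfl⟩ := mem_comp_J.1 hz
    change Fin (A.k + L.k) at i
    refine Fin.addCases (fun i => ?_) (fun i => ?_) i
    · simpa [comp] using hA.win _ _ hx i
    · simpa [comp] using hL.win _ _ hx' i
  νge := one_le_mul_of_one_le_of_one_le hA.νge hL.νge

end comp

/-- `U` is invariant under a set of translations of index at most `N` -/
def InvF {T : Type*} [AddCommGroup T] [Fintype T] (U : T → ℝ) (N : ℝ) : Prop :=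
  ∃ S : Finset T, (∀ σ ∈ S, ∀ γ, U (γ + σ) = U γ) ∧ (Fintype.card T : ℝ) ≤ N * S.card

lemma InvF.mono {T : Type*} [AddCommGroup T] [Fintype T] {U : T → ℝ} {N N' : ℝ} (h : InvF U N)
    (hN : N ≤ N') : InvF U N' := by
  obtain ⟨S, h1, h2⟩ := h
  exact ⟨S, h1, h2.trans (mul_le_mul_of_nonneg_right hN (Nat.cast_nonneg _))⟩

lemma le_av_of_inv {T : Type*} [AddCommGroup T] [Fintype T] {W : T → ℝ} {N : ℝ} (S : Finset T)
    (h1 : ∀ σ ∈ S, ∀ γ, W (γ + σ) = W γ) (h2 : (Fintype.card T : ℝ) ≤ N * S.card)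
    (hW : ∀ γ, 0 ≤ W γ) (γ : T) : W γ ≤ N * av W := by
  classical
  have hc : (0 : ℝ) < Fintype.card T := by positivity
  have hN : 0 ≤ N := by
    by_contra hN
    have : N * S.card ≤ 0 := mul_nonpos_of_nonpos_of_nonneg (not_le.1 hN).le (Nat.cast_nonneg _)
    linarith
  have h3 : (S.card : ℝ) * W γ ≤ ∑ a, W a := by
    calc (S.card : ℝ) * W γ = ∑ σ ∈ S, W (γ + σ) := by
          rw [sum_congr rfl fun σ hσ => h1 σ hσ γ]; simp
      _ = ∑ a ∈ S.image (γ + ·), W a := by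
          rw [sum_image]; intro a _ b _ h; simpa using h
      _ ≤ _ := sum_le_sum_of_subset_of_nonneg (subset_univ _) fun a _ _ => hW a
  unfold av
  rw [← mul_div_assoc, le_div_iff₀ hc]
  calc W γ * Fintype.card T ≤ W γ * (N * S.card) := mul_le_mul_of_nonneg_left h2 (hW γ)
    _ = N * (S.card * W γ) := by ring
    _ ≤ _ := mul_le_mul_of_nonneg_left h3 hN

lemma InvF.lift {T T' : Type*} [AddCommGroup T] [Fintype T] [AddCommGroup T'] [Fintype T']
    {W : T × T' → ℝ} {N τ : ℝ} (S : Finset T') (h1 : ∀ σ ∈ S, ∀ γ δ, W (γ, δ + σ) = W (γ, δ))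
    (h2 : (Fintype.card T' : ℝ) ≤ N * S.card) (hτ : (Fintype.card T : ℝ) ≤ τ) :
    InvF W (τ * N) := by
  classical
  refine ⟨S.image (fun σ => (0, σ)), ?_, ?_⟩
  · intro σ hσ γ
    obtain ⟨σ', h, rfl⟩ := mem_image.1 hσ
    obtain ⟨γ1, γ2⟩ := γ
    simpa using h1 σ' h γ1 γ2
  · rw [card_image_of_injective _ (fun a b h => by simpa using h), Fintype.card_prod]
    push_cast
    rw [mul_assoc]
    exact mul_le_mul hτ h2 (Nat.cast_nonneg _) ((Nat.cast_nonneg _).trans hτ)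

end Crest.Agent.LC
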