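import Crest.Agent.LC.Cov
import Crest.Agent.LC.Blk

/-! The main covering construction. -/

set_option autoImplicit false
set_option linter.unusedSectionVars false
open Finset MeasureTheory

namespace Crest.Agent.LC

def HoleAt (α : Type) [Fintype α] [DecidableEq α] (κ' : ℝ) : Prop :=
    ∀ (I : Type) [Fintype I] (Q : I → Set (α → ℝ)),
      (∀ ι, IsCompact (Q ι) ∧ Convex ℝ (Q ι) ∧ 0 < (volume (Q ι)).toReal) →
      ∀ ρ : ℝ, 0 < ρ →
      (∀ ι, ρ * (volume (Q ι)).toReal ≤ κ') →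
      ∀ N₀ P₀ : ℕ, 0 < N₀ →
      ∃ (T : ℕ) (H : Type) (_ : AddCommGroup H) (_ : Fintype H) (b : α → H),
        0 < T ∧ N₀ ∣ T ∧
        (∀ m : ℤ, m ≠ 0 → |m| ≤ P₀ → Function.Bijective (fun h : H => m • h)) ∧
        ρ * Fintype.card H ≤ (T : ℝ) ^ Fintype.card α ∧
        (T : ℝ) ^ Fintype.card α ≤ 2 * ρ * Fintype.card H ∧
        ∀ ι, (Nat.card {γ : H // ¬ ∃ a : α → ℤ,
              (fun i => (a i : ℝ) / T) ∈ Q ι ∧ ∑ i, a i • b i = γ} : ℝ) ≤
            8 * Fintype.card I * Real.exp (-(ρ * (volume (Q ι)).toReal) / 2) * Fintype.card H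

section
variable {α β : Type} [Fintype α] [DecidableEq α] [Fintype β] [DecidableEq β]

def sec (K : Set (α ⊕ β → ℝ)) (y : β → ℝ) : Set (α → ℝ) := {a | Sum.elim a y ∈ K}

lemma sec_convex_asm {K : Set (α ⊕ β → ℝ)} (h : Convex ℝ K) (y : β → ℝ) : Convex ℝ (sec K y) := by
  intro a ha a' ha' s t hs ht hst
  have := h ha ha' hs ht hst
  change Sum.elim _ y ∈ K
  convert this using 1
  funext i
  rcases i with i | i
  · simp
  · simp [← add_mul, hst]

lemma sec_compact_asm {K : Set (α ⊕ β → ℝ)} (h : IsCompact K) (y : β → ℝ) : IsCompact (sec K y) := by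
  have hc : Continuous fun a : α → ℝ => (Sum.elim a y : α ⊕ β → ℝ) := by
    refine continuous_pi fun i => ?_
    rcases i with i | i
    · exact continuous_apply i
    · exact continuous_const
  have h1 : IsCompact ((fun p : α ⊕ β → ℝ => p ∘ Sum.inl) '' K) := h.image (by fun_prop)
  refine h1.of_isClosed_subset (h.isClosed.preimage hc) fun a ha => ⟨_, ha, rfl⟩

/-- `∑ a i • b i` -/
def hsh {H : Type} [AddCommGroup H] (b : α → H) : (α → ℤ) →+ H where
  toFun a := ∑ i, a i • b i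
  map_zero' := by simp
  map_add' b c := by simp [sum_add_distrib, add_smul]

lemma av_ind {H : Type} [Fintype H] (P : H → Prop) [DecidablePred P] :
    av (fun γ => if P γ then (1 : ℝ) else 0) = Nat.card {γ // P γ} / Fintype.card H := by
  unfold av
  rw [Nat.card_eq_fintype_card, Fintype.card_subtype, sum_boole]

end

lemma gau_robust {k : ℕ} (η t o : Fin k → ℝ) (ho : ∀ i, 0 ≤ o i ∧ o i ≤ η i)
    (h : ∑ i, η i * (|t i| + η i) ≤ 1) : ∏ i, gau (t i) ≤ 3 * ∏ i, gau (t i + o i) := by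
  have e : ∏ i, gau (t i) = Real.exp (∑ i, ((t i + o i) ^ 2 - t i ^ 2) / 2) * ∏ i, gau (t i + o i) := by
    rw [Real.exp_sum, ← prod_mul_distrib]
    exact prod_congr rfl fun i _ => gau_eq_mul _ _
  rw [e]
  refine mul_le_mul_of_nonneg_right ?_ (prod_nonneg fun i _ => (gau_pos _).le)
  refine le_trans (Real.exp_le_exp.2 (le_trans (sum_le_sum fun i _ => ?_) h))
    (by linarith [Real.exp_one_lt_d9])
  obtain ⟨h1, h2⟩ := ho i
  have h3 := le_abs_self (t i)
  have h4 := abs_nonneg (t i)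
  nlinarith [mul_le_mul h3 h2 h1 h4, mul_le_mul h2 h2 h1 (h1.trans h2)]

theorem cover_main {α : Type} [Fintype α] [DecidableEq α] [Nonempty α] (B : Blk) {hi : ℕ} {y : ℝ}
    (hB : B.Basic 0 hi 1 y) (hhi : 1 ≤ hi) (hk1 : 1 ≤ B.k) (hy : y + 1 ≤ B.k) {ω : ℝ}
    (hω : ∀ γ, ∀ x ∈ B.J γ, B.wt x ≤ ω) (hmass : ∀ γ, 1 / 4 ≤ B.mass γ) {κ' : ℝ}
    (hole : HoleAt α κ') {K : Set (α ⊕ Fin B.k → ℝ)} (hK1 : IsCompact K) (hK2 : Convex ℝ K)
    {c : ℝ} (hc : 0 < c) (hvol : 0 < (volume K).toReal)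
    (hsec : ∀ y : Fin B.k → ℝ, (∀ i, |y i| ≤ B.k) →
      c * (volume K).toReal * ∏ i, gau (y i) ≤ (volume (sec K y)).toReal)
    (hbox : ∀ u : α → ℝ, (∀ i, 0 ≤ u i) → ∑ i, u i ≤ 1 → u ∈ sec K 0)
    (hbd : ∀ u ∈ sec K 0, ∀ i, |u i| ≤ 1) (n : ℕ) (hn : Fintype.card α ≤ n)
    {R W D I1 I2 : ℝ} (hR : 0 < R) (hW : 0 < W) (hRω : R * ω ≤ κ') (hWκ : W ≤ κ')
    (hW2 : W ≤ R / (4 * 2 ^ B.k)) (hI1 : Fintype.card B.T * (n : ℝ) ^ B.k ≤ I1)
    (hI2 : 1 + I1 * 2 ^ B.k ≤ I2) (hD1 : 1 ≤ D) (hD : B.k * 2 ^ B.k * I1 < D)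
    (h0 : 16 * I2 * Real.exp (-W / 2) < 1)
    (hU : (6 * (n : ℝ) ^ 2) ^ Fintype.card α * I1 * ((8 * D * I2) ^ (2 ^ B.k) * Real.exp (-R / 8)) < 1) :
    Cov K ((1 + 2 / n) ^ Fintype.card (α ⊕ Fin B.k) * (6 * R * B.ν / c)) := by
  classical
  have hn1 : 1 ≤ n := le_trans Fintype.card_pos hn
  have hn0 : (0 : ℝ) < n := by exact_mod_cast hn1
  have hn1' : (1 : ℝ) ≤ n := by exact_mod_cast hn1
  have hk1' : (1 : ℝ) ≤ B.k := by exact_mod_cast hk1
  set vK := (volume K).toReal with hvK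
  have hη : 0 < ∏ i, B.η i := prod_pos fun i _ => hB.ηpos i
  have hν : 0 < B.ν := by linarith [hB.νge]
  have hT0 : (0 : ℝ) < Fintype.card B.T := by positivity
  set ρ := R * B.ν * Fintype.card B.T * (∏ i, B.η i) / (c / 3 * vK) with hρ
  have hρ0 : 0 < ρ := by positivity
  let τ : (Fin B.k → ℤ) → ℝ := fun x => c / 3 * vK * ∏ i, gau (B.η i * x i)
  have hτ0 : ∀ x, 0 < τ x := fun x =>
    mul_pos (by positivity) (prod_pos fun i _ => gau_pos _)
  have hρτ : ∀ x, ρ * τ x = R * B.wt x := fun x => by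
    simp only [τ, hρ, Blk.wt, prod_mul_distrib]; field_simp
  let I := B.T × (Fin B.k → Fin n)
  have hI : (Fintype.card I : ℝ) ≤ I1 := by
    refine le_trans (le_of_eq ?_) hI1; simp [I]
  have hI10 : 0 ≤ I1 := (Nat.cast_nonneg _).trans hI
  let yv : I → (Fin B.k → ℤ) → Fin B.k → ℝ := fun ι x i => B.η i * x i + B.η i * (ι.2 i : ℕ) / n
  have ho : ∀ (ι : I) i, 0 ≤ B.η i * (ι.2 i : ℕ) / n ∧ B.η i * (ι.2 i : ℕ) / n ≤ B.η i := by
    intro ι i
    have h1 := hB.ηpos i
    refine ⟨by positivity, ?_⟩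
    rw [div_le_iff₀ hn0]
    exact mul_le_mul_of_nonneg_left (by exact_mod_cast (ι.2 i).2.le) h1.le
  have hQ' : ∀ (ι : I) x, ∃ Q : Set (α → ℝ), x ∈ B.J ι.1 →
      Q ⊆ sec K (yv ι x) ∧ IsCompact Q ∧ Convex ℝ Q ∧ (volume Q).toReal = τ x := by
    intro ι x
    by_cases hx : x ∈ B.J ι.1
    · obtain ⟨Q, h⟩ := exists_shrink (sec_compact_asm hK1 (yv ι x)) (sec_convex_asm hK2 _) (hτ0 x) (by
        refine le_trans ?_ (hsec _ fun i => ?_)
        · have := gau_robust B.η (fun i => B.η i * x i) _ (ho ι) (hB.rob _ x hx)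
          have := mul_le_mul_of_nonneg_left this (show 0 ≤ c / 3 * vK by positivity)
          simp only [τ, yv]; linarith
        · have h1 := hB.win _ x hx i
          have h2 := ho ι i
          have h3 := hB.ηle i
          refine (abs_add_le _ _).trans ?_
          rw [abs_of_nonneg h2.1]; linarith)
      exact ⟨Q, fun _ => h⟩
    · exact ⟨∅, fun h => absurd h hx⟩
  choose Q' hQ' using hQ'
  have hJc : ∀ γ, ((B.J γ).card : ℝ) ≤ 2 ^ B.k := fun γ => by
    exact_mod_cast (hB.tree γ).card_le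
  obtain ⟨Q0, hQ01, hQ02, hQ03, hQ04⟩ := exists_shrink (sec_compact_asm hK1 0) (sec_convex_asm hK2 0)
    (τ := W / ρ) (by positivity) (by
      obtain ⟨x, hx, hx'⟩ : ∃ x ∈ B.J 0, 1 / (4 * 2 ^ B.k) ≤ B.wt x := by
        by_contra hcon
        push Not at hcon
        have h1 := hmass 0
        rcases (B.J 0).eq_empty_or_nonempty with h | h
        · simp only [Blk.mass, h, sum_empty] at h1; linarith
        · have h2 := sum_lt_sum_of_nonempty h hcon
          rw [sum_const, nsmul_eq_mul] at h2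
          have h3 := mul_le_mul_of_nonneg_right (hJc 0)
            (show (0 : ℝ) ≤ 1 / (4 * 2 ^ B.k) by positivity)
          have h4 : (2 : ℝ) ^ B.k * (1 / (4 * 2 ^ B.k)) = 1 / 4 := by field_simp
          unfold Blk.mass at h1; linarith
      refine le_trans ?_ (hsec 0 fun i => by simp)
      rw [div_le_iff₀' hρ0]
      have h1 : τ x ≤ c * vK * ∏ i, gau ((0 : Fin B.k → ℝ) i) := by
        refine mul_le_mul (by nlinarith [mul_pos hc hvol])
          (prod_le_prod (fun i _ => (gau_pos _).le) fun i _ => gau_le_of_sq (by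
            simpa using sq_nonneg _)) (prod_nonneg fun i _ => (gau_pos _).le) (by positivity)
      have h2 := mul_le_mul_of_nonneg_left h1 hρ0.le
      have h3 := mul_le_mul_of_nonneg_left hx' hR.le
      rw [hρτ] at h2
      rw [mul_one_div] at h3
      linarith)
  let I' := Option (Σ ι : I, B.J ι.1)
  have hI' : (Fintype.card I' : ℝ) ≤ I2 := by
    refine le_trans ?_ hI2
    simp only [I', Fintype.card_option, Fintype.card_sigma, Fintype.card_coe]
    push_cast
    rw [add_comm]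
    gcongr
    calc _ ≤ ∑ _ι : I, (2 : ℝ) ^ B.k := sum_le_sum fun ι _ => hJc _
      _ ≤ _ := by rw [sum_const, nsmul_eq_mul, card_univ]; gcongr
  have hI21 : 1 ≤ I2 := by
    have : 0 ≤ I1 * 2 ^ B.k := by positivity
    linarith
  let Q : I' → Set (α → ℝ) := fun o => o.elim Q0 fun p => Q' p.1 p.2
  obtain ⟨T, H, _, _, b0, hT1, ⟨T', hT'⟩, hinv, -, hH2, hunc⟩ := hole I' Q (by
      rintro (_ | ⟨ι, x, hx⟩)
      · exact ⟨hQ02, hQ03, by simp only [Q, Option.elim]; rw [hQ04]; positivity⟩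
      · obtain ⟨-, h1, h2, h3⟩ := hQ' ι x hx
        exact ⟨h1, h2, by simp only [Q, Option.elim]; rw [h3]; exact hτ0 x⟩) ρ hρ0 (by
      rintro (_ | ⟨ι, x, hx⟩)
      · simp only [Q, Option.elim]; rw [hQ04, mul_div_cancel₀ _ hρ0.ne']; exact hWκ
      · simp only [Q, Option.elim]; rw [(hQ' ι x hx).2.2.2, hρτ]
        exact (mul_le_mul_of_nonneg_left (hω _ x hx) hR.le).trans hRω) (n ^ 2) hi (by positivity)
  have hTr : (0 : ℝ) < T := by exact_mod_cast hT1
  have hTr1 : (1 : ℝ) ≤ T := by exact_mod_cast hT1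
  have hH0 : (0 : ℝ) < Fintype.card H := by positivity
  let unc : Set (α → ℝ) → H → ℝ := fun S γ =>
    if ¬ ∃ a : α → ℤ, (fun i => (a i : ℝ) / T) ∈ S ∧ hsh b0 a = γ then 1 else 0
  have hunc0 : ∀ S γ, 0 ≤ unc S γ := fun S γ => by simp only [unc]; split_ifs <;> norm_num
  have hunc1 : ∀ o, av (unc (Q o)) ≤ 8 * I2 * Real.exp (-(ρ * (volume (Q o)).toReal) / 2) := by
    intro o
    simp only [unc]
    rw [av_ind, div_le_iff₀ hH0]
    refine (hunc o).trans ?_
    gcongr
  have hdiff : ∀ h : H, ∃ a a' : α → ℤ, (fun i => (a i : ℝ) / T) ∈ Q0 ∧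
      (fun i => (a' i : ℝ) / T) ∈ Q0 ∧ hsh b0 a - hsh b0 a' = h := by
    intro h
    obtain ⟨g, hg⟩ := exists_le_av (fun g => unc Q0 g + unc Q0 (g - h))
    rw [av_add, av_sub_right] at hg
    have h1 := hunc1 none
    simp only [Q, Option.elim] at h1
    rw [hQ04, mul_div_cancel₀ _ hρ0.ne'] at h1
    have h2 : unc Q0 g < 1 := by linarith [hunc0 Q0 (g - h)]
    have h3 : unc Q0 (g - h) < 1 := by linarith [hunc0 Q0 g]
    simp only [unc] at h2 h3
    split_ifs at h2 with h4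
    swap; · exact absurd h2 (lt_irrefl _)
    split_ifs at h3 with h5
    swap; · exact absurd h3 (lt_irrefl _)
    obtain ⟨a, ha, ha'⟩ := h4
    obtain ⟨a', hb, hb'⟩ := h5
    exact ⟨a, a', ha, hb, by rw [ha', hb']; simp⟩
  have hD0 : 0 < D := by linarith
  obtain ⟨b', hb'⟩ : ∃ b' : Fin B.k → H, ∀ ι : I,
      av (fun a => ∏ x ∈ B.J ι.1, unc (Q' ι x) (a - dotB x b')) ≤
        ∏ x ∈ B.J ι.1, (D * av (unc (Q' ι x))) := by
    have h1 := cube hhi hinv hD1 B.k I (fun ι => B.J ι.1) (fun ι => hB.tree _) (fun ι => hB.bd _)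
      (fun ι x => unc (Q' ι x)) (fun _ _ _ => hunc0 _ _)
    have h2 : B.k * 2 ^ B.k * (Fintype.card I : ℝ) / D < 1 := by
      rw [div_lt_one hD0]; refine lt_of_le_of_lt ?_ hD; gcongr
    obtain ⟨b', hb'⟩ := exists_le_av _ |>.imp fun b hb => (le_trans hb h1).trans_lt h2
    refine ⟨b', fun ι => ?_⟩
    by_contra hcon
    rw [if_pos ⟨ι, not_le.1 hcon⟩] at hb'
    exact lt_irrefl _ hb'
  let N : Finset (α → ℤ) := Fintype.piFinset fun _ => Finset.Icc (-(2 * n ^ 2 : ℤ)) (3 * n ^ 2)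
  have hN : (N.card : ℝ) ≤ (6 * (n : ℝ) ^ 2) ^ Fintype.card α := by
    simp only [N, Fintype.card_piFinset, prod_const, card_univ, Int.card_Icc]
    push_cast
    apply pow_le_pow_left₀ (Nat.cast_nonneg _)
    have h1 : (1 : ℤ) ≤ n ^ 2 := by exact_mod_cast Nat.one_le_pow 2 n hn1
    have h2 : ((3 * n ^ 2 + 1 - -(2 * n ^ 2) : ℤ).toNat : ℤ) ≤ 6 * n ^ 2 := by omega
    exact_mod_cast h2
  obtain ⟨s, hs⟩ : ∃ s : H, ∀ j ∈ N, ∀ ι : I, ∃ x ∈ B.J ι.1, ∃ a : α → ℤ,
      (fun i => (a i : ℝ) / T) ∈ Q' ι x ∧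
        hsh b0 a = s + hsh b0 (fun i => j i * T') - dotB x b' := by
    obtain ⟨s, hs⟩ := exists_le_av (fun s => ∑ j ∈ N, ∑ ι : I,
      ∏ x ∈ B.J ι.1, unc (Q' ι x) (s + hsh b0 (fun i => j i * T') - dotB x b'))
    have h1 : ∀ ι : I, av (fun a => ∏ x ∈ B.J ι.1, unc (Q' ι x) (a - dotB x b')) ≤
        (8 * D * I2) ^ (2 ^ B.k) * Real.exp (-R / 8) := by
      intro ι
      refine (hb' ι).trans ?_
      calc _ ≤ ∏ x ∈ B.J ι.1, (8 * D * I2 * Real.exp (-(R * B.wt x) / 2)) := by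
            refine prod_le_prod (fun x _ => mul_nonneg hD0.le (av_nonneg (hunc0 _))) fun x hx => ?_
            have h2 := hunc1 (some ⟨ι, x, hx⟩)
            simp only [Q, Option.elim] at h2
            rw [(hQ' ι x hx).2.2.2, hρτ] at h2
            have := mul_le_mul_of_nonneg_left h2 hD0.le
            linarith
        _ ≤ _ := by
            rw [prod_mul_distrib, prod_const, ← Real.exp_sum]
            have h3 : 1 ≤ 8 * D * I2 := by nlinarith
            refine mul_le_mul (pow_le_pow_right₀ h3 (hB.tree _).card_le) (Real.exp_le_exp.2 ?_)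
              (Real.exp_pos _).le (by positivity)
            rw [← sum_div, sum_neg_distrib, ← mul_sum]
            have := hmass ι.1
            unfold Blk.mass at this
            nlinarith
    have h2 : ∑ j ∈ N, ∑ ι : I,
        ∏ x ∈ B.J ι.1, unc (Q' ι x) (s + hsh b0 (fun i => j i * T') - dotB x b') < 1 := by
      refine lt_of_le_of_lt (hs.trans ?_) hU
      simp only [av_sum]
      calc _ ≤ ∑ _j ∈ N, ∑ _ι : I, (8 * D * I2) ^ (2 ^ B.k) * Real.exp (-R / 8) := by
            refine sum_le_sum fun j _ => sum_le_sum fun ι _ => le_trans (le_of_eq ?_) (h1 ι)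
            exact av_add_right (fun a => ∏ x ∈ B.J ι.1, unc (Q' ι x) (a - dotB x b')) _
        _ ≤ _ := by
            simp only [sum_const, nsmul_eq_mul, card_univ]
            rw [← mul_assoc]
            gcongr
    refine ⟨s, fun j hj ι => ?_⟩
    by_contra hcon
    push Not at hcon
    have h3 : ∏ x ∈ B.J ι.1, unc (Q' ι x) (s + hsh b0 (fun i => j i * T') - dotB x b') = 1 := by
      refine prod_eq_one fun x hx => ?_
      simp only [unc]
      rw [if_pos]
      rintro ⟨a, ha, ha'⟩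
      exact hcon x hx a ha ha'
    have h4 := single_le_sum (f := fun ι : I =>
      ∏ x ∈ B.J ι.1, unc (Q' ι x) (s + hsh b0 (fun i => j i * T') - dotB x b'))
      (fun _ _ => prod_nonneg fun _ _ => hunc0 _ _) (mem_univ ι)
    have h5 := single_le_sum (f := fun j : α → ℤ => ∑ ι : I,
      ∏ x ∈ B.J ι.1, unc (Q' ι x) (s + hsh b0 (fun i => j i * T') - dotB x b'))
      (fun _ _ => sum_nonneg fun _ _ => prod_nonneg fun _ _ => hunc0 _ _) hj
    linarith
  let φ : (α ⊕ Fin B.k → ℤ) →+ H × B.T :=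
    { toFun := fun z => (hsh b0 (z ∘ Sum.inl) + dotX b' (z ∘ Sum.inr), B.hm (z ∘ Sum.inr))
      map_zero' := by simp
      map_add' := fun z z' => by
        simp only [Pi.add_comp, map_add, Prod.mk_add_mk]; congr 1; abel }
  have hφ : ∀ a x, φ (Sum.elim a x) = (hsh b0 a + dotB x b', B.hm x) := fun a x => rfl
  have hsurj : Function.Surjective φ := by
    rintro ⟨h, γ⟩
    obtain ⟨x, hx⟩ := hB.surj γ
    obtain ⟨a, a', -, -, ha⟩ := hdiff (h - dotB x b')
    exact ⟨Sum.elim (a - a') x, by rw [hφ, map_sub, ha, hx]; simp⟩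
  refine (cov_of_hash_dilate φ hsurj (Sum.elim (fun _ => 1 / T) B.η) (by
      rintro (i | i)
      · simp only [Sum.elim_inl]; positivity
      · exact hB.ηpos i) (l := 1 + 2 / n) (by positivity) fun p => ?_).mono ?_
  · let m : Fin B.k → ℤ := fun i => ⌊p (Sum.inr i) / B.η i⌋
    have hj : ∀ i, ⌊Int.fract (p (Sum.inr i) / B.η i) * n⌋₊ < n := fun i => by
      rw [Nat.floor_lt (mul_nonneg (Int.fract_nonneg _) hn0.le)]
      exact mul_lt_of_lt_one_left hn0 (Int.fract_lt_one _)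
    let ι : I := (B.hm m, fun i => ⟨_, hj i⟩)
    let wv : Fin B.k → ℝ := fun i => n * (p (Sum.inr i) - B.η i * m i - B.η i * (ι.2 i : ℕ) / n)
    have hwv : ∀ i, |wv i| ≤ B.k := fun i => by
      have h1 := hB.ηpos i
      have h2 := hB.ηle i
      have e : wv i = B.η i * (Int.fract (p (Sum.inr i) / B.η i) * n - (ι.2 i : ℕ)) := by
        simp only [wv, Int.fract, m]; field_simp
      have h3 := Nat.floor_le (mul_nonneg (Int.fract_nonneg (p (Sum.inr i) / B.η i)) hn0.le)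
      have h4 := Nat.lt_floor_add_one (Int.fract (p (Sum.inr i) / B.η i) * n)
      rw [e, abs_of_nonneg (mul_nonneg h1.le (sub_nonneg.2 h3))]
      refine le_trans (mul_le_one₀ h2 (sub_nonneg.2 h3) ?_) hk1'
      change _ - (⌊Int.fract (p (Sum.inr i) / B.η i) * n⌋₊ : ℝ) ≤ 1
      linarith
    obtain ⟨wh, hwh⟩ : (sec K wv).Nonempty := by
      by_contra hcon
      rw [Set.not_nonempty_iff_eq_empty] at hcon
      have h1 := hsec wv hwv
      rw [hcon] at h1
      simp only [measure_empty, ENNReal.toReal_zero] at h1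
      exact absurd h1 (not_le.2 (mul_pos (by positivity) (prod_pos fun i _ => gau_pos _)))
    let u : α → ℝ := fun i => p (Sum.inl i) - wh i / n
    let a1 : α → ℤ := fun i => ⌊T * u i⌋
    obtain ⟨a, a', ha, ha', haa⟩ := hdiff (hsh b0 a1 + dotB m b' - s)
    let r : α → ℝ := fun i => (a i : ℝ) / T - a' i / T + (u i - a1 i / T)
    have hr : ∀ i, -2 ≤ r i ∧ r i ≤ 3 := fun i => by
      have h1 := abs_le.1 (hbd _ (hQ01 ha) i)
      have h2 := abs_le.1 (hbd _ (hQ01 ha') i)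
      have h3 := Int.floor_le (T * u i)
      have h4 := Int.lt_floor_add_one (T * u i)
      have h5 : (a1 i : ℝ) / T ≤ u i := by rw [div_le_iff₀' hTr]; exact h3
      have h6 : u i - a1 i / T ≤ 1 := by
        have : u i - a1 i / T = (T * u i - a1 i) / T := by field_simp
        rw [this, div_le_one hTr]; simp only [a1]; linarith
      simp only [r]
      constructor <;> linarith [h1.1, h1.2, h2.1, h2.2]
    let j' : α → ℤ := fun i => ⌊(n : ℝ) ^ 2 * r i⌋
    have hn2 : (0 : ℝ) < n ^ 2 := by positivity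
    have hj' : j' ∈ N := by
      refine Fintype.mem_piFinset.2 fun i => mem_Icc.2 ⟨?_, ?_⟩
      · rw [Int.le_floor]; push_cast; nlinarith [(hr i).1]
      · rw [← Int.cast_le (R := ℝ)]
        refine (Int.floor_le _).trans ?_
        push_cast; nlinarith [(hr i).2]
    obtain ⟨x, hx, a2, ha2, ha2'⟩ := hs j' hj' ι
    have k1 : Sum.elim (fun i => (a2 i : ℝ) / T) (yv ι x) ∈ K := (hQ' ι x hx).1 ha2
    have k3 : Sum.elim (fun i => n * (r i - j' i / n ^ 2)) (0 : Fin B.k → ℝ) ∈ K := by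
      have h1 : ∀ i, n * (r i - j' i / n ^ 2) = (n ^ 2 * r i - j' i) / n := fun i => by field_simp
      refine hbox _ (fun i => ?_) ?_
      · rw [h1]; exact div_nonneg (sub_nonneg.2 (Int.floor_le _)) hn0.le
      · calc _ ≤ ∑ _i : α, (1 / n : ℝ) := sum_le_sum fun i _ => by
              rw [h1]
              have := Int.lt_floor_add_one ((n : ℝ) ^ 2 * r i)
              exact div_le_div_of_nonneg_right (by simp only [j']; linarith) hn0.le
          _ ≤ 1 := by
              rw [sum_const, nsmul_eq_mul, card_univ, mul_one_div, div_le_one hn0]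
              exact_mod_cast hn
    refine ⟨Sum.elim (a1 - (a - a') + (fun i => j' i * T') - a2) (m - x), ?_, _,
      hK2 k1 (hK2 hwh k3 (a := 1 / 2) (b := 1 / 2) (by norm_num) (by norm_num) (by norm_num))
        (a := n / (n + 2)) (b := 2 / (n + 2)) (by positivity) (by positivity) (by field_simp), ?_⟩
    · rw [hφ]
      have e1 : dotB (m - x) b' = dotB m b' - dotB x b' := map_sub (dotX b') m x
      simp only [map_sub, map_add, haa, ha2', e1, hB.hash _ x hx, ι, sub_self, Prod.mk_eq_zero,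
        and_true]
      abel
    · have hTT : (T : ℝ) = n ^ 2 * T' := by exact_mod_cast hT'
      have hT'0 : (T' : ℝ) ≠ 0 := by rintro h; rw [h] at hTT; simp [hTT] at hTr
      funext i
      rcases i with i | i
      · simp only [Pi.sub_apply, Sum.elim_inl, Pi.smul_apply, Pi.add_apply, smul_eq_mul, r, u]
        push_cast
        rw [hTT]; field_simp; ring
      · simp only [Pi.sub_apply, Sum.elim_inr, Pi.smul_apply, Pi.add_apply, smul_eq_mul, yv, wv,
          Pi.zero_apply]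
        push_cast
        field_simp; ring
  · rw [mul_div_assoc]
    apply mul_le_mul_of_nonneg_left _ (by positivity)
    rw [Fintype.prod_sum_type, Fintype.card_prod]
    simp only [Sum.elim_inl, Sum.elim_inr, prod_const, card_univ, one_div, inv_pow]
    push_cast
    have hTp : (0 : ℝ) < T ^ Fintype.card α := by positivity
    rw [div_le_iff₀ (by positivity)]
    have e : 6 * R * B.ν / c * (Fintype.card H * Fintype.card B.T *
        (((T : ℝ) ^ Fintype.card α)⁻¹ * ∏ i, B.η i)) =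
        vK * (2 * ρ * Fintype.card H / T ^ Fintype.card α) := by
      rw [hρ]; field_simp; norm_num
    rw [e]
    exact le_mul_of_one_le_right hvol.le ((one_le_div hTp).2 hH2)

end Crest.Agent.LC
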