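import Crest.Agent.LC.Blk

/-! The bottom-up construction of the vertical block from stages. -/

set_option autoImplicit false
open Finset

namespace Crest.Agent.LC

lemma one_le_prod_real {ι : Type*} {s : Finset ι} {f : ι → ℝ} (h : ∀ i ∈ s, 1 ≤ f i) :
    1 ≤ ∏ i ∈ s, f i := by
  calc (1 : ℝ) = ∏ _i ∈ s, 1 := by simp
    _ ≤ _ := prod_le_prod (fun _ _ => zero_le_one) h

lemma lln {A : Blk} {lo hi : ℕ} {ρ y ω cap ε : ℝ} (hA : A.Basic lo hi ρ y)
    (hω : ∀ γ, ∀ x ∈ A.J γ, A.wt x ≤ ω) (hω0 : 0 ≤ ω) {T : Type} [AddCommGroup T] [Fintype T]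
    (hT : InvUp T hi) {m : T → ℝ} (hm0 : ∀ a, 0 ≤ m a) (hm1 : ∀ a, m a ≤ cap)
    (hε : 0 < ε) (hav : 1 - ε ≤ av m) (hav4 : av m ≤ 4) :
    av (fun b : Fin A.k → T => av (fun γ : A.T × T =>
      max ((1 - 2 * ε) * A.mass γ.1 - ∑ x ∈ A.J γ.1, A.wt x * m (γ.2 - dotB x b)) 0)) ≤
      ω * cap / ε := by
  classical
  have hcap : 0 ≤ cap := (hm0 0).trans (hm1 0)
  simp only [av_prod (α := A.T) (β := T)]
  rw [av_comm]
  refine le_trans (av_mono (g := fun _ => ω * cap / ε) fun γ => ?_) (av_const _).le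
  rcases (hA.mass_nonneg γ).eq_or_lt with h0 | hs
  · refine le_trans (av_mono (g := fun _ => 0) fun b => ?_) (by rw [av_const]; positivity)
    refine le_trans (av_mono (g := fun _ => 0) fun a => ?_) (av_const _).le
    rw [← h0, max_le_iff]
    have : 0 ≤ ∑ x ∈ A.J γ, A.wt x * m (a - dotB x b) :=
      sum_nonneg fun x _ => mul_nonneg (hA.wt_pos x).le (hm0 _)
    exact ⟨by linarith, le_rfl⟩
  set s := A.mass γ with hs'
  let g : T → ℝ := fun a => av m - m a
  have hg0 : av g = 0 := by simp only [g]; rw [av_sub, av_const, sub_self]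
  have hg2 : av (fun a => g a * g a) ≤ 4 * cap := by
    have e : (fun a => g a * g a) = fun a => (av m * av m - (2 * av m) * m a) + m a * m a := by
      funext a; simp only [g]; ring
    rw [e, av_add, av_sub, av_const, av_const_mul]
    have h1 : av (fun a => m a * m a) ≤ av (fun a => cap * m a) :=
      av_mono fun a => mul_le_mul_of_nonneg_right (hm1 a) (hm0 a)
    rw [av_const_mul] at h1
    nlinarith [sq_nonneg (av m)]
  have hZ : av (fun b : Fin A.k → T => av (fun a =>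
      (∑ x ∈ A.J γ, A.wt x * g (a - dotB x b)) ^ 2)) ≤ ω * s * (4 * cap) := by
    simp only [sq, sum_mul_sum, av_sum]
    calc _ ≤ ∑ x ∈ A.J γ, ω * A.wt x * (4 * cap) := by
          apply sum_le_sum; intro x hx
          rw [sum_eq_single_of_mem x hx]
          · have : ∀ b : Fin A.k → T, av (fun a => A.wt x * g (a - dotB x b) *
                (A.wt x * g (a - dotB x b))) = A.wt x * A.wt x * av (fun a => g a * g a) := by
              intro b
              rw [← av_const_mul, ← av_sub_right (fun a => A.wt x * A.wt x * (g a * g a)) (dotB x b)]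
              congr 1; funext a; ring
            simp only [this, av_const]
            have h1 := hA.wt_pos x
            have h2 := hω γ x hx
            gcongr
            exact av_nonneg fun a => mul_self_nonneg _
          · intro y hy hxy
            have := av_pair (dotB x) (dotB y)
              (dotB_sub_surj hT (Ne.symm hxy) (hA.bd γ x hx) (hA.bd γ y hy)) g g
            rw [hg0, mul_zero] at this
            have e : ∀ b : Fin A.k → T, av (fun a => A.wt x * g (a - dotB x b) *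
                (A.wt y * g (a - dotB y b))) =
                A.wt x * A.wt y * av (fun a => g (a - dotB x b) * g (a - dotB y b)) := by
              intro b; rw [← av_const_mul]; congr 1; funext a; ring
            simp only [e, av_const_mul, this, mul_zero]
      _ = _ := by rw [← sum_mul, ← mul_sum]; rfl
  calc _ ≤ av (fun b : Fin A.k → T => av (fun a =>
        (∑ x ∈ A.J γ, A.wt x * g (a - dotB x b)) ^ 2 / (4 * ε * s))) := by
        refine av_mono fun b => av_mono fun a => ?_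
        set Z := ∑ x ∈ A.J γ, A.wt x * g (a - dotB x b) with hZ'
        have e : Z = av m * s - ∑ x ∈ A.J γ, A.wt x * m (a - dotB x b) := by
          rw [hZ', hs', Blk.mass, mul_sum, ← sum_sub_distrib]
          exact sum_congr rfl fun x _ => by simp only [g]; ring
        rw [max_le_iff]
        refine ⟨?_, by positivity⟩
        rw [le_div_iff₀ (by positivity)]
        have h1 : (1 - 2 * ε) * s - ∑ x ∈ A.J γ, A.wt x * m (a - dotB x b) ≤ Z - ε * s := by
          rw [e]; nlinarith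
        have h2 : 0 < 4 * ε * s := by positivity
        nlinarith [sq_nonneg (Z - 2 * ε * s), mul_le_mul_of_nonneg_right h1 h2.le]
    _ ≤ ω * s * (4 * cap) / (4 * ε * s) := by
        simp only [av_div_const]
        exact div_le_div_of_nonneg_right hZ (by positivity)
    _ = _ := by field_simp

lemma av_exp_le_two {T : Type} [Fintype T] [Nonempty T] {U : T → ℝ} {cap lam c : ℝ}
    (hcap : 1 ≤ cap) (hU0 : ∀ a, 0 ≤ U a) (hU1 : ∀ a, U a ≤ cap) (hav : av U ≤ Real.exp (-lam))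
    (hc : c ≤ lam / cap) : av (fun a => Real.exp (c * U a)) ≤ 2 := by
  have hc0 : 0 < cap := by linarith
  calc _ ≤ av (fun a => 1 + Real.exp lam * U a) := by
        refine av_mono fun a => ?_
        have hu0 : 0 ≤ U a / cap := div_nonneg (hU0 a) hc0.le
        have hu1 : U a / cap ≤ 1 := (div_le_one hc0).2 (hU1 a)
        have h1 := convexOn_exp.2 (Set.mem_univ lam) (Set.mem_univ 0) hu0 (sub_nonneg.2 hu1)
          (by ring)
        simp only [smul_eq_mul, mul_zero, add_zero, Real.exp_zero, mul_one] at h1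
        have h2 : c * U a ≤ U a / cap * lam := by
          calc c * U a ≤ lam / cap * U a := mul_le_mul_of_nonneg_right hc (hU0 a)
            _ = _ := by ring
        have h3 : U a / cap ≤ U a := div_le_self (hU0 a) hcap
        have h4 := Real.exp_pos lam
        calc _ ≤ Real.exp (U a / cap * lam) := Real.exp_le_exp.2 h2
          _ ≤ _ := by nlinarith
    _ ≤ 2 := by
        rw [av_add, av_const, av_const_mul]
        have : Real.exp lam * av U ≤ 1 := by
          calc _ ≤ Real.exp lam * Real.exp (-lam) :=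
                mul_le_mul_of_nonneg_left hav (Real.exp_pos _).le
            _ = 1 := by rw [← Real.exp_add]; simp
        linarith

structure Data where
  n : ℕ
  S : ℕ → Blk
  lo : ℕ → ℕ
  hi : ℕ → ℕ
  HI : ℕ
  ρ : ℕ → ℝ
  cap : ℕ → ℝ
  ω : ℕ → ℝ
  M : ℕ → ℝ
  ε : ℕ → ℝ
  τ : ℕ → ℝ
  cnt : ℕ → ℝ
  D : ℕ → ℝ
  p : ℕ → ℝ
  lam : ℕ → ℝ
  δ : ℕ → ℝ
  y : ℝ
  σ : ℕ → ℕ

structure Data.OK (d : Data) : Prop where
  basic : ∀ r, r < d.n → (d.S r).Basic (d.lo r) (d.hi r) (d.ρ r) d.y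
  stage : ∀ r, r < d.n → (d.S r).Stage (d.cap r) (d.ω r) (d.M r) (d.ε r)
  lohi : ∀ r s, r < s → d.hi r ≤ d.lo s
  hi1 : ∀ r, 1 ≤ d.hi r
  hiHI : ∀ r, r < d.n → d.hi r ≤ d.HI
  τcard : ∀ r, r < d.n → (Fintype.card (d.S r).T : ℝ) ≤ d.τ r
  τ1 : ∀ r, 1 ≤ d.τ r
  cap1 : ∀ r, 1 ≤ d.cap r
  ε0 : ∀ r, 0 < d.ε r
  ε1 : ∀ r, d.ε r ≤ 1 / 2
  ω0 : ∀ r, 0 < d.ω r
  δ0 : ∀ r, 0 ≤ d.δ r
  lam0 : ∀ r, 0 < d.lam r
  hp : ∀ r, 3 * (d.ω r * d.cap (r + 1) / d.ε (r + 1)) ≤ d.p r
  hσ : ∀ t, t + 1 < d.n → d.σ t < t ∨ ∀ γ, 1 ≤ (d.S (t + 1)).mass γ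
  D1 : ∀ s, 1 ≤ d.D s
  hD : ∀ s, s < d.n → 3 * ((d.S s).k * 2 ^ (d.S s).k * (d.τ s * d.cnt s)) ≤ d.D s
  hcnt : ∀ s, (((range d.n).filter (fun t => d.σ t = s)).card : ℝ) ≤ d.cnt s
  hlam : ∀ t, t < d.n → d.σ t < t → d.p t * 4 ^ t ≤ Real.exp (-d.lam t)
  hδ : ∀ t, t < d.n → d.σ t < t → d.ω (d.σ t) * d.cap (d.σ t + 1) *
    (Real.log (∏ r ∈ Icc (d.σ t + 1) (t + 1), d.τ r) +
      d.M (d.σ t) * Real.log (d.D (d.σ t) * 2)) ≤ d.lam t * d.δ t

structure St (d : Data) (s : ℕ) (L : Blk) (m : L.T → ℝ) (U : ℕ → L.T → ℝ) : Prop where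
  basic : L.Basic 0 d.HI (∑ r ∈ Ico s d.n, d.ρ r) d.y
  inv : ∀ r, r < s → InvUp L.T (d.hi r)
  k : L.k = ∑ r ∈ Ico s d.n, (d.S r).k
  card : (Fintype.card L.T : ℝ) ≤ ∏ r ∈ Ico s d.n, d.τ r
  ν : L.ν = ∏ r ∈ Ico s d.n, (d.S r).ν
  wt : ∀ γ, ∀ x ∈ L.J γ, L.wt x ≤ ∏ r ∈ Ico s d.n, d.ω r
  mrep : ∀ γ, ∃ γ', m γ = (d.S s).mass γ'
  mav : av m = av (d.S s).mass
  minv : InvF m (d.τ s)
  low : ∀ γ, (∏ r ∈ Ico (s + 1) d.n, (1 - 2 * d.ε r)) * m γ - ∑ t ∈ Ico s d.n, U t γ ≤ L.mass γ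
  U0 : ∀ t γ, 0 ≤ U t γ
  Ucap : ∀ t γ, U t γ ≤ m γ
  Uinv : ∀ t, s ≤ t → InvF (U t) (∏ r ∈ Icc s (t + 1), d.τ r)
  Uav : ∀ t, s ≤ t → t < d.n → d.σ t < s → av (U t) ≤ d.p t * 4 ^ (t - s)
  Usup : ∀ t, s ≤ t → t < d.n → s ≤ d.σ t → ∀ γ, U t γ ≤ d.δ t * ∏ r ∈ Ico s (d.σ t), d.cap r

lemma Data.OK.p0 {d : Data} (h : d.OK) (r : ℕ) : 0 ≤ d.p r := by
  have := h.hp r; have := h.ω0 r; have := h.cap1 (r + 1); have := h.ε0 (r + 1)
  have : 0 ≤ d.ω r * d.cap (r + 1) / d.ε (r + 1) := by positivity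
  linarith

lemma St.base {d : Data} (h : d.OK) {s : ℕ} (hs : s + 1 = d.n) :
    St d s (d.S s) (d.S s).mass (fun _ _ => 0) := by
  have hI : Ico s d.n = {s} := by rw [← hs]; simp
  have hI' : Ico (s + 1) d.n = ∅ := by rw [← hs]; simp
  have hsn : s < d.n := by omega
  have hb := h.basic s hsn
  refine ⟨?_, fun r hr => hb.inv.mono (h.lohi r s hr), by simp [hI], ?_, by simp [hI], ?_,
    fun γ => ⟨γ, rfl⟩, rfl, ?_, by simp [hI'], fun _ _ => le_rfl, fun _ γ => hb.mass_nonneg γ,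
    ?_, ?_, ?_⟩
  · rw [hI, sum_singleton]; exact hb.mono (Nat.zero_le _) (h.hiHI s hsn) le_rfl le_rfl
  · rw [hI, prod_singleton]; exact h.τcard s hsn
  · rw [hI, prod_singleton]; exact (h.stage s hsn).wt_le
  · exact ⟨{0}, by simp, by simpa using h.τcard s hsn⟩
  · intro t _
    refine ⟨univ, by simp, ?_⟩
    have : 1 ≤ ∏ r ∈ Icc s (t + 1), d.τ r := one_le_prod_real (fun r _ => h.τ1 r)
    rw [card_univ]; exact le_mul_of_one_le_left (Nat.cast_nonneg _) this
  · intro t _ _ _; rw [av_const]; have := h.p0 t; positivity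
  · intro t _ _ _ γ
    exact mul_nonneg (h.δ0 t) (prod_nonneg fun r _ => by linarith [h.cap1 r])

lemma exists_shift {d : Data} (h : d.OK) {s : ℕ} (hs : s + 1 < d.n) {L : Blk} {m : L.T → ℝ}
    {U : ℕ → L.T → ℝ} (hS : St d (s + 1) L m U) :
    ∃ b : Fin (d.S s).k → L.T,
      av (fun γ : (d.S s).T × L.T => max ((1 - 2 * d.ε (s + 1)) * (d.S s).mass γ.1 -
        ∑ x ∈ (d.S s).J γ.1, (d.S s).wt x * m (γ.2 - dotB x b)) 0) ≤ d.p s ∧
      ∀ t, s + 1 ≤ t → t < d.n → d.σ t = s → ∀ γ a,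
        ∑ x ∈ (d.S s).J γ, (d.S s).wt x * U t (a - dotB x b) ≤ d.δ t := by
  classical
  have hsn : s < d.n := by omega
  have hA := h.basic s hsn
  have hSt := h.stage s hsn
  have hSt' := h.stage (s + 1) hs
  have hm0 : ∀ a, 0 ≤ m a := fun a => by
    obtain ⟨γ, hγ⟩ := hS.mrep a; rw [hγ]; exact (h.basic _ hs).mass_nonneg _
  have hm1 : ∀ a, m a ≤ d.cap (s + 1) := fun a => by
    obtain ⟨γ, hγ⟩ := hS.mrep a; rw [hγ]; exact hSt'.mass_le _
  have hT := hS.inv s (by omega)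
  have h1 := lln hA hSt.wt_le (h.ω0 s).le hT hm0 hm1 (h.ε0 (s + 1))
    (by rw [hS.mav]; exact hSt'.av_ge) (by rw [hS.mav]; exact hSt'.av_le)
  have h2 := av_markov (fun b => av_nonneg fun γ => le_max_right _ _) (by norm_num : (0 : ℝ) < 3) h1
  let F := (range d.n).filter (fun t => d.σ t = s)
  let θ : ℕ → ℝ := fun t => d.lam t / (d.ω s * d.cap (s + 1))
  have h3 := cube (h.hi1 s) hT (h.D1 s) (d.S s).k ((d.S s).T × F) (fun ι => (d.S s).J ι.1)
    (fun ι => hA.tree _) (fun ι => hA.bd _)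
    (fun ι x a => Real.exp (θ ι.2 * (d.S s).wt x * U ι.2 a)) (fun _ _ _ => (Real.exp_pos _).le)
  have hD0 : 0 < d.D s := by linarith [h.D1 s]
  have h4 : (d.S s).k * 2 ^ (d.S s).k * (Fintype.card ((d.S s).T × F) : ℝ) / d.D s ≤ 1 / 3 := by
    rw [div_le_iff₀ hD0, Fintype.card_prod, Fintype.card_coe]
    have := h.hD s hsn
    have h5 : ((Fintype.card (d.S s).T * F.card : ℕ) : ℝ) ≤ d.τ s * d.cnt s := by
      push_cast
      exact mul_le_mul (h.τcard s hsn) (h.hcnt s) (Nat.cast_nonneg _) (by linarith [h.τ1 s])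
    have h6 : (0 : ℝ) ≤ (d.S s).k * 2 ^ (d.S s).k := by positivity
    nlinarith [mul_le_mul_of_nonneg_left h5 h6]
  have h5 := add_le_add h2 (h3.trans h4)
  rw [← av_add] at h5
  obtain ⟨b, hb⟩ := exists_le_av _ |>.imp fun b hb => le_trans hb h5
  refine ⟨b, ?_, ?_⟩
  · by_contra hc
    rw [if_pos (lt_of_le_of_lt (h.hp s) (not_le.1 hc))] at hb
    split_ifs at hb <;> linarith
  · intro t ht htn hσ γ a
    have hb2 : ¬ ∃ ι : (d.S s).T × F, ∏ x ∈ (d.S s).J ι.1, (d.D s *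
        av (fun a => Real.exp (θ ι.2 * (d.S s).wt x * U ι.2 a))) <
        av (fun a => ∏ x ∈ (d.S s).J ι.1,
          Real.exp (θ ι.2 * (d.S s).wt x * U ι.2 (a - dotB x b))) := by
      intro hc
      rw [if_pos hc] at hb
      split_ifs at hb <;> linarith
    push Not at hb2
    have hb3 := hb2 (γ, ⟨t, by simp [F, htn, hσ]⟩)
    simp only at hb3
    have hωc : 0 < d.ω s * d.cap (s + 1) := mul_pos (h.ω0 s) (by linarith [h.cap1 (s + 1)])
    have hθ : 0 < θ t := div_pos (h.lam0 t) hωc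
    obtain ⟨Sg, hS1, hS2⟩ := hS.Uinv t ht
    set N := ∏ r ∈ Icc (s + 1) (t + 1), d.τ r with hN
    have hN1 : 1 ≤ N := one_le_prod_real (fun r _ => h.τ1 r)
    have h6 := le_av_of_inv (W := fun a => ∏ x ∈ (d.S s).J γ,
      Real.exp (θ t * (d.S s).wt x * U t (a - dotB x b))) Sg (by
        intro σ hσ a
        refine prod_congr rfl fun x _ => ?_
        rw [add_sub_right_comm, hS1 σ hσ]) hS2
        (fun a => prod_nonneg fun _ _ => (Real.exp_pos _).le) a
    have hav : av (U t) ≤ Real.exp (-d.lam t) := by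
      refine (hS.Uav t ht htn (by omega)).trans (le_trans ?_ (h.hlam t htn (by omega)))
      exact mul_le_mul_of_nonneg_left (pow_le_pow_right₀ (by norm_num) (Nat.sub_le _ _)) (h.p0 t)
    have hDk : 1 ≤ d.D s := h.D1 s
    have h7 : ∏ x ∈ (d.S s).J γ, (d.D s *
        av (fun a => Real.exp (θ t * (d.S s).wt x * U t a))) ≤
        Real.exp (d.M s * Real.log (d.D s * 2)) := by
      calc _ ≤ ∏ x ∈ (d.S s).J γ, (d.D s * 2) := by
            apply prod_le_prod
            · intro x _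
              exact mul_nonneg (by linarith) (av_nonneg fun _ => (Real.exp_pos _).le)
            · intro x hx
              apply mul_le_mul_of_nonneg_left _ (by linarith)
              refine av_exp_le_two (h.cap1 (s + 1)) (hS.U0 t)
                (fun a => (hS.Ucap t a).trans (hm1 a)) hav ?_
              calc θ t * (d.S s).wt x ≤ θ t * d.ω s :=
                    mul_le_mul_of_nonneg_left (hSt.wt_le γ x hx) hθ.le
                _ = _ := by
                    have := h.ω0 s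
                    have : 0 < d.cap (s + 1) := by linarith [h.cap1 (s + 1)]
                    simp only [θ]; field_simp
        _ = Real.exp (((d.S s).J γ).card * Real.log (d.D s * 2)) := by
            rw [prod_const, Real.exp_nat_mul, Real.exp_log (by linarith)]
        _ ≤ _ := Real.exp_le_exp.2 (mul_le_mul_of_nonneg_right (hSt.card_le γ)
            (Real.log_nonneg (by linarith)))
    have h8 : Real.exp (θ t * ∑ x ∈ (d.S s).J γ, (d.S s).wt x * U t (a - dotB x b)) ≤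
        Real.exp (Real.log N + d.M s * Real.log (d.D s * 2)) := by
      rw [Real.exp_add, Real.exp_log (by linarith), mul_sum, Real.exp_sum]
      simp only [← mul_assoc]
      exact h6.trans (mul_le_mul_of_nonneg_left (hb3.trans h7) (by linarith))
    have h9 := Real.exp_le_exp.1 h8
    have h10 := h.hδ t htn (by omega)
    rw [hσ] at h10
    have h11 : Real.log N + d.M s * Real.log (d.D s * 2) ≤ θ t * d.δ t := by
      simp only [θ]
      rw [div_mul_eq_mul_div, le_div_iff₀ hωc, mul_comm]; exact h10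
    exact le_of_mul_le_mul_left (h9.trans h11) hθ

lemma St.step {d : Data} (h : d.OK) {s : ℕ} (hs : s + 1 < d.n) {L : Blk} {m : L.T → ℝ}
    {U : ℕ → L.T → ℝ} (hS : St d (s + 1) L m U) :
    ∃ (L' : Blk) (m' : L'.T → ℝ) (U' : ℕ → L'.T → ℝ), St d s L' m' U' := by
  classical
  obtain ⟨b, hb1, hb2⟩ := exists_shift h hs hS
  have hsn : s < d.n := by omega
  let A := d.S s
  have hA : A.Basic _ _ _ _ := h.basic s hsn
  have hSt : A.Stage _ _ _ _ := h.stage s hsn
  let W : ℕ → A.T × L.T → ℝ := fun t γ => if t = s then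
    max ((1 - 2 * d.ε (s + 1)) * A.mass γ.1 - ∑ x ∈ A.J γ.1, A.wt x * m (γ.2 - dotB x b)) 0
    else ∑ x ∈ A.J γ.1, A.wt x * U t (γ.2 - dotB x b)
  have hW0 : ∀ t γ, 0 ≤ W t γ := by
    intro t γ; simp only [W]; split_ifs
    · exact le_max_right _ _
    · exact sum_nonneg fun x _ => mul_nonneg (hA.wt_pos x).le (hS.U0 _ _)
  have hIco : ∀ {β : Type} [CommMonoid β] (f : ℕ → β),
      ∏ r ∈ Ico s d.n, f r = f s * ∏ r ∈ Ico (s + 1) d.n, f r :=
    fun f => prod_eq_prod_Ico_succ_bot hsn f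
  have hIcos : ∀ {β : Type} [AddCommMonoid β] (f : ℕ → β),
      ∑ r ∈ Ico s d.n, f r = f s + ∑ r ∈ Ico (s + 1) d.n, f r :=
    fun f => sum_eq_sum_Ico_succ_bot hsn f
  have hε : ∀ r, 0 ≤ 1 - 2 * d.ε r := fun r => by linarith [h.ε1 r]
  have hε' : ∀ r, 1 - 2 * d.ε r ≤ 1 := fun r => by linarith [h.ε0 r]
  refine ⟨comp A L b, fun γ : A.T × L.T => A.mass γ.1,
    fun t (γ : A.T × L.T) => min (W t γ) (A.mass γ.1), ?_, ?_, ?_, ?_, ?_, ?_, ?_, ?_, ?_, ?_, ?_,
    ?_, ?_, ?_, ?_⟩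
  · rw [hIcos]
    exact comp_basic (hA.mono (Nat.zero_le _) (h.hiHI s hsn) le_rfl le_rfl) hS.basic
  · intro r hr
    exact (hA.inv.mono (h.lohi r s hr)).prod (hS.inv r (by omega))
  · rw [hIcos, ← hS.k]; rfl
  · rw [hIco]
    have : Fintype.card (comp A L b).T = Fintype.card A.T * Fintype.card L.T :=
      Fintype.card_prod _ _
    rw [this]; push_cast
    exact mul_le_mul (h.τcard s hsn) hS.card (Nat.cast_nonneg _) (by linarith [h.τ1 s])
  · rw [hIco, ← hS.ν]; rfl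
  · intro γ z hz
    obtain ⟨x, hx, x', hx', rfl⟩ := mem_comp_J.1 hz
    rw [comp_wt, hIco]
    exact mul_le_mul (hSt.wt_le _ _ hx) (hS.wt _ _ hx') (hS.basic.wt_pos _).le (h.ω0 s).le
  · intro γ; exact ⟨γ.1, rfl⟩
  · refine (av_prod (fun γ : A.T × L.T => A.mass γ.1)).trans ?_
    simp only [av_const]; rfl
  · have := InvF.lift (W := fun γ : A.T × L.T => A.mass γ.1) (N := 1) univ (by simp) (by simp)
      (h.τcard s hsn)
    rw [mul_one] at this; exact this
  · intro γ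
    change A.T × L.T at γ
    set c := ∏ r ∈ Ico (s + 1) d.n, (1 - 2 * d.ε r) with hc
    have hc1 : c ≤ 1 := prod_le_one (fun r _ => hε r) (fun r _ => hε' r)
    have hmass := (comp_basic (b := b) (hA.mono (Nat.zero_le _) (h.hiHI s hsn) le_rfl le_rfl)
      hS.basic).mass_nonneg γ
    have hm := hA.mass_nonneg γ.1
    by_cases hbig : ∃ t ∈ Ico s d.n, A.mass γ.1 ≤ W t γ
    · obtain ⟨t, ht, hbig⟩ := hbig
      have : A.mass γ.1 ≤ ∑ t ∈ Ico s d.n, min (W t γ) (A.mass γ.1) := by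
        refine le_trans ?_ (single_le_sum (f := fun t => min (W t γ) (A.mass γ.1))
          (fun t _ => le_min (hW0 _ _) hm) ht)
        exact le_min hbig le_rfl
      show c * A.mass γ.1 - ∑ t ∈ Ico s d.n, min (W t γ) (A.mass γ.1) ≤ _
      nlinarith
    · push Not at hbig
      have e1 : ∑ t ∈ Ico s d.n, min (W t γ) (A.mass γ.1) = ∑ t ∈ Ico s d.n, W t γ :=
        sum_congr rfl fun t ht => min_eq_left (hbig t ht).le
      show c * A.mass γ.1 - ∑ t ∈ Ico s d.n, min (W t γ) (A.mass γ.1) ≤ _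
      rw [e1, hIcos, comp_mass]
      set c' := ∏ r ∈ Ico (s + 1 + 1) d.n, (1 - 2 * d.ε r) with hc'
      have hcc : c = (1 - 2 * d.ε (s + 1)) * c' := prod_eq_prod_Ico_succ_bot hs _
      have hc'0 : 0 ≤ c' := prod_nonneg fun r _ => hε r
      have hc'1 : c' ≤ 1 := prod_le_one (fun r _ => hε r) (fun r _ => hε' r)
      have e2 : ∑ t ∈ Ico (s + 1) d.n, W t γ =
          ∑ x ∈ A.J γ.1, A.wt x * ∑ t ∈ Ico (s + 1) d.n, U t (γ.2 - dotB x b) := by
        simp only [mul_sum]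
        rw [sum_comm]
        refine sum_congr rfl fun t ht => ?_
        simp only [W]; rw [if_neg]; have := (mem_Ico.1 ht).1; omega
      have e3 : c' * ∑ x ∈ A.J γ.1, A.wt x * m (γ.2 - dotB x b) - ∑ t ∈ Ico (s + 1) d.n, W t γ ≤
          ∑ x ∈ A.J γ.1, A.wt x * L.mass (γ.2 - dotB x b) := by
        rw [e2, mul_sum, ← sum_sub_distrib]
        refine sum_le_sum fun x _ => ?_
        have := mul_le_mul_of_nonneg_left (hS.low (γ.2 - dotB x b)) (hA.wt_pos x).le
        linarith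
      have e4 : (1 - 2 * d.ε (s + 1)) * A.mass γ.1 -
          ∑ x ∈ A.J γ.1, A.wt x * m (γ.2 - dotB x b) ≤ W s γ := by
        simp only [W, if_true]; exact le_max_left _ _
      have e5 := hW0 s γ
      rw [hcc]
      nlinarith [mul_le_mul_of_nonneg_left e4 hc'0]
  · intro t γ; exact le_min (hW0 _ _) (hA.mass_nonneg _)
  · intro t γ; exact min_le_right _ _
  · intro t ht
    have e : ∏ r ∈ Icc s (t + 1), d.τ r = d.τ s * ∏ r ∈ Icc (s + 1) (t + 1), d.τ r := by
      rw [← Ico_add_one_right_eq_Icc, ← Ico_add_one_right_eq_Icc]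
      exact prod_eq_prod_Ico_succ_bot (by omega) _
    rw [e]
    rcases ht.eq_or_lt with rfl | ht
    · obtain ⟨Sg, h1, h2⟩ := hS.minv
      rw [Icc_self, prod_singleton]
      refine InvF.lift (W := fun γ : A.T × L.T => min (W s γ) (A.mass γ.1)) Sg ?_ h2 (h.τcard s hsn)
      intro σ hσ γ δ
      simp only [W, if_true, add_sub_right_comm δ σ, h1 σ hσ]
    · obtain ⟨Sg, h1, h2⟩ := hS.Uinv t ht
      refine InvF.lift (W := fun γ : A.T × L.T => min (W t γ) (A.mass γ.1)) Sg ?_ h2 (h.τcard s hsn)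
      intro σ hσ γ δ
      simp only [W, if_neg ht.ne', add_sub_right_comm δ σ, h1 σ hσ]
  · intro t ht htn hσ
    refine le_trans (av_mono (g := W t) fun γ => min_le_left _ _) ?_
    rcases ht.eq_or_lt with rfl | ht
    · simp only [W, if_true, Nat.sub_self, pow_zero, mul_one]; exact hb1
    · have h1 := hS.Uav t ht htn (by omega)
      have e : av (W t) = av A.mass * av (U t) := by
        refine (av_prod (W t)).trans ?_
        simp only [W, if_neg ht.ne', av_sum, av_const_mul, av_sub_right (U t)]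
        rw [← av_mul_const]; simp only [Blk.mass, sum_mul]
      rw [e, show t - s = (t - (s + 1)) + 1 by omega, pow_succ]
      have h2 := hSt.av_le
      have h3 := av_nonneg (hS.U0 t)
      have h4 := av_nonneg hA.mass_nonneg
      nlinarith
  · intro t ht htn hσ γ
    change A.T × L.T at γ
    refine le_trans (min_le_left _ _) ?_
    have hcap0 : ∀ u v, 0 ≤ ∏ r ∈ Ico u v, d.cap r :=
      fun u v => prod_nonneg fun r _ => by linarith [h.cap1 r]
    rcases ht.eq_or_lt with rfl | ht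
    · have h1 := (h.hσ s hs).resolve_left (by omega)
      have h2 : A.mass γ.1 ≤ ∑ x ∈ A.J γ.1, A.wt x * m (γ.2 - dotB x b) := by
        refine sum_le_sum fun x _ => le_mul_of_one_le_right (hA.wt_pos x).le ?_
        obtain ⟨γ', hγ'⟩ := hS.mrep (γ.2 - dotB x b); rw [hγ']; exact h1 _
      have h3 := hA.mass_nonneg γ.1
      simp only [W, if_true]
      refine max_le ?_ (mul_nonneg (h.δ0 _) (hcap0 _ _))
      have := mul_nonneg (h.δ0 s) (hcap0 s (d.σ s))
      nlinarith [h.ε0 (s + 1)]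
    · simp only [W, if_neg ht.ne']
      rcases hσ.eq_or_lt with hσ | hσ
      · rw [← hσ, Ico_self, prod_empty, mul_one]
        exact hb2 t ht htn hσ.symm _ _
      · rw [prod_eq_prod_Ico_succ_bot hσ]
        calc _ ≤ ∑ x ∈ A.J γ.1, A.wt x * (d.δ t * ∏ r ∈ Ico (s + 1) (d.σ t), d.cap r) :=
              sum_le_sum fun x _ =>
                mul_le_mul_of_nonneg_left (hS.Usup t ht htn hσ _) (hA.wt_pos x).le
          _ = A.mass γ.1 * (d.δ t * ∏ r ∈ Ico (s + 1) (d.σ t), d.cap r) := by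
              rw [← sum_mul]; rfl
          _ ≤ d.cap s * (d.δ t * ∏ r ∈ Ico (s + 1) (d.σ t), d.cap r) :=
              mul_le_mul_of_nonneg_right (hSt.mass_le _) (mul_nonneg (h.δ0 _) (hcap0 _ _))
          _ = _ := by ring

theorem chain {d : Data} (h : d.OK) (hn : 0 < d.n) (htop : ∀ γ, 1 ≤ (d.S 0).mass γ)
    (hε : 1 / 2 ≤ ∏ r ∈ Ico 1 d.n, (1 - 2 * d.ε r))
    (hδ : ∑ t ∈ range d.n, d.δ t * ∏ r ∈ range (d.σ t), d.cap r ≤ 1 / 4) :
    ∃ L : Blk, L.Basic 0 d.HI (∑ r ∈ range d.n, d.ρ r) d.y ∧ L.k = ∑ r ∈ range d.n, (d.S r).k ∧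
      (Fintype.card L.T : ℝ) ≤ ∏ r ∈ range d.n, d.τ r ∧ L.ν = ∏ r ∈ range d.n, (d.S r).ν ∧
      (∀ γ, ∀ x ∈ L.J γ, L.wt x ≤ ∏ r ∈ range d.n, d.ω r) ∧ ∀ γ, 1 / 4 ≤ L.mass γ := by
  have key : ∀ j s, s + j + 1 = d.n → ∃ (L : Blk) (m : L.T → ℝ) (U : ℕ → L.T → ℝ), St d s L m U := by
    intro j
    induction j with
    | zero => intro s hs; exact ⟨_, _, _, St.base h hs⟩
    | succ j ih =>
      intro s hs
      obtain ⟨L, m, U, hS⟩ := ih (s + 1) (by omega)
      exact hS.step h (by omega)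
  obtain ⟨L, m, U, hS⟩ := key (d.n - 1) 0 (by omega)
  simp only [range_eq_Ico] at hδ ⊢
  refine ⟨L, hS.basic, hS.k, hS.card, hS.ν, hS.wt, fun γ => ?_⟩
  have h1 := hS.low γ
  have h2 : ∑ t ∈ Ico 0 d.n, U t γ ≤ 1 / 4 :=
    le_trans (sum_le_sum fun t ht => hS.Usup t (Nat.zero_le _) (mem_Ico.1 ht).2 (Nat.zero_le _) γ) hδ
  obtain ⟨γ', hγ'⟩ := hS.mrep γ
  have h3 := htop γ'
  rw [hγ', zero_add] at h1
  nlinarith

end Crest.Agent.LC
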