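import Crest.Agent.LC.StageR
import Crest.Agent.LC.Chain

/-! The vertical block. -/

set_option autoImplicit false
open Finset

namespace Crest.Agent.LC

lemma one_sub_sum_le_prod {ι : Type*} (s : Finset ι) (f : ι → ℝ) (h0 : ∀ i, 0 ≤ f i)
    (h1 : ∀ i, f i ≤ 1) : 1 - ∑ i ∈ s, f i ≤ ∏ i ∈ s, (1 - f i) := by
  classical
  induction s using Finset.induction_on with
  | empty => simp
  | insert a s ha ih =>
    rw [sum_insert ha, prod_insert ha]
    have := mul_le_mul_of_nonneg_left ih (sub_nonneg.2 (h1 a))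
    nlinarith [mul_nonneg (h0 a) (sum_nonneg fun i (_ : i ∈ s) => h0 i)]

lemma sum_half_le (n : ℕ) : ∑ r ∈ range n, (1 / 2 ^ r : ℝ) ≤ 2 := by
  have := sum_le_sum_of_subset_of_nonneg (subset_refl (range n)) (f := fun r => (1 / 2 ^ r : ℝ))
    (fun _ _ _ => by positivity)
  have h := sum_geometric_two_le n
  simpa [one_div, inv_pow] using h

section num
variable {V : ℕ}

noncomputable def vv (V r : ℕ) : ℝ := V * 2 ^ r

lemma vv_cast (V r : ℕ) : ((V * 2 ^ r : ℕ) : ℝ) = vv V r := by simp [vv]

lemma vv_add (V r a : ℕ) : vv V (r + a) = 2 ^ a * vv V r := by simp [vv, pow_add]; ring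

lemma vv_ge (V r : ℕ) : (V : ℝ) ≤ vv V r :=
  le_mul_of_one_le_right (Nat.cast_nonneg _) (one_le_pow₀ (by norm_num))

lemma vv_mono (V : ℕ) {r s : ℕ} (h : r ≤ s) : vv V r ≤ vv V s :=
  mul_le_mul_of_nonneg_left (pow_le_pow_right₀ (by norm_num) h) (Nat.cast_nonneg _)

lemma vv_nonneg (V r : ℕ) : 0 ≤ vv V r := (Nat.cast_nonneg _).trans (vv_ge V r)

lemma sum_vv_pow (V s a : ℕ) : ∑ r ∈ range s, vv V r ^ (a + 1) ≤ vv V s ^ (a + 1) := by
  induction s with
  | zero => simp only [range_zero, sum_empty]; exact pow_nonneg (vv_nonneg _ _) _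
  | succ s ih =>
    rw [sum_range_succ, vv_add, mul_pow]
    have h1 : (2 : ℝ) ≤ (2 ^ 1) ^ (a + 1) := by
      rw [pow_one]; exact le_self_pow₀ (by norm_num) (by omega)
    nlinarith [pow_nonneg (vv_nonneg V s) (a + 1)]

lemma exists_sigma (hV : 1 ≤ V) (t : ℕ) : ∃ s, (s = 0 ∧ Real.log (vv V t) < 5 * vv V 3 ^ 11) ∨
    (2 ≤ s ∧ s + 1 < t ∧ 5 * vv V (s + 1) ^ 11 ≤ Real.log (vv V t) ∧
      Real.log (vv V t) < 5 * vv V (s + 2) ^ 11) := by
  classical
  have hV' : (1 : ℝ) ≤ V := by exact_mod_cast hV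
  have key : ∀ j, t ≤ j → Real.log (vv V t) < 5 * vv V j ^ 11 := by
    intro j hj
    have h1 := Real.log_le_sub_one_of_pos (lt_of_lt_of_le (by linarith) (vv_ge V t))
    have h2 := vv_mono V hj
    have h3 : vv V j ≤ vv V j ^ 11 := le_self_pow₀ (hV'.trans (vv_ge V j)) (by norm_num)
    have := vv_nonneg V j
    linarith
  have hex : ∃ j, Real.log (vv V t) < 5 * vv V (j + 3) ^ 11 := ⟨t, key _ (by omega)⟩
  have h1 := Nat.find_spec hex
  rcases h : Nat.find hex with _ | j
  · rw [h] at h1; exact ⟨0, Or.inl ⟨rfl, h1⟩⟩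
  · rw [h] at h1
    have h2 := Nat.find_min hex (m := j) (by omega)
    push Not at h2
    refine ⟨j + 2, Or.inr ⟨by omega, ?_, h2, h1⟩⟩
    by_contra hc
    exact absurd (key (j + 3) (by omega)) (not_lt.2 h2)

end num

theorem vert : ∃ C : ℝ, 1 ≤ C ∧ ∀ G : ℝ, 1 ≤ G → ∃ (B : Blk) (hi : ℕ) (y : ℝ),
    B.Basic 0 hi 1 y ∧ 1 ≤ hi ∧ 1 ≤ B.k ∧ y + 1 ≤ B.k ∧ (B.k : ℝ) ≤ C * G ^ 20 ∧
    (Fintype.card B.T : ℝ) ≤ Real.exp ((B.k : ℝ) ^ 3) ∧ B.ν ≤ C ∧
    (∀ γ, ∀ x ∈ B.J γ, B.wt x ≤ Real.exp (-G)) ∧ ∀ γ, 1 / 4 ≤ B.mass γ := by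
  classical
  obtain ⟨V1, hV1⟩ := rstage
  obtain ⟨V, hVa, hVb⟩ : ∃ V : ℕ, V1 ≤ V ∧ 10 ^ 14 ≤ V := ⟨max V1 (10 ^ 14), le_max_left _ _,
    le_max_right _ _⟩
  have hV : (10 : ℝ) ^ 14 ≤ V := by exact_mod_cast hVb
  let v := vv V
  have hv : ∀ r, (10 : ℝ) ^ 14 ≤ v r := fun r => hV.trans (vv_ge V r)
  have hv1 : ∀ r, 1 ≤ v r := fun r => by linarith [hv r]
  have hv0 : ∀ r, 0 < v r := fun r => by linarith [hv r]
  have hpow : ∀ r, ∀ a b : ℕ, a ≤ b → v r ^ a ≤ v r ^ b :=
    fun r a b hab => pow_le_pow_right₀ (hv1 r) hab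
  have hp1 : ∀ r, ∀ a b : ℕ, a + 1 ≤ b → 10 ^ 14 * v r ^ a ≤ v r ^ b := fun r a b hab => by
    refine le_trans ?_ (hpow r _ _ hab); rw [pow_succ' (v r)]
    exact mul_le_mul_of_nonneg_right (hv r) (pow_pos (hv0 r) a).le
  have hp2 : ∀ r, ∀ a b : ℕ, a + 2 ≤ b → 10 ^ 28 * v r ^ a ≤ v r ^ b := fun r a b hab => by
    have h1 := hp1 r a (a + 1) le_rfl
    have h2 := hp1 r (a + 1) b (by omega)
    linarith
  let q : ℕ → ℕ := fun r => 3 ^ ((V * 2 ^ r) ^ 21)
  have hq : ∀ r, Real.exp (((V * 2 ^ r : ℕ) : ℝ) ^ 21) ≤ q r := fun r => by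
    simp only [q]
    rw [← Nat.cast_pow, ← mul_one (((V * 2 ^ r) ^ 21 : ℕ) : ℝ), Real.exp_nat_mul]
    push_cast
    exact pow_le_pow_left₀ (Real.exp_pos _).le (by linarith [Real.exp_one_lt_d9]) _
  have hq1 : ∀ r, 1 ≤ q r := fun r => Nat.one_le_pow _ _ (by norm_num)
  choose R ωR MR r1 r2 r3 r4 r5 r6 r7 r8 using fun r => hV1 (V * 2 ^ r)
    (hVa.trans (Nat.le_mul_of_pos_right _ (by positivity))) (q r) (hq r)
  simp only [vv_cast] at r4 r6 r7 r8
  let b : ℕ → ℕ := fun r => if r = 0 then V ^ 12 + 1 else 2 * (V * 2) ^ 13 + 1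
  choose F f1 f2 f3 f4 f5 using fun r => flat (b r) (by simp only [b]; split_ifs <;> omega)
  choose σ hσ using exists_sigma (V := V) (by omega)
  let S : ℕ → Blk := fun r => if r < 2 then F r else R r
  let cap : ℕ → ℝ := fun r => if r < 2 then 2 else Real.exp (3 * v r ^ 11)
  let ω : ℕ → ℝ := fun r => if r < 2 then 2 / 2 ^ b r else ωR r
  let M : ℕ → ℝ := fun r => if r < 2 then 2 ^ b r else MR r
  let τ : ℕ → ℝ := fun r => if r < 2 then 1 else (2 * q r) ^ ((V * 2 ^ r) ^ 20)
  have hcap1 : ∀ r, 1 ≤ cap r := fun r => by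
    simp only [cap]; split_ifs
    · norm_num
    · exact Real.one_le_exp (by have := hv0 r; positivity)
  have hcap2 : ∀ r, cap r ≤ Real.exp (3 * v r ^ 11) := fun r => by
    simp only [cap]; split_ifs
    · have := Real.add_one_le_exp (3 * v r ^ 11)
      have : 1 ≤ v r ^ 11 := one_le_pow₀ (hv1 r)
      linarith
    · exact le_rfl
  have hω0 : ∀ r, 0 < ω r := fun r => by
    simp only [ω]; split_ifs
    · positivity
    · exact r5 r
  have hω1 : ∀ r, 1 ≤ r → ω r ≤ Real.exp (-v r ^ 13) := fun r hr => by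
    simp only [ω]; split_ifs with h
    · obtain rfl : r = 1 := by omega
      have e : v 1 ^ 13 = (((V * 2) ^ 13 : ℕ) : ℝ) * 1 := by simp [v, vv]
      rw [Real.exp_neg, e, Real.exp_nat_mul]
      simp only [b, one_ne_zero, if_false, pow_succ _ (2 * _), pow_mul]
      rw [mul_comm _ (2 : ℝ), ← div_div, div_self (by norm_num), one_div]
      exact inv_anti₀ (by positivity)
        (pow_le_pow_left₀ (Real.exp_pos _).le (by linarith [Real.exp_one_lt_d9]) _)
    · exact r6 r
  have hω2 : ∀ r, ω r ≤ 1 := fun r => by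
    rcases Nat.eq_zero_or_pos r with rfl | hr
    · simp only [ω, b, if_true, Nat.ofNat_pos, pow_succ]
      rw [div_le_one (by positivity)]
      exact le_mul_of_one_le_left (by norm_num) (one_le_pow₀ (by norm_num))
    · exact (hω1 r hr).trans (Real.exp_le_one_iff.2 (by have := pow_pos (hv0 r) 13; linarith))
  have hτ1 : ∀ r, 1 ≤ τ r := fun r => by
    simp only [τ]; split_ifs
    · exact le_rfl
    · have : (1 : ℝ) ≤ q r := by exact_mod_cast hq1 r
      exact one_le_pow₀ (by linarith)
  have hτ2 : ∀ r, Real.log (τ r) ≤ 3 * v r ^ 41 := fun r => by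
    have := pow_pos (hv0 r) 41
    simp only [τ]; split_ifs
    · simp; linarith
    · rw [Real.log_pow, Real.log_mul (by norm_num) (by have := hq1 r; positivity)]
      simp only [q]
      push_cast
      rw [Real.log_pow]
      push_cast
      change v r ^ 20 * (Real.log 2 + v r ^ 21 * Real.log 3) ≤ _
      have h2 := Real.log_le_sub_one_of_pos (by norm_num : (0 : ℝ) < 2)
      have h3 := Real.log_le_sub_one_of_pos (by norm_num : (0 : ℝ) < 3)
      have h4 : 1 ≤ v r ^ 21 := one_le_pow₀ (hv1 r)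
      have h5 : Real.log 2 + v r ^ 21 * Real.log 3 ≤ 3 * v r ^ 21 := by nlinarith
      calc _ ≤ v r ^ 20 * (3 * v r ^ 21) :=
            mul_le_mul_of_nonneg_left h5 (pow_pos (hv0 r) 20).le
        _ = _ := by ring
  have hτ3 : ∀ s : Finset ℕ, ∀ u, s ⊆ range u → Real.log (∏ r ∈ s, τ r) ≤ 3 * v u ^ 41 := by
    intro s u hs
    rw [Real.log_prod (fun r _ => by linarith [hτ1 r])]
    calc _ ≤ ∑ r ∈ s, 3 * v r ^ 41 := sum_le_sum fun r _ => hτ2 r
      _ ≤ ∑ r ∈ range u, 3 * v r ^ 41 := sum_le_sum_of_subset_of_nonneg hs fun r _ _ => by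
          have := hv0 r; positivity
      _ ≤ _ := by rw [← mul_sum]; exact mul_le_mul_of_nonneg_left (sum_vv_pow V u 40) (by norm_num)
  have hk : ∀ r, ((S r).k : ℝ) ≤ 2 * v r ^ 20 := fun r => by
    have h1 : 1 ≤ v r ^ 20 := one_le_pow₀ (hv1 r)
    simp only [S]; split_ifs with h
    · rw [f1]
      simp only [b]; split_ifs with h0
      · subst h0
        have := hpow 0 12 20 (by norm_num)
        have e : v 0 = V := by simp [v, vv]
        push_cast; rw [← e]; linarith
      · obtain rfl : r = 1 := by omega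
        have := hp1 1 13 20 (by norm_num)
        have e : v 1 = V * 2 := by simp [v, vv]
        have := pow_pos (hv0 1) 13
        push_cast; rw [← e]; linarith
    · rw [r1]; push_cast; change v r ^ 20 + 1 ≤ _; linarith
  have hk1 : ∀ r, 1 ≤ (S r).k := fun r => by
    simp only [S]; split_ifs
    · rw [f1]; simp only [b]; split_ifs <;> omega
    · rw [r1]; omega
  let D : ℕ → ℝ := fun s => 3 * ((S s).k * 2 ^ (S s).k * (τ s * v s ^ 13))
  have hD1 : ∀ s, 1 ≤ D s := fun s => by
    have h1 : (1 : ℝ) ≤ (S s).k := by exact_mod_cast hk1 s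
    have h2 : (1 : ℝ) ≤ 2 ^ (S s).k := one_le_pow₀ (by norm_num)
    have h3 : 1 ≤ v s ^ 13 := one_le_pow₀ (hv1 s)
    have := one_le_mul_of_one_le_of_one_le (one_le_mul_of_one_le_of_one_le h1 h2)
      (one_le_mul_of_one_le_of_one_le (hτ1 s) h3)
    simp only [D]; linarith
  have hD2 : ∀ s, Real.log (D s * 2) ≤ 5 + 2 * (S s).k + Real.log (τ s) + 13 * v s := fun s => by
    have h1 : (1 : ℝ) ≤ (S s).k := by exact_mod_cast hk1 s
    have e : D s * 2 = 6 * ((S s).k * 2 ^ (S s).k * (τ s * v s ^ 13)) := by simp only [D]; ring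
    have := hτ1 s
    have := hv0 s
    rw [e, Real.log_mul (by norm_num) (by positivity), Real.log_mul (by positivity) (by positivity),
      Real.log_mul (by positivity) (by positivity), Real.log_mul (by positivity) (by positivity),
      Real.log_pow, Real.log_pow]
    have h2 := Real.log_le_sub_one_of_pos (by norm_num : (0 : ℝ) < 2)
    have h3 := Real.log_le_sub_one_of_pos (by norm_num : (0 : ℝ) < 6)
    have h4 := Real.log_le_sub_one_of_pos (by linarith : (0 : ℝ) < (S s).k)
    have h5 := Real.log_le_sub_one_of_pos (hv0 s)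
    push_cast
    nlinarith
  have h2t : ∀ t, (2 : ℝ) ^ t ≤ v t := fun t =>
    le_mul_of_one_le_left (by positivity) (by linarith)
  refine ⟨max ((F 0).ν * (F 1).ν) (2 * (8 * V) ^ 20), ?_, fun G hG => ?_⟩
  · exact le_max_of_le_left (one_le_mul_of_one_le_of_one_le (f3 0 0).νge (f3 1 0).νge)
  obtain ⟨m, hm1, hm2⟩ := exists_nat_pow_near hG (by norm_num : (1 : ℝ) < 2)
  let d : Data := ⟨m + 3, S, q, fun r => 4 * q r, 4 * q (m + 3), fun r => 1 / 4 * (1 / 2 ^ r), cap, ω,
    M, fun r => 6 / v r, τ, fun s => v s ^ 13, D, fun r => 3 * (ω r * cap (r + 1) / (6 / v (r + 1))),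
    fun t => v t ^ 13 / 2, fun t => 1 / 8 * (1 / 2 ^ t) / ∏ r ∈ range (σ t), cap r, v (m + 3), σ⟩
  have hqm : ∀ r s, r < s → 4 * q r ≤ q s := fun r s hrs => by
    have h1 : (V * 2 ^ r) ^ 21 + 2 ≤ (V * 2 ^ s) ^ 21 := by
      have h2 : V * 2 ^ r * 2 ≤ V * 2 ^ s := by
        rw [mul_assoc, ← pow_succ]; exact Nat.mul_le_mul_left _ (Nat.pow_le_pow_right (by norm_num) hrs)
      have h3 := Nat.pow_le_pow_left h2 21
      rw [mul_pow _ 2] at h3
      have h4 : 1 ≤ (V * 2 ^ r) ^ 21 := Nat.one_le_pow _ _ (by positivity)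
      omega
    have := Nat.pow_le_pow_right (by norm_num : 0 < 3) h1
    simp only [q]; rw [pow_add] at this; omega
  have hcapP : ∀ s, 0 < ∏ r ∈ range s, cap r := fun s => prod_pos fun r _ => by linarith [hcap1 r]
  have hOK : d.OK := by
    refine ⟨fun r hr => ?_, fun r hr => ?_, hqm, fun r => by have := hq1 r; simp only [d]; omega,
      fun r hr => ?_, fun r _ => ?_, hτ1, hcap1, fun r => by have := hv0 r; simp only [d]; positivity,
      fun r => ?_, hω0, fun r => by have := hcapP (σ r); simp only [d]; positivity,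
      fun r => by have := hv0 r; simp only [d]; positivity, fun r => le_rfl, fun t _ => ?_, hD1,
      fun s _ => le_rfl, fun s => ?_, fun t _ ht => ?_, fun t _ ht => ?_⟩
    · change (S r).Basic (q r) (4 * q r) (1 / 4 * (1 / 2 ^ r)) (v (m + 3))
      simp only [S]; split_ifs with h
      · refine (f3 r (q r)).mono le_rfl (by have := hq1 r; omega) ?_ (hv1 _)
        interval_cases r <;> norm_num
      · refine (r4 r).mono le_rfl le_rfl ?_ (vv_mono V hr.le)
        rw [one_div_mul_one_div]
        apply one_div_le_one_div_of_le (by positivity)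
        exact mul_le_mul_of_nonneg_right (by linarith) (by positivity)
    · change (S r).Stage (cap r) (ω r) (M r) (6 / v r)
      simp only [S, cap, ω, M]; split_ifs with h
      · exact f4 r _ (by have := hv0 r; positivity)
      · exact r8 r
    · change 4 * q r ≤ 4 * q (m + 3)
      have := hqm r (m + 3) hr; omega
    · change (Fintype.card (S r).T : ℝ) ≤ τ r
      by_cases h : r < 2
      · have e : S r = F r := if_pos h
        rw [e, f2]; simp only [τ, if_pos h]; norm_num
      · have e : S r = R r := if_neg h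
        rw [e]; simp only [τ, if_neg h]; exact r2 r
    · change 6 / v r ≤ 1 / 2
      rw [div_le_iff₀ (hv0 r)]; linarith [hv r]
    · change σ t < t ∨ ∀ γ, 1 ≤ (S (t + 1)).mass γ
      rcases Nat.eq_zero_or_pos t with rfl | ht
      · right
        have e : S (0 + 1) = F 1 := if_pos (by norm_num)
        rw [e]; exact f5 1
      · left; rcases hσ t with h | h <;> omega
    · change (((range (m + 3)).filter (fun t => σ t = s)).card : ℝ) ≤ v s ^ 13
      have h1 : (range (m + 3)).filter (fun t => σ t = s) ⊆ range ((V * 2 ^ s) ^ 13) := by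
        intro t ht
        obtain rfl := (mem_filter.1 ht).2
        have h2 : Real.log (v t) < 5 * v (σ t + 3) ^ 11 := by
          rcases hσ t with ⟨h, h'⟩ | ⟨-, -, -, h⟩
          · rw [h]; exact h'
          · refine h.trans_le ?_
            have := vv_mono V (show σ t + 2 ≤ σ t + 3 by omega)
            have := vv_nonneg V (σ t + 2)
            gcongr
        have h3 : t * Real.log 2 ≤ Real.log (v t) := by
          rw [← Real.log_pow]; exact Real.log_le_log (by positivity) (h2t t)
        have h4 : v (σ t + 3) ^ 11 = 8 ^ 11 * v (σ t) ^ 11 := by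
          simp only [v]; rw [vv_add, mul_pow]; norm_num
        have h5 := hp1 (σ t) 11 13 (by norm_num)
        have h6 := pow_pos (hv0 (σ t)) 11
        have h7 : (t : ℝ) * (1 / 2) ≤ t * Real.log 2 :=
          mul_le_mul_of_nonneg_left (by linarith [Real.log_two_gt_d9]) (Nat.cast_nonneg _)
        have : (t : ℝ) < v (σ t) ^ 13 := by linarith
        rw [mem_range]
        simp only [v] at this
        rw [← vv_cast] at this
        exact_mod_cast this
      have := card_le_card h1
      rw [card_range] at this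
      simp only [v]; rw [← vv_cast]; exact_mod_cast this
    · change σ t < t at ht
      change 3 * (ω t * cap (t + 1) / (6 / v (t + 1))) * 4 ^ t ≤ Real.exp (-(v t ^ 13 / 2))
      have e1 : v (t + 1) = 2 * v t := by simp only [v]; rw [vv_add]; norm_num
      have h1 := hω1 t (by omega)
      have h2 := hcap2 (t + 1)
      have h3 : (4 : ℝ) ^ t ≤ v t ^ 2 := by
        have : (4 : ℝ) ^ t = (2 ^ t) ^ 2 := by rw [← pow_mul, mul_comm, pow_mul]; norm_num
        rw [this]; exact pow_le_pow_left₀ (by positivity) (h2t t) 2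
      have h4 : v t ^ 3 ≤ Real.exp (v t ^ 11) := by
        linarith [Real.add_one_le_exp (v t ^ 11), hpow t 3 11 (by norm_num)]
      have e2 : 3 * (ω t * cap (t + 1) / (6 / v (t + 1))) * 4 ^ t =
          ω t * cap (t + 1) * (v t * 4 ^ t) := by
        have := hv0 t; rw [e1]; field_simp; ring
      have h5 : v t * 4 ^ t ≤ Real.exp (v t ^ 11) := by
        refine le_trans ?_ h4
        rw [pow_succ', ]; exact mul_le_mul_of_nonneg_left h3 (hv0 t).le
      rw [e2]
      calc _ ≤ Real.exp (-v t ^ 13) * Real.exp (3 * v (t + 1) ^ 11) * Real.exp (v t ^ 11) := by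
            have := hcap1 (t + 1); have := hv0 t; gcongr
        _ ≤ _ := by
            rw [← Real.exp_add, ← Real.exp_add, Real.exp_le_exp, e1, mul_pow]
            linarith [hp1 t 11 13 (by norm_num), pow_pos (hv0 t) 11]
    · change σ t < t at ht
      change ω (σ t) * cap (σ t + 1) * (Real.log (∏ r ∈ Icc (σ t + 1) (t + 1), τ r) +
        M (σ t) * Real.log (D (σ t) * 2)) ≤
        v t ^ 13 / 2 * (1 / 8 * (1 / 2 ^ t) / ∏ r ∈ range (σ t), cap r)
      have e1 : v t ^ 13 / 2 * (1 / 8 * (1 / 2 ^ t) / ∏ r ∈ range (σ t), cap r) =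
          V * v t ^ 12 / 16 / ∏ r ∈ range (σ t), cap r := by
        have := hcapP (σ t)
        rw [pow_succ (v t) 12]; simp only [v, vv]; field_simp; norm_num
      rw [e1, le_div_iff₀ (hcapP _)]
      set N := Real.log (∏ r ∈ Icc (σ t + 1) (t + 1), τ r) with hN
      have hN1 : N ≤ Real.exp (43 * Real.log (v t)) := by
        have h1 := hτ3 (Icc (σ t + 1) (t + 1)) (t + 2) (fun r hr => by
          have := (mem_Icc.1 hr).2; rw [mem_range]; omega)
        have h2 : v (t + 2) ^ 41 = 4 ^ 41 * v t ^ 41 := by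
          simp only [v]; rw [vv_add, mul_pow]; norm_num
        have h3 := hp2 t 41 43 (by norm_num)
        have h4 : Real.exp (43 * Real.log (v t)) = v t ^ 43 := by
          rw [show (43 : ℝ) = (43 : ℕ) by norm_num, Real.exp_nat_mul, Real.exp_log (hv0 t)]
        have := pow_pos (hv0 t) 41
        rw [h4]; linarith
      have hL0 : 0 ≤ Real.log (D (σ t) * 2) := Real.log_nonneg (by linarith [hD1 (σ t)])
      have hL1 := hD2 (σ t)
      have e2 : ω (σ t) * cap (σ t + 1) * (N + M (σ t) * Real.log (D (σ t) * 2)) *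
          ∏ r ∈ range (σ t), cap r = ((∏ r ∈ range (σ t), cap r) * cap (σ t + 1)) *
          (ω (σ t) * N + M (σ t) * ω (σ t) * Real.log (D (σ t) * 2)) := by ring
      rw [e2]
      rcases hσ t with ⟨h, h'⟩ | ⟨h, h1, h2, h3⟩
      · rw [h] at hL1 hL0 ⊢
        have e0 : v 0 = V := by simp [v, vv]
        have e3 : S 0 = F 0 := if_pos (by norm_num)
        have h1 : ω 0 * N ≤ 1 := by
          have h4 : v 3 ^ 11 = 8 ^ 11 * v 0 ^ 11 := by
            simp only [v]; rw [← zero_add 3, vv_add, mul_pow]; norm_num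
          have h5 := hp1 0 11 12 (by norm_num)
          have h6 := pow_pos (hv0 0) 11
          have h7 : N ≤ 2 ^ (V ^ 12) := by
            refine hN1.trans ?_
            rw [← Real.exp_log (by norm_num : (0 : ℝ) < 2), ← Real.exp_nat_mul, Real.exp_le_exp]
            push_cast; rw [← e0]
            change Real.log (v t) < 5 * v 3 ^ 11 at h'
            nlinarith [Real.log_two_gt_d9]
          simp only [ω, b, if_true, Nat.ofNat_pos, pow_succ _ (V ^ 12)]
          rw [div_mul_eq_mul_div, div_le_one (by positivity)]; linarith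
        have h2 : M 0 * ω 0 = 2 := by simp only [M, ω, Nat.ofNat_pos, if_true]; field_simp
        have h3 : cap (0 + 1) = 2 := if_pos (by norm_num)
        have h4 : τ 0 = 1 := if_pos (by norm_num)
        rw [e3, f1, h4, Real.log_one] at hL1
        simp only [b, if_true] at hL1
        push_cast at hL1
        rw [← e0] at hL1
        rw [h2, h3, range_zero, prod_empty, ← e0]
        have h5 : v 0 ^ 12 ≤ v t ^ 12 := pow_le_pow_left₀ (hv0 0).le (vv_mono V (Nat.zero_le _)) _
        have h6 := hp1 0 1 12 (by norm_num)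
        have h7 := hv 0
        rw [pow_one] at h6
        nlinarith
      · set u := v (σ t + 1) ^ 11 with hu
        have hu1 : u = 2 ^ 11 * v (σ t) ^ 11 := by
          simp only [hu, v]; rw [vv_add, mul_pow]; norm_num
        have hs11 := pow_pos (hv0 (σ t)) 11
        have a1 : ∏ r ∈ range (σ t), cap r ≤ Real.exp u := by
          calc _ ≤ ∏ r ∈ range (σ t), Real.exp (3 * v r ^ 11) :=
                prod_le_prod (fun r _ => by linarith [hcap1 r]) (fun r _ => hcap2 r)
            _ ≤ _ := by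
                rw [← Real.exp_sum, Real.exp_le_exp, ← mul_sum]
                have := sum_vv_pow V (σ t) 10
                change ∑ r ∈ range (σ t), v r ^ 11 ≤ v (σ t) ^ 11 at this
                linarith
        have a2 := hcap2 (σ t + 1)
        have a3 : ω (σ t) * N ≤ 1 := by
          have h4 : v (σ t + 2) ^ 11 = 4 ^ 11 * v (σ t) ^ 11 := by
            simp only [v]; rw [vv_add, mul_pow]; norm_num
          have h5 := hp1 (σ t) 11 13 (by norm_num)
          have h6 : N ≤ Real.exp (v (σ t) ^ 13) := by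
            refine hN1.trans (Real.exp_le_exp.2 ?_)
            change Real.log (v t) < 5 * v (σ t + 2) ^ 11 at h3
            linarith
          calc _ ≤ ω (σ t) * Real.exp (v (σ t) ^ 13) := mul_le_mul_of_nonneg_left h6 (hω0 _).le
            _ ≤ Real.exp (-v (σ t) ^ 13) * Real.exp (v (σ t) ^ 13) :=
                mul_le_mul_of_nonneg_right (hω1 _ (by omega)) (Real.exp_pos _).le
            _ = 1 := by rw [← Real.exp_add]; simp
        have a4 : M (σ t) * ω (σ t) ≤ Real.exp u := by
          simp only [M, ω, if_neg (not_lt.2 h)]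
          exact (r7 _).trans (Real.exp_le_exp.2 (by change 5 * v (σ t) ^ 11 ≤ _; linarith))
        change 5 * u ≤ Real.log (v t) at h2
        have a5 : Real.log (D (σ t) * 2) ≤ 168 * v t := by
          have c1 := hk (σ t)
          have c2 := hτ2 (σ t)
          have c3 := hp1 (σ t) 20 41 (by norm_num)
          have c4 := hp1 (σ t) 1 41 (by norm_num)
          have c5 := hv (σ t)
          rw [pow_one] at c4
          have c6 := pow_pos (hv0 (σ t)) 20
          have c7 : v (σ t) ^ 41 ≤ 24 * v t := by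
            have c8 : v (σ t) ^ 11 ≤ Real.log (v t) := by linarith
            have c9 := Real.pow_div_factorial_le_exp _ (hs11.le.trans c8) 4
            rw [Real.exp_log (hv0 t)] at c9
            norm_num [Nat.factorial] at c9
            have c10 := pow_le_pow_left₀ hs11.le c8 4
            rw [← pow_mul] at c10
            have := hpow (σ t) 41 (11 * 4) (by norm_num)
            linarith
          linarith
        have a6 : 1 ≤ Real.exp u := Real.one_le_exp (by linarith)
        have a7 : Real.exp u * Real.exp (3 * u) * Real.exp u ≤ v t := by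
          rw [← Real.exp_add, ← Real.exp_add, ← Real.exp_log (hv0 t), Real.exp_le_exp]; linarith
        have a8 : ω (σ t) * N + M (σ t) * ω (σ t) * Real.log (D (σ t) * 2) ≤
            Real.exp u * (169 * v t) := by
          have := mul_le_mul a4 a5 hL0 (by linarith)
          nlinarith [hv1 t]
        have a9 : (∏ r ∈ range (σ t), cap r) * cap (σ t + 1) ≤ Real.exp u * Real.exp (3 * u) :=
          mul_le_mul a1 a2 (by linarith [hcap1 (σ t + 1)]) (by linarith)
        have a10 : 0 ≤ (∏ r ∈ range (σ t), cap r) * cap (σ t + 1) :=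
          mul_nonneg (hcapP _).le (by linarith [hcap1 (σ t + 1)])
        calc _ ≤ (∏ r ∈ range (σ t), cap r) * cap (σ t + 1) * (Real.exp u * (169 * v t)) :=
              mul_le_mul_of_nonneg_left a8 a10
          _ ≤ Real.exp u * Real.exp (3 * u) * (Real.exp u * (169 * v t)) :=
              mul_le_mul_of_nonneg_right a9 (by have := hv0 t; positivity)
          _ = Real.exp u * Real.exp (3 * u) * Real.exp u * (169 * v t) := by ring
          _ ≤ v t * (169 * v t) := mul_le_mul_of_nonneg_right a7 (by have := hv0 t; positivity)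
          _ ≤ _ := by
              have c1 := hpow t 2 12 (by norm_num)
              have c2 := pow_pos (hv0 t) 12
              nlinarith
  obtain ⟨L, l1, l2, l3, l4, l5, l6⟩ := chain hOK (by simp [d]) (f5 0) (by
      change 1 / 2 ≤ ∏ r ∈ Ico 1 (m + 3), (1 - 2 * (6 / v r))
      refine le_trans ?_ (one_sub_sum_le_prod _ _ (fun r => by have := hv0 r; positivity)
        (fun r => by have := hOK.ε1 r; change 6 / v r ≤ _ at this; linarith))
      have : ∑ r ∈ Ico 1 (m + 3), 2 * (6 / v r) ≤ ∑ r ∈ range (m + 3), 1 / 4 * (1 / 2 ^ r) := by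
        refine le_trans (sum_le_sum_of_subset_of_nonneg
          (fun r hr => mem_range.2 (mem_Ico.1 hr).2) fun r _ _ => by have := hv0 r; positivity)
          (sum_le_sum fun r _ => ?_)
        rw [one_div_mul_one_div, ← mul_div_assoc, div_le_div_iff₀ (hv0 r) (by positivity)]
        simp only [v, vv]
        nlinarith [pow_pos (by norm_num : (0 : ℝ) < 2) r]
      rw [← mul_sum (range _)] at this
      linarith [sum_half_le (m + 3)]) (by
      change ∑ t ∈ range (m + 3), 1 / 8 * (1 / 2 ^ t) / (∏ r ∈ range (σ t), cap r) *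
        ∏ r ∈ range (σ t), cap r ≤ 1 / 4
      rw [sum_congr rfl fun t _ => div_mul_cancel₀ _ (hcapP (σ t)).ne', ← mul_sum]
      linarith [sum_half_le (m + 3)])
  change L.k = ∑ r ∈ range (m + 3), (S r).k at l2
  have hkl : v (m + 2) ^ 20 + 1 ≤ L.k := by
    have h1 : (S (m + 2)).k ≤ L.k := by
      rw [l2]; exact single_le_sum (f := fun r => (S r).k) (fun _ _ => Nat.zero_le _) (by simp)
    have e : S (m + 2) = R (m + 2) := if_neg (by omega)
    rw [e, r1] at h1
    simp only [v]; rw [← vv_cast]; exact_mod_cast h1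
  have e1 : v (m + 3) = 2 * v (m + 2) := by simp only [v]; rw [vv_add V (m + 2) 1]; norm_num
  have hm20 := hp1 (m + 2) 1 20 (by norm_num)
  rw [pow_one] at hm20
  refine ⟨L, 4 * q (m + 3), v (m + 3), l1.mono le_rfl le_rfl ?_ le_rfl,
    by have := hq1 (m + 3); omega, ?_, by linarith [hv0 (m + 2)], le_trans ?_
      (mul_le_mul_of_nonneg_right (le_max_right _ _) (by positivity)), ?_, ?_, ?_, l6⟩
  · change ∑ r ∈ range (m + 3), (1 : ℝ) / 4 * (1 / 2 ^ r) ≤ 1
    rw [← mul_sum]; linarith [sum_half_le (m + 3)]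
  · have : (1 : ℝ) ≤ L.k := by linarith [hv0 (m + 2)]
    exact_mod_cast this
  · rw [l2]; push_cast
    calc _ ≤ ∑ r ∈ range (m + 3), 2 * v r ^ 20 := sum_le_sum fun r _ => hk r
      _ ≤ 2 * v (m + 3) ^ 20 := by
          rw [← mul_sum]; exact mul_le_mul_of_nonneg_left (sum_vv_pow V (m + 3) 19) (by norm_num)
      _ ≤ 2 * (8 * V * G) ^ 20 := by
          have := hv0 (m + 3)
          gcongr
          simp only [v, vv, pow_add]; nlinarith
      _ = _ := by ring
  · refine l3.trans ?_
    change ∏ r ∈ range (m + 3), τ r ≤ _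
    rw [← Real.exp_log (prod_pos fun r _ => lt_of_lt_of_le one_pos (hτ1 r)), Real.exp_le_exp]
    refine (hτ3 _ _ subset_rfl).trans ?_
    have h1 := hp1 (m + 2) 41 60 (by norm_num)
    have h2 : v (m + 2) ^ 60 ≤ (L.k : ℝ) ^ 3 := by
      rw [show 60 = 20 * 3 by norm_num, pow_mul]
      exact pow_le_pow_left₀ (pow_pos (hv0 _) _).le (by linarith) 3
    rw [e1, mul_pow]
    linarith [pow_pos (hv0 (m + 2)) 41]
  · refine le_trans (le_of_eq ?_) (le_max_left _ _)
    rw [l4]
    change ∏ r ∈ range (m + 3), (S r).ν = _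
    rw [show m + 3 = (m + 1) + 1 + 1 by ring, prod_range_succ', prod_range_succ', prod_eq_one]
    · simp only [S]; simp [mul_comm]
    · intro r _
      have e : S (r + 1 + 1) = R (r + 1 + 1) := if_neg (by omega)
      rw [e, r3]
  · intro γ x hx
    refine (l5 γ x hx).trans ?_
    change ∏ r ∈ range (m + 2 + 1), ω r ≤ _
    rw [prod_range_succ]
    refine le_trans (mul_le_of_le_one_left (hω0 _).le
      (prod_le_one (fun r _ => (hω0 r).le) fun r _ => hω2 r)) ((hω1 _ (by omega)).trans ?_)
    rw [Real.exp_le_exp, neg_le_neg_iff]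
    have h1 := hpow (m + 2) 1 13 (by norm_num)
    have h2 := h2t (m + 2)
    rw [pow_one] at h1
    rw [pow_succ] at h2
    linarith [pow_pos (by norm_num : (0 : ℝ) < 2) (m + 1)]

end Crest.Agent.LC
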