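import Crest.Agent.LC.Asm1
import Crest.Agent.LC.Vert

/-! Assembly: the covering bound from the marginal bound and the hole bound. -/

set_option autoImplicit false
set_option linter.unusedSectionVars false
open Finset MeasureTheory

namespace Crest.Agent.LC

lemma affine_compact {ι : Type} [Fintype ι] [DecidableEq ι] {K : Set (ι → ℝ)} (h : IsCompact K)
    (A : Matrix ι ι ℝ) (t : ι → ℝ) : IsCompact ((fun x => A.mulVec x + t) '' K) :=
  h.image ((continuous_const.matrix_mulVec continuous_id).add continuous_const)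

lemma affine_convex {ι : Type} [Fintype ι] [DecidableEq ι] {K : Set (ι → ℝ)} (h : Convex ℝ K)
    (A : Matrix ι ι ℝ) (t : ι → ℝ) : Convex ℝ ((fun x => A.mulVec x + t) '' K) := by
  rintro _ ⟨x, hx, rfl⟩ _ ⟨y, hy, rfl⟩ a b ha hb hab
  refine ⟨_, h hx hy ha hb hab, ?_⟩
  simp only [Matrix.mulVec_add, Matrix.mulVec_smul, smul_add]
  have : t = a • t + b • t := by rw [← add_smul, hab, one_smul]
  conv_lhs => rw [this]
  abel

lemma sec_block {α β : Type} [Fintype α] [DecidableEq α] [Fintype β] [DecidableEq β]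
    (K : Set (α ⊕ β → ℝ)) (A : Matrix α α ℝ) (t : α → ℝ) (y : β → ℝ) :
    sec ((fun x => (Matrix.fromBlocks A 0 0 1).mulVec x + Sum.elim t 0) '' K) y =
      (fun x => A.mulVec x + t) '' sec K y := by
  ext a
  constructor
  · rintro ⟨x, hx, h⟩
    have h1 : x ∘ Sum.inr = y := by
      funext i; simpa [Matrix.fromBlocks_mulVec] using congrFun h (Sum.inr i)
    refine ⟨x ∘ Sum.inl, ?_, ?_⟩
    · change Sum.elim _ y ∈ K
      rw [← h1, Sum.elim_comp_inl_inr]; exact hx
    · funext i; simpa [Matrix.fromBlocks_mulVec] using congrFun h (Sum.inl i)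
  · rintro ⟨x, hx, rfl⟩
    refine ⟨_, hx, ?_⟩
    funext i
    rcases i with i | i <;> simp [Matrix.fromBlocks_mulVec]

theorem cover_large (hclt : CLTStmt) (hhole : HoleStmt) : ∃ (C : ℝ) (n₀ : ℕ), 0 ≤ C ∧ ∀ n, n₀ ≤ n →
    ∀ K : Set (Fin n → ℝ), IsCompact K → Convex ℝ K → (interior K).Nonempty →
      Cov K (C * n * Real.log n) := by
  obtain ⟨c, hc, n1, hclt⟩ := hclt
  obtain ⟨κ, hκ, n2, hhole⟩ := hhole
  obtain ⟨C, hC, hvert⟩ := vert
  obtain ⟨L0, hL0⟩ : ∃ L0 : ℝ, ∀ L, L0 ≤ L → (C * (3 * Real.log L) ^ 20) ^ 20 ≤ L := by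
    have h := (Real.isLittleO_pow_log_id_atTop (n := 400)).bound
      (c := 1 / (C ^ 20 * 3 ^ 400)) (by positivity)
    obtain ⟨L0, hL0⟩ := Filter.eventually_atTop.1 (h.and (Filter.eventually_ge_atTop 0))
    refine ⟨L0, fun L hL => ?_⟩
    obtain ⟨h1, h2⟩ := hL0 L hL
    simp only [Real.norm_eq_abs, id, abs_of_nonneg h2] at h1
    have h3 := (le_abs_self _).trans h1
    rw [one_div, le_inv_mul_iff₀ (by positivity)] at h3
    refine le_trans (le_of_eq ?_) h3
    rw [mul_pow, ← pow_mul, mul_pow, mul_assoc]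
  refine ⟨9 * (6 * 48 * C / c), ⌈Real.exp (|L0| + 100 + 96 / κ + κ)⌉₊ + n1 + 2 * n2,
    by positivity, fun n hn K hK1 hK2 hK3 => ?_⟩
  have hn1 : Real.exp (|L0| + 100 + 96 / κ + κ) ≤ n := Nat.ceil_le.1 (by omega)
  have hn0 : (0 : ℝ) < n := lt_of_lt_of_le (Real.exp_pos _) hn1
  set L := Real.log n with hL
  have hL1 : |L0| + 100 + 96 / κ + κ ≤ L := (Real.le_log_iff_exp_le hn0).2 hn1
  have hκ' : 0 < 96 / κ := by positivity
  have hLa := abs_nonneg L0
  have hL100 : 100 ≤ L := by linarith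
  have hnL : Real.exp L = n := Real.exp_log hn0
  have hLn : L + 1 ≤ n := by rw [← hnL]; exact Real.add_one_le_exp L
  set G := Real.log (96 * L ^ 2 / κ) with hG
  have hG1 : 1 ≤ G := by
    rw [hG, Real.le_log_iff_exp_le (by positivity), le_div_iff₀ hκ]
    nlinarith [Real.exp_one_lt_d9]
  have hG2 : G ≤ 3 * Real.log L := by
    have : 3 * Real.log L = Real.log (L ^ 3) := by rw [Real.log_pow]; norm_num
    rw [this]
    apply Real.log_le_log (by positivity)
    have e : 96 * L ^ 2 / κ = 96 / κ * L ^ 2 := by ring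
    rw [e, pow_succ' L 2]
    exact mul_le_mul_of_nonneg_right (by linarith) (by positivity)
  obtain ⟨B, hi, y, b1, b2, b3, b4, b5, b6, b7, b8, b9⟩ := hvert G hG1
  have hk1 : (1 : ℝ) ≤ B.k := by exact_mod_cast b3
  have hk20 : (B.k : ℝ) ^ 20 ≤ L := by
    refine le_trans ?_ (hL0 L (by linarith [le_abs_self L0]))
    refine pow_le_pow_left₀ (by linarith) (b5.trans ?_) _
    gcongr
  have hk4 : (B.k : ℝ) ≤ L / 4 := by
    rcases le_or_gt (B.k : ℝ) 25 with h | h
    · linarith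
    · have h1 : (B.k : ℝ) ^ 2 ≤ (B.k : ℝ) ^ 20 := pow_le_pow_right₀ hk1 (by norm_num)
      nlinarith
  have hk3 : (B.k : ℝ) ^ 3 ≤ L := (pow_le_pow_right₀ hk1 (by norm_num)).trans hk20
  have hkn : 2 * B.k + 4 ≤ n := by
    have : (2 * B.k + 4 : ℝ) ≤ n := by linarith
    exact_mod_cast this
  obtain ⟨m, hm⟩ : ∃ m, m + B.k = n := ⟨n - B.k, by omega⟩
  have hm2 : 2 ≤ m := by omega
  have hmn : (n : ℝ) ≤ 2 * m := by exact_mod_cast (by omega : n ≤ 2 * m)
  have : Nonempty (Fin m) := ⟨⟨0, by omega⟩⟩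
  let e : Fin m ⊕ Fin B.k ≃ Fin n := finSumFinEquiv.trans (finCongr hm)
  refine Cov.reindex e ?_
  let Φ : (Fin m ⊕ Fin B.k → ℝ) ≃L[ℝ] (Fin n → ℝ) :=
    (LinearEquiv.funCongrLeft ℝ ℝ e.symm).toContinuousLinearEquiv
  have hΦ : {x : Fin m ⊕ Fin B.k → ℝ | x ∘ e.symm ∈ K} = Φ.toHomeomorph ⁻¹' K := rfl
  set K1 := {x : Fin m ⊕ Fin B.k → ℝ | x ∘ e.symm ∈ K} with hK1def
  have k11 : IsCompact K1 := by rw [hΦ]; exact Φ.toHomeomorph.isCompact_preimage.2 hK1
  have k12 : Convex ℝ K1 := hK2.linear_preimage Φ.toLinearEquiv.toLinearMap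
  have k13 : (interior K1).Nonempty := by
    rw [hΦ, ← Φ.toHomeomorph.preimage_interior]
    exact hK3.preimage Φ.surjective
  obtain ⟨A, hA, hsec⟩ := hclt (Fin m) (Fin B.k) (by simp; omega) (by simpa using b3)
    (by simp only [Fintype.card_fin, hm]; exact hk20) K1 k11 k12 k13
  have eA : A.mulVec '' K1 = (fun x => A.mulVec x + 0) '' K1 := by simp
  rw [eA] at hsec
  refine Cov.of_affine hA 0 ?_
  set K2 := (fun x => A.mulVec x + 0) '' K1 with hK2def
  have k21 : IsCompact K2 := affine_compact k11 _ _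
  have k22 : Convex ℝ K2 := affine_convex k12 _ _
  have k23 : 0 < (volume K2).toReal := by
    rw [hK2def, vol_affine]
    exact mul_pos (abs_pos.2 hA) (ENNReal.toReal_pos
      (Measure.measure_pos_of_nonempty_interior _ k13).ne' k11.measure_lt_top.ne)
  simp only [Fintype.card_fin] at hsec
  obtain ⟨A2, t, hA2, s1, s2⟩ := exists_simplex (sec_compact_asm k21 0) (sec_convex_asm k22 0)
    (interior_nonempty_of_vol (sec_compact_asm k21 0) (sec_convex_asm k22 0)
      (lt_of_lt_of_le (mul_pos (mul_pos hc k23) (prod_pos fun i _ => gau_pos _))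
        (hsec 0 (by simp))))
  have hdet : (Matrix.fromBlocks A2 0 0 (1 : Matrix (Fin B.k) (Fin B.k) ℝ)).det = A2.det := by
    rw [Matrix.det_fromBlocks_zero₂₁]; simp
  refine Cov.of_affine (A := Matrix.fromBlocks A2 0 0 1) (by rwa [hdet]) (Sum.elim t 0) ?_
  have h2k : (2 : ℝ) ^ B.k ≤ Real.exp (L / 4) := by
    refine le_trans ?_ (Real.exp_le_exp.2 hk4)
    rw [← mul_one (B.k : ℝ), Real.exp_nat_mul]
    exact pow_le_pow_left₀ (by norm_num) (by linarith [Real.exp_one_gt_d9]) _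
  have hκn : κ * n / (2 * L) ≤ κ * Fintype.card (Fin m) / Real.log (Fintype.card (Fin m)) := by
    simp only [Fintype.card_fin]
    have h1 : (2 : ℝ) ≤ m := by exact_mod_cast hm2
    have h2 : 0 < Real.log m := Real.log_pos (by linarith)
    have h3 : Real.log m ≤ L := Real.log_le_log (by linarith) (by exact_mod_cast (by omega : m ≤ n))
    rw [div_le_div_iff₀ (by positivity) h2]
    calc κ * n * Real.log m ≤ κ * (2 * m) * L := by gcongr
      _ = _ := by ring
  have hW : L ^ 4 / 384 ≤ Real.exp (L / 2) := by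
    have := Real.pow_div_factorial_le_exp (L / 2) (by linarith) 4
    norm_num [Nat.factorial] at this
    linarith
  have hL2 : 100 * L ≤ L ^ 2 := by nlinarith
  refine (cover_main B b1 b2 b3 b4 b8 b9 (hhole (Fin m) (by simp; omega))
    (affine_compact k21 _ _) (affine_convex k22 _ _) hc
    (by rw [vol_affine, hdet]; exact mul_pos (abs_pos.2 hA2) k23)
    (fun y hy => by
      rw [sec_block, vol_affine A2, vol_affine _ _ K2, hdet]
      have := mul_le_mul_of_nonneg_left (hsec y hy) (abs_nonneg A2.det)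
      refine le_trans (le_of_eq ?_) this
      ring)
    (by rw [sec_block]; exact s1) (by rw [sec_block]; exact s2) n (by simp; omega)
    (R := 48 * n * L) (W := Real.exp (L / 2)) (D := Real.exp (2 * L ^ 2)) (I1 := Real.exp (L ^ 2))
    (I2 := Real.exp (2 * L ^ 2)) (by positivity) (Real.exp_pos _) ?_ ?_ ?_ ?_ ?_
    (Real.one_le_exp (by positivity)) ?_ ?_ ?_).mono ?_
  · refine le_trans (le_of_eq ?_) hκn
    rw [hG, Real.exp_neg, Real.exp_log (by positivity)]
    field_simp; norm_num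
  · refine le_trans ?_ hκn
    have e : (n : ℝ) = Real.exp (L / 2) * Real.exp (L / 2) := by
      rw [← Real.exp_add, add_halves, hnL]
    rw [le_div_iff₀ (by positivity), e, ← mul_assoc κ, mul_comm (Real.exp (L / 2)) (2 * L)]
    refine mul_le_mul_of_nonneg_right ?_ (Real.exp_pos _).le
    have h1 : 96 ≤ κ * L := by
      have : 96 / κ ≤ L := by linarith
      rw [div_le_iff₀' hκ] at this; exact this
    have h2 : L ^ 2 / 8 ≤ Real.exp (L / 2) := by
      have := sq_le_two_exp (x := L / 2) (by linarith)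
      linarith
    nlinarith [mul_le_mul_of_nonneg_left h2 hκ.le]
  · rw [le_div_iff₀ (by positivity)]
    have h1 : Real.exp (L / 2) * Real.exp (L / 4) ≤ n := by
      rw [← Real.exp_add, ← hnL]; exact Real.exp_le_exp.2 (by linarith)
    have h2 := mul_le_mul_of_nonneg_left h2k (Real.exp_pos (L / 2)).le
    nlinarith
  · rw [← hnL, ← Real.exp_nat_mul]
    refine le_trans (mul_le_mul_of_nonneg_right b6 (Real.exp_pos _).le) ?_
    rw [← Real.exp_add, Real.exp_le_exp]
    nlinarith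
  · have h1 := mul_le_mul_of_nonneg_left h2k (Real.exp_pos (L ^ 2)).le
    rw [← Real.exp_add] at h1
    have h2 : 1 ≤ Real.exp (L ^ 2 + L / 4) := Real.one_le_exp (by positivity)
    have h3 : Real.exp 1 * Real.exp (L ^ 2 + L / 4) ≤ Real.exp (2 * L ^ 2) := by
      rw [← Real.exp_add]; exact Real.exp_le_exp.2 (by linarith)
    nlinarith [Real.exp_one_gt_d9]
  · have h1 : (B.k : ℝ) ≤ Real.exp (L / 4) := by linarith [Real.add_one_le_exp (L / 4)]
    calc _ ≤ Real.exp (L / 4) * Real.exp (L / 4) * Real.exp (L ^ 2) := by gcongr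
      _ < _ := by rw [← Real.exp_add, ← Real.exp_add]; exact Real.exp_lt_exp.2 (by linarith)
  · have h1 : (16 : ℝ) ≤ Real.exp 15 := by linarith [Real.add_one_le_exp 15]
    calc _ ≤ Real.exp 15 * Real.exp (2 * L ^ 2) * Real.exp (-Real.exp (L / 2) / 2) := by gcongr
      _ < 1 := by
          rw [← Real.exp_add, ← Real.exp_add, Real.exp_lt_one_iff]
          nlinarith
  · have h1 : (6 * (n : ℝ) ^ 2) ^ Fintype.card (Fin m) ≤ Real.exp (3 * n * L) := by
      have h2 : 6 * (n : ℝ) ^ 2 ≤ Real.exp (3 * L) := by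
        rw [show (3 : ℝ) = (3 : ℕ) by norm_num, Real.exp_nat_mul, hnL, pow_succ' _ 2]
        exact mul_le_mul_of_nonneg_right (by linarith) (by positivity)
      refine (pow_le_pow_left₀ (by positivity) h2 _).trans ?_
      rw [← Real.exp_nat_mul, Real.exp_le_exp, Fintype.card_fin]
      have h3 : (m : ℝ) ≤ n := by exact_mod_cast (by omega : m ≤ n)
      nlinarith
    have h2 : (8 * Real.exp (2 * L ^ 2) * Real.exp (2 * L ^ 2)) ^ (2 ^ B.k) ≤ Real.exp (n * L) := by
      have h3 : 8 * Real.exp (2 * L ^ 2) * Real.exp (2 * L ^ 2) ≤ Real.exp (5 * L ^ 2) := by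
        have h4 : (8 : ℝ) ≤ Real.exp 7 := by linarith [Real.add_one_le_exp 7]
        calc _ ≤ Real.exp 7 * Real.exp (2 * L ^ 2) * Real.exp (2 * L ^ 2) := by gcongr
          _ ≤ _ := by rw [← Real.exp_add, ← Real.exp_add]; exact Real.exp_le_exp.2 (by linarith)
      refine (pow_le_pow_left₀ (by positivity) h3 _).trans ?_
      rw [← Real.exp_nat_mul, Real.exp_le_exp]
      push_cast
      have h5 : 5 * L ≤ Real.exp (3 * L / 4) := by
        have := sq_le_two_exp (x := 3 * L / 4) (by linarith)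
        nlinarith
      have h6 : Real.exp (L / 4) * Real.exp (3 * L / 4) = n := by
        rw [← Real.exp_add, ← hnL]; congr 1; ring
      calc _ ≤ Real.exp (L / 4) * (5 * L * L) := by rw [sq, ← mul_assoc 5]; gcongr
        _ ≤ Real.exp (L / 4) * (Real.exp (3 * L / 4) * L) := by gcongr
        _ = _ := by rw [← mul_assoc, h6]
    calc _ ≤ Real.exp (3 * n * L) * Real.exp (L ^ 2) *
          (Real.exp (n * L) * Real.exp (-(48 * n * L) / 8)) := by gcongr
      _ < 1 := by
          rw [← Real.exp_add, ← Real.exp_add, ← Real.exp_add, Real.exp_lt_one_iff]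
          nlinarith
  · have h1 : (1 + 2 / n : ℝ) ^ Fintype.card (Fin m ⊕ Fin B.k) ≤ 9 := by
      rw [Fintype.card_sum, Fintype.card_fin, Fintype.card_fin, hm]
      calc _ ≤ Real.exp (2 / n) ^ n :=
            pow_le_pow_left₀ (by positivity) (by linarith [Real.add_one_le_exp (2 / n : ℝ)]) _
        _ = Real.exp 1 ^ 2 := by
            rw [← Real.exp_nat_mul, ← Real.exp_nat_mul]; congr 1; field_simp; norm_num
        _ ≤ 3 ^ 2 := pow_le_pow_left₀ (Real.exp_pos _).le (by linarith [Real.exp_one_lt_d9]) _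
        _ = 9 := by norm_num
    have h2 := b1.νge
    calc _ ≤ 9 * (6 * (48 * n * L) * C / c) := by gcongr
      _ = _ := by ring

theorem cover_all (hclt : CLTStmt) (hhole : HoleStmt) :
    ∃ C : ℝ, ∀ (n : ℕ), 2 ≤ n → ∀ (K : Set (Fin n → ℝ)),
      IsCompact K → Convex ℝ K → (interior K).Nonempty →
        ∃ g : Matrix (Fin n) (Fin n) ℝ, g.det ≠ 0 ∧
          (∀ x : Fin n → ℝ, ∃ z : Fin n → ℤ, x - g.mulVec (fun i => (z i : ℝ)) ∈ K) ∧
          (volume K).toReal / |g.det| ≤ C * n * Real.log n := by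
  obtain ⟨C, n₀, hC, h⟩ := cover_large hclt hhole
  refine ⟨C + (2 * n₀) ^ n₀, fun n hn K h1 h2 h3 => ?_⟩
  have hn2 : (2 : ℝ) ≤ n := by exact_mod_cast hn
  have hl : 1 / 2 ≤ Real.log n :=
    le_trans (by linarith [Real.log_two_gt_d9]) (Real.log_le_log (by norm_num) hn2)
  have h4 : 1 ≤ n * Real.log n := by nlinarith
  rcases le_or_gt n₀ n with hle | hlt
  · refine (h n hle K h1 h2 h3).mono ?_
    have : (0 : ℝ) ≤ (2 * n₀) ^ n₀ := by positivity
    gcongr; linarith
  · have : Nonempty (Fin n) := ⟨⟨0, by omega⟩⟩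
    refine (cov_trivial h1 h2 h3).mono ?_
    rw [Fintype.card_fin]
    have h5 : (n : ℝ) ≤ n₀ := by exact_mod_cast hlt.le
    calc _ ≤ (2 * (n₀ : ℝ)) ^ n := by gcongr
      _ ≤ (2 * (n₀ : ℝ)) ^ n₀ := pow_le_pow_right₀ (by linarith) hlt.le
      _ ≤ (C + (2 * n₀) ^ n₀) * 1 := by linarith
      _ ≤ (C + (2 * n₀) ^ n₀) * (n * Real.log n) := by gcongr
      _ = _ := by ring

end Crest.Agent.LC
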