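import Crest.Agent.LC.CLT2

/-! De-smoothing, isotropic position, perturbation to an invertible matrix. -/

set_option autoImplicit false

namespace Crest.Agent.LC

open MeasureTheory ProbabilityTheory Finset Filter Topology
open scoped ENNReal MatrixOrder

lemma gauss_int {β : Type*} [Fintype β] (l : ℝ) (hl : 0 < l) (w : β → ℝ) :
    ∫⁻ z : β → ℝ, ENNReal.ofReal (Real.exp (-(l ^ 2 * ∑ i, (w i - z i) ^ 2) / 2)) =
      ENNReal.ofReal ((√(2 * Real.pi) / l) ^ Fintype.card β) := by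
  have h1 : ∀ z : β → ℝ, Real.exp (-(l ^ 2 * ∑ i, (w i - z i) ^ 2) / 2) =
      ∏ i, Real.exp (-(l ^ 2 / 2) * (w i - z i) ^ 2) := by
    intro z
    rw [← Real.exp_sum, ← mul_sum]
    congr 1; ring
  have h2 : ∀ i, Integrable fun x : ℝ => Real.exp (-(l ^ 2 / 2) * (w i - x) ^ 2) := fun i =>
    (integrable_exp_neg_mul_sq (b := l ^ 2 / 2) (by positivity)).comp_sub_left (w i)
  have h3 : ∀ i, ∫ x : ℝ, Real.exp (-(l ^ 2 / 2) * (w i - x) ^ 2) = √(2 * Real.pi) / l := by
    intro i
    rw [integral_sub_left_eq_self (fun x : ℝ => Real.exp (-(l ^ 2 / 2) * x ^ 2)) volume (w i),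
      integral_gaussian, show Real.pi / (l ^ 2 / 2) = 2 * Real.pi / l ^ 2 by field_simp,
      Real.sqrt_div (by positivity), Real.sqrt_sq hl.le]
  simp_rw [h1]
  have h4 : Integrable fun z : β → ℝ => ∏ i, Real.exp (-(l ^ 2 / 2) * (w i - z i) ^ 2) :=
    Integrable.fintype_prod h2
  rw [← ofReal_integral_eq_lintegral_ofReal h4
    (ae_of_all _ fun z => by positivity), integral_fintype_prod_volume_eq_prod
      (fun i (x : ℝ) => Real.exp (-(l ^ 2 / 2) * (w i - x) ^ 2))]
  simp only [h3, prod_const, card_univ]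

lemma desmooth0 {α β : Type*} [Fintype α] [Fintype β] {K : Set (α ⊕ β → ℝ)}
    (hK : MeasurableSet K) (l η t : ℝ) (hl : 0 < l) (hη : 0 ≤ η) (ht : 0 ≤ t) (w : β → ℝ)
    (h : ∀ z : β → ℝ, (∀ i, |w i - z i| ≤ η) →
      volume {a : α → ℝ | Sum.elim a z ∈ K} ≤ ENNReal.ofReal t) :
    ∫⁻ x in K, ENNReal.ofReal (Real.exp (-(l ^ 2 * ∑ i, (w i - x (Sum.inr i)) ^ 2) / 2)) ≤
      ENNReal.ofReal (t * (√(2 * Real.pi) / l) ^ Fintype.card β) +
        ENNReal.ofReal (Real.exp (-(l ^ 2 * η ^ 2) / 2)) * volume K := by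
  let f : (β → ℝ) → ℝ≥0∞ := fun z =>
    ENNReal.ofReal (Real.exp (-(l ^ 2 * ∑ i, (w i - z i) ^ 2) / 2))
  have hf : Measurable f := by simp only [f]; fun_prop
  let N : Set (β → ℝ) := {z | ∀ i, |w i - z i| ≤ η}
  have hN : MeasurableSet N := by simp only [N]; measurability
  let F : (α ⊕ β → ℝ) → ℝ≥0∞ := K.indicator fun x => N.indicator f fun i => x (Sum.inr i)
  have hF : Measurable F := ((hf.indicator hN).comp (by fun_prop)).indicator hK
  have h1 : ∀ x : α ⊕ β → ℝ, f (fun i => x (Sum.inr i)) ≤ N.indicator f (fun i => x (Sum.inr i)) +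
      ENNReal.ofReal (Real.exp (-(l ^ 2 * η ^ 2) / 2)) := by
    intro x
    by_cases hx : (fun i => x (Sum.inr i)) ∈ N
    · rw [Set.indicator_of_mem hx]; exact le_self_add
    · refine le_trans (ENNReal.ofReal_le_ofReal (Real.exp_le_exp.2 ?_)) le_add_self
      simp only [N, Set.mem_ofPred_eq, not_forall, not_le] at hx
      obtain ⟨i, hi⟩ := hx
      have e1 : η ^ 2 ≤ (w i - x (Sum.inr i)) ^ 2 := by
        rw [← sq_abs (w i - _)]; gcongr
      have e2 := single_le_sum (f := fun i => (w i - x (Sum.inr i)) ^ 2)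
        (fun i _ => sq_nonneg _) (mem_univ i)
      have e3 : l ^ 2 * η ^ 2 ≤ l ^ 2 * ∑ i, (w i - x (Sum.inr i)) ^ 2 := by gcongr; linarith
      linarith
  refine (lintegral_mono h1).trans ?_
  rw [lintegral_add_right _ measurable_const, setLIntegral_const, ← lintegral_indicator hK]
  gcongr
  change ∫⁻ x, F x ≤ _
  rw [← (volume_measurePreserving_sumPiEquivProdPi_symm fun _ : α ⊕ β => ℝ).lintegral_comp hF,
    Measure.volume_eq_prod, lintegral_prod_symm _ (Measurable.aemeasurable (by fun_prop)),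
    ENNReal.ofReal_mul ht, ← gauss_int l hl w, ← lintegral_const_mul _ hf]
  refine lintegral_mono fun z => ?_
  have e : ∀ a : α → ℝ, F ((MeasurableEquiv.sumPiEquivProdPi fun _ : α ⊕ β => ℝ).symm (a, z)) =
      {a : α → ℝ | Sum.elim a z ∈ K}.indicator (fun _ => N.indicator f z) a := by
    intro a
    have : (MeasurableEquiv.sumPiEquivProdPi fun _ : α ⊕ β => ℝ).symm (a, z) = Sum.elim a z := by
      ext i; cases i <;> rfl
    rw [this]
    rfl
  simp_rw [e]
  rw [lintegral_indicator_const (sec_meas hK z)]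
  by_cases hz : z ∈ N
  · rw [Set.indicator_of_mem hz, mul_comm]
    gcongr
    exact h z hz
  · simp [Set.indicator_of_notMem hz]

lemma map_cond {ι : Type*} [Fintype ι] [DecidableEq ι] {K : Set (ι → ℝ)} (A : Matrix ι ι ℝ)
    (hA : A.det ≠ 0) (hK : MeasurableSet (A.mulVec '' K)) :
    (volume[|K]).map A.mulVec = volume[|A.mulVec '' K] ∧
      volume K = ENNReal.ofReal |A.det⁻¹| * volume (A.mulVec '' K) := by
  have hm : Measurable A.mulVec := by fun_prop
  have hinj : Function.Injective A.mulVec :=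
    Matrix.mulVec_injective_of_isUnit ((Matrix.isUnit_iff_isUnit_det _).2 (Ne.isUnit hA))
  have h1 : ∀ s, MeasurableSet s → volume (A.mulVec ⁻¹' s) = ENNReal.ofReal |A.det⁻¹| * volume s := by
    intro s hs
    have := congrArg (fun μ => μ s) (Real.map_matrix_volume_pi_eq_smul_volume_pi hA)
    simp only [Measure.smul_apply, smul_eq_mul] at this
    rw [← this, Measure.map_apply (by fun_prop) hs]
    rfl
  have h2 := h1 _ hK
  rw [Set.preimage_image_eq _ hinj] at h2
  refine ⟨?_, h2⟩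
  ext s hs
  rw [Measure.map_apply hm hs, cond_apply' (hm hs), cond_apply' hs]
  have h3 := h1 _ (hK.inter hs)
  rw [Set.preimage_inter, Set.preimage_image_eq _ hinj] at h3
  have h4 : ENNReal.ofReal |A.det⁻¹| ≠ 0 := by simpa using hA
  rw [h3, h2, ENNReal.mul_inv (Or.inl h4) (Or.inl ENNReal.ofReal_ne_top), mul_mul_mul_comm,
    ENNReal.inv_mul_cancel h4 ENNReal.ofReal_ne_top, one_mul]

lemma desmooth {α β : Type*} [Fintype α] [Fintype β] [DecidableEq α] [DecidableEq β]
    {K : Set (α ⊕ β → ℝ)} (hK : IsCompact K) (hK0 : volume K ≠ 0)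
    (A : Matrix (α ⊕ β) (α ⊕ β) ℝ) (hA : A.det ≠ 0)
    (l η t : ℝ) (hl : 0 < l) (hη : 0 ≤ η) (ht : 0 ≤ t) (w : β → ℝ)
    (h : t * (√(2 * Real.pi) / l) ^ Fintype.card β + Real.exp (-(l ^ 2 * η ^ 2) / 2) <
      ∫ x, Real.exp (-(l ^ 2 * ∑ i, (w i - A.mulVec x (Sum.inr i)) ^ 2) / 2) ∂(volume[|K])) :
    ∃ z : β → ℝ, (∀ i, |w i - z i| ≤ η) ∧ ENNReal.ofReal (t * (volume (A.mulVec '' K)).toReal) ≤
      volume {a : α → ℝ | Sum.elim a z ∈ A.mulVec '' K} := by
  by_contra hcon
  push Not at hcon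
  have hK' : IsCompact (A.mulVec '' K) := hK.image (by fun_prop)
  obtain ⟨h1, h2⟩ := map_cond A hA hK'.measurableSet
  set K' := A.mulVec '' K
  have h0 : volume K' ≠ 0 := by rintro h0; rw [h0, mul_zero] at h2; exact hK0 h2
  have ht' := hK'.measure_lt_top (μ := volume).ne
  have key := desmooth0 hK'.measurableSet l η _ hl hη (by positivity) w fun z hz => (hcon z hz).le
  rw [← integral_map (φ := A.mulVec) (f := fun x : α ⊕ β → ℝ =>
    Real.exp (-(l ^ 2 * ∑ i, (w i - x (Sum.inr i)) ^ 2) / 2)) (by fun_prop)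
      (Measurable.aestronglyMeasurable (by fun_prop)), h1,
    integral_eq_lintegral_of_nonneg_ae (ae_of_all _ fun _ => by positivity)
      (Measurable.aestronglyMeasurable (by fun_prop))] at h
  refine absurd h (not_lt.2 (ENNReal.toReal_le_of_le_ofReal (by positivity) ?_))
  simp only [ProbabilityTheory.cond, lintegral_smul_measure, smul_eq_mul]
  refine (mul_le_mul_right key _).trans (le_of_eq ?_)
  rw [mul_right_comm, ENNReal.ofReal_mul (by positivity), ENNReal.ofReal_toReal ht', ← add_mul,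
    mul_comm, mul_assoc, ENNReal.mul_inv_cancel h0 ht', mul_one,
    ENNReal.ofReal_add (by positivity) (by positivity)]

lemma cond_integrable {ι : Type*} [Fintype ι] {K : Set (ι → ℝ)} (hK : IsCompact K)
    (hK0 : volume K ≠ 0) {f : (ι → ℝ) → ℝ} (hf : Continuous f) : Integrable f (volume[|K]) :=
  (hf.continuousOn.integrableOn_compact hK).smul_measure (ENNReal.inv_ne_top.2 hK0)

lemma exists_iso {ι : Type*} [Fintype ι] [DecidableEq ι] {K : Set (ι → ℝ)} (hK : IsCompact K)
    (hK0 : volume K ≠ 0) : ∃ B : Matrix ι ι ℝ, ∀ i j,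
      ∫ x, x i * x j ∂((volume[|K]).map B.mulVec) = if i = j then 1 else 0 := by
  haveI := cond_isProbabilityMeasure_of_finite hK0 hK.measure_lt_top.ne
  let M : Matrix ι ι ℝ := fun i j => ∫ x, x i * x j ∂(volume[|K])
  have h1 : ∀ u v : ι → ℝ, ∫ x, (u ⬝ᵥ x) * (v ⬝ᵥ x) ∂(volume[|K]) = u ⬝ᵥ M.mulVec v := by
    intro u v
    simp only [dotProduct, Matrix.mulVec, sum_mul_sum, M]
    simp only [mul_sum]
    rw [integral_finsetSum _ fun i _ => cond_integrable hK hK0 (by fun_prop)]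
    refine sum_congr rfl fun i _ => ?_
    rw [integral_finsetSum _ fun i _ => cond_integrable hK hK0 (by fun_prop)]
    refine sum_congr rfl fun j _ => ?_
    rw [← integral_mul_const, ← integral_const_mul]
    exact integral_congr_ae (ae_of_all _ fun x => by ring)
  have hM : M.PosDef := by
    refine Matrix.PosDef.of_dotProduct_mulVec_pos ?_ fun v hv => ?_
    · ext i j
      simp only [Matrix.conjTranspose_apply, star_trivial, M, mul_comm]
    · rw [star_trivial, ← h1, integral_pos_iff_support_of_nonneg (fun x => mul_self_nonneg _)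
        (cond_integrable hK hK0 (f := fun x => (v ⬝ᵥ x) * (v ⬝ᵥ x)) (by fun_prop))]
      let S : Submodule ℝ (ι → ℝ) := LinearMap.ker (dotProductBilin ℝ ℝ v)
      have hS : volume (S : Set (ι → ℝ)) = 0 := by
        refine Measure.addHaar_submodule _ _ fun h => hv ?_
        have : v ∈ S := h ▸ Submodule.mem_top
        exact dotProduct_self_eq_zero.1 this
      have h2 : (Function.support fun x => (v ⬝ᵥ x) * (v ⬝ᵥ x)) = (S : Set (ι → ℝ))ᶜ := by
        ext x; simp [S]
      rw [h2, pos_iff_ne_zero]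
      intro h3
      have h4 := measure_univ_le_add_compl (μ := volume[|K]) (S : Set (ι → ℝ))
      rw [h3, cond_absolutelyContinuous hS] at h4
      simp at h4
  obtain ⟨B, hB⟩ := CStarAlgebra.nonneg_iff_eq_star_mul_self.1 hM.inv.posSemidef.nonneg
  have h2 : B * M * star B = 1 := by
    rw [mul_eq_one_comm, ← mul_assoc, ← hB]
    exact Matrix.nonsing_inv_mul _ ((Matrix.isUnit_iff_isUnit_det _).1 hM.isUnit)
  refine ⟨B, fun i j => ?_⟩
  rw [integral_map (by fun_prop) (by fun_prop)]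
  have h3 := congrFun (congrFun h2 i) j
  rw [Matrix.one_apply] at h3
  rw [← h3, mul_assoc]
  exact h1 (B i) (B j)

lemma exists_perturb {ι W : Type*} [Fintype ι] [DecidableEq ι] (μ : Measure (ι → ℝ))
    [IsProbabilityMeasure μ] (Y : Finset W) (f : W → (ι → ℝ) → ℝ) (hf : ∀ w, Continuous (f w))
    (hf1 : ∀ w x, ‖f w x‖ ≤ 1) (t : W → ℝ) (A₀ : Matrix ι ι ℝ)
    (h : ∀ w ∈ Y, t w < ∫ x, f w (A₀.mulVec x) ∂μ) :
    ∃ A : Matrix ι ι ℝ, A.det ≠ 0 ∧ ∀ w ∈ Y, t w < ∫ x, f w (A.mulVec x) ∂μ := by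
  let A : ℝ → Matrix ι ι ℝ := fun s => Matrix.scalar ι s - -A₀
  have h1 : ∀ w ∈ Y, ∀ᶠ s in 𝓝 (0 : ℝ), t w < ∫ x, f w ((A s).mulVec x) ∂μ := by
    intro w hw
    have hc : Continuous fun s => ∫ x, f w ((A s).mulVec x) ∂μ := by
      refine continuous_of_dominated (bound := fun _ => 1) (fun s => ?_)
        (fun s => ae_of_all _ fun x => hf1 _ _) (integrable_const _) (ae_of_all _ fun x => ?_)
      · exact ((hf w).comp (by fun_prop)).aestronglyMeasurable
      · refine (hf w).comp ?_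
        simp only [A, sub_neg_eq_add, Matrix.add_mulVec, Matrix.scalar_apply]
        have : ∀ s : ℝ, (Matrix.diagonal fun _ : ι => s).mulVec x = s • x := by
          intro s; ext i; simp [Matrix.mulVec_diagonal]
        simp_rw [this]
        fun_prop
    refine hc.continuousAt.eventually (lt_mem_nhds ?_)
    simpa [A] using h w hw
  have h2 : ∀ᶠ s in 𝓝[≠] (0 : ℝ), (A s).det ≠ 0 := by
    have hfin : {s : ℝ | (-A₀).charpoly.IsRoot s}.Finite :=
      Polynomial.finite_setOfPred_isRoot (Matrix.charpoly_monic _).ne_zero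
    have := (nhdsNE_le_cofinite (0 : ℝ)) hfin.compl_mem_cofinite
    filter_upwards [this] with s hs
    rw [← Matrix.eval_charpoly]
    exact hs
  obtain ⟨s, hs1, hs2⟩ := (h2.and (nhdsWithin_le_nhds ((eventually_all_finset Y).2 h1))).exists
  exact ⟨A s, hs1, hs2⟩

end Crest.Agent.LC
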