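import Crest.Agent.LC.CLT4

/-! Thin shell from approximate log-concavity, and the Gaussian lower bound on a grid. -/

set_option autoImplicit false

namespace Crest.Agent.LC

open MeasureTheory ProbabilityTheory Finset

lemma exp_le_inv_pow {L : ℝ} (hL : 0 < L) (k : ℕ) : Real.exp (-(k * L)) ≤ 1 / L ^ k := by
  have e2 : L ≤ Real.exp L := by linarith [Real.add_one_le_exp L]
  rw [Real.exp_neg, Real.exp_nat_mul, one_div]
  gcongr

lemma one_add_pow_le {x : ℝ} {k : ℕ} (hx : 0 ≤ x) (h : k * x ≤ 1) : (1 + x) ^ k ≤ 3 := by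
  calc _ ≤ Real.exp x ^ k := by gcongr; linarith [Real.add_one_le_exp x]
    _ ≤ Real.exp 1 := by rw [← Real.exp_nat_mul]; exact Real.exp_le_exp.2 h
    _ ≤ 3 := Real.exp_one_lt_three.le

lemma shell_pair {ι : Type*} [Fintype ι] [DecidableEq ι] (ν : Measure (ι → ℝ))
    [IsProbabilityMeasure ν] (hν : Iso ν) (hc : LCM ν) (L : ℕ) (hL : 10 ^ 15 ≤ L)
    (hn : (L : ℝ) ^ 20 ≤ Real.log (Fintype.card ι)) (a b : ℝ) (ha : 1 / 5 ≤ a) (hb : b ≤ 4)
    (hab : a * (1 + 1 / (3 * L)) ≤ b) (E : ℝ → Set (ι → ℝ)) (hE : ∀ r, MeasurableSet (E r))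
    (hE' : ∀ r ∈ ({a, b} : Set ℝ), 1 / (800 * (L : ℝ) ^ 4) ≤ ν.real (E r) ∧
      ∀ x ∈ E r, r ≤ sw (1 / (L : ℝ) ^ 6) x ∧
        sw (1 / (L : ℝ) ^ 6) x ≤ r * (1 + 1 / (5 * (L : ℝ) ^ 4))) :
    False := by
  classical
  have hL' : (10 : ℝ) ^ 15 ≤ L := by exact_mod_cast hL
  have hL0 : (0 : ℝ) < L := by linarith [show (0 : ℝ) < 10 ^ 15 by norm_num]
  have hL5 : (5 : ℝ) ≤ L := by linarith [show (5 : ℝ) ≤ 10 ^ 15 by norm_num]
  have ha0 : 0 < a := by linarith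
  have hab' : a + 1 / (15 * L) ≤ b := by
    have : 1 / (15 * (L : ℝ)) ≤ a * (1 / (3 * L)) := by
      rw [show 1 / (15 * (L : ℝ)) = 1 / 5 * (1 / (3 * L)) by field_simp; norm_num]
      gcongr
    linarith
  have hpos : 0 < 1 / (15 * (L : ℝ)) := by positivity
  have hb0 : 0 < b := by linarith
  set l := L ^ 4 * 5 with hl
  have hl' : (l : ℝ) = 5 * (L : ℝ) ^ 4 := by rw [hl]; push_cast; ring
  have hl0 : 0 < l := by positivity
  set c := (a + b) / 2 with hcdef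
  obtain ⟨G, hG⟩ := conc2 (J := Fin l) ν hν L hL5 hn (by simpa using hl0) (by
      rw [Fintype.card_fin, hl', pow_succ (L : ℝ) 4, mul_comm]; gcongr) ({a, b, c} : Finset ℝ) (by
      have h1 : (({a, b, c} : Finset ℝ).card : ℝ) ≤ 3 := by exact_mod_cast card_le_three
      have h2 : (5 : ℝ) ^ 5 ≤ (L : ℝ) ^ 5 := by gcongr
      linarith [Real.add_one_le_exp ((L : ℝ) ^ 5)]) (fun r _ => r)
  set σ : ℝ := 1 / (L : ℝ) ^ 6 with hσ
  have hσ0 : 0 < σ := by positivity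
  set u := σ * Real.exp (-1 / 2) with hu
  have hu0 : 0 < u := by positivity
  set m : ℝ := 1 / (800 * (L : ℝ) ^ 4) with hm
  have hm0 : 0 < m := by positivity
  have hm1 : m / 6 ≤ 1 := by
    rw [hm, div_div, div_le_one (by positivity)]
    nlinarith [one_le_pow₀ (by linarith : (1 : ℝ) ≤ L) (n := 4)]
  have hε : ∀ r, 0 < r → r ≤ 4 → Real.exp (-(L : ℝ) ^ 10) ≤ m / 6 * (u / r) ^ l := by
    intro r hr0 hr
    have e1 : Real.exp (-(7 * L)) ≤ u / r := by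
      have e0 : Real.exp (-(L : ℝ)) ≤ Real.exp (-1 / 2) / 4 := by
        rw [le_div_iff₀ (by norm_num)]
        calc _ ≤ Real.exp (-(L : ℝ)) * Real.exp 3 := by
              gcongr; linarith [Real.add_one_le_exp 3]
          _ ≤ _ := by rw [← Real.exp_add]; exact Real.exp_le_exp.2 (by linarith)
      calc _ = Real.exp (-((6 : ℕ) * L)) * Real.exp (-(L : ℝ)) := by
            rw [← Real.exp_add]; congr 1; push_cast; ring
        _ ≤ σ * (Real.exp (-1 / 2) / 4) := by gcongr; exact exp_le_inv_pow hL0 6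
        _ = u / 4 := by rw [hu]; ring
        _ ≤ _ := by gcongr
    have e2 : Real.exp (-((5 : ℕ) * L)) ≤ m / 6 := by
      refine (exp_le_inv_pow hL0 5).trans ?_
      rw [hm, div_div, pow_succ]
      refine one_div_le_one_div_of_le (by positivity) ?_
      nlinarith [pow_pos hL0 4]
    calc _ ≤ Real.exp (-((5 : ℕ) * L)) * Real.exp (-(7 * L)) ^ l := by
          rw [← Real.exp_nat_mul, ← Real.exp_add, hl']
          refine Real.exp_le_exp.2 ?_
          have a1 : (5 : ℝ) ^ 4 ≤ (L : ℝ) ^ 4 := by gcongr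
          have a2 : 5 * L ≤ (L : ℝ) ^ 5 := by nlinarith
          have a3 : (5 : ℝ) ^ 5 ≤ (L : ℝ) ^ 5 := by gcongr
          have a4 : 36 * (L : ℝ) ^ 5 ≤ (L : ℝ) ^ 10 := by nlinarith
          push_cast
          nlinarith
      _ ≤ _ := by gcongr
  have hlow : ∀ r ∈ ({a, b} : Set ℝ), m / 6 * (u / r) ^ l ≤ gG ν σ G fun _ => r := by
    intro r hr
    have hr' : 0 < r ∧ r ≤ 4 := by
      rcases hr with rfl | rfl
      · exact ⟨ha0, by linarith⟩
      · exact ⟨hb0, hb⟩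
    have hr0 := hr'.1
    have h1 := HH_ge ν σ hσ0 (fun _ : Fin l => r) r _ hr0 (E r) (hE r) (hE' r hr).2
    have h2 := (abs_le.1 (hG r (by
      rcases hr with rfl | rfl <;> simp))).1
    have h3 := hε r hr0 hr'.2
    have h4 : (u / r) ^ l / 3 ≤ (σ / (r * (1 + 1 / (5 * (L : ℝ) ^ 4)))) ^ Fintype.card (Fin l) *
        Real.exp (-(∑ _j : Fin l, r ^ 2) / (2 * r ^ 2)) := by
      rw [sum_const, card_univ, Fintype.card_fin, nsmul_eq_mul,
        show -(l * r ^ 2) / (2 * r ^ 2) = l * (-1 / 2) by field_simp, Real.exp_nat_mul, ← mul_pow,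
        show σ / (r * (1 + 1 / (5 * (L : ℝ) ^ 4))) * Real.exp (-1 / 2) =
          u / r / (1 + 1 / (5 * (L : ℝ) ^ 4)) by rw [hu]; field_simp, div_pow (u / r)]
      gcongr
      exact one_add_pow_le (by positivity) (by rw [hl']; field_simp; rfl)
    have h5 : m * ((u / r) ^ l / 3) ≤ HH ν σ fun _ : Fin l => r :=
      le_trans (mul_le_mul (hE' r hr).1 h4 (by positivity) measureReal_nonneg) h1
    linarith
  have hc0 : 0 < c := by positivity
  have hup : gG ν σ G (fun _ => c) ≤ 2 * (u / c) ^ l := by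
    have h1 := HH_le (J := Fin l) ν σ hσ0 c hc0
    rw [Fintype.card_fin, show σ / c * Real.exp (-1 / 2) = u / c by rw [hu]; ring] at h1
    have h2 := (abs_le.1 (hG c (by simp))).2
    have h3 := hε c hc0 (by linarith)
    have h4 : m / 6 * (u / c) ^ l ≤ 1 * (u / c) ^ l := by gcongr
    linarith
  have hmid := gG_mid ν hc σ G (fun _ => a) (fun _ => b)
  have k1 : m / 6 * (u / a) ^ l * (m / 6 * (u / b) ^ l) ≤ (2 * (u / c) ^ l) ^ 2 := by
    have h0 : 0 ≤ gG ν σ G (fun _ => c) := integral_nonneg fun _ => by positivity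
    calc _ ≤ gG ν σ G (fun _ => a) * gG ν σ G (fun _ => b) :=
          mul_le_mul (hlow a (by simp)) (hlow b (by simp)) (by positivity)
            (integral_nonneg fun _ => by positivity)
      _ ≤ _ := hmid
      _ ≤ _ := by gcongr
  have k2 : 1 + 1 / (14400 * (L : ℝ) ^ 2) ≤ c ^ 2 / (a * b) := by
    rw [le_div_iff₀ (by positivity)]
    have e1 : (1 / (15 * (L : ℝ))) ^ 2 ≤ (b - a) ^ 2 := by gcongr; linarith
    have e2 : 1 / (14400 * (L : ℝ) ^ 2) * (a * b) ≤ 1 / (14400 * (L : ℝ) ^ 2) * (4 * 4) := by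
      gcongr; linarith
    have e3 : 1 / (14400 * (L : ℝ) ^ 2) * (4 * 4) = (1 / (15 * (L : ℝ))) ^ 2 / 4 := by
      field_simp; norm_num
    rw [hcdef]
    nlinarith
  have k3 : ((L : ℝ) ^ 2 / 14400) ^ 5 ≤ (c ^ 2 / (a * b)) ^ l := by
    calc _ ≤ ((1 + 1 / (14400 * (L : ℝ) ^ 2)) ^ (L ^ 4)) ^ 5 := by
          gcongr
          refine le_trans ?_ (one_add_mul_le_pow (le_trans (by norm_num) (by positivity :
            (0 : ℝ) ≤ 1 / (14400 * (L : ℝ) ^ 2))) _)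
          push_cast
          rw [show (L : ℝ) ^ 4 * (1 / (14400 * (L : ℝ) ^ 2)) = (L : ℝ) ^ 2 / 14400 by field_simp]
          linarith
      _ ≤ _ := by rw [← pow_mul]; gcongr
  have k4 : (m / 6) ^ 2 * (c ^ 2 / (a * b)) ^ l ≤ 4 := by
    have e1 : (u / a) ^ l * (u / b) ^ l = (c ^ 2 / (a * b)) ^ l * ((u / c) ^ l) ^ 2 := by
      rw [← pow_mul, mul_comm l 2, pow_mul (u / c), ← mul_pow, ← mul_pow]
      congr 1
      field_simp
    have e2 : 0 < ((u / c) ^ l) ^ 2 := by positivity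
    refine le_of_mul_le_mul_right ?_ e2
    calc _ = m / 6 * (u / a) ^ l * (m / 6 * (u / b) ^ l) := by rw [mul_assoc, ← e1]; ring
      _ ≤ _ := k1
      _ = _ := by ring
  have k5 : (m / 6) ^ 2 * ((L : ℝ) ^ 2 / 14400) ^ 5 ≤ 4 := le_trans (by gcongr) k4
  rw [show (m / 6) ^ 2 * ((L : ℝ) ^ 2 / 14400) ^ 5 = (L : ℝ) ^ 2 / (4800 ^ 2 * 14400 ^ 5) by
    rw [hm]; field_simp; norm_num, div_le_iff₀ (by norm_num)] at k5
  have k6 : ((10 : ℝ) ^ 15) ^ 2 ≤ (L : ℝ) ^ 2 := by gcongr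
  norm_num at k5 k6
  linarith

lemma shell {ι : Type*} [Fintype ι] [DecidableEq ι] (ν : Measure (ι → ℝ))
    [IsProbabilityMeasure ν] (hν : Iso ν) (hc : LCM ν) (L : ℕ) (hL : 10 ^ 15 ≤ L)
    (hn : (L : ℝ) ^ 20 ≤ Real.log (Fintype.card ι)) :
    ∃ s : ℝ, 1 / 5 ≤ s ∧ s ≤ 4 ∧ 1 / 8 ≤ ν.real {x | s ≤ sw (1 / (L : ℝ) ^ 6) x ∧
      sw (1 / (L : ℝ) ^ 6) x ≤ s * (1 + 1 / L)} := by
  classical
  have hL' : (10 : ℝ) ^ 15 ≤ L := by exact_mod_cast hL
  have hL5 : (5 : ℝ) ≤ L := by linarith [show (5 : ℝ) ≤ 10 ^ 15 by norm_num]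
  have hL0 : (0 : ℝ) < L := by linarith
  have hn0 : 0 < Fintype.card ι := by
    by_contra h
    rw [show Fintype.card ι = 0 by omega, Nat.cast_zero, Real.log_zero] at hn
    linarith [pow_pos hL0 20]
  have hn0' : (0 : ℝ) < Fintype.card ι := by exact_mod_cast hn0
  have hB := borell hc (Fintype.card ι) hn0'
    (integrable_finsetSum _ fun i _ => by simpa only [sq] using (hν i i).1) (by
      rw [integral_finsetSum _ fun i _ => by simpa only [sq] using (hν i i).1]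
      simp [sq, (hν _ _).2])
  set σ : ℝ := 1 / (L : ℝ) ^ 6 with hσ
  have hσ0 : 0 < σ := by positivity
  have hσ1 : σ ≤ 1 := by
    rw [hσ, div_le_one (by positivity)]; exact one_le_pow₀ (by linarith)
  set l := 5 * L ^ 4 with hl
  have hl' : (l : ℝ) = 5 * (L : ℝ) ^ 4 := by rw [hl]; push_cast; ring
  have hl0 : 0 < l := by positivity
  have hl0' : (0 : ℝ) < l := by exact_mod_cast hl0
  let E : ℕ → Set (ι → ℝ) := fun j => {x | ⌊5 * l * sw σ x⌋₊ = j}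
  have hE : ∀ j, MeasurableSet (E j) := fun j =>
    (Nat.measurable_floor.comp ((sw_meas σ).const_mul _)) (measurableSet_singleton j)
  have hE' : ∀ j, l ≤ j → ∀ x ∈ E j, (j : ℝ) / (5 * l) ≤ sw σ x ∧
      sw σ x ≤ j / (5 * l) * (1 + 1 / (5 * (L : ℝ) ^ 4)) := by
    intro j hj x hx
    have hx' : ⌊5 * l * sw σ x⌋₊ = j := hx
    have h0 : 0 ≤ sw σ x := Real.sqrt_nonneg _
    rw [Nat.floor_eq_iff (by positivity)] at hx'
    have hj' : (l : ℝ) ≤ j := by exact_mod_cast hj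
    refine ⟨by rw [div_le_iff₀ (by positivity)]; linarith, ?_⟩
    rw [← hl', div_mul_eq_mul_div, le_div_iff₀ (by positivity), mul_add, mul_one_div]
    have := (one_le_div hl0').2 hj'
    linarith
  set m : ℝ := 1 / (800 * (L : ℝ) ^ 4) with hm
  let Hv := (Icc l (20 * l)).filter fun j => m ≤ ν.real (E j)
  let Lt := (Icc l (20 * l)).filter fun j => ¬ m ≤ ν.real (E j)
  have h1 : ν.real (⋃ j ∈ Lt, E j) ≤ 1 / 8 := by
    refine (measureReal_biUnion_finset_le _ _).trans ((sum_le_card_nsmul _ _ m fun j hj =>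
      (not_le.1 (mem_filter.1 hj).2).le).trans ?_)
    have : Lt.card ≤ 20 * l := (card_filter_le _ _).trans (by rw [Nat.card_Icc]; omega)
    have : (Lt.card : ℝ) ≤ 20 * l := by exact_mod_cast this
    rw [nsmul_eq_mul]
    calc _ ≤ 20 * l * m := by gcongr
      _ = _ := by rw [hl', hm]; field_simp; norm_num
  have h2 : 1 / 8 ≤ ν.real (⋃ j ∈ Hv, E j) := by
    have : ν.real {x : ι → ℝ | (Fintype.card ι : ℝ) / 25 ≤ ∑ i, x i ^ 2 ∧
        ∑ i, x i ^ 2 ≤ 12 * (Fintype.card ι : ℝ)} ≤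
        ν.real (⋃ j ∈ Hv, E j) + ν.real (⋃ j ∈ Lt, E j) := by
      refine le_trans (measureReal_mono fun x hx => ?_) (measureReal_union_le _ _)
      obtain ⟨hx1, hx2⟩ := hx
      have e1 : 1 / 5 ≤ sw σ x := by
        refine Real.le_sqrt_of_sq_le ?_
        have : 1 / 25 ≤ (∑ i, x i ^ 2) / (Fintype.card ι : ℝ) := by
          rw [le_div_iff₀ hn0']; linarith
        nlinarith
      have e2 : sw σ x ≤ 4 := by
        refine Real.sqrt_le_iff.2 ⟨by norm_num, ?_⟩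
        have : (∑ i, x i ^ 2) / (Fintype.card ι : ℝ) ≤ 12 := by
          rw [div_le_iff₀ hn0']; linarith
        nlinarith
      have e3 : ⌊5 * l * sw σ x⌋₊ ∈ Icc l (20 * l) := by
        rw [mem_Icc]
        refine ⟨Nat.le_floor (by nlinarith), Nat.floor_le_of_le (by push_cast; nlinarith)⟩
      by_cases h : m ≤ ν.real (E ⌊5 * l * sw σ x⌋₊)
      · exact Or.inl (Set.mem_biUnion (mem_coe.2 (mem_filter.2 ⟨e3, h⟩)) rfl)
      · exact Or.inr (Set.mem_biUnion (mem_coe.2 (mem_filter.2 ⟨e3, h⟩)) rfl)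
    linarith
  have hne : Hv.Nonempty := by
    rw [nonempty_iff_ne_empty]
    rintro h
    rw [h] at h2
    norm_num at h2
  have hj0 := mem_filter.1 (Hv.min'_mem hne)
  set j0 := Hv.min' hne with hj0def
  have hr : ∀ j ∈ Icc l (20 * l), 1 / 5 ≤ (j : ℝ) / (5 * l) ∧ (j : ℝ) / (5 * l) ≤ 4 := by
    intro j hj
    have e1 : (l : ℝ) ≤ j := by exact_mod_cast (mem_Icc.1 hj).1
    have e2 : (j : ℝ) ≤ 20 * l := by exact_mod_cast (mem_Icc.1 hj).2
    rw [le_div_iff₀ (by positivity), div_le_iff₀ (by positivity)]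
    constructor <;> linarith
  refine ⟨j0 / (5 * l), (hr _ hj0.1).1, (hr _ hj0.1).2, h2.trans (measureReal_mono ?_)⟩
  refine Set.iUnion₂_subset fun j hj x hx => ?_
  have hj' := mem_filter.1 hj
  obtain ⟨h3, h4⟩ := hE' j (mem_Icc.1 hj'.1).1 x hx
  have h5 : (j0 : ℝ) ≤ j := by exact_mod_cast Hv.min'_le j hj
  refine ⟨le_trans (by gcongr) h3, h4.trans ?_⟩
  have h6 : (j : ℝ) / (5 * l) ≤ j0 / (5 * l) * (1 + 1 / (3 * L)) := by
    by_contra hcon
    refine shell_pair ν hν hc L hL hn _ _ (hr _ hj0.1).1 (hr _ hj'.1).2 (not_le.1 hcon).le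
      (fun r => E ⌊5 * l * r⌋₊) (fun _ => hE _) ?_
    have e : ∀ i : ℕ, ⌊5 * l * ((i : ℝ) / (5 * l))⌋₊ = i := fun i => by
      rw [mul_div_cancel₀ _ (by positivity), Nat.floor_natCast]
    rintro r (rfl | rfl)
    · simp only [e]
      exact ⟨hj0.2, hE' _ (mem_Icc.1 hj0.1).1⟩
    · simp only [e]
      exact ⟨hj'.2, hE' _ (mem_Icc.1 hj'.1).1⟩
  have h7 : 1 / (5 * (L : ℝ) ^ 4) ≤ 1 / (3 * L) := by
    refine one_div_le_one_div_of_le (by positivity) ?_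
    nlinarith [le_self_pow₀ (by linarith : (1 : ℝ) ≤ L) (by norm_num : 4 ≠ 0)]
  have h8 : (1 + 1 / (3 * (L : ℝ))) * (1 + 1 / (3 * L)) ≤ 1 + 1 / L := by
    have e1 : 1 / (L : ℝ) = 3 * (1 / (3 * L)) := by field_simp
    have e2 : 1 / (3 * (L : ℝ)) ≤ 1 := by rw [div_le_one (by positivity)]; linarith
    have e3 : 0 ≤ 1 / (3 * (L : ℝ)) := by positivity
    rw [e1]
    nlinarith
  calc _ ≤ j0 / (5 * l) * (1 + 1 / (3 * L)) * (1 + 1 / (3 * (L : ℝ))) := by gcongr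
    _ ≤ _ := by rw [mul_assoc]; gcongr

lemma clt_core {ι β : Type*} [Fintype ι] [DecidableEq ι] [Fintype β] (ν : Measure (ι → ℝ))
    [IsProbabilityMeasure ν] (hν : Iso ν) (hc : LCM ν) (L : ℕ) (hL : 10 ^ 15 ≤ L)
    (hn : (L : ℝ) ^ 20 ≤ Real.log (Fintype.card ι)) (hk : 0 < Fintype.card β)
    (hkL : Fintype.card β ≤ L) :
    ∃ l : ℝ, (L : ℝ) ^ 6 / 5 ≤ l ∧ l ≤ 4 * (L : ℝ) ^ 6 ∧ ∃ P : β → ι → ℝ, ∀ z : β → ℤ,
      (∀ i, |z i| ≤ 2 * (L : ℤ) ^ 3) →
      1 / 24 * ((1 / l) ^ Fintype.card β * Real.exp (-(∑ i, ((z i : ℝ) / L ^ 2) ^ 2) / 2)) -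
        Real.exp (-(L : ℝ) ^ 10) ≤
      ∫ x, Real.exp (-(l ^ 2 * ∑ i, ((z i : ℝ) / L ^ 2 - ∑ j, P i j * x j) ^ 2) / 2) ∂ν := by
  classical
  have hL' : (10 : ℝ) ^ 15 ≤ L := by exact_mod_cast hL
  have hL5 : (5 : ℝ) ≤ L := by linarith [show (5 : ℝ) ≤ 10 ^ 15 by norm_num]
  have hL0 : (0 : ℝ) < L := by linarith
  have hkL' : (Fintype.card β : ℝ) ≤ L := by exact_mod_cast hkL
  obtain ⟨s, hs1, hs2, hs⟩ := shell ν hν hc L hL hn
  have hs0 : 0 < s := by linarith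
  obtain ⟨G, hG⟩ := conc2 (J := β) (W := β → ℤ) ν hν L hL5 hn hk
    (hkL'.trans (le_self_pow₀ (by linarith) (by norm_num)))
    (Fintype.piFinset fun _ : β => Icc (-(2 * (L : ℤ) ^ 3)) (2 * (L : ℤ) ^ 3)) (by
      rw [Fintype.card_piFinset, prod_const, card_univ, Int.card_Icc]
      have e1 : ((2 * (L : ℤ) ^ 3 + 1 - -(2 * (L : ℤ) ^ 3)).toNat : ℝ) = 4 * (L : ℝ) ^ 3 + 1 := by
        rw [show 2 * (L : ℤ) ^ 3 + 1 - -(2 * (L : ℤ) ^ 3) = ((4 * L ^ 3 + 1 : ℕ) : ℤ) by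
          push_cast; ring, Int.toNat_natCast]
        push_cast; ring
      push_cast
      rw [e1]
      calc _ ≤ Real.exp (4 * (L : ℝ) ^ 3) ^ Fintype.card β := by
            gcongr; exact Real.add_one_le_exp _
        _ ≤ _ := by
            rw [← Real.exp_nat_mul]
            refine Real.exp_le_exp.2 ?_
            calc _ ≤ L * (L * (L : ℝ) ^ 3) := by gcongr; linarith
              _ = _ := by ring)
    fun z i => s * ((z i : ℝ) / L ^ 2)
  refine ⟨s * (L : ℝ) ^ 6, by nlinarith [pow_pos hL0 6], by gcongr,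
    fun i j => G (i, j) / (s * √(Fintype.card ι)), fun z hz => ?_⟩
  have h1 := (abs_le.1 (hG z (Fintype.mem_piFinset.2 fun i => mem_Icc.2 (abs_le.1 (hz i))))).1
  have hm := sw_meas (ι := ι) (1 / (L : ℝ) ^ 6)
  have h2 := HH_ge ν (1 / (L : ℝ) ^ 6) (by positivity) (fun i => s * ((z i : ℝ) / L ^ 2)) s
    (s * (1 + 1 / L)) hs0 _ ((measurableSet_le measurable_const hm).inter
      (measurableSet_le hm measurable_const)) fun x hx => hx
  have h3 : (1 / (s * (L : ℝ) ^ 6)) ^ Fintype.card β / 3 ≤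
      (1 / (L : ℝ) ^ 6 / (s * (1 + 1 / L))) ^ Fintype.card β := by
    rw [show 1 / (L : ℝ) ^ 6 / (s * (1 + 1 / L)) = 1 / (s * (L : ℝ) ^ 6) / (1 + 1 / L) by
      field_simp, div_pow (1 / _)]
    gcongr
    exact one_add_pow_le (by positivity) (by rw [mul_one_div, div_le_one hL0]; exact hkL')
  have h4 : -(∑ i, (s * ((z i : ℝ) / L ^ 2)) ^ 2) / (2 * s ^ 2) =
      -(∑ i, ((z i : ℝ) / L ^ 2) ^ 2) / 2 := by
    simp only [mul_pow, ← mul_sum]; field_simp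
  rw [h4] at h2
  have h5 : gG ν (1 / (L : ℝ) ^ 6) G (fun i => s * ((z i : ℝ) / L ^ 2)) =
      ∫ x, Real.exp (-((s * (L : ℝ) ^ 6) ^ 2 * ∑ i, ((z i : ℝ) / L ^ 2 -
        ∑ j, G (i, j) / (s * √(Fintype.card ι)) * x j) ^ 2) / 2) ∂ν := by
    refine integral_congr_ae (ae_of_all _ fun x => ?_)
    simp only
    congr 3
    rw [mul_sum]
    refine sum_congr rfl fun i _ => ?_
    rw [← mul_pow]
    congr 1
    simp only [div_mul_eq_mul_div, ← sum_div]
    field_simp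
  rw [← h5]
  have h6 : 1 / 8 * ((1 / (s * (L : ℝ) ^ 6)) ^ Fintype.card β / 3 *
      Real.exp (-(∑ i, ((z i : ℝ) / L ^ 2) ^ 2) / 2)) ≤ _ :=
    le_trans (mul_le_mul hs (mul_le_mul_of_nonneg_right h3 (Real.exp_pos _).le) (by positivity)
      measureReal_nonneg) h2
  linarith

end Crest.Agent.LC
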