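import Crest.Agent.LC.Defs
import Crest.Agent.LC.CLT3
import Crest.Agent.LC.CLT5

/-! Gaussian lower bound for a low-dimensional marginal of a convex body. -/

set_option autoImplicit false

namespace Crest.Agent.LC

open MeasureTheory ProbabilityTheory Finset

lemma clt_num (L l : ℝ) (k : ℕ) (hL : 5 ≤ L) (hk : (k : ℝ) ≤ L) (hl1 : L ^ 6 / 5 ≤ l)
    (hl2 : l ≤ 4 * L ^ 6) (W : ℝ) (hW : W ≤ 4 * L ^ 3) :
    Real.exp (-(l ^ 2 * (1 / L ^ 2) ^ 2) / 2) + Real.exp (-L ^ 10) <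
      1 / 48 * ((1 / l) ^ k * Real.exp (-W / 2)) := by
  have hL0 : 0 < L := by linarith
  have hl0 : 0 < l := lt_of_lt_of_le (by positivity) hl1
  have a1 : 5 ^ 2 ≤ L ^ 2 := by gcongr
  have a2 : 5 * L ^ 2 ≤ L ^ 3 := by nlinarith
  have a3 : 5 ^ 5 ≤ L ^ 5 := by gcongr
  have a4 : 3125 * L ^ 3 ≤ L ^ 8 := by nlinarith
  have a5 : L ^ 8 ≤ L ^ 10 := by nlinarith
  have e1 : Real.exp (-(l ^ 2 * (1 / L ^ 2) ^ 2) / 2) ≤ Real.exp (-L ^ 8 / 50) := by
    refine Real.exp_le_exp.2 ?_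
    have : L ^ 8 / 25 ≤ l ^ 2 * (1 / L ^ 2) ^ 2 := by
      calc _ = (L ^ 6 / 5) ^ 2 * (1 / L ^ 2) ^ 2 := by field_simp; norm_num
        _ ≤ _ := by gcongr
    linarith
  have e2 : Real.exp (-L ^ 10) ≤ Real.exp (-L ^ 8 / 50) := Real.exp_le_exp.2 (by linarith)
  have e3 : Real.exp (-((7 : ℕ) * L)) ≤ 1 / l := by
    refine (exp_le_inv_pow hL0 7).trans (one_div_le_one_div_of_le hl0 ?_)
    nlinarith [pow_pos hL0 6]
  have e4 : Real.exp (-(7 * L ^ 2) - 2 * L ^ 3) ≤ (1 / l) ^ k * Real.exp (-W / 2) := by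
    calc _ ≤ Real.exp (-((7 : ℕ) * L)) ^ k * Real.exp (-W / 2) := by
          rw [← Real.exp_nat_mul, ← Real.exp_add]
          refine Real.exp_le_exp.2 ?_
          push_cast
          nlinarith
      _ ≤ _ := by gcongr
  have e5 : Real.exp (-L ^ 8 / 50) * 97 ≤ Real.exp (-(7 * L ^ 2) - 2 * L ^ 3) := by
    calc _ ≤ Real.exp (-L ^ 8 / 50) * Real.exp 96 := by
          gcongr; linarith [Real.add_one_le_exp 96]
      _ ≤ _ := by rw [← Real.exp_add]; exact Real.exp_le_exp.2 (by linarith)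
  have := Real.exp_pos (-L ^ 8 / 50)
  linarith

lemma clt_main {α β : Type} [Fintype α] [DecidableEq α] [Fintype β] [DecidableEq β] (L : ℕ)
    (hL : 10 ^ 15 ≤ L) (hn : (L : ℝ) ^ 20 ≤ Real.log (Fintype.card (α ⊕ β)))
    (hk : 0 < Fintype.card β) (hkL : Fintype.card β ≤ L) (K : Set (α ⊕ β → ℝ))
    (hK : IsCompact K) (hKc : Convex ℝ K) (hK0 : volume K ≠ 0) :
    ∃ A : Matrix (α ⊕ β) (α ⊕ β) ℝ, A.det ≠ 0 ∧
      ∀ y : β → ℝ, (∀ i, |y i| ≤ (Fintype.card β : ℝ)) →
        Real.exp (-4) / 48 * (volume (A.mulVec '' K)).toReal * ∏ i, gau (y i) ≤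
          (volume {a : α → ℝ | Sum.elim a y ∈ A.mulVec '' K}).toReal := by
  have hL' : (10 : ℝ) ^ 15 ≤ L := by exact_mod_cast hL
  have hL5 : (5 : ℝ) ≤ L := by linarith [show (5 : ℝ) ≤ 10 ^ 15 by norm_num]
  have hL0 : (0 : ℝ) < L := by linarith
  have hkL' : (Fintype.card β : ℝ) ≤ L := by exact_mod_cast hkL
  haveI := cond_isProbabilityMeasure_of_finite hK0 hK.measure_lt_top.ne
  obtain ⟨B, hB⟩ := exists_iso hK hK0
  have hBm : Measurable B.mulVec := by fun_prop
  haveI : IsProbabilityMeasure ((volume[|K]).map B.mulVec) :=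
    Measure.isProbabilityMeasure_map hBm.aemeasurable
  obtain ⟨l, hl1, hl2, P, hP⟩ := clt_core (β := β) ((volume[|K]).map B.mulVec)
    (fun i j => ⟨(integrable_map_measure (Measurable.aestronglyMeasurable (by fun_prop))
      hBm.aemeasurable).2 (cond_integrable hK hK0 (by fun_prop)), hB i j⟩)
    ((lcm_cond hK.measurableSet hKc).map B) L hL hn hk hkL
  have hl0 : 0 < l := lt_of_lt_of_le (by positivity) hl1
  obtain ⟨A, hA, hAP⟩ := exists_perturb (volume[|K])
    (Fintype.piFinset fun _ : β => Icc (-(2 * (L : ℤ) ^ 3)) (2 * (L : ℤ) ^ 3))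
    (fun (z : β → ℤ) x => Real.exp (-(l ^ 2 * ∑ i, ((z i : ℝ) / L ^ 2 - x (Sum.inr i)) ^ 2) / 2))
    (fun _ => by fun_prop) (fun z x => by
      rw [Real.norm_of_nonneg (Real.exp_pos _).le, Real.exp_le_one_iff]
      have : 0 ≤ l ^ 2 * ∑ i, ((z i : ℝ) / L ^ 2 - x (Sum.inr i)) ^ 2 := by positivity
      linarith)
    (fun z => 1 / 48 * ((1 / l) ^ Fintype.card β *
      Real.exp (-(∑ i, ((z i : ℝ) / L ^ 2) ^ 2) / 2)) +
        Real.exp (-(l ^ 2 * (1 / (L : ℝ) ^ 2) ^ 2) / 2))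
    (Matrix.of (Sum.elim 0 P) * B) (by
      intro z hz
      have hz' : ∀ i, |z i| ≤ 2 * (L : ℤ) ^ 3 := fun i =>
        abs_le.2 (mem_Icc.1 (Fintype.mem_piFinset.1 hz i))
      have h1 := hP z hz'
      rw [integral_map hBm.aemeasurable (Measurable.aestronglyMeasurable (by fun_prop))] at h1
      have h2 := clt_num L l _ hL5 hkL' hl1 hl2 (∑ i, ((z i : ℝ) / L ^ 2) ^ 2) (by
        refine (sum_le_card_nsmul _ _ ((2 * (L : ℝ)) ^ 2) fun i _ => ?_).trans ?_
        · rw [← sq_abs, abs_div, abs_of_pos (by positivity : (0 : ℝ) < (L : ℝ) ^ 2)]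
          gcongr
          rw [div_le_iff₀ (by positivity)]
          have : (|(z i : ℝ)|) ≤ 2 * (L : ℝ) ^ 3 := by exact_mod_cast hz' i
          linarith
        · rw [card_univ, nsmul_eq_mul]
          calc _ ≤ L * (2 * (L : ℝ)) ^ 2 := by gcongr
            _ = _ := by ring)
      simp only [← Matrix.mulVec_mulVec]
      refine lt_of_lt_of_le (by linarith) h1)
  refine ⟨A, hA, fun y hy => ?_⟩
  have hK' : IsCompact (A.mulVec '' K) := hK.image (by fun_prop)
  have hK'c : Convex ℝ (A.mulVec '' K) := hKc.linear_image (Matrix.mulVecLin A)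
  have hgau : ∏ i, gau (y i) =
      (1 / √(2 * Real.pi)) ^ Fintype.card β * Real.exp (-(∑ i, y i ^ 2) / 2) := by
    simp only [gau]
    rw [prod_div_distrib, prod_const, card_univ, ← Real.exp_sum, ← sum_div, sum_neg_distrib,
      one_div_pow]
    ring
  have hy' := sign_mem (sec_convex hK'.measurableSet hK'c (ENNReal.ofReal
    ((Real.exp (-4) / 48 * ∏ i, gau (y i)) * (volume (A.mulVec '' K)).toReal))) y (by
      intro ε
      let z : β → ℤ := fun i => if ε i then ⌊(L : ℝ) ^ 2 * y i⌋ + 2 else ⌊(L : ℝ) ^ 2 * y i⌋ - 1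
      have hL2 : (0 : ℝ) < (L : ℝ) ^ 2 := by positivity
      have hz1 : ∀ i, if ε i then y i + 1 / L ^ 2 ≤ (z i : ℝ) / L ^ 2
          else (z i : ℝ) / L ^ 2 + 1 / L ^ 2 ≤ y i := by
        intro i
        have e1 := Int.floor_le ((L : ℝ) ^ 2 * y i)
        have e2 := Int.lt_floor_add_one ((L : ℝ) ^ 2 * y i)
        simp only [z]
        split_ifs
        · rw [← le_sub_iff_add_le, ← sub_div, le_div_iff₀ hL2]; push_cast; linarith
        · rw [← add_div, div_le_iff₀ hL2]; push_cast; linarith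
      have hz2 : ∀ i, |(z i : ℝ) - L ^ 2 * y i| ≤ 2 := by
        intro i
        have e1 := Int.floor_le ((L : ℝ) ^ 2 * y i)
        have e2 := Int.lt_floor_add_one ((L : ℝ) ^ 2 * y i)
        simp only [z]
        split_ifs <;> push_cast <;> rw [abs_le] <;> constructor <;> linarith
      have hz3 : ∀ i, |z i| ≤ 2 * (L : ℤ) ^ 3 := by
        intro i
        have e1 := abs_add_le ((z i : ℝ) - L ^ 2 * y i) (L ^ 2 * y i)
        rw [sub_add_cancel, abs_mul, abs_of_pos hL2] at e1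
        have e2 : (L : ℝ) ^ 2 * |y i| ≤ L ^ 2 * L := by gcongr; exact (hy i).trans hkL'
        have e3 : (5 : ℝ) ^ 3 ≤ (L : ℝ) ^ 3 := by gcongr
        have : (|(z i : ℝ)|) ≤ 2 * (L : ℝ) ^ 3 := by nlinarith [hz2 i]
        exact_mod_cast this
      have hz4 : ∑ i, ((z i : ℝ) / L ^ 2) ^ 2 ≤ ∑ i, y i ^ 2 + 8 := by
        have e : ∀ i, ((z i : ℝ) / L ^ 2) ^ 2 ≤ y i ^ 2 + 8 / L := by
          intro i
          set d := ((z i : ℝ) - L ^ 2 * y i) / L ^ 2 with hd
          have e1 : (z i : ℝ) / L ^ 2 = y i + d := by rw [hd]; field_simp; ring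
          have e2 : |d| ≤ 2 / L ^ 2 := by
            rw [hd, abs_div, abs_of_pos hL2]; gcongr; exact hz2 i
          have e3 : y i * d ≤ L * (2 / L ^ 2) := by
            refine (le_abs_self _).trans ?_
            rw [abs_mul]; gcongr; exact (hy i).trans hkL'
          have e4 : d ^ 2 ≤ (2 / L ^ 2) ^ 2 := by rw [← sq_abs]; gcongr
          have e5 : (L : ℝ) * (2 / L ^ 2) = 2 / L := by field_simp
          have e6 : (2 / (L : ℝ) ^ 2) ^ 2 ≤ 4 / L := by
            rw [div_pow, ← pow_mul]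
            refine div_le_div₀ (by norm_num) (by norm_num) hL0 ?_
            exact le_self_pow₀ (by linarith) (by norm_num)
          have e7 : (8 : ℝ) / L = 2 * (2 / L) + 4 / L := by ring
          rw [e1]
          nlinarith
        refine (sum_le_sum fun i _ => e i).trans ?_
        rw [sum_add_distrib, sum_const, card_univ, nsmul_eq_mul, mul_div_assoc']
        gcongr
        rw [div_le_iff₀ hL0]; linarith
      obtain ⟨z', hz', hz''⟩ := desmooth hK hK0 A hA l (1 / L ^ 2)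
        (Real.exp (-4) / 48 * ∏ i, gau (y i)) hl0 (by positivity) (by rw [hgau]; positivity)
        (fun i => (z i : ℝ) / L ^ 2) (by
          refine lt_of_le_of_lt ?_ (hAP z (Fintype.mem_piFinset.2 fun i =>
            mem_Icc.2 (abs_le.1 (hz3 i))))
          refine add_le_add ?_ le_rfl
          rw [hgau]
          calc _ = 1 / 48 * ((1 / √(2 * Real.pi) * (√(2 * Real.pi) / l)) ^ Fintype.card β *
                (Real.exp (-4) * Real.exp (-(∑ i, y i ^ 2) / 2))) := by rw [mul_pow]; ring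
            _ ≤ _ := by
                rw [show 1 / √(2 * Real.pi) * (√(2 * Real.pi) / l) = 1 / l by field_simp,
                  ← Real.exp_add]
                gcongr
                linarith)
      refine ⟨z', hz'', fun i => ?_⟩
      have e1 := hz1 i
      have e2 := abs_le.1 (hz' i)
      split_ifs at e1 ⊢ <;> linarith [e2.1, e2.2])
  rw [mul_right_comm]
  refine (ENNReal.ofReal_le_iff_le_toReal ?_).1 hy'
  obtain ⟨r, hr⟩ := hK'.isBounded.subset_closedBall 0
  refine ((measure_mono (t := Metric.closedBall 0 r) fun a ha => ?_).trans_lt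
    measure_closedBall_lt_top).ne
  have h1 := hr ha
  have hr0 : 0 ≤ r := le_trans dist_nonneg (Metric.mem_closedBall.1 h1)
  rw [mem_closedBall_zero_iff, pi_norm_le_iff_of_nonneg hr0] at h1 ⊢
  exact fun i => h1 (Sum.inl i)

theorem clt : CLTStmt := by
  obtain ⟨L₀, hL₀⟩ : ∃ L₀ : ℕ, 10 ^ 15 ≤ L₀ := ⟨_, le_rfl⟩
  obtain ⟨n₀, hn₀⟩ := exists_nat_ge (Real.exp ((L₀ : ℝ) ^ 20))
  refine ⟨Real.exp (-4) / 48, by positivity, n₀, fun α β _ _ _ _ hn hk hkn K hK hKc hKi => ?_⟩
  refine clt_main (max (Fintype.card β) L₀) (hL₀.trans (le_max_right _ _)) ?_ hk (le_max_left _ _)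
    K hK hKc (Measure.measure_pos_of_nonempty_interior _ hKi).ne'
  rw [Fintype.card_sum]
  rcases le_total (Fintype.card β) L₀ with h | h
  · rw [max_eq_right h]
    have : (n₀ : ℝ) ≤ (Fintype.card α + Fintype.card β : ℕ) := by exact_mod_cast hn
    exact (Real.le_log_iff_exp_le ((Real.exp_pos _).trans_le (hn₀.trans this))).2 (hn₀.trans this)
  · rwa [max_eq_left h]

end Crest.Agent.LC
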