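import Mathlib

/-! Gaussian integrals and a variance bound for random trigonometric averages. -/

set_option autoImplicit false

namespace Crest.Agent.LC

open MeasureTheory ProbabilityTheory Finset

/-- the standard Gaussian product measure -/
noncomputable def gm (J : Type*) [Fintype J] : Measure (J → ℝ) :=
  Measure.pi fun _ => gaussianReal 0 1

instance (J : Type*) [Fintype J] : IsProbabilityMeasure (gm J) := by
  unfold gm; infer_instance

lemma gi1 (a b : ℝ) (hb : 0 ≤ b) :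
    ∫ z, Complex.exp (((-b * z ^ 2 : ℝ) : ℂ) + (a * z : ℝ) * Complex.I) ∂(gaussianReal 0 1) =
      (((√(1 + 2 * b))⁻¹ * Real.exp (-a ^ 2 / (2 * (1 + 2 * b))) : ℝ) : ℂ) := by
  rw [integral_gaussianReal_eq_integral_smul one_ne_zero]
  have h1 : ∀ z : ℝ, gaussianPDFReal 0 1 z •
      Complex.exp (((-b * z ^ 2 : ℝ) : ℂ) + (a * z : ℝ) * Complex.I) =
      (((√(2 * Real.pi))⁻¹ : ℝ) : ℂ) *
        Complex.exp (((-(b + 1 / 2) : ℝ) : ℂ) * z ^ 2 + (a * Complex.I) * z + 0) := by
    intro z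
    rw [Complex.real_smul, gaussianPDFReal]
    push_cast
    rw [mul_assoc, ← Complex.exp_add]
    simp only [mul_one, sub_zero]
    congr 2
    ring
  simp_rw [h1]
  rw [integral_const_mul, integral_cexp_quadratic (by rw [Complex.ofReal_re]; linarith)]
  have h2 : ((Real.pi : ℂ) / -((-(b + 1 / 2) : ℝ) : ℂ)) ^ (1 / 2 : ℂ) =
      ((√(Real.pi / (b + 1 / 2)) : ℝ) : ℂ) := by
    rw [Real.sqrt_eq_rpow, Complex.ofReal_cpow (by positivity)]
    push_cast
    simp
  rw [h2]
  have h3 : (0 : ℂ) - (a * Complex.I) ^ 2 / (4 * ((-(b + 1 / 2) : ℝ) : ℂ)) =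
      ((-a ^ 2 / (2 * (1 + 2 * b)) : ℝ) : ℂ) := by
    rw [mul_pow, Complex.I_sq]
    push_cast
    have h : (1 : ℂ) + 2 * b ≠ 0 := by exact_mod_cast (by positivity : 1 + 2 * b ≠ 0)
    rw [show (4 : ℂ) * -(b + 1 / 2) = -(2 * (1 + 2 * b)) by ring]
    field_simp
    ring
  rw [h3, ← Complex.ofReal_exp, ← mul_assoc, ← Complex.ofReal_mul, ← Complex.ofReal_mul]
  congr 2
  rw [← Real.sqrt_inv, ← Real.sqrt_inv, ← Real.sqrt_mul (by positivity)]
  congr 1
  field_simp
  ring

lemma gi {J : Type*} [Fintype J] (θ b : ℝ) (hb : 0 ≤ b) (a : J → ℝ) :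
    ∫ z, Real.cos (θ + ∑ j, a j * z j) * Real.exp (-b * ∑ j, z j ^ 2) ∂(gm J) =
      Real.cos θ * ((√(1 + 2 * b))⁻¹ ^ Fintype.card J *
        Real.exp (-(∑ j, a j ^ 2) / (2 * (1 + 2 * b)))) := by
  let F : (J → ℝ) → ℂ := fun z => Complex.exp (θ * Complex.I) *
    ∏ j, Complex.exp (((-b * z j ^ 2 : ℝ) : ℂ) + (a j * z j : ℝ) * Complex.I)
  have hF : ∀ z, F z = Complex.exp (((-b * ∑ j, z j ^ 2 : ℝ) : ℂ) +
      (θ + ∑ j, a j * z j : ℝ) * Complex.I) := by
    intro z
    simp only [F]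
    rw [← Complex.exp_sum, ← Complex.exp_add, sum_add_distrib, ← sum_mul]
    push_cast
    rw [← mul_sum]
    congr 1
    ring
  have h1 : ∀ z, Real.cos (θ + ∑ j, a j * z j) * Real.exp (-b * ∑ j, z j ^ 2) = (F z).re := by
    intro z
    rw [hF, Complex.exp_re]
    simp only [Complex.add_re, Complex.ofReal_re, Complex.mul_re, Complex.I_re, mul_zero,
      Complex.ofReal_im, Complex.I_im, mul_one, sub_self, add_zero, Complex.add_im,
      Complex.mul_im, zero_add]
    ring
  have hi : Integrable F (gm J) := by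
    refine Integrable.of_bound (C := 1) (Continuous.aestronglyMeasurable (by fun_prop))
      (ae_of_all _ fun z => ?_)
    rw [hF, Complex.norm_exp]
    simp only [Complex.add_re, Complex.ofReal_re, Complex.mul_re, Complex.I_re, mul_zero,
      Complex.ofReal_im, Complex.I_im, mul_one, sub_self, add_zero]
    rw [Real.exp_le_one_iff]
    have : 0 ≤ ∑ j, z j ^ 2 := by positivity
    nlinarith
  simp_rw [h1]
  have h2 := integral_re hi
  simp only [RCLike.re_to_complex] at h2
  rw [h2]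
  simp only [F]
  rw [integral_const_mul, gm, integral_fintype_prod_eq_prod
    (fun j (z : ℝ) => Complex.exp (((-b * z ^ 2 : ℝ) : ℂ) + (a j * z : ℝ) * Complex.I))]
  simp_rw [gi1 _ _ hb]
  rw [← Complex.ofReal_prod, Complex.mul_re, Complex.ofReal_re, Complex.ofReal_im,
    Complex.exp_ofReal_mul_I_re, mul_zero, sub_zero, prod_mul_distrib, prod_const, card_univ,
    ← Real.exp_sum]
  congr 3
  rw [← sum_div, sum_neg_distrib]

lemma gi0 {J : Type*} [Fintype J] (θ : ℝ) (a : J → ℝ) :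
    ∫ z, Real.cos (θ + ∑ j, a j * z j) ∂(gm J) =
      Real.cos θ * Real.exp (-(∑ j, a j ^ 2) / 2) := by
  simpa using gi θ 0 le_rfl a

lemma gm_sq {J : Type*} [Fintype J] :
    Integrable (fun z : J → ℝ => ∑ j, z j ^ 2) (gm J) ∧
      ∫ z, ∑ j, z j ^ 2 ∂(gm J) = Fintype.card J := by
  have h0 : Integrable (fun x : ℝ => x ^ 2) (gaussianReal 0 1) :=
    (memLp_id_gaussianReal (μ := 0) (v := 1) 2).integrable_sq
  have hm : ∀ j : J, MeasurePreserving (Function.eval j) (gm J) (gaussianReal 0 1) := fun j =>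
    measurePreserving_eval _ j
  have h1 : ∀ j : J, Integrable (fun z : J → ℝ => z j ^ 2) (gm J) := fun j =>
    (hm j).integrable_comp_of_integrable h0
  have h2 : ∫ x, x ^ 2 ∂(gaussianReal 0 1) = 1 := by
    have := variance_fun_id_gaussianReal (μ := 0) (v := 1)
    rw [variance_eq_integral (by fun_prop)] at this
    simpa using this
  refine ⟨integrable_finsetSum _ fun j _ => h1 j, ?_⟩
  rw [integral_finsetSum _ fun j _ => h1 j]
  have h3 : ∀ j : J, ∫ z, z j ^ 2 ∂(gm J) = 1 := by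
    intro j
    rw [← h2, ← (hm j).map_eq, integral_map (hm j).measurable.aemeasurable (by fun_prop)]
  simp [h3]

lemma exp_lip {s t : ℝ} (hs : 0 ≤ s) (ht : 0 ≤ t) : |Real.exp (-s) - Real.exp (-t)| ≤ |s - t| := by
  wlog h : s ≤ t generalizing s t
  · rw [abs_sub_comm, abs_sub_comm s]; exact this ht hs (by linarith)
  have h1 : Real.exp (-t) = Real.exp (-s) * Real.exp (s - t) := by
    rw [← Real.exp_add]; congr 1; ring
  have h2 := Real.add_one_le_exp (s - t)
  have h3 : Real.exp (-s) ≤ 1 := Real.exp_le_one_iff.2 (by linarith)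
  have h4 : Real.exp (s - t) ≤ 1 := Real.exp_le_one_iff.2 (by linarith)
  have h5 := Real.exp_pos (-s)
  rw [abs_of_nonpos (by linarith : s - t ≤ 0), h1, abs_of_nonneg (by nlinarith)]
  nlinarith

lemma var_pt {J : Type*} [Fintype J] (a a' : ℝ) (v v' : J → ℝ) :
    ∫ G, Real.cos (a + ∑ j, v j * G j) * Real.cos (a' + ∑ j, v' j * G j) ∂(gm J) ≤
      Real.cos a * Real.exp (-(∑ j, v j ^ 2) / 2) *
        (Real.cos a' * Real.exp (-(∑ j, v' j ^ 2) / 2)) + |∑ j, v j * v' j| := by
  have h1 : ∀ G : J → ℝ, Real.cos (a + ∑ j, v j * G j) * Real.cos (a' + ∑ j, v' j * G j) =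
      (Real.cos ((a + a') + ∑ j, (v j + v' j) * G j) +
        Real.cos ((a - a') + ∑ j, (v j - v' j) * G j)) / 2 := by
    intro G
    simp only [add_mul, sub_mul, sum_add_distrib, sum_sub_distrib]
    rw [show a + a' + (∑ j, v j * G j + ∑ j, v' j * G j) =
        (a + ∑ j, v j * G j) + (a' + ∑ j, v' j * G j) by ring,
      show a - a' + (∑ j, v j * G j - ∑ j, v' j * G j) =
        (a + ∑ j, v j * G j) - (a' + ∑ j, v' j * G j) by ring, Real.cos_add (a + _),
      Real.cos_sub (a + _)]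
    ring
  have hi : ∀ (θ : ℝ) (u : J → ℝ), Integrable (fun G : J → ℝ => Real.cos (θ + ∑ j, u j * G j))
      (gm J) := fun θ u => Integrable.of_bound (C := 1)
        (Continuous.aestronglyMeasurable (by fun_prop)) (ae_of_all _ fun z => Real.abs_cos_le_one _)
  simp_rw [h1]
  rw [integral_div, integral_add (hi _ _) (hi _ _), gi0, gi0]
  set A := ∑ j, v j ^ 2
  set B := ∑ j, v' j ^ 2
  set C := ∑ j, v j * v' j
  have e1 : ∑ j, (v j + v' j) ^ 2 = A + B + 2 * C := by
    simp only [A, B, C, ← sum_add_distrib, mul_sum]; exact sum_congr rfl fun _ _ => by ring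
  have e2 : ∑ j, (v j - v' j) ^ 2 = A + B - 2 * C := by
    simp only [A, B, C, ← sum_add_distrib, mul_sum, ← sum_sub_distrib]
    exact sum_congr rfl fun _ _ => by ring
  have p1 : 0 ≤ A + B + 2 * C := by rw [← e1]; positivity
  have p2 : 0 ≤ A + B - 2 * C := by rw [← e2]; positivity
  have p3 : 0 ≤ A + B := by positivity
  rw [e1, e2]
  have l1 := exp_lip (s := (A + B + 2 * C) / 2) (t := (A + B) / 2) (by linarith) (by linarith)
  have l2 := exp_lip (s := (A + B - 2 * C) / 2) (t := (A + B) / 2) (by linarith) (by linarith)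
  rw [show (A + B + 2 * C) / 2 - (A + B) / 2 = C by ring] at l1
  rw [show (A + B - 2 * C) / 2 - (A + B) / 2 = -C by ring, abs_neg] at l2
  have e3 : Real.cos a * Real.exp (-A / 2) * (Real.cos a' * Real.exp (-B / 2)) =
      (Real.cos (a + a') + Real.cos (a - a')) / 2 * Real.exp (-((A + B) / 2)) := by
    rw [Real.cos_add, Real.cos_sub, show -((A + B) / 2) = -A / 2 + -B / 2 by ring, Real.exp_add]
    ring
  rw [e3, neg_div, neg_div]
  have k : ∀ c x : ℝ, |c| ≤ 1 → |x| ≤ |C| → c * x ≤ |C| := fun c x hc hx =>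
    (le_abs_self _).trans (by rw [abs_mul]; nlinarith [abs_nonneg c, abs_nonneg x])
  have k1 := k _ _ (Real.abs_cos_le_one (a + a')) l1
  have k2 := k _ _ (Real.abs_cos_le_one (a - a')) l2
  linarith

lemma var_le {Ω J : Type*} [MeasurableSpace Ω] [Fintype J] (Q : Measure Ω)
    [IsProbabilityMeasure Q] (a : Ω → ℝ) (v : Ω → J → ℝ) (ha : Measurable a) (hv : Measurable v)
    (D : Ω × Ω → ℝ) (hD : Integrable D (Q.prod Q))
    (hvD : ∀ ω ω', |∑ j, v ω j * v ω' j| ≤ D (ω, ω')) :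
    Integrable (fun G => (∫ ω, Real.cos (a ω + ∑ j, v ω j * G j) ∂Q -
      ∫ ω, Real.cos (a ω) * Real.exp (-(∑ j, v ω j ^ 2) / 2) ∂Q) ^ 2) (gm J) ∧
    ∫ G, (∫ ω, Real.cos (a ω + ∑ j, v ω j * G j) ∂Q -
      ∫ ω, Real.cos (a ω) * Real.exp (-(∑ j, v ω j ^ 2) / 2) ∂Q) ^ 2 ∂(gm J) ≤
      ∫ p, D p ∂(Q.prod Q) := by
  set m := ∫ ω, Real.cos (a ω) * Real.exp (-(∑ j, v ω j ^ 2) / 2) ∂Q with hm
  let h : (J → ℝ) → Ω → ℝ := fun G ω => Real.cos (a ω + ∑ j, v ω j * G j)
  have hh : Measurable (Function.uncurry h) := by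
    simp only [h, Function.uncurry_def]; fun_prop
  have hb : ∀ G ω, ‖h G ω‖ ≤ 1 := fun G ω => Real.abs_cos_le_one _
  let F : (J → ℝ) → ℝ := fun G => ∫ ω, h G ω ∂Q
  have hFm : StronglyMeasurable F := hh.stronglyMeasurable.integral_prod_right
  have hFb : ∀ G, ‖F G‖ ≤ 1 := fun G => by
    simpa using norm_integral_le_of_norm_le_const (μ := Q) (ae_of_all _ (hb G))
  have hFi : Integrable F (gm J) := Integrable.of_bound hFm.aestronglyMeasurable 1
    (ae_of_all _ hFb)
  have hF2 : Integrable (fun G => F G ^ 2) (gm J) :=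
    Integrable.of_bound (hFm.pow 2).aestronglyMeasurable 1 (ae_of_all _ fun G => by
      rw [norm_pow]; exact pow_le_one₀ (norm_nonneg _) (hFb G))
  have e1 : ∫ G, F G ∂(gm J) = m := by
    rw [integral_integral_swap (Integrable.of_bound hh.aestronglyMeasurable 1
      (ae_of_all _ fun p => hb _ _))]
    exact integral_congr_ae (ae_of_all _ fun ω => gi0 _ _)
  let u : Ω → ℝ := fun ω => Real.cos (a ω) * Real.exp (-(∑ j, v ω j ^ 2) / 2)
  have hu : Integrable u Q := Integrable.of_bound (Measurable.aestronglyMeasurable (by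
      simp only [u]; fun_prop)) 1 (ae_of_all _ fun ω => by
    rw [norm_mul, Real.norm_of_nonneg (Real.exp_pos _).le]
    refine mul_le_one₀ (Real.abs_cos_le_one _) (Real.exp_pos _).le (Real.exp_le_one_iff.2 ?_)
    have : 0 ≤ ∑ j, v ω j ^ 2 := by positivity
    linarith)
  have e2 : ∫ G, F G ^ 2 ∂(gm J) ≤ m ^ 2 + ∫ p, D p ∂(Q.prod Q) := by
    have hI : Integrable (Function.uncurry fun G (p : Ω × Ω) => h G p.1 * h G p.2)
        ((gm J).prod (Q.prod Q)) := by
      refine Integrable.of_bound (Measurable.aestronglyMeasurable ?_) 1 (ae_of_all _ fun p => ?_)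
      · simp only [h, Function.uncurry_def]; fun_prop
      · simp only [Function.uncurry_def, norm_mul]
        exact mul_le_one₀ (hb _ _) (norm_nonneg _) (hb _ _)
    calc _ = ∫ G, ∫ p : Ω × Ω, h G p.1 * h G p.2 ∂(Q.prod Q) ∂(gm J) := by
          refine integral_congr_ae (ae_of_all _ fun G => ?_)
          simp only [F]
          rw [integral_prod_mul, sq]
      _ = ∫ p : Ω × Ω, ∫ G, h G p.1 * h G p.2 ∂(gm J) ∂(Q.prod Q) := integral_integral_swap hI
      _ ≤ ∫ p : Ω × Ω, (u p.1 * u p.2 + D p) ∂(Q.prod Q) := by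
          refine integral_mono hI.integral_prod_right ((hu.mul_prod hu).add hD) fun p => ?_
          exact (var_pt _ _ _ _).trans (add_le_add le_rfl (hvD _ _))
      _ = _ := by rw [integral_add (hu.mul_prod hu) hD, integral_prod_mul, sq]
  have e3 : ∀ G, (F G - m) ^ 2 = F G ^ 2 - 2 * m * F G + m ^ 2 := fun G => by ring
  change Integrable (fun G => (F G - m) ^ 2) _ ∧ ∫ G, (F G - m) ^ 2 ∂(gm J) ≤ _
  simp_rw [e3]
  have hF3 : Integrable (fun G => F G ^ 2 - 2 * m * F G) (gm J) := hF2.sub (hFi.const_mul _)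
  refine ⟨hF3.add (integrable_const _), ?_⟩
  rw [integral_add hF3 (integrable_const _),
    integral_sub hF2 (hFi.const_mul _), integral_const_mul, e1]
  simp only [integral_const, probReal_univ, smul_eq_mul, one_mul]
  linarith

end Crest.Agent.LC
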