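import Mathlib
import Crest.Agent.PL.Basic

/-! Log-concave measures: Borell's lemma, sections of convex bodies. -/

set_option autoImplicit false

namespace Crest.Agent.LC

open MeasureTheory ProbabilityTheory Finset Crest.Agent.PL
open scoped ENNReal

/-- log-concave measure, in Prékopa–Leindler form -/
def LCM {ι : Type*} (ν : Measure (ι → ℝ)) : Prop :=
  ∀ a b : ℝ, 0 < a → 0 < b → a + b = 1 → HasPL a b ν

lemma lcm_volume (ι : Type*) [Fintype ι] : LCM (volume : Measure (ι → ℝ)) := by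
  intro a b ha hb hab
  refine (hasPL_pi ha hb hab (Fintype.card ι)).of_equiv _
    (volume_measurePreserving_piCongrLeft (fun _ : ι => ℝ) (Fintype.equivFin ι).symm) ?_
  intro x y
  ext i
  simp [MeasurableEquiv.coe_piCongrLeft, Equiv.piCongrLeft_apply]

lemma lcm_cond {ι : Type*} [Fintype ι] {K : Set (ι → ℝ)} (hK : MeasurableSet K)
    (hc : Convex ℝ K) : LCM (volume[|K]) := by
  intro a b ha hb hab f g h hf hg hh H
  have key := lcm_volume ι a b ha hb hab (K.indicator f) (K.indicator g) (K.indicator h)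
    (hf.indicator hK) (hg.indicator hK) (hh.indicator hK) (by
      intro x y
      by_cases hx : x ∈ K
      swap
      · simp [Set.indicator_of_notMem hx, ha]
      by_cases hy : y ∈ K
      swap
      · simp [Set.indicator_of_notMem hy, hb]
      rw [Set.indicator_of_mem hx, Set.indicator_of_mem hy,
        Set.indicator_of_mem (hc hx hy ha.le hb.le hab)]
      exact H x y)
  simp only [lintegral_indicator hK] at key
  simp only [ProbabilityTheory.cond, lintegral_smul_measure, smul_eq_mul]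
  rw [ENNReal.mul_rpow_of_nonneg _ _ ha.le, ENNReal.mul_rpow_of_nonneg _ _ hb.le, mul_mul_mul_comm,
    ← ENNReal.rpow_add_of_nonneg _ _ ha.le hb.le, hab, ENNReal.rpow_one]
  gcongr

lemma LCM.map {ι : Type*} [Fintype ι] {ν : Measure (ι → ℝ)} (h : LCM ν) (B : Matrix ι ι ℝ) :
    LCM (ν.map B.mulVec) := by
  intro a b ha hb hab
  refine (h a b ha hb hab).of_equiv B.mulVec ⟨by fun_prop, rfl⟩ fun x y => ?_
  rw [Matrix.mulVec_add, Matrix.mulVec_smul, Matrix.mulVec_smul]

lemma LCM.mid {ι : Type*} {ν : Measure (ι → ℝ)} [IsProbabilityMeasure ν] (hν : LCM ν)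
    {f g h : (ι → ℝ) → ℝ} (hf : Measurable f) (hg : Measurable g) (hh : Measurable h)
    (hf0 : ∀ x, 0 ≤ f x) (hg0 : ∀ x, 0 ≤ g x) (hh0 : ∀ x, 0 ≤ h x)
    (hf1 : ∀ x, f x ≤ 1) (hg1 : ∀ x, g x ≤ 1) (hh1 : ∀ x, h x ≤ 1)
    (H : ∀ x y, f x * g y ≤ h ((1 / 2 : ℝ) • x + (1 / 2 : ℝ) • y) ^ 2) :
    (∫ x, f x ∂ν) * (∫ x, g x ∂ν) ≤ (∫ x, h x ∂ν) ^ 2 := by
  have key := hν (1 / 2) (1 / 2) (by norm_num) (by norm_num) (by norm_num)
    (fun x => ENNReal.ofReal (f x)) (fun x => ENNReal.ofReal (g x)) (fun x => ENNReal.ofReal (h x))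
    hf.ennreal_ofReal hg.ennreal_ofReal hh.ennreal_ofReal (by
      intro x y
      rw [← ENNReal.mul_rpow_of_nonneg _ _ (by norm_num), ← ENNReal.ofReal_mul (hf0 x),
        ENNReal.ofReal_rpow_of_nonneg (mul_nonneg (hf0 x) (hg0 y)) (by norm_num)]
      apply ENNReal.ofReal_le_ofReal
      rw [← Real.sqrt_eq_rpow]
      exact Real.sqrt_le_iff.2 ⟨hh0 _, H x y⟩)
  have hi : ∀ f : (ι → ℝ) → ℝ, Measurable f → (∀ x, 0 ≤ f x) → (∀ x, f x ≤ 1) →
      Integrable f ν := fun f hf h0 h1 => Integrable.of_bound hf.aestronglyMeasurable 1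
        (ae_of_all _ fun x => by rw [Real.norm_of_nonneg (h0 x)]; exact h1 x)
  rw [← ofReal_integral_eq_lintegral_ofReal (hi f hf hf0 hf1) (ae_of_all _ hf0),
    ← ofReal_integral_eq_lintegral_ofReal (hi g hg hg0 hg1) (ae_of_all _ hg0),
    ← ofReal_integral_eq_lintegral_ofReal (hi h hh hh0 hh1) (ae_of_all _ hh0),
    ← ENNReal.mul_rpow_of_nonneg _ _ (by norm_num),
    ← ENNReal.ofReal_mul (integral_nonneg hf0),
    ENNReal.ofReal_rpow_of_nonneg (mul_nonneg (integral_nonneg hf0) (integral_nonneg hg0))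
      (by norm_num), ENNReal.ofReal_le_ofReal_iff (integral_nonneg hh0),
    ← Real.sqrt_eq_rpow] at key
  exact (Real.sqrt_le_iff.1 key).2

lemma LCM.sets {ι : Type*} {ν : Measure (ι → ℝ)} (hν : LCM ν) {a b : ℝ} (ha : 0 < a) (hb : 0 < b)
    (hab : a + b = 1) {A B C : Set (ι → ℝ)} (hA : MeasurableSet A) (hB : MeasurableSet B)
    (hC : MeasurableSet C) (H : ∀ x ∈ A, ∀ y ∈ B, a • x + b • y ∈ C) :
    ν A ^ a * ν B ^ b ≤ ν C := by
  have key := hν a b ha hb hab (A.indicator 1) (B.indicator 1) (C.indicator 1)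
    (measurable_one.indicator hA) (measurable_one.indicator hB) (measurable_one.indicator hC) (by
      intro x y
      by_cases hx : x ∈ A
      swap
      · simp [Set.indicator_of_notMem hx, ha]
      by_cases hy : y ∈ B
      swap
      · simp [Set.indicator_of_notMem hy, hb]
      simp [Set.indicator_of_mem hx, Set.indicator_of_mem hy, Set.indicator_of_mem (H x hx y hy)])
  simpa only [lintegral_indicator_one hA, lintegral_indicator_one hB,
    lintegral_indicator_one hC] using key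

/-- Euclidean norm -/
noncomputable def nr {ι : Type*} [Fintype ι] (x : ι → ℝ) : ℝ := √(∑ i, x i ^ 2)

lemma nr_eq {ι : Type*} [Fintype ι] (x : ι → ℝ) :
    nr x = ‖(WithLp.toLp 2 x : EuclideanSpace ℝ ι)‖ := by
  rw [EuclideanSpace.norm_eq, nr]; simp

lemma nr_sq {ι : Type*} [Fintype ι] (x : ι → ℝ) : nr x ^ 2 = ∑ i, x i ^ 2 :=
  Real.sq_sqrt (by positivity)

lemma nr_meas {ι : Type*} [Fintype ι] : Measurable (nr : (ι → ℝ) → ℝ) := by
  unfold nr; fun_prop

lemma borell_tail {ι : Type*} [Fintype ι] {ν : Measure (ι → ℝ)} (hν : LCM ν) (r : ℝ) (hr : 0 ≤ r)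
    (h1 : ENNReal.ofReal (2 / 3) ≤ ν {x | nr x ≤ r}) (h2 : ν {x | r < nr x} ≤ ENNReal.ofReal (1 / 3))
    (j : ℕ) : ν {x | (2 * j + 1) * r < nr x} ≤ ENNReal.ofReal ((1 / 2) ^ (j + 1)) := by
  rcases Nat.eq_zero_or_pos j with rfl | hj
  · simp only [Nat.cast_zero, mul_zero, zero_add, one_mul, pow_one]
    exact h2.trans (ENNReal.ofReal_le_ofReal (by norm_num))
  have hj' : (0 : ℝ) < j := by exact_mod_cast hj
  have key := hν.sets (a := 1 / (j + 1)) (b := j / (j + 1)) (by positivity) (by positivity)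
    (by field_simp; ring) (A := {x | (2 * j + 1) * r < nr x}) (B := {x | nr x ≤ r})
    (C := {x | r < nr x}) (measurableSet_lt measurable_const nr_meas)
    (measurableSet_le nr_meas measurable_const) (measurableSet_lt measurable_const nr_meas) (by
      intro x hx y hy
      simp only [Set.mem_ofPred_eq, nr_eq] at hx hy ⊢
      rw [WithLp.toLp_add, WithLp.toLp_smul, WithLp.toLp_smul]
      set X : EuclideanSpace ℝ ι := WithLp.toLp 2 x
      set Y : EuclideanSpace ℝ ι := WithLp.toLp 2 y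
      have e := norm_sub_le ((1 / (j + 1) : ℝ) • X + (j / (j + 1) : ℝ) • Y) ((j / (j + 1) : ℝ) • Y)
      rw [add_sub_cancel_right, norm_smul, norm_smul, Real.norm_of_nonneg (by positivity),
        Real.norm_of_nonneg (by positivity)] at e
      have e1 : r = 1 / (j + 1) * ((2 * j + 1) * r) - j / (j + 1) * r := by field_simp; ring
      have e2 : 1 / ((j : ℝ) + 1) * ((2 * j + 1) * r) < 1 / (j + 1) * ‖X‖ := by gcongr
      have e3 : j / ((j : ℝ) + 1) * ‖Y‖ ≤ j / (j + 1) * r := by gcongr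
      linarith)
  set p := ν {x | (2 * j + 1) * r < nr x}
  have k1 : ENNReal.ofReal (2 / 3) ≤ ν {x | nr x ≤ r} ^ ((j : ℝ) / (j + 1)) := by
    calc _ = ENNReal.ofReal (2 / 3) ^ (1 : ℝ) := (ENNReal.rpow_one _).symm
      _ ≤ ENNReal.ofReal (2 / 3) ^ ((j : ℝ) / (j + 1)) :=
        ENNReal.rpow_le_rpow_of_exponent_ge (by rw [ENNReal.ofReal_le_one]; norm_num)
          (by rw [div_le_one (by positivity)]; linarith)
      _ ≤ _ := by gcongr
  have k2 : p ^ (1 / ((j : ℝ) + 1)) * ENNReal.ofReal (2 / 3) ≤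
      ENNReal.ofReal (1 / 2) * ENNReal.ofReal (2 / 3) := by
    rw [← ENNReal.ofReal_mul (by norm_num)]
    calc _ ≤ _ := by gcongr
      _ ≤ _ := key
      _ ≤ _ := h2
      _ = _ := by norm_num
  have k3 := (ENNReal.mul_le_mul_iff_left (by simp) (by simp)).1 k2
  have k4 := ENNReal.rpow_le_rpow k3 (by positivity : (0 : ℝ) ≤ ((j + 1 : ℕ) : ℝ))
  rw [← ENNReal.rpow_mul, ENNReal.rpow_natCast, ← ENNReal.ofReal_pow (by norm_num)] at k4
  push_cast at k4
  rwa [one_div_mul_cancel (by positivity), ENNReal.rpow_one] at k4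

lemma borell_mom {ι : Type*} [Fintype ι] {ν : Measure (ι → ℝ)} [IsProbabilityMeasure ν]
    (r : ℝ) (hr : 0 < r)
    (h : ∀ j : ℕ, ν {x | (2 * j + 1) * r < nr x} ≤ ENNReal.ofReal ((1 / 2) ^ (j + 1))) :
    ∫⁻ x, ENNReal.ofReal (∑ i, x i ^ 2) ∂ν ≤ ENNReal.ofReal (17 * r ^ 2) := by
  have hm : ∀ j : ℕ, MeasurableSet {x : ι → ℝ | (2 * j + 1) * r < nr x} := fun j =>
    measurableSet_lt measurable_const nr_meas
  have h1 : ∀ x : ι → ℝ, ENNReal.ofReal (∑ i, x i ^ 2) ≤ ENNReal.ofReal (r ^ 2) +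
      ∑' j : ℕ, {x : ι → ℝ | (2 * j + 1) * r < nr x}.indicator
        (fun _ => ENNReal.ofReal (8 * (j + 1) * r ^ 2)) x := by
    intro x
    have hex : ∃ i : ℕ, nr x ≤ (2 * i + 1) * r := by
      obtain ⟨i, hi⟩ := exists_nat_ge (nr x / r)
      rw [div_le_iff₀ hr] at hi
      exact ⟨i, by nlinarith [Nat.cast_nonneg (α := ℝ) i]⟩
    classical
    set i := Nat.find hex
    have hi := Nat.find_spec hex
    refine le_trans ?_ (add_le_add le_rfl (ENNReal.sum_le_tsum (range i)))
    rw [sum_congr rfl (g := fun j : ℕ => ENNReal.ofReal (8 * (j + 1) * r ^ 2)) fun j hj =>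
      Set.indicator_of_mem (show x ∈ {x : ι → ℝ | (2 * j + 1) * r < nr x} from
        not_le.1 (Nat.find_min hex (mem_range.1 hj))) _,
      ← ENNReal.ofReal_sum_of_nonneg fun _ _ => by positivity,
      ← ENNReal.ofReal_add (by positivity) (by positivity)]
    refine ENNReal.ofReal_le_ofReal ?_
    have e : ∀ m : ℕ, r ^ 2 + ∑ j ∈ range m, 8 * ((j : ℝ) + 1) * r ^ 2 = ((2 * m + 1) * r) ^ 2 := by
      intro m
      induction m with
      | zero => simp
      | succ m ih => rw [sum_range_succ, ← add_assoc, ih]; push_cast; ring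
    rw [e, ← nr_sq]
    exact pow_le_pow_left₀ (Real.sqrt_nonneg _) hi 2
  refine (lintegral_mono h1).trans ?_
  rw [lintegral_add_left measurable_const, lintegral_tsum fun j =>
    (measurable_const.indicator (hm j)).aemeasurable]
  simp only [lintegral_const, measure_univ, mul_one, lintegral_indicator_const (hm _)]
  rw [show 17 * r ^ 2 = r ^ 2 + 16 * r ^ 2 by ring,
    ENNReal.ofReal_add (by positivity) (by positivity)]
  gcongr
  refine ENNReal.tsum_le_of_sum_range_le fun m => ?_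
  calc _ ≤ ∑ j ∈ range m, ENNReal.ofReal (8 * (j + 1) * r ^ 2 * (1 / 2) ^ (j + 1)) := by
        refine sum_le_sum fun j _ => ?_
        rw [ENNReal.ofReal_mul (p := 8 * (j + 1) * r ^ 2) (by positivity)]
        gcongr
        exact h j
    _ ≤ _ := by
        rw [← ENNReal.ofReal_sum_of_nonneg fun _ _ => by positivity]
        refine ENNReal.ofReal_le_ofReal ?_
        have e : ∀ m : ℕ, ∑ j ∈ range m, 8 * ((j : ℝ) + 1) * r ^ 2 * (1 / 2) ^ (j + 1) =
            16 * r ^ 2 - 8 * (m + 2) * r ^ 2 * (1 / 2) ^ m := by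
          intro m
          induction m with
          | zero => simp; ring
          | succ m ih => rw [sum_range_succ, ih]; push_cast; ring
        rw [e]
        have : 0 ≤ 8 * ((m : ℝ) + 2) * r ^ 2 * (1 / 2) ^ m := by positivity
        linarith

lemma borell {ι : Type*} [Fintype ι] {ν : Measure (ι → ℝ)} [IsProbabilityMeasure ν] (hν : LCM ν)
    (n : ℝ) (hn : 0 < n) (hi : Integrable (fun x : ι → ℝ => ∑ i, x i ^ 2) ν)
    (hI : ∫ x, ∑ i, x i ^ 2 ∂ν = n) :
    1 / 4 ≤ ν.real {x | n / 25 ≤ ∑ i, x i ^ 2 ∧ ∑ i, x i ^ 2 ≤ 12 * n} := by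
  set r := √n / 5 with hr
  have hr0 : 0 < r := by positivity
  have hr2 : r ^ 2 = n / 25 := by rw [hr, div_pow, Real.sq_sqrt hn.le]; norm_num
  have hm : MeasurableSet {x : ι → ℝ | r < nr x} := measurableSet_lt measurable_const nr_meas
  have h1 : 1 / 3 ≤ ν.real {x | r < nr x} := by
    by_contra hcon
    push Not at hcon
    have e1 : ν.real {x | nr x ≤ r} = 1 - ν.real {x | r < nr x} := by
      rw [← probReal_compl_eq_one_sub hm]
      congr 1
      ext x; simp
    have := borell_mom r hr0 (borell_tail hν r hr0.le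
      ((ENNReal.ofReal_le_iff_le_toReal (measure_ne_top _ _)).2 (by
        change _ ≤ ν.real _; linarith))
      ((ENNReal.le_ofReal_iff_toReal_le (measure_ne_top _ _) (by norm_num)).2 hcon.le))
    rw [← ofReal_integral_eq_lintegral_ofReal hi (ae_of_all _ fun x => by positivity), hI,
      ENNReal.ofReal_le_ofReal_iff (by positivity)] at this
    linarith
  have h2 := mul_meas_ge_le_integral_of_nonneg (ae_of_all _ fun x => by positivity) hi (12 * n)
  rw [hI] at h2
  have h3 : ν.real {x | 12 * n ≤ ∑ i, x i ^ 2} ≤ 1 / 12 := by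
    rw [le_div_iff₀ (by norm_num)]
    nlinarith
  have h4 : ν.real {x | r < nr x} ≤
      ν.real {x | n / 25 ≤ ∑ i, x i ^ 2 ∧ ∑ i, x i ^ 2 ≤ 12 * n} +
        ν.real {x | 12 * n ≤ ∑ i, x i ^ 2} := by
    refine le_trans (measureReal_mono fun x hx => ?_) (measureReal_union_le _ _)
    have hx' : r < nr x := hx
    by_cases h : 12 * n ≤ ∑ i, x i ^ 2
    · exact Or.inr h
    · refine Or.inl ⟨?_, (not_le.1 h).le⟩
      rw [← hr2, ← nr_sq]
      gcongr
  linarith

lemma sign_mem {β : Type*} [Fintype β] {C : Set (β → ℝ)} (hC : Convex ℝ C) (y : β → ℝ)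
    (h : ∀ ε : β → Bool, ∃ z ∈ C, ∀ i, if ε i then y i ≤ z i else z i ≤ y i) : y ∈ C := by
  classical
  choose z hz hz' using h
  refine convexHull_min (s := Set.range z) (by rintro _ ⟨ε, rfl⟩; exact hz ε) hC ?_
  by_contra hy
  obtain ⟨f, u, h1, h2⟩ := geometric_hahn_banach_point_closed (convex_convexHull ℝ _)
    ((Set.finite_range z).isCompact_convexHull ℝ).isClosed hy
  let ε : β → Bool := fun i => decide (f (Pi.single i 1) ≤ 0)
  have h3 := h2 (z ε) (subset_convexHull ℝ _ ⟨ε, rfl⟩)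
  have h4 : f (z ε) - f y = ∑ i, (z ε i - y i) * f (Pi.single i 1) := by
    rw [← map_sub]
    conv_lhs => rw [← univ_sum_single (z ε - y)]
    rw [map_sum]
    refine sum_congr rfl fun i _ => ?_
    rw [← smul_eq_mul, ← map_smul, ← Pi.single_smul', smul_eq_mul, mul_one, Pi.sub_apply]
  have h5 : ∑ i, (z ε i - y i) * f (Pi.single i 1) ≤ 0 := by
    refine sum_nonpos fun i _ => ?_
    have := hz' ε i
    by_cases hf : f (Pi.single i 1) ≤ 0
    · simp only [ε, hf, decide_true, if_true] at this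
      exact mul_nonpos_of_nonneg_of_nonpos (by linarith) hf
    · simp only [ε, hf, decide_false] at this
      exact mul_nonpos_of_nonpos_of_nonneg (by simpa using this) (not_le.1 hf).le
  linarith

lemma sec_meas {α β : Type*} [Fintype α] [Fintype β] {K : Set (α ⊕ β → ℝ)} (hK : MeasurableSet K)
    (y : β → ℝ) : MeasurableSet {a : α → ℝ | Sum.elim a y ∈ K} := by
  have : Measurable fun a : α → ℝ => Sum.elim a y := by
    refine measurable_pi_lambda _ fun i => ?_
    cases i <;> simp only [Sum.elim_inl, Sum.elim_inr] <;> fun_prop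
  exact this hK

lemma sec_convex {α β : Type*} [Fintype α] [Fintype β] {K : Set (α ⊕ β → ℝ)}
    (hK : MeasurableSet K) (hc : Convex ℝ K) (t : ℝ≥0∞) :
    Convex ℝ {y : β → ℝ | t ≤ volume {a : α → ℝ | Sum.elim a y ∈ K}} := by
  rw [convex_iff_forall_pos]
  intro y hy y' hy' a b ha hb hab
  refine le_trans ?_ ((lcm_volume α).sets ha hb hab (sec_meas hK y) (sec_meas hK y')
    (sec_meas hK _) fun x hx x' hx' => ?_)
  · calc t = t ^ a * t ^ b := by
          rw [← ENNReal.rpow_add_of_nonneg _ _ ha.le hb.le, hab, ENNReal.rpow_one]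
      _ ≤ _ := by
          gcongr
          · exact hy
          · exact hy'
  · have := hc hx hx' ha.le hb.le hab
    have e : Sum.elim (a • x + b • x') (a • y + b • y') =
        a • Sum.elim x y + b • Sum.elim x' y' := by
      ext i
      cases i <;> rfl
    change Sum.elim _ _ ∈ K
    rwa [e]

end Crest.Agent.LC
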