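import Crest.Agent.LC.CLT1
import Crest.Agent.LC.CLT2

/-! Concentration of smoothed random marginals. -/

set_option autoImplicit false

namespace Crest.Agent.LC

open MeasureTheory ProbabilityTheory Finset

/-- isotropic measure -/
def Iso {ι : Type*} [DecidableEq ι] (ν : Measure (ι → ℝ)) : Prop :=
  ∀ i j, Integrable (fun x => x i * x j) ν ∧ ∫ x, x i * x j ∂ν = if i = j then 1 else 0

/-- smoothed radius -/
noncomputable def sw {ι : Type*} [Fintype ι] (σ : ℝ) (x : ι → ℝ) : ℝ :=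
  √(σ ^ 2 + (∑ i, x i ^ 2) / Fintype.card ι)

/-- smoothed marginal -/
noncomputable def gG {ι J : Type*} [Fintype ι] [Fintype J] (ν : Measure (ι → ℝ)) (σ : ℝ)
    (G : J × ι → ℝ) (y : J → ℝ) : ℝ :=
  ∫ x, Real.exp (-(∑ j, ((y j - (∑ i, G (j, i) * x i) / √(Fintype.card ι)) / σ) ^ 2) / 2) ∂ν

/-- averaged smoothed marginal -/
noncomputable def HH {ι J : Type*} [Fintype ι] [Fintype J] (ν : Measure (ι → ℝ)) (σ : ℝ)
    (y : J → ℝ) : ℝ :=
  ∫ x, (σ / sw σ x) ^ Fintype.card J * Real.exp (-(∑ j, y j ^ 2) / (2 * sw σ x ^ 2)) ∂ν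

lemma sw_meas {ι : Type*} [Fintype ι] (σ : ℝ) : Measurable (sw σ : (ι → ℝ) → ℝ) := by
  unfold sw; fun_prop

lemma sw_sq {ι : Type*} [Fintype ι] (σ : ℝ) (x : ι → ℝ) :
    sw σ x ^ 2 = σ ^ 2 + (∑ i, x i ^ 2) / Fintype.card ι := Real.sq_sqrt (by positivity)

lemma le_sw {ι : Type*} [Fintype ι] {σ : ℝ} (hσ : 0 ≤ σ) (x : ι → ℝ) : σ ≤ sw σ x := by
  refine Real.le_sqrt_of_sq_le ?_
  have : 0 ≤ (∑ i, x i ^ 2) / Fintype.card ι := by positivity
  linarith

lemma conc1 {ι J : Type*} [Fintype ι] [DecidableEq ι] [Fintype J] (ν : Measure (ι → ℝ))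
    [IsProbabilityMeasure ν] (hν : Iso ν) (hn : 0 < Fintype.card ι) (hJ : 0 < Fintype.card J)
    (σ : ℝ) (hσ : 0 < σ) (y : J → ℝ) :
    Integrable (fun G => (gG ν σ G y - HH ν σ y) ^ 2) (gm (J × ι)) ∧
    ∫ G, (gG ν σ G y - HH ν σ y) ^ 2 ∂(gm (J × ι)) ≤
      (Fintype.card J : ℝ) ^ 2 / (σ ^ 2 * √(Fintype.card ι)) := by
  set n : ℝ := (Fintype.card ι : ℝ) with hn'
  have hn0 : 0 < n := by rw [hn']; exact_mod_cast hn
  have hq : 0 < √n := by positivity
  have hqq : √n * √n = n := Real.mul_self_sqrt hn0.le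
  let Q := ν.prod (gm J)
  let a : (ι → ℝ) × (J → ℝ) → ℝ := fun ω => ∑ j, y j / σ * ω.2 j
  let v : (ι → ℝ) × (J → ℝ) → J × ι → ℝ := fun ω p => -(ω.2 p.1 * ω.1 p.2) / (σ * √n)
  let D : ((ι → ℝ) × (J → ℝ)) × ((ι → ℝ) × (J → ℝ)) → ℝ := fun p =>
    (√n * ((∑ j, p.1.2 j ^ 2) * ∑ j, p.2.2 j ^ 2) +
      (∑ i, ∑ i', (p.1.1 i * p.1.1 i') * (p.2.1 i * p.2.1 i')) / √n) / (2 * (σ * √n) ^ 2)
  have i1 : Integrable (fun ω : (ι → ℝ) × (J → ℝ) => ∑ j, ω.2 j ^ 2) Q := gm_sq.1.comp_snd ν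
  have i2 : ∀ i i', Integrable (fun ω : (ι → ℝ) × (J → ℝ) => ω.1 i * ω.1 i') Q := fun i i' =>
    (hν i i').1.comp_fst (gm J)
  have i3 := i1.mul_prod i1
  have i4 : ∀ i, Integrable (fun p : ((ι → ℝ) × (J → ℝ)) × ((ι → ℝ) × (J → ℝ)) =>
      ∑ i', (p.1.1 i * p.1.1 i') * (p.2.1 i * p.2.1 i')) (Q.prod Q) := fun i =>
    integrable_finsetSum _ fun i' _ => (i2 i i').mul_prod (i2 i i')
  have i5 := integrable_finsetSum univ fun i _ => i4 i
  have hD : Integrable D (Q.prod Q) := ((i3.const_mul _).add (i5.div_const _)).div_const _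
  have hDI : ∫ p, D p ∂(Q.prod Q) ≤ (Fintype.card J : ℝ) ^ 2 / (σ ^ 2 * √n) := by
    simp only [D]
    rw [integral_div, integral_add (i3.const_mul _) (i5.div_const _), integral_const_mul,
      integral_div, integral_prod_mul (fun ω : (ι → ℝ) × (J → ℝ) => ∑ j, ω.2 j ^ 2)
        (fun ω : (ι → ℝ) × (J → ℝ) => ∑ j, ω.2 j ^ 2),
      integral_fun_snd (fun z : J → ℝ => ∑ j, z j ^ 2), gm_sq.2,
      integral_finsetSum _ fun i _ => i4 i]
    have e : ∀ i, ∫ p, ∑ i', (p.1.1 i * p.1.1 i') * (p.2.1 i * p.2.1 i') ∂(Q.prod Q) = 1 := by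
      intro i
      rw [integral_finsetSum _ fun i' _ => (i2 i i').mul_prod (i2 i i')]
      have e' : ∀ i', ∫ p, (p.1.1 i * p.1.1 i') * (p.2.1 i * p.2.1 i') ∂(Q.prod Q) =
          if i = i' then 1 else 0 := by
        intro i'
        rw [integral_prod_mul (fun ω : (ι → ℝ) × (J → ℝ) => ω.1 i * ω.1 i')
          (fun ω : (ι → ℝ) × (J → ℝ) => ω.1 i * ω.1 i'),
          integral_fun_fst (fun x : ι → ℝ => x i * x i'), (hν i i').2]
        split_ifs <;> simp
      simp [e']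
    simp only [e, sum_const, card_univ, nsmul_eq_mul, mul_one, probReal_univ, smul_eq_mul, one_mul]
    rw [← hn', div_le_div_iff₀ (by positivity) (by positivity)]
    have h1 : (1 : ℝ) ≤ (Fintype.card J : ℝ) ^ 2 := one_le_pow₀ (by exact_mod_cast hJ)
    have h2 : n / √n = √n := Real.div_sqrt
    rw [h2]
    have h3 : 0 < σ ^ 2 * (√n * √n) := by positivity
    nlinarith
  have key := var_le Q a v (by fun_prop) (by fun_prop) D hD (by
    intro ω ω'
    have e1 : ∑ p, v ω p * v ω' p =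
        ((∑ j, ω.2 j * ω'.2 j) * ∑ i, ω.1 i * ω'.1 i) / (σ * √n) ^ 2 := by
      rw [Fintype.sum_prod_type, sum_mul_sum, sum_div]
      refine sum_congr rfl fun j _ => ?_
      rw [sum_div]
      refine sum_congr rfl fun i _ => ?_
      simp only [v]
      field_simp
    have e2 : ∑ i, ∑ i', (ω.1 i * ω.1 i') * (ω'.1 i * ω'.1 i') = (∑ i, ω.1 i * ω'.1 i) ^ 2 := by
      rw [sq, sum_mul_sum]
      exact sum_congr rfl fun i _ => sum_congr rfl fun i' _ => by ring
    have e3 := sum_mul_sq_le_sq_mul_sq univ ω.2 ω'.2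
    simp only [D]
    rw [e1, e2, abs_div, abs_of_pos (by positivity : 0 < (σ * √n) ^ 2), ← div_div]
    gcongr
    set P := ∑ j, ω.2 j * ω'.2 j
    set R := ∑ i, ω.1 i * ω'.1 i
    have e4 : |P * R| ≤ (√n * P ^ 2 + R ^ 2 / √n) / 2 := by
      rw [abs_mul, ← sq_abs P, ← sq_abs R, le_div_iff₀ (by norm_num), ← sub_nonneg]
      have : √n * |P| ^ 2 + |R| ^ 2 / √n - |P| * |R| * 2 = (√n * |P| - |R|) ^ 2 / √n := by
        field_simp; ring
      rw [this]; positivity
    refine e4.trans ?_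
    gcongr)
  have f1 : ∀ G : J × ι → ℝ, ∫ ω, Real.cos (a ω + ∑ p, v ω p * G p) ∂Q = gG ν σ G y := by
    intro G
    rw [integral_prod _ (Integrable.of_bound (Measurable.aestronglyMeasurable (by fun_prop)) 1
      (ae_of_all _ fun _ => Real.abs_cos_le_one _))]
    refine integral_congr_ae (ae_of_all _ fun x => ?_)
    have := gi0 0 fun j => (y j - (∑ i, G (j, i) * x i) / √n) / σ
    rw [Real.cos_zero, one_mul] at this
    refine Eq.trans (integral_congr_ae (ae_of_all _ fun z => ?_)) this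
    simp only [a, v, zero_add]
    congr 1
    rw [Fintype.sum_prod_type, ← sum_add_distrib]
    refine sum_congr rfl fun j _ => ?_
    rw [sub_div, sub_mul, sum_div, sum_div, sum_mul, sub_eq_add_neg, ← sum_neg_distrib]
    congr 1
    exact sum_congr rfl fun i _ => by field_simp
  have f2 : ∫ ω, Real.cos (a ω) * Real.exp (-(∑ p, v ω p ^ 2) / 2) ∂Q = HH ν σ y := by
    rw [integral_prod _ (Integrable.of_bound (Measurable.aestronglyMeasurable (by fun_prop)) 1
      (ae_of_all _ fun ω => by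
        rw [norm_mul, Real.norm_of_nonneg (Real.exp_pos _).le]
        refine mul_le_one₀ (Real.abs_cos_le_one _) (Real.exp_pos _).le (Real.exp_le_one_iff.2 ?_)
        have : 0 ≤ ∑ j, v ω j ^ 2 := by positivity
        linarith))]
    refine integral_congr_ae (ae_of_all _ fun x => ?_)
    have := gi 0 ((∑ i, x i ^ 2) / (2 * (σ ^ 2 * n))) (by positivity) fun j => y j / σ
    rw [Real.cos_zero, one_mul] at this
    refine Eq.trans (integral_congr_ae (ae_of_all _ fun z => ?_)) (this.trans ?_)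
    · simp only [a, v, zero_add]
      congr 2
      rw [Fintype.sum_prod_type, neg_mul, mul_comm _ (∑ j, z j ^ 2), mul_div_assoc', sum_mul_sum,
        neg_div, sum_div, sum_div]
      congr 1
      refine sum_congr rfl fun j _ => ?_
      rw [sum_div, sum_div]
      refine sum_congr rfl fun i _ => ?_
      rw [div_pow, mul_pow σ, Real.sq_sqrt hn0.le]
      field_simp
    · have hs := sw_sq σ x
      have hs0 : 0 < sw σ x := hσ.trans_le (le_sw hσ.le x)
      have e : 1 + 2 * ((∑ i, x i ^ 2) / (2 * (σ ^ 2 * n))) = (sw σ x / σ) ^ 2 := by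
        rw [div_pow, hs, ← hn']; field_simp
      simp only
      rw [e, Real.sqrt_sq (by positivity), inv_div]
      congr 2
      simp only [div_pow, ← sum_div]
      field_simp
  simp only [f1, f2] at key
  exact ⟨key.1, key.2.trans hDI⟩

lemma conc2 {ι J W : Type*} [Fintype ι] [DecidableEq ι] [Fintype J] (ν : Measure (ι → ℝ))
    [IsProbabilityMeasure ν] (hν : Iso ν) (L : ℝ) (hL : 5 ≤ L)
    (hn : L ^ 20 ≤ Real.log (Fintype.card ι)) (hJ : 0 < Fintype.card J)
    (hJL : (Fintype.card J : ℝ) ≤ L ^ 5) (Y : Finset W) (hY : (Y.card : ℝ) ≤ Real.exp (L ^ 5))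
    (y : W → J → ℝ) :
    ∃ G : J × ι → ℝ, ∀ w ∈ Y,
      |gG ν (1 / L ^ 6) G (y w) - HH ν (1 / L ^ 6) (y w)| ≤ Real.exp (-L ^ 10) := by
  have hL0 : 0 < L := by linarith
  have hn0 : 0 < Fintype.card ι := by
    by_contra h
    rw [show Fintype.card ι = 0 by omega, Nat.cast_zero, Real.log_zero] at hn
    linarith [pow_pos hL0 20]
  have hn0' : (0 : ℝ) < Fintype.card ι := by exact_mod_cast hn0
  have h1 := fun w => conc1 ν hν hn0 hJ (1 / L ^ 6) (by positivity) (y w)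
  obtain ⟨G, hG⟩ := exists_le_integral (integrable_finsetSum Y fun w _ => (h1 w).1)
  rw [integral_finsetSum _ fun w _ => (h1 w).1] at hG
  refine ⟨G, fun w hw => abs_le_of_sq_le_sq' ?_ (Real.exp_pos _).le |> abs_le.2⟩
  refine (single_le_sum (f := fun w => (gG ν (1 / L ^ 6) G (y w) - HH ν (1 / L ^ 6) (y w)) ^ 2)
    (fun _ _ => sq_nonneg _) hw).trans (hG.trans ((sum_le_sum fun w _ => (h1 w).2).trans ?_))
  rw [sum_const, nsmul_eq_mul]
  have e1 : Real.exp (L ^ 20 / 2) ≤ √(Fintype.card ι) := by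
    refine Real.le_sqrt_of_sq_le ?_
    rw [← Real.exp_nat_mul, ← Real.le_log_iff_exp_le hn0']
    push_cast; linarith
  have e2 : L ≤ Real.exp L := by linarith [Real.add_one_le_exp L]
  calc _ ≤ Real.exp (L ^ 5) * ((L ^ 5) ^ 2 / ((1 / L ^ 6) ^ 2 * Real.exp (L ^ 20 / 2))) := by
        gcongr
    _ = Real.exp (L ^ 5) * L ^ 22 / Real.exp (L ^ 20 / 2) := by field_simp
    _ ≤ Real.exp (L ^ 5) * Real.exp L ^ 22 / Real.exp (L ^ 20 / 2) := by gcongr
    _ ≤ _ := by
        rw [← Real.exp_nat_mul, ← Real.exp_nat_mul, ← Real.exp_add, ← Real.exp_sub]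
        refine Real.exp_le_exp.2 ?_
        have a1 : 5 ^ 4 ≤ L ^ 4 := by gcongr
        have a2 : 22 * L ≤ L ^ 5 := by nlinarith
        have a3 : 5 ^ 5 ≤ L ^ 5 := by gcongr
        have a4 : 2 * L ^ 5 ≤ L ^ 10 := by nlinarith
        have a5 : 5 ^ 10 ≤ L ^ 10 := by gcongr
        have a6 : 6 * L ^ 10 ≤ L ^ 20 := by nlinarith
        push_cast
        linarith

lemma gG_mid {ι J : Type*} [Fintype ι] [Fintype J] (ν : Measure (ι → ℝ))
    [IsProbabilityMeasure ν] (hν : LCM ν) (σ : ℝ) (G : J × ι → ℝ) (y y' : J → ℝ) :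
    gG ν σ G y * gG ν σ G y' ≤ gG ν σ G (fun j => (y j + y' j) / 2) ^ 2 := by
  have hb : ∀ u : J → ℝ, Real.exp (-(∑ j, u j ^ 2) / 2) ≤ 1 := fun u => by
    refine Real.exp_le_one_iff.2 ?_
    have : 0 ≤ ∑ j, u j ^ 2 := by positivity
    linarith
  refine hν.mid (by fun_prop) (by fun_prop) (by fun_prop) (fun _ => by positivity)
    (fun _ => by positivity) (fun _ => by positivity) (fun _ => hb _) (fun _ => hb _)
    (fun _ => hb _) fun x x' => ?_
  rw [← Real.exp_add, ← Real.exp_nat_mul]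
  refine Real.exp_le_exp.2 ?_
  have : ∀ j, 2 * (((y j + y' j) / 2 - (∑ i, G (j, i) * ((1 / 2 : ℝ) • x + (1 / 2 : ℝ) • x') i) /
      √(Fintype.card ι)) / σ) ^ 2 ≤
      ((y j - (∑ i, G (j, i) * x i) / √(Fintype.card ι)) / σ) ^ 2 +
      ((y' j - (∑ i, G (j, i) * x' i) / √(Fintype.card ι)) / σ) ^ 2 := by
    intro j
    have e : ∑ i, G (j, i) * ((1 / 2 : ℝ) • x + (1 / 2 : ℝ) • x') i =
        (∑ i, G (j, i) * x i + ∑ i, G (j, i) * x' i) / 2 := by
      rw [← sum_add_distrib, sum_div]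
      exact sum_congr rfl fun i _ => by simp only [Pi.add_apply, Pi.smul_apply, smul_eq_mul]; ring
    rw [e]
    set p := (y j - (∑ i, G (j, i) * x i) / √(Fintype.card ι)) / σ with hp
    set q := (y' j - (∑ i, G (j, i) * x' i) / √(Fintype.card ι)) / σ with hq
    rw [show ((y j + y' j) / 2 - (∑ i, G (j, i) * x i + ∑ i, G (j, i) * x' i) / 2 /
      √(Fintype.card ι)) / σ = (p + q) / 2 by rw [hp, hq]; ring]
    nlinarith [sq_nonneg (p - q)]
  have h := sum_le_sum fun j (_ : j ∈ univ) => this j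
  rw [sum_add_distrib, ← mul_sum] at h
  push_cast
  linarith

lemma HH_ge {ι J : Type*} [Fintype ι] [Fintype J] (ν : Measure (ι → ℝ))
    [IsProbabilityMeasure ν] (σ : ℝ) (hσ : 0 < σ) (y : J → ℝ) (s s' : ℝ) (hs : 0 < s)
    (E : Set (ι → ℝ)) (hE : MeasurableSet E) (h : ∀ x ∈ E, s ≤ sw σ x ∧ sw σ x ≤ s') :
    ν.real E * ((σ / s') ^ Fintype.card J * Real.exp (-(∑ j, y j ^ 2) / (2 * s ^ 2))) ≤
      HH ν σ y := by
  rw [← smul_eq_mul, ← integral_indicator_const _ hE]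
  have hm := sw_meas (ι := ι) σ
  refine integral_mono ((integrable_const _).indicator hE) (Integrable.of_bound
    (Measurable.aestronglyMeasurable (by fun_prop)) 1 (ae_of_all _ fun x => ?_)) fun x => ?_
  · have h1 := le_sw hσ.le x
    have h0 : 0 < sw σ x := hσ.trans_le h1
    rw [Real.norm_of_nonneg (by positivity)]
    refine mul_le_one₀ (pow_le_one₀ (by positivity) ((div_le_one h0).2 h1)) (by positivity)
      (Real.exp_le_one_iff.2 ?_)
    rw [neg_div, neg_nonpos]; positivity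
  · have h0 : 0 < sw σ x := hσ.trans_le (le_sw hσ.le x)
    by_cases hx : x ∈ E
    · rw [Set.indicator_of_mem hx]
      obtain ⟨h1, h2⟩ := h x hx
      have h3 : 0 < s' := h0.trans_le h2
      simp only [neg_div]
      gcongr
    · rw [Set.indicator_of_notMem hx]; positivity

lemma HH_le {ι J : Type*} [Fintype ι] [Fintype J] (ν : Measure (ι → ℝ))
    [IsProbabilityMeasure ν] (σ : ℝ) (hσ : 0 < σ) (r : ℝ) (hr : 0 < r) :
    HH ν σ (fun _ : J => r) ≤ (σ / r * Real.exp (-1 / 2)) ^ Fintype.card J := by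
  refine le_trans (le_abs_self _) ?_
  have := norm_integral_le_of_norm_le_const (μ := ν) (f := fun x => (σ / sw σ x) ^ Fintype.card J *
    Real.exp (-(∑ _j : J, r ^ 2) / (2 * sw σ x ^ 2)))
    (C := (σ / r * Real.exp (-1 / 2)) ^ Fintype.card J) (ae_of_all _ fun x => by
      have h0 : 0 < sw σ x := hσ.trans_le (le_sw hσ.le x)
      rw [Real.norm_of_nonneg (by positivity), sum_const, card_univ, nsmul_eq_mul,
        show -(Fintype.card J * r ^ 2) / (2 * sw σ x ^ 2) =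
          Fintype.card J * (-(r / sw σ x) ^ 2 / 2) by field_simp, Real.exp_nat_mul, ← mul_pow]
      gcongr ?_ ^ _
      set t := r / sw σ x with ht
      have h1 : t ≤ Real.exp ((t ^ 2 - 1) / 2) := by
        nlinarith [Real.add_one_le_exp ((t ^ 2 - 1) / 2), sq_nonneg (t - 1)]
      calc _ = σ / r * (t * Real.exp (-t ^ 2 / 2)) := by rw [ht]; field_simp
        _ ≤ σ / r * (Real.exp ((t ^ 2 - 1) / 2) * Real.exp (-t ^ 2 / 2)) := by gcongr
        _ = _ := by rw [← Real.exp_add]; congr 2; ring)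
  rw [probReal_univ, mul_one] at this
  exact this

end Crest.Agent.LC
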