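import Crest.Agent.LC.Defs

/-! Lattice coverings: invariance, hashing and normalisation. -/

set_option autoImplicit false
set_option linter.unusedSectionVars false
open Finset MeasureTheory

namespace Crest.Agent.LC

def Cov {ι : Type} [Fintype ι] [DecidableEq ι] (K : Set (ι → ℝ)) (ρ : ℝ) : Prop :=
  ∃ g : Matrix ι ι ℝ, g.det ≠ 0 ∧ (∀ x : ι → ℝ, ∃ z : ι → ℤ, x - g.mulVec (fun i => (z i : ℝ)) ∈ K) ∧
    (volume K).toReal / |g.det| ≤ ρ

section
variable {ι : Type} [Fintype ι] [DecidableEq ι]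

lemma Cov.mono {K : Set (ι → ℝ)} {ρ ρ' : ℝ} (h : Cov K ρ) (h' : ρ ≤ ρ') : Cov K ρ' := by
  obtain ⟨g, h1, h2, h3⟩ := h
  exact ⟨g, h1, h2, h3.trans h'⟩

lemma vol_affine (A : Matrix ι ι ℝ) (t : ι → ℝ) (K : Set (ι → ℝ)) :
    (volume ((fun x => A.mulVec x + t) '' K)).toReal = |A.det| * (volume K).toReal := by
  have : (fun x => A.mulVec x + t) '' K = (fun x => x + t) '' (Matrix.toLin' A '' K) := by
    rw [Set.image_image]; simp
  rw [this, Set.image_add_right, measure_preimage_add_right, Measure.addHaar_image_linearMap,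
    LinearMap.det_toLin', ENNReal.toReal_mul, ENNReal.toReal_ofReal (abs_nonneg _)]

lemma Cov.of_affine {K : Set (ι → ℝ)} {ρ : ℝ} {A : Matrix ι ι ℝ} (hA : A.det ≠ 0) (t : ι → ℝ)
    (h : Cov ((fun x => A.mulVec x + t) '' K) ρ) : Cov K ρ := by
  obtain ⟨g, h1, h2, h3⟩ := h
  have hu : IsUnit A.det := isUnit_iff_ne_zero.2 hA
  refine ⟨A⁻¹ * g, ?_, fun x => ?_, ?_⟩
  · rw [Matrix.det_mul, Matrix.det_nonsing_inv, Ring.inverse_eq_inv']
    exact mul_ne_zero (inv_ne_zero hA) h1
  · obtain ⟨z, k, hk, hz⟩ := h2 (A.mulVec x + t)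
    refine ⟨z, ?_⟩
    have e : A.mulVec k = A.mulVec x - g.mulVec (fun i => (z i : ℝ)) := by
      simp only at hz; linear_combination (exp := 1) hz
    have e2 := congrArg (A⁻¹.mulVec) e
    rw [Matrix.mulVec_sub, Matrix.mulVec_mulVec, Matrix.mulVec_mulVec, Matrix.mulVec_mulVec,
      Matrix.nonsing_inv_mul _ hu, Matrix.one_mulVec, Matrix.one_mulVec] at e2
    rw [← e2]; exact hk
  · rw [vol_affine] at h3
    rw [Matrix.det_mul, Matrix.det_nonsing_inv, Ring.inverse_eq_inv', abs_mul, abs_inv]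
    refine le_trans (le_of_eq ?_) h3
    have := abs_pos.2 hA
    field_simp

lemma Cov.reindex {κ : Type} [Fintype κ] [DecidableEq κ] (e : ι ≃ κ) {K : Set (κ → ℝ)} {ρ : ℝ}
    (h : Cov {x : ι → ℝ | x ∘ e.symm ∈ K} ρ) : Cov K ρ := by
  obtain ⟨g, h1, h2, h3⟩ := h
  refine ⟨Matrix.reindex e e g, by rwa [Matrix.det_reindex_self], fun x => ?_, ?_⟩
  · obtain ⟨z, hz⟩ := h2 (x ∘ e)
    refine ⟨z ∘ e.symm, ?_⟩
    convert hz using 1
    simp only [Set.mem_ofPred_eq]
    congr! 1
    funext j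
    simp [Matrix.mulVec, dotProduct, ← e.sum_comp]
  · rw [Matrix.det_reindex_self]
    refine le_trans (le_of_eq ?_) h3
    congr 2
    have hp := volume_measurePreserving_piCongrLeft (fun _ : κ => ℝ) e
    rw [← hp.measure_preimage_equiv]
    congr 1
    ext x
    simp only [Set.mem_preimage, Set.mem_ofPred_eq]
    congr! 1
    funext j
    simp [MeasurableEquiv.piCongrLeft, Equiv.piCongrLeft_apply_eq_cast]

lemma cov_of_hash {Γ : Type} [AddCommGroup Γ] [Fintype Γ] (φ : (ι → ℤ) →+ Γ)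
    (hφ : Function.Surjective φ) (s : ι → ℝ) (hs : ∀ i, 0 < s i) {K : Set (ι → ℝ)}
    (h : ∀ x : ι → ℝ, ∃ z, φ z = 0 ∧ (x - fun i => s i * z i) ∈ K) :
    Cov K ((volume K).toReal / (Fintype.card Γ * ∏ i, s i)) := by
  have hidx : φ.ker.index = Fintype.card Γ := by
    rw [AddSubgroup.index_ker, AddMonoidHom.range_eq_top.2 hφ]; simp
  have : φ.ker.FiniteIndex := ⟨by rw [hidx]; exact Fintype.card_ne_zero⟩
  have hr := AddSubgroup.finrank_eq_of_finiteIndex φ.ker
  rw [Module.finrank_fintype_fun_eq_card] at hr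
  let bN : Module.Basis ι ℤ φ.ker :=
    (Module.finBasisOfFinrankEq ℤ φ.ker hr).reindex (Fintype.equivFin ι).symm
  have hdet := AddSubgroup.index_eq_natAbs_det (Pi.basisFun ℤ ι) φ.ker bN
  let B : Matrix ι ι ℤ := Matrix.of fun i j => (bN j : ι → ℤ) i
  have hB : (Pi.basisFun ℤ ι).det (bN ·) = B.det := by
    rw [Module.Basis.det_apply]; congr 1
  have hB2 : |(B.det : ℝ)| = Fintype.card Γ := by
    rw [← hidx, hdet, hB, Nat.cast_natAbs]; simp
  let B' : Matrix ι ι ℝ := (Int.castRingHom ℝ).mapMatrix B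
  have hB3 : B'.det = (B.det : ℝ) := ((Int.castRingHom ℝ).map_det B).symm
  have hg : |(Matrix.diagonal s * B').det| = Fintype.card Γ * ∏ i, s i := by
    rw [Matrix.det_mul, Matrix.det_diagonal, hB3, abs_mul, hB2,
      abs_of_pos (prod_pos fun i _ => hs i), mul_comm]
  refine ⟨Matrix.diagonal s * B', ?_, fun x => ?_, by rw [hg]⟩
  · rw [← abs_pos, hg]
    exact mul_pos (by positivity) (prod_pos fun i _ => hs i)
  · obtain ⟨z, hz, hx⟩ := h x
    refine ⟨bN.repr ⟨z, hz⟩, ?_⟩
    convert hx using 2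
    funext i
    have e := congrArg (fun v : φ.ker => ((v : ι → ℤ) i : ℝ)) (bN.sum_repr ⟨z, hz⟩)
    simp only [AddSubgroup.val_finsetSum, AddSubgroupClass.coe_zsmul, Finset.sum_apply,
      Pi.smul_apply, smul_eq_mul] at e
    push_cast at e
    rw [← Matrix.mulVec_mulVec, Matrix.mulVec_diagonal, ← e]
    simp [Matrix.mulVec, dotProduct, B', B, mul_comm]

/-- covering by a dilate gives a covering by the body -/
lemma cov_of_hash_dilate {Γ : Type} [AddCommGroup Γ] [Fintype Γ] (φ : (ι → ℤ) →+ Γ)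
    (hφ : Function.Surjective φ) (s : ι → ℝ) (hs : ∀ i, 0 < s i) {K : Set (ι → ℝ)} {l : ℝ}
    (hl : 0 < l) (h : ∀ x : ι → ℝ, ∃ z, φ z = 0 ∧ ∃ k ∈ K, (x - fun i => s i * z i) = l • k) :
    Cov K (l ^ Fintype.card ι * (volume K).toReal / (Fintype.card Γ * ∏ i, s i)) := by
  have := cov_of_hash φ hφ (fun i => s i / l) (fun i => div_pos (hs i) hl) (K := K) (fun x => by
    obtain ⟨z, hz, k, hk, e⟩ := h (l • x)
    refine ⟨z, hz, ?_⟩
    convert hk using 1
    funext i
    have := congrFun e i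
    simp only [Pi.sub_apply, Pi.smul_apply, smul_eq_mul] at this ⊢
    field_simp; linarith)
  refine this.mono (le_of_eq ?_)
  rw [prod_div_distrib, prod_const, card_univ]
  have : 0 < ∏ i, s i := prod_pos fun i _ => hs i
  field_simp

lemma interior_nonempty_of_vol {S : Set (ι → ℝ)} (h1 : IsCompact S) (h2 : Convex ℝ S)
    (h3 : 0 < (volume S).toReal) : (interior S).Nonempty := by
  by_contra h
  rw [Set.not_nonempty_iff_eq_empty] at h
  have := h2.addHaar_frontier (μ := volume)
  rw [h1.isClosed.frontier_eq, h, Set.sdiff_empty] at this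
  rw [this] at h3; simp at h3

lemma exists_simplex {S : Set (ι → ℝ)} (h1 : IsCompact S) (h2 : Convex ℝ S)
    (h3 : (interior S).Nonempty) : ∃ (A : Matrix ι ι ℝ) (t : ι → ℝ), A.det ≠ 0 ∧
      (∀ u : ι → ℝ, (∀ i, 0 ≤ u i) → ∑ i, u i ≤ 1 → u ∈ (fun x => A.mulVec x + t) '' S) ∧
      ∀ u ∈ (fun x => A.mulVec x + t) '' S, ∀ i, |u i| ≤ 1 := by
  obtain ⟨t, ht⟩ := h3
  have htS : t ∈ S := interior_subset ht
  obtain ⟨ε, hε, hball⟩ := Metric.mem_nhds_iff.1 (mem_interior_iff_mem_nhds.1 ht)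
  let m : (ι → ι → ℝ) → Matrix ι ι ℝ := fun v => Matrix.of fun i j => v j i - t i
  have hc : Continuous fun v => |(m v).det| := by
    refine continuous_abs.comp (Continuous.matrix_det ?_)
    refine continuous_matrix fun i j => ?_
    simp only [m, Matrix.of_apply]; fun_prop
  have hK : IsCompact (Set.univ.pi fun _ : ι => S) := isCompact_univ_pi fun _ => h1
  obtain ⟨v, hv, hmax⟩ := hK.exists_isMaxOn ⟨fun _ => t, fun _ _ => htS⟩ hc.continuousOn
  have hpos : (m v).det ≠ 0 := by
    have h0 : (fun j => t + (ε / 2) • Pi.single j 1) ∈ Set.univ.pi fun _ : ι => S := by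
      intro j _
      apply hball
      rw [mem_ball_iff_norm, add_sub_cancel_left, norm_smul, Pi.norm_single]
      simp [abs_of_pos hε]; linarith
    have h4 := hmax h0
    have e : m (fun j => t + (ε / 2) • Pi.single j 1) = (ε / 2) • (1 : Matrix ι ι ℝ) := by
      ext i j; simp [m, Matrix.one_apply, Pi.single_apply]
    simp only [Set.mem_ofPred_eq, e, Matrix.det_smul, Matrix.det_one, mul_one] at h4
    rw [← abs_pos]
    exact lt_of_lt_of_le (abs_pos.2 (by positivity)) h4
  have hu : IsUnit (m v).det := isUnit_iff_ne_zero.2 hpos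
  refine ⟨(m v)⁻¹, -((m v)⁻¹.mulVec t), ?_, fun u hu0 hu1 => ?_, ?_⟩
  · rw [Matrix.det_nonsing_inv, Ring.inverse_eq_inv']; exact inv_ne_zero hpos
  · refine ⟨(m v).mulVec u + t, ?_, ?_⟩
    · have e : (m v).mulVec u + t = ∑ o : Option ι, (o.elim (1 - ∑ i, u i) u) • (o.elim t v) := by
        funext i
        simp only [Fintype.sum_option, m, Matrix.mulVec, dotProduct, Finset.sum_apply, sub_mul,
          sum_sub_distrib, Pi.add_apply, Matrix.of_apply, Option.elim, Pi.smul_apply, smul_eq_mul,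
          ← mul_sum, mul_comm (u _)]
        ring
      rw [e]
      refine h2.sum_mem ?_ ?_ ?_
      · rintro (_ | i) _
        · simpa using hu1
        · exact hu0 i
      · simp [Fintype.sum_option]
      · rintro (_ | i) _
        · exact htS
        · exact hv i trivial
    · simp [Matrix.mulVec_add, Matrix.mulVec_mulVec, Matrix.nonsing_inv_mul _ hu]
  · rintro _ ⟨s, hs, rfl⟩ i
    have e := congrFun (Matrix.det_smul_inv_mulVec_eq_cramer (m v) (s - t) hu) i
    rw [Matrix.cramer_apply, Matrix.mulVec_sub] at e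
    have h0 : Function.update v i s ∈ Set.univ.pi fun _ : ι => S := by
      intro j _
      by_cases hj : j = i
      · subst hj; simpa using hs
      · rw [Function.update_of_ne hj]; exact hv j trivial
    have h4 := hmax h0
    have e2 : m (Function.update v i s) = (m v).updateCol i (s - t) := by
      ext a j
      by_cases hj : j = i
      · subst hj; simp [m]
      · simp [m, Matrix.updateCol_ne hj, Function.update_of_ne hj]
    simp only [Set.mem_ofPred_eq, e2, ← e, Pi.smul_apply, smul_eq_mul, abs_mul] at h4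
    simp only [← sub_eq_add_neg]
    exact le_of_mul_le_mul_left (by simpa using h4) (abs_pos.2 hpos)

lemma exists_shrink [Nonempty ι] {S : Set (ι → ℝ)} (h1 : IsCompact S) (h2 : Convex ℝ S) {τ : ℝ}
    (hτ : 0 < τ) (h3 : τ ≤ (volume S).toReal) :
    ∃ Q ⊆ S, IsCompact Q ∧ Convex ℝ Q ∧ (volume Q).toReal = τ := by
  have hS : 0 < (volume S).toReal := hτ.trans_le h3
  obtain ⟨s, hs⟩ : S.Nonempty := by
    by_contra h; rw [Set.not_nonempty_iff_eq_empty] at h; simp [h] at hS
  have hn : Fintype.card ι ≠ 0 := Fintype.card_ne_zero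
  set r := (τ / (volume S).toReal) ^ ((Fintype.card ι : ℝ)⁻¹) with hr
  have hr0 : 0 ≤ r := by positivity
  have hr1 : r ≤ 1 := Real.rpow_le_one (by positivity) ((div_le_one hS).2 h3) (by positivity)
  refine ⟨AffineMap.homothety s r '' S, ?_, h1.image (AffineMap.homothety_continuous _ _),
    h2.affine_image _, ?_⟩
  · rintro _ ⟨x, hx, rfl⟩
    have := h2 hx hs hr0 (sub_nonneg.2 hr1) (by ring)
    convert this using 1
    simp only [AffineMap.homothety_apply, vsub_eq_sub, vadd_eq_add]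
    module
  · rw [Measure.addHaar_image_homothety, Module.finrank_fintype_fun_eq_card, ENNReal.toReal_mul,
      ENNReal.toReal_ofReal (abs_nonneg _), hr, Real.rpow_inv_natCast_pow (by positivity) hn,
      abs_of_nonneg (by positivity)]
    field_simp

/-- the trivial bound -/
lemma cov_trivial [Nonempty ι] {K : Set (ι → ℝ)} (h1 : IsCompact K) (h2 : Convex ℝ K)
    (h3 : (interior K).Nonempty) : Cov K ((2 * Fintype.card ι) ^ Fintype.card ι) := by
  obtain ⟨A, t, hA, h4, h5⟩ := exists_simplex h1 h2 h3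
  refine Cov.of_affine hA t ?_
  have hn : (0 : ℝ) < Fintype.card ι := by positivity
  refine (cov_of_hash (Γ := PUnit) 0 (fun _ => ⟨0, rfl⟩) (fun _ => 1 / Fintype.card ι)
    (fun _ => by positivity) (fun x => ⟨fun i => ⌊x i * Fintype.card ι⌋, rfl, h4 _ ?_ ?_⟩)).mono ?_
  · intro i
    have := Int.floor_le (x i * Fintype.card ι)
    simp only [Pi.sub_apply, sub_nonneg]
    rw [one_div, inv_mul_le_iff₀ hn]; linarith
  · calc _ ≤ ∑ _i : ι, (1 / Fintype.card ι : ℝ) := by
          refine sum_le_sum fun i _ => ?_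
          have := Int.lt_floor_add_one (x i * Fintype.card ι)
          simp only [Pi.sub_apply]
          rw [le_div_iff₀ hn]; field_simp; linarith
      _ = 1 := by simp
  · have : (volume ((fun x => A.mulVec x + t) '' K)).toReal ≤ 2 ^ Fintype.card ι := by
      have h6 : (fun x => A.mulVec x + t) '' K ⊆ Set.Icc (fun _ => -1) (fun _ => 1) :=
        fun u hu => ⟨fun i => (abs_le.1 (h5 u hu i)).1, fun i => (abs_le.1 (h5 u hu i)).2⟩
      refine (ENNReal.toReal_mono isCompact_Icc.measure_lt_top.ne (measure_mono h6)).trans ?_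
      rw [Real.volume_Icc_pi_toReal (fun _ => by norm_num)]
      norm_num
    simp only [Fintype.card_punit, prod_const, card_univ, Nat.cast_one, one_mul]
    rw [div_le_iff₀ (by positivity), ← mul_pow]
    refine this.trans (le_of_eq ?_); congr 1; field_simp

end

end Crest.Agent.LC
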