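import Mathlib

/-! Finite averages, binary-tree sets and the cube lemma. -/

set_option autoImplicit false
open Finset

namespace Crest.Agent.LC

/-- uniform average -/
noncomputable def av {α : Type*} [Fintype α] (f : α → ℝ) : ℝ := (∑ a, f a) / Fintype.card α

section av
variable {α β : Type*} [Fintype α] [Fintype β]

lemma av_nonneg {f : α → ℝ} (h : ∀ a, 0 ≤ f a) : 0 ≤ av f :=
  div_nonneg (sum_nonneg fun a _ => h a) (Nat.cast_nonneg _)

lemma av_mono {f g : α → ℝ} (h : ∀ a, f a ≤ g a) : av f ≤ av g :=
  div_le_div_of_nonneg_right (sum_le_sum fun a _ => h a) (Nat.cast_nonneg _)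

lemma av_add (f g : α → ℝ) : av (fun a => f a + g a) = av f + av g := by
  simp [av, sum_add_distrib, add_div]

lemma av_sub (f g : α → ℝ) : av (fun a => f a - g a) = av f - av g := by
  simp [av, sum_sub_distrib, sub_div]

lemma av_const_mul (c : ℝ) (f : α → ℝ) : av (fun a => c * f a) = c * av f := by
  simp [av, ← mul_sum, mul_div_assoc]

lemma av_mul_const (c : ℝ) (f : α → ℝ) : av (fun a => f a * c) = av f * c := by
  simp only [mul_comm _ c, av_const_mul]

lemma av_div_const (c : ℝ) (f : α → ℝ) : av (fun a => f a / c) = av f / c := by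
  simp only [div_eq_mul_inv, av_mul_const]

lemma av_sum {ι : Type*} (s : Finset ι) (f : ι → α → ℝ) :
    av (fun a => ∑ i ∈ s, f i a) = ∑ i ∈ s, av (f i) := by
  simp only [av, ← sum_div]; rw [sum_comm]

lemma av_const [Nonempty α] (c : ℝ) : av (fun _ : α => c) = c := by
  simp [av]

lemma av_comm (f : α → β → ℝ) : av (fun a => av (f a)) = av (fun b => av (fun a => f a b)) := by
  simp only [av, ← sum_div]; rw [sum_comm, div_div, div_div, mul_comm]

lemma av_equiv (e : α ≃ β) (f : β → ℝ) : av (fun a => f (e a)) = av f := by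
  simp only [av, Fintype.card_congr e]; rw [Equiv.sum_comp e f]

lemma av_prod (f : α × β → ℝ) : av f = av (fun a => av (fun b => f (a, b))) := by
  simp only [av, ← sum_div, Fintype.card_prod, Fintype.sum_prod_type, div_div]
  push_cast; rw [mul_comm]

lemma exists_le_av [Nonempty α] (f : α → ℝ) : ∃ a, f a ≤ av f := by
  by_contra h
  push Not at h
  have : av (fun _ : α => av f) < av f := by
    have hc : (0 : ℝ) < Fintype.card α := by positivity
    unfold av
    exact div_lt_div_of_pos_right (sum_lt_sum_of_nonempty univ_nonempty fun a _ => h a) hc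
  rw [av_const] at this; exact lt_irrefl _ this

lemma exists_av_le [Nonempty α] (f : α → ℝ) : ∃ a, av f ≤ f a := by
  obtain ⟨a, ha⟩ := exists_le_av (fun a => (-1) * f a)
  rw [av_const_mul] at ha
  exact ⟨a, by linarith⟩

open Classical in
/-- Markov -/
lemma av_markov {f : α → ℝ} (hf : ∀ a, 0 ≤ f a) {D E : ℝ} (hD : 0 < D) (hE : av f ≤ E) :
    av (fun a => if D * E < f a then (1 : ℝ) else 0) ≤ 1 / D := by
  have hE0 : 0 ≤ E := (av_nonneg hf).trans hE
  rcases hE0.eq_or_lt with h | h
  · have h0 : ∀ a, f a = 0 := by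
      intro a
      by_contra hne
      have hpos : 0 < f a := lt_of_le_of_ne (hf a) (Ne.symm hne)
      have : 0 < av f := by
        have : Nonempty α := ⟨a⟩
        exact div_pos (sum_pos' (fun b _ => hf b) ⟨a, mem_univ _, hpos⟩) (by positivity)
      linarith
    have : (fun a => if D * E < f a then (1 : ℝ) else 0) = fun _ => 0 := by
      funext a; rw [h0 a, ← h]; simp
    rw [this]; simp [av]; positivity
  · calc _ ≤ av (fun a => f a / (D * E)) := by
          apply av_mono; intro a
          split_ifs with h1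
          · rw [le_div_iff₀ (by positivity)]; linarith
          · exact div_nonneg (hf a) (by positivity)
      _ = av f / (D * E) := av_div_const _ _
      _ ≤ E / (D * E) := div_le_div_of_nonneg_right hE (by positivity)
      _ = 1 / D := by field_simp

end av

section grp
variable {H : Type*} [AddCommGroup H] [Fintype H]

lemma av_add_right (f : H → ℝ) (h : H) : av (fun a => f (a + h)) = av f :=
  av_equiv (Equiv.addRight h) f

lemma av_add_left (f : H → ℝ) (h : H) : av (fun a => f (h + a)) = av f :=
  av_equiv (Equiv.addLeft h) f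

lemma av_sub_right (f : H → ℝ) (h : H) : av (fun a => f (a - h)) = av f :=
  av_equiv (Equiv.subRight h) f

lemma av_hom {A : Type*} [AddCommGroup A] [Fintype A] (φ : A →+ H) (hφ : Function.Surjective φ)
    (G : H → ℝ) : av (fun b => G (φ b)) = av G := by
  have h1 : ∀ h : H, av (fun b => G (φ b + h)) = av (fun b => G (φ b)) := by
    intro h
    obtain ⟨c, rfl⟩ := hφ h
    simp only [← map_add]
    exact av_add_right (fun b => G (φ b)) c
  calc av (fun b => G (φ b)) = av (fun h : H => av (fun b => G (φ b + h))) := by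
        simp only [h1]; rw [av_const]
    _ = av (fun b => av (fun h : H => G (φ b + h))) := av_comm _
    _ = av G := by simp only [av_add_left G]; rw [av_const]

/-- pairwise independence -/
lemma av_pair {A : Type*} [AddCommGroup A] [Fintype A] (φ ψ : A →+ H)
    (hφ : Function.Surjective (φ - ψ)) (F G : H → ℝ) :
    av (fun b => av (fun a => F (a - φ b) * G (a - ψ b))) = av F * av G := by
  have h1 : ∀ b, av (fun a => F (a - φ b) * G (a - ψ b)) =
      av (fun a => F a * G (a + (φ - ψ) b)) := by
    intro b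
    rw [← av_add_right (fun a => F (a - φ b) * G (a - ψ b)) (φ b)]
    congr 1; funext a; congr 2 <;> simp [add_sub_assoc]
  simp only [h1]
  rw [av_comm]
  simp only [av_const_mul]
  have h2 : ∀ a, av (fun b => G (a + (φ - ψ) b)) = av G := by
    intro a
    rw [av_hom (φ - ψ) hφ (fun h => G (a + h)), av_add_left]
  simp only [h2, av_mul_const]

lemma av_pair_smul {c0 c1 : ℤ} (hc : Function.Surjective (fun h : H => (c0 - c1) • h))
    (F G : H → ℝ) :
    av (fun b => av (fun a => F (a - c0 • b) * G (a - c1 • b))) = av F * av G := by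
  have := av_pair (A := H) (zsmulAddGroupHom c0) (zsmulAddGroupHom c1) (by
    intro h
    obtain ⟨u, hu⟩ := hc h
    exact ⟨u, by simpa [sub_smul] using hu⟩) F G
  simpa using this

end grp

/-- multiplication by small nonzero integers is bijective -/
def InvUp (H : Type*) [AddCommGroup H] (P : ℕ) : Prop :=
  ∀ m : ℤ, m ≠ 0 → |m| ≤ P → Function.Bijective (fun h : H => m • h)

lemma InvUp.mono {H : Type*} [AddCommGroup H] {P P' : ℕ} (h : InvUp H P) (hP : P' ≤ P) :
    InvUp H P' := fun m hm hm' => h m hm (hm'.trans (by exact_mod_cast hP))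

lemma InvUp.prod {H H' : Type*} [AddCommGroup H] [AddCommGroup H'] {P : ℕ} (h : InvUp H P)
    (h' : InvUp H' P) : InvUp (H × H') P := fun m hm hm' =>
  (h m hm hm').prodMap (h' m hm hm')

/-- `∑ x i • b i` as a homomorphism in `b` -/
def dotB {k : ℕ} {H : Type*} [AddCommGroup H] (x : Fin k → ℤ) : (Fin k → H) →+ H where
  toFun b := ∑ i, x i • b i
  map_zero' := by simp
  map_add' b c := by simp [sum_add_distrib]

/-- `∑ x i • b i` as a homomorphism in `x` -/
def dotX {k : ℕ} {H : Type*} [AddCommGroup H] (b : Fin k → H) : (Fin k → ℤ) →+ H where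
  toFun x := ∑ i, x i • b i
  map_zero' := by simp
  map_add' b c := by simp [sum_add_distrib, add_smul]

lemma dotB_apply {k : ℕ} {H : Type*} [AddCommGroup H] (x : Fin k → ℤ) (b : Fin k → H) :
    dotB x b = ∑ i, x i • b i := rfl

lemma dotX_apply {k : ℕ} {H : Type*} [AddCommGroup H] (x : Fin k → ℤ) (b : Fin k → H) :
    dotX b x = ∑ i, x i • b i := rfl

lemma dotB_sub_surj {k : ℕ} {H : Type*} [AddCommGroup H] {P : ℕ} (hP : InvUp H P)
    {x y : Fin k → ℤ} (hxy : x ≠ y) (hx : ∀ i, 2 * |x i| ≤ P) (hy : ∀ i, 2 * |y i| ≤ P) :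
    Function.Surjective (dotB (H := H) x - dotB (H := H) y : (Fin k → H) →+ H) := by
  obtain ⟨i, hi⟩ := Function.ne_iff.1 hxy
  intro h
  have hb := hP (x i - y i) (sub_ne_zero.2 hi) (by
    have := abs_sub (x i) (y i); have := hx i; have := hy i; omega)
  obtain ⟨c, hc⟩ := hb.2 h
  refine ⟨Pi.single i c, ?_⟩
  simp only [AddMonoidHom.sub_apply, dotB_apply, ← sum_sub_distrib, ← sub_smul]
  rw [sum_eq_single i]
  · simpa using hc
  · intro j _ hj; simp [Pi.single_eq_of_ne hj]
  · simp

/-- binary tree sets -/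
def Tree {k : ℕ} (J : Finset (Fin k → ℤ)) : Prop :=
  ∀ i, ∀ x ∈ J, ∀ y ∈ J, ∀ z ∈ J, (∀ j, j < i → x j = y j ∧ x j = z j) →
    x i = y i ∨ x i = z i ∨ y i = z i

lemma cons_inj {k : ℕ} (c : ℤ) :
    Function.Injective (fun x : Fin k → ℤ => (Fin.cons c x : Fin (k + 1) → ℤ)) := by
  intro x y h
  funext i
  simpa using congrFun h i.succ

noncomputable def child {k : ℕ} (J : Finset (Fin (k + 1) → ℤ)) (c : ℤ) : Finset (Fin k → ℤ) :=
  J.preimage (fun x => (Fin.cons c x : Fin (k + 1) → ℤ))
    (cons_inj c).injOn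

lemma mem_child {k : ℕ} {J : Finset (Fin (k + 1) → ℤ)} {c : ℤ} {x : Fin k → ℤ} :
    x ∈ child J c ↔ (Fin.cons c x : Fin (k + 1) → ℤ) ∈ J := by simp [child]

lemma Tree.child {k : ℕ} {J : Finset (Fin (k + 1) → ℤ)} (h : Tree J) (c : ℤ) :
    Tree (child J c) := by
  intro i x hx y hy z hz hj
  have := h i.succ _ (mem_child.1 hx) _ (mem_child.1 hy) _ (mem_child.1 hz) (by
    intro j hj'
    refine Fin.cases ?_ (fun j hj' => ?_) j hj'
    · intro _; simp
    · simpa using hj j (Fin.succ_lt_succ_iff.1 hj'))
  simpa using this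

lemma Tree.split {k : ℕ} {J : Finset (Fin (k + 1) → ℤ)} (h : Tree J) {P : ℕ} (hP : 1 ≤ P)
    (hB : ∀ x ∈ J, ∀ i, 2 * |x i| ≤ P) :
    ∃ c0 c1 : ℤ, c0 ≠ c1 ∧ |c0 - c1| ≤ P ∧ ∀ x ∈ J, x 0 = c0 ∨ x 0 = c1 := by
  by_cases h1 : ∃ x ∈ J, ∃ y ∈ J, x 0 ≠ y 0
  · obtain ⟨x, hx, y, hy, hxy⟩ := h1
    refine ⟨x 0, y 0, hxy, ?_, fun z hz => ?_⟩
    · have := abs_sub (x 0) (y 0); have := hB x hx 0; have := hB y hy 0; omega
    · rcases h 0 x hx y hy z hz (fun j hj => absurd hj (Fin.not_lt_zero j)) with h | h | h
      · exact absurd h hxy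
      · exact Or.inl h.symm
      · exact Or.inr h.symm
  · push Not at h1
    rcases J.eq_empty_or_nonempty with rfl | ⟨x, hx⟩
    · exact ⟨0, 1, by norm_num, by simpa using hP, by simp⟩
    · exact ⟨x 0, x 0 + 1, by simp, by simpa using hP, fun z hz => Or.inl (h1 z hz x hx)⟩

lemma prod_split {k : ℕ} {M : Type*} [CommMonoid M] {J : Finset (Fin (k + 1) → ℤ)} {c0 c1 : ℤ}
    (hc : c0 ≠ c1) (hJ : ∀ x ∈ J, x 0 = c0 ∨ x 0 = c1) (g : (Fin (k + 1) → ℤ) → M) :
    ∏ x ∈ J, g x = (∏ x ∈ child J c0, g (Fin.cons c0 x)) * ∏ x ∈ child J c1, g (Fin.cons c1 x) := by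
  classical
  have h1 : ∀ c, ∏ x ∈ child J c, g (Fin.cons c x) = ∏ x ∈ J.filter (fun x => x 0 = c), g x := by
    intro c
    apply prod_bij (fun x _ => (Fin.cons c x : Fin (k + 1) → ℤ))
    · intro x hx; simp [mem_child.1 hx]
    · intro x _ y _ h; exact cons_inj c h
    · intro x hx
      simp only [mem_filter] at hx
      refine ⟨Fin.tail x, ?_, ?_⟩
      · rw [mem_child, ← hx.2, Fin.cons_self_tail]; exact hx.1
      · rw [← hx.2, Fin.cons_self_tail]
    · intro x _; rfl
  rw [h1, h1, ← prod_filter_mul_prod_filter_not J (fun x => x 0 = c0)]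
  congr 1
  apply prod_congr _ (fun _ _ => rfl)
  ext x; simp only [mem_filter]
  constructor
  · rintro ⟨h, h'⟩; exact ⟨h, (hJ x h).resolve_left h'⟩
  · rintro ⟨h, h'⟩; exact ⟨h, by rw [h']; exact hc.symm⟩

lemma Tree.card_le : ∀ {k : ℕ} {J : Finset (Fin k → ℤ)}, Tree J → J.card ≤ 2 ^ k := by
  intro k
  induction k with
  | zero => intro J _; simpa using card_le_one_of_subsingleton J
  | succ k ih =>
    intro J h
    obtain ⟨P, hP⟩ : ∃ P : ℕ, ∀ x ∈ J, ∀ i, 2 * |x i| ≤ P := by
      refine ⟨∑ x ∈ J, ∑ i, 2 * (x i).natAbs, fun x hx i => ?_⟩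
      have h1 : 2 * (x i).natAbs ≤ ∑ i, 2 * (x i).natAbs :=
        single_le_sum (f := fun i => 2 * (x i).natAbs) (fun _ _ => Nat.zero_le _) (mem_univ i)
      have h2 : ∑ i, 2 * (x i).natAbs ≤ ∑ x ∈ J, ∑ i, 2 * (x i).natAbs :=
        single_le_sum (f := fun x => ∑ i, 2 * (x i).natAbs) (fun _ _ => Nat.zero_le _) hx
      have h3 := h1.trans h2
      rw [← Int.natCast_natAbs]; exact_mod_cast h3
    obtain ⟨c0, c1, hc, -, hJ⟩ := h.split (P := P + 1) (by omega)
      (fun x hx i => by have := hP x hx i; push_cast; omega)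
    have := prod_split (M := Multiplicative ℕ) hc hJ (fun _ => Multiplicative.ofAdd 1)
    simp only [prod_const, ← ofAdd_nsmul, smul_eq_mul, mul_one, ← ofAdd_add,
      EmbeddingLike.apply_eq_iff_eq] at this
    have h0 := ih (h.child c0); have h1 := ih (h.child c1)
    rw [this, pow_succ]; omega

open Classical in
theorem cube' {H : Type} [AddCommGroup H] [Fintype H] {P : ℕ} (hP1 : 1 ≤ P) (hP : InvUp H P)
    {D : ℝ} (hD : 1 ≤ D) :
    ∀ (k : ℕ) (I : Type) [Fintype I] (J : I → Finset (Fin k → ℤ)), (∀ ι, Tree (J ι)) →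
      (∀ ι, ∀ x ∈ J ι, ∀ i, 2 * |x i| ≤ P) → ∀ f : I → (Fin k → ℤ) → H → ℝ,
      (∀ ι x a, 0 ≤ f ι x a) →
      av (fun b : Fin k → H => if ∃ ι, (J ι).Nonempty ∧ ∏ x ∈ J ι, (D * av (f ι x)) <
        D * av (fun a => ∏ x ∈ J ι, f ι x (a - dotB x b)) then (1 : ℝ) else 0) ≤
        k * 2 ^ k * Fintype.card I / D := by
  intro k
  induction k with
  | zero =>
    intro I _ J _ _ f hf
    have : ∀ b : Fin 0 → H, ¬ ∃ ι, (J ι).Nonempty ∧ ∏ x ∈ J ι, (D * av (f ι x)) <
        D * av (fun a => ∏ x ∈ J ι, f ι x (a - dotB x b)) := by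
      rintro b ⟨ι, ⟨x, hx⟩, h⟩
      have : J ι = {x} := eq_singleton_iff_unique_mem.2 ⟨hx, fun y _ => Subsingleton.elim _ _⟩
      rw [this] at h; simp [dotB_apply] at h
    simp only [this, if_false]; simp [av]
  | succ k ih =>
    intro I _ J hT hB f hf
    choose c0 c1 hc hcP hJ using fun ι => (hT ι).split hP1 (hB ι)
    let c : I × Bool → ℤ := fun p => if p.2 then c1 p.1 else c0 p.1
    have ih' := ih (I × Bool) (fun p => child (J p.1) (c p)) (fun p => (hT p.1).child _)
      (fun p x hx i => by simpa using hB p.1 _ (mem_child.1 hx) i.succ)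
      (fun p x => f p.1 (Fin.cons (c p) x)) (fun p x a => hf _ _ _)
    rw [← av_equiv (Fin.consEquiv (fun _ => H)), av_prod, av_comm]
    have hD0 : 0 < D := by linarith
    -- functions of the children
    let F : (Fin k → H) → I × Bool → H → ℝ := fun b p a =>
      ∏ x ∈ child (J p.1) (c p), f p.1 (Fin.cons (c p) x) (a - dotB x b)
    have hF : ∀ b p a, 0 ≤ F b p a := fun b p a => prod_nonneg fun x _ => hf _ _ _
    have hF1 : ∀ b p, child (J p.1) (c p) = ∅ → F b p = fun _ => 1 := by
      intro b p h; funext a; simp only [F, h, prod_empty]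
    have hsplit : ∀ b0 b ι a, ∏ x ∈ J ι, f ι x (a - dotB x (Fin.cons b0 b : Fin (k + 1) → H)) =
        F b (ι, false) (a - c0 ι • b0) * F b (ι, true) (a - c1 ι • b0) := by
      intro b0 b ι a
      rw [prod_split (hc ι) (hJ ι)]
      simp only [F, c, dotB_apply, Fin.sum_univ_succ, Fin.cons_zero, Fin.cons_succ, sub_sub]
      rfl
    have key : ∀ b : Fin k → H, av (fun b0 : H => if ∃ ι, (J ι).Nonempty ∧
        ∏ x ∈ J ι, (D * av (f ι x)) <
        D * av (fun a => ∏ x ∈ J ι, f ι x (a - dotB x ((Fin.consEquiv (fun _ => H)) (b0, b))))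
          then (1 : ℝ) else 0) ≤
        (if ∃ p : I × Bool, (child (J p.1) (c p)).Nonempty ∧
          ∏ x ∈ child (J p.1) (c p), (D * av (f p.1 (Fin.cons (c p) x))) <
          D * av (F b p) then (1 : ℝ) else 0) + Fintype.card I / D := by
      intro b
      split_ifs with hb
      · refine le_trans (av_mono (g := fun _ => 1) fun b0 => ?_) ?_
        · split_ifs <;> norm_num
        · rw [av_const]; have : (0 : ℝ) ≤ Fintype.card I / D := by positivity
          linarith
      · push Not at hb
        rw [zero_add]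
        let Z : I → H → ℝ := fun ι b0 =>
          av (fun a => F b (ι, false) (a - c0 ι • b0) * F b (ι, true) (a - c1 ι • b0))
        have hZ : ∀ ι, av (Z ι) = av (F b (ι, false)) * av (F b (ι, true)) := by
          intro ι
          exact av_pair_smul (hP (c0 ι - c1 ι) (sub_ne_zero.2 (hc ι)) (hcP ι)).2 _ _
        calc _ ≤ av (fun b0 => ∑ ι, if D * (av (F b (ι, false)) * av (F b (ι, true))) < Z ι b0
              then (1 : ℝ) else 0) := by
              apply av_mono; intro b0
              split_ifs with h1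
              · obtain ⟨ι, hne, h1⟩ := h1
                refine le_trans ?_ (single_le_sum (f := fun ι =>
                  if D * (av (F b (ι, false)) * av (F b (ι, true))) < Z ι b0 then (1 : ℝ) else 0)
                  (fun _ _ => by positivity) (mem_univ ι))
                rw [if_pos]
                have e1 : av (fun a => ∏ x ∈ J ι, f ι x
                    (a - dotB x ((Fin.consEquiv (fun _ => H)) (b0, b)))) = Z ι b0 := by
                  simp only [Z, ← hsplit]; rfl
                rw [e1, prod_split (hc ι) (hJ ι)] at h1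
                have h3 := hb (ι, false); have h4 := hb (ι, true)
                have h3' := hF1 b (ι, false); have h4' := hF1 b (ι, true)
                simp only [c, if_true, Bool.false_eq_true, if_false] at h3 h4 h3' h4'
                have h6 := av_nonneg (hF b (ι, false)); have h7 := av_nonneg (hF b (ι, true))
                rcases (child (J ι) (c0 ι)).eq_empty_or_nonempty with e0 | e0 <;>
                rcases (child (J ι) (c1 ι)).eq_empty_or_nonempty with e1 | e1
                · exfalso
                  obtain ⟨x, hx⟩ := hne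
                  rcases hJ ι x hx with h | h
                  · have : Fin.tail x ∈ child (J ι) (c0 ι) := by
                      rw [mem_child, ← h, Fin.cons_self_tail]; exact hx
                    rw [e0] at this; simp at this
                  · have : Fin.tail x ∈ child (J ι) (c1 ι) := by
                      rw [mem_child, ← h, Fin.cons_self_tail]; exact hx
                    rw [e1] at this; simp at this
                · exfalso
                  have : Z ι b0 = av (F b (ι, true)) := by
                    simp only [Z, h3' e0, one_mul]; exact av_sub_right _ _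
                  rw [e0, prod_empty, one_mul, this] at h1
                  exact absurd (h4 e1) (not_le.2 h1)
                · exfalso
                  have : Z ι b0 = av (F b (ι, false)) := by
                    simp only [Z, h4' e1, mul_one]; exact av_sub_right _ _
                  rw [e1, prod_empty, mul_one, this] at h1
                  exact absurd (h3 e0) (not_le.2 h1)
                · have h8 := mul_le_mul (h3 e0) (h4 e1) (mul_nonneg hD0.le h7)
                    ((mul_nonneg hD0.le h6).trans (h3 e0))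
                  refine lt_of_mul_lt_mul_left (lt_of_le_of_lt ?_ (h8.trans_lt h1)) hD0.le
                  exact le_of_eq (by ring)
              · exact sum_nonneg fun _ _ => by positivity
          _ ≤ ∑ _ι : I, 1 / D := by
              rw [av_sum]
              exact sum_le_sum fun ι _ => av_markov
                (fun b0 => av_nonneg fun a => mul_nonneg (hF _ _ _) (hF _ _ _)) hD0 (hZ ι).le
          _ = _ := by simp [div_eq_mul_inv]
    refine le_trans (av_mono key) ?_
    rw [av_add, av_const]
    refine le_trans (add_le_add_left ih' _) ?_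
    rw [← add_div]
    apply div_le_div_of_nonneg_right _ hD0.le
    simp only [Fintype.card_prod, Fintype.card_bool]
    push_cast
    have h1 : (1 : ℝ) ≤ 2 ^ (k + 1) := one_le_pow₀ (by norm_num)
    have h2 : (0 : ℝ) ≤ Fintype.card I := by positivity
    rw [pow_succ] at h1 ⊢
    nlinarith [mul_le_mul_of_nonneg_right h1 h2]

open Classical in
/-- the cube lemma: for most shifts, the translates along a binary tree are almost independent -/
theorem cube {H : Type} [AddCommGroup H] [Fintype H] {P : ℕ} (hP1 : 1 ≤ P) (hP : InvUp H P)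
    {D : ℝ} (hD : 1 ≤ D) (k : ℕ) (I : Type) [Fintype I] (J : I → Finset (Fin k → ℤ))
    (hT : ∀ ι, Tree (J ι)) (hB : ∀ ι, ∀ x ∈ J ι, ∀ i, 2 * |x i| ≤ P)
    (f : I → (Fin k → ℤ) → H → ℝ) (hf : ∀ ι x a, 0 ≤ f ι x a) :
    av (fun b : Fin k → H => if ∃ ι, ∏ x ∈ J ι, (D * av (f ι x)) <
      av (fun a => ∏ x ∈ J ι, f ι x (a - dotB x b)) then (1 : ℝ) else 0) ≤
      k * 2 ^ k * Fintype.card I / D := by
  refine le_trans (av_mono fun b => ?_) (cube' hP1 hP hD k I J hT hB f hf)
  split_ifs with h1 h2
  · exact le_rfl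
  · exfalso
    obtain ⟨ι, h⟩ := h1
    rcases (J ι).eq_empty_or_nonempty with h0 | hne
    · rw [h0] at h; simp [av_const] at h
    · exact h2 ⟨ι, hne, h.trans_le (le_mul_of_one_le_left
        (av_nonneg fun a => prod_nonneg fun x _ => hf _ _ _) hD)⟩
  · norm_num
  · exact le_rfl

end Crest.Agent.LC
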