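import Mathlib

set_option autoImplicit false
open MeasureTheory

namespace Crest.Agent.LC

/-- standard Gaussian density -/
noncomputable def gau (t : ℝ) : ℝ := Real.exp (-t ^ 2 / 2) / Real.sqrt (2 * Real.pi)

/-- Gaussian lower bound for a low-dimensional marginal of a convex body (weak Klartag CLT). -/
def CLTStmt : Prop :=
  ∃ c : ℝ, 0 < c ∧ ∃ n₀ : ℕ, ∀ (α β : Type) [Fintype α] [DecidableEq α] [Fintype β] [DecidableEq β],
    n₀ ≤ Fintype.card α + Fintype.card β → 1 ≤ Fintype.card β →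
    ((Fintype.card β : ℝ)) ^ 20 ≤ Real.log ((Fintype.card α + Fintype.card β : ℕ) : ℝ) →
    ∀ K : Set (α ⊕ β → ℝ), IsCompact K → Convex ℝ K → (interior K).Nonempty →
      ∃ A : Matrix (α ⊕ β) (α ⊕ β) ℝ, A.det ≠ 0 ∧
        ∀ y : β → ℝ, (∀ i, |y i| ≤ (Fintype.card β : ℝ)) →
          c * (volume (A.mulVec '' K)).toReal * ∏ i, gau (y i) ≤
            (volume {a : α → ℝ | Sum.elim a y ∈ A.mulVec '' K}).toReal

/-- Young-type inequality with an exponentially small constant, for sets. -/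
def YoungStmt : Prop :=
  ∃ c : ℝ, 0 < c ∧ c < 1 ∧ ∀ (α : Type) [Fintype α] (A B C : Set (α → ℝ)),
    MeasurableSet A → MeasurableSet B → MeasurableSet C → ∀ v : ℝ, 0 ≤ v →
    volume A ≤ ENNReal.ofReal v → volume B ≤ ENNReal.ofReal v → volume C ≤ ENNReal.ofReal v →
    volume {p : (α → ℝ) × (α → ℝ) | p.1 ∈ A ∧ p.2 ∈ B ∧ p.1 + p.2 ∈ C} ≤
      ENNReal.ofReal (c ^ Fintype.card α * v ^ 2)

/-- Rogers–Schmidt type hole probability for a random linear hash of a fine grid. -/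
def HoleStmt : Prop :=
  ∃ κ : ℝ, 0 < κ ∧ ∃ n₀ : ℕ, ∀ (α : Type) [Fintype α] [DecidableEq α], n₀ ≤ Fintype.card α →
    ∀ (I : Type) [Fintype I] (Q : I → Set (α → ℝ)),
      (∀ ι, IsCompact (Q ι) ∧ Convex ℝ (Q ι) ∧ 0 < (volume (Q ι)).toReal) →
      ∀ ρ : ℝ, 0 < ρ →
      (∀ ι, ρ * (volume (Q ι)).toReal ≤ κ * Fintype.card α / Real.log (Fintype.card α)) →
      ∀ N₀ P₀ : ℕ, 0 < N₀ →
      ∃ (T : ℕ) (H : Type) (_ : AddCommGroup H) (_ : Fintype H) (b : α → H),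
        0 < T ∧ N₀ ∣ T ∧
        (∀ m : ℤ, m ≠ 0 → |m| ≤ P₀ → Function.Bijective (fun h : H => m • h)) ∧
        ρ * Fintype.card H ≤ (T : ℝ) ^ Fintype.card α ∧
        (T : ℝ) ^ Fintype.card α ≤ 2 * ρ * Fintype.card H ∧
        ∀ ι, (Nat.card {γ : H // ¬ ∃ a : α → ℤ,
              (fun i => (a i : ℝ) / T) ∈ Q ι ∧ ∑ i, a i • b i = γ} : ℝ) ≤
            8 * Fintype.card I * Real.exp (-(ρ * (volume (Q ι)).toReal) / 2) * Fintype.card H

end Crest.Agent.LC
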