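import Mathlib

/-! Counting integer tuples with a linear relation. -/

set_option autoImplicit false

namespace Crest.Agent.LC

open Finset Fintype

variable {α κ : Type} [Fintype α] [DecidableEq α] [Fintype κ] [DecidableEq κ]

/-- tuples of points of `A` satisfying the relation `u` -/
def Sol (A : Finset (α → ℤ)) (u : κ → ℤ) : Finset (κ → α → ℤ) :=
  (piFinset fun _ => A).filter fun x => ∀ i, ∑ j, u j * x j i = 0

lemma mem_Sol {A : Finset (α → ℤ)} {u : κ → ℤ} {x : κ → α → ℤ} :
    x ∈ Sol A u ↔ (∀ j, x j ∈ A) ∧ ∀ i, ∑ j, u j * x j i = 0 := by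
  simp [Sol]

lemma card_le_fiber {X Y : Type*} [DecidableEq Y] (s : Finset X) (t : Finset Y) (f : X → Y)
    (hf : ∀ a ∈ s, f a ∈ t) (B : ℝ) (hB : ∀ b ∈ t, ((s.filter fun a => f a = b).card : ℝ) ≤ B) :
    (s.card : ℝ) ≤ t.card * B := by
  rw [card_eq_sum_card_fiberwise (f := f) (t := t) hf]
  push_cast
  exact (sum_le_card_nsmul _ _ B hB).trans (by simp)

lemma card_pi_ite {Y : Type*} (J : Finset κ) (s t : κ → Finset Y) (a b : ℕ)
    (hs : ∀ j, (s j).card = a) (ht : ∀ j, (t j).card = b) :
    (piFinset fun j => if j ∈ J then s j else t j).card = a ^ J.card * b ^ (card κ - J.card) := by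
  rw [card_piFinset]
  have : ∀ j, (if j ∈ J then s j else t j).card = if j ∈ J then a else b := by
    intro j; split_ifs <;> simp [hs, ht]
  simp only [this]
  rw [prod_ite, prod_const, prod_const, filter_mem_eq_inter, univ_inter]
  congr 2
  rw [← Finset.card_compl]
  congr 1
  ext j; simp

omit [DecidableEq κ] in
lemma growth (u c : κ → ℤ) (hc : ∑ j, u j * c j = 1) (h : ℕ) (m : ℕ) (hm : m ≤ h) :
    ∃ D : Finset (κ → ℤ), D.card = m ∧ (∀ d ∈ D, ∀ j, 0 ≤ d j ∧ d j < m) ∧
      ∀ d ∈ D, ∀ d' ∈ D, ((∑ j, u j * d j : ℤ) : ZMod h) = ((∑ j, u j * d' j : ℤ) : ZMod h) →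
        d = d' := by
  classical
  induction m with
  | zero => exact ⟨∅, rfl, by simp, by simp⟩
  | succ m ih =>
    obtain ⟨D, h1, h2, h3⟩ := ih (by omega)
    rcases Nat.eq_zero_or_pos m with rfl | hm0
    · exact ⟨{0}, rfl, by simp, by simp⟩
    haveI : NeZero h := ⟨by omega⟩
    let φ : (κ → ℤ) → ZMod h := fun d => ((∑ j, u j * d j : ℤ) : ZMod h)
    by_cases hex : ∃ d ∈ D, ∃ j, φ d + u j ∉ D.image φ
    · obtain ⟨d, hd, j, hj⟩ := hex
      have hφ : φ (d + Pi.single j 1) = φ d + u j := by
        simp only [φ, Pi.add_apply, mul_add, sum_add_distrib]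
        push_cast
        congr 1
        rw [Finset.sum_eq_single j] <;> simp +contextual [Pi.single_apply]
      have hnot : d + Pi.single j 1 ∉ D := fun hh => hj (hφ ▸ mem_image_of_mem φ hh)
      refine ⟨insert (d + Pi.single j 1) D, by rw [card_insert_of_notMem hnot, h1], ?_, ?_⟩
      · intro e he i
        rcases mem_insert.1 he with rfl | he
        · have := h2 d hd i
          simp only [Pi.add_apply, Pi.single_apply]
          push_cast
          split_ifs <;> omega
        · have := h2 e he i
          push_cast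
          omega
      · intro e he e' he' hee
        change φ e = φ e' at hee
        rcases mem_insert.1 he with rfl | he <;> rcases mem_insert.1 he' with rfl | he''
        · rfl
        · exact (hj (by rw [← hφ, hee]; exact mem_image_of_mem φ he'')).elim
        · exact (hj (by rw [← hφ, ← hee]; exact mem_image_of_mem φ he)).elim
        · exact h3 e he e' he'' hee
    · exfalso
      push Not at hex
      have s1 : ∀ b ∈ D.image φ, ∀ j, b + u j ∈ D.image φ := by
        intro b hb j
        obtain ⟨d, hd, rfl⟩ := mem_image.1 hb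
        exact hex d hd j
      have s2 : ∀ (j) (n : ℕ), ∀ b ∈ D.image φ, b + n * u j ∈ D.image φ := by
        intro j n
        induction n with
        | zero => intro b hb; simpa using hb
        | succ n ih =>
          intro b hb
          have := s1 _ (ih b hb) j
          push_cast
          rwa [add_mul, one_mul, ← add_assoc]
      have s3 : ∀ (t : κ → ZMod h) (s : Finset κ), ∀ b ∈ D.image φ,
          b + ∑ j ∈ s, t j * u j ∈ D.image φ := by
        intro t s
        induction s using Finset.induction_on with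
        | empty => intro b hb; simpa using hb
        | insert j s hj ih =>
          intro b hb
          have := s2 j (t j).val _ (ih b hb)
          rw [ZMod.natCast_zmod_val] at this
          rw [sum_insert hj, add_comm (t j * _), ← add_assoc]
          exact this
      obtain ⟨d, hd⟩ : D.Nonempty := card_pos.1 (by omega)
      have s4 : D.image φ = univ := by
        refine eq_univ_of_forall fun y => ?_
        have := s3 (fun j => (y - φ d) * c j) univ _ (mem_image_of_mem φ hd)
        have e : ∑ j, (y - φ d) * (c j : ZMod h) * u j = y - φ d := by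
          have : ∑ j, (c j : ZMod h) * u j = 1 := by
            have := congrArg (Int.cast : ℤ → ZMod h) hc
            push_cast at this
            simpa [mul_comm] using this
          simp only [mul_assoc]
          rw [← mul_sum, this, mul_one]
        rw [e] at this
        simpa using this
      have := card_image_le (s := D) (f := φ)
      rw [s4, card_univ, ZMod.card] at this
      omega

lemma sum_split (j₀ : κ) (f : κ → ℤ) : ∑ j, f j = f j₀ + ∑ j ∈ univ.erase j₀, f j :=
  (add_sum_erase _ _ (mem_univ j₀)).symm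

lemma pack (A Ap : Finset (α → ℤ)) (u c : κ → ℤ) (hc : ∑ j, u j * c j = 1) (j₀ : κ)
    (h0 : u j₀ ≠ 0) (m : ℕ) (hm : m ≤ (u j₀).natAbs)
    (hA : ∀ a ∈ A, ∀ t : α → ℤ, (∀ i, 0 ≤ t i ∧ t i < m) → a + t ∈ Ap) :
    (Sol A u).card * m ^ card α ≤ Ap.card ^ (card κ - 1) := by
  obtain ⟨D, h1, h2, h3⟩ := growth u c hc _ m hm
  have e1 : (Sol A u ×ˢ piFinset fun _ : α => D).card = (Sol A u).card * m ^ card α := by
    rw [card_product, card_piFinset]; simp [h1]
  have e2 := card_pi_ite (Y := α → ℤ) {j₀} (fun _ => {0}) (fun _ => Ap) 1 Ap.card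
    (fun _ => rfl) (fun _ => rfl)
  rw [one_pow, one_mul, card_singleton] at e2
  rw [← e1, ← e2]
  refine card_le_card_of_injOn
    (fun z j => if j = j₀ then 0 else z.1 j + fun i => z.2 i j) ?_ ?_
  · rintro ⟨x, d⟩ hz
    simp only [coe_product, Set.mem_prod, mem_coe, mem_piFinset, mem_Sol] at hz
    simp only [mem_coe, mem_piFinset, mem_singleton]
    intro j
    split_ifs
    · simp
    · exact hA _ (hz.1.1 j) _ fun i => h2 _ (hz.2 i) j
  · rintro ⟨x, d⟩ hz ⟨x', d'⟩ hz' he
    simp only [coe_product, Set.mem_prod, mem_coe, mem_piFinset, mem_Sol] at hz hz'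
    have he' : ∀ j, j ≠ j₀ → ∀ i, x j i + d i j = x' j i + d' i j := by
      intro j hj i
      have := congrFun (congrFun he j) i
      simpa [hj] using this
    have hz0 : ((u j₀ : ℤ) : ZMod (u j₀).natAbs) = 0 := by
      rw [ZMod.intCast_zmod_eq_zero_iff_dvd]; simp
    have hd : d = d' := by
      funext i
      refine h3 _ (hz.2 i) _ (hz'.2 i) ?_
      have s1 : ∑ j ∈ univ.erase j₀, u j * x j i + ∑ j ∈ univ.erase j₀, u j * d i j =
          ∑ j ∈ univ.erase j₀, u j * x' j i + ∑ j ∈ univ.erase j₀, u j * d' i j := by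
        rw [← sum_add_distrib, ← sum_add_distrib]
        refine sum_congr rfl fun j hj => ?_
        rw [← mul_add, ← mul_add, he' j (ne_of_mem_erase hj)]
      have s2 := hz.1.2 i
      have s3 := hz'.1.2 i
      rw [sum_split j₀] at s2 s3
      have s4 : ∑ j, u j * d i j = ∑ j, u j * d' i j +
          u j₀ * (d i j₀ - d' i j₀ + x j₀ i - x' j₀ i) := by
        rw [sum_split j₀, sum_split j₀ fun j => u j * d' i j]
        linarith
      rw [s4, Int.cast_add, Int.cast_mul, hz0, zero_mul, add_zero]
    subst hd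
    have hx : ∀ j, j ≠ j₀ → x j = x' j := fun j hj => funext fun i => by
      have := he' j hj i; linarith
    have hx0 : x j₀ = x' j₀ := by
      funext i
      have s2 := hz.1.2 i
      have s3 := hz'.1.2 i
      rw [sum_split j₀] at s2 s3
      have : ∑ j ∈ univ.erase j₀, u j * x j i = ∑ j ∈ univ.erase j₀, u j * x' j i :=
        sum_congr rfl fun j hj => by rw [hx j (ne_of_mem_erase hj)]
      exact mul_left_cancel₀ h0 (by linarith)
    congr 1
    funext j
    by_cases hj : j = j₀
    · rw [hj, hx0]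
    · exact hx j hj

open Classical in
lemma triple (A : Finset (α → ℤ)) (u : κ → ℤ) (j₀ j₁ j₂ : κ) (h01 : j₀ ≠ j₁) (h02 : j₀ ≠ j₂)
    (h12 : j₁ ≠ j₂) (h0 : u j₀ ≠ 0) (B : ℝ)
    (hB : ∀ c : α → ℤ, (((A ×ˢ A).filter fun z => ∃ a ∈ A,
      ∀ i, u j₁ * z.1 i + u j₂ * z.2 i + u j₀ * a i + c i = 0).card : ℝ) ≤ B) :
    ((Sol A u).card : ℝ) ≤ (A.card : ℝ) ^ (card κ - 3) * B := by
  let J : Finset κ := {j₀, j₁, j₂}
  have hJ : J.card = 3 := card_eq_three.2 ⟨j₀, j₁, j₂, h01, h02, h12, rfl⟩
  have e2 := card_pi_ite (Y := α → ℤ) J (fun _ => {0}) (fun _ => A) 1 A.card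
    (fun _ => rfl) (fun _ => rfl)
  rw [one_pow, one_mul, hJ] at e2
  have hsum : ∀ f : κ → ℤ, ∑ j, f j = f j₁ + f j₂ + f j₀ + ∑ j ∈ Jᶜ, f j := by
    intro f
    rw [← sum_add_sum_compl J, sum_insert (by simp [h01, h02]), sum_insert (by simp [h12]),
      sum_singleton]
    ring
  have := card_le_fiber (Sol A u) (piFinset fun j => if j ∈ J then ({0} : Finset (α → ℤ)) else A)
    (fun x j => if j ∈ J then 0 else x j) ?_ B ?_
  · rw [e2] at this
    exact_mod_cast this
  · intro x hx
    simp only [mem_piFinset]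
    intro j
    split_ifs
    · simp
    · exact (mem_Sol.1 hx).1 j
  · intro z _
    refine le_trans ?_ (hB fun i => ∑ j ∈ Jᶜ, u j * z j i)
    have hz : ∀ x : κ → α → ℤ, (fun j => if j ∈ J then 0 else x j) = z → ∀ j ∈ Jᶜ, x j = z j := by
      intro x hx j hj
      rw [← hx]
      simp [mem_compl.1 hj]
    norm_cast
    refine card_le_card_of_injOn (fun x => (x j₁, x j₂)) ?_ ?_
    · intro x hx
      simp only [coe_filter, Set.mem_ofPred_eq, mem_Sol] at hx
      simp only [coe_filter, Set.mem_ofPred_eq, mem_product]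
      refine ⟨⟨hx.1.1 _, hx.1.1 _⟩, x j₀, hx.1.1 _, fun i => ?_⟩
      have := hx.1.2 i
      rw [hsum] at this
      rw [← this]
      congr 1
      exact sum_congr rfl fun j hj => by rw [hz x hx.2 j hj]
    · intro x hx x' hx' he
      simp only [coe_filter, Set.mem_ofPred_eq, mem_Sol] at hx hx'
      obtain ⟨e1, e2⟩ := Prod.mk.inj he
      have e3 : ∀ j ∈ Jᶜ, x j = x' j := fun j hj => (hz x hx.2 j hj).trans (hz x' hx'.2 j hj).symm
      have e0 : x j₀ = x' j₀ := by
        funext i
        have s1 := hx.1.2 i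
        have s2 := hx'.1.2 i
        rw [hsum] at s1 s2
        have : ∑ j ∈ Jᶜ, u j * x j i = ∑ j ∈ Jᶜ, u j * x' j i :=
          sum_congr rfl fun j hj => by rw [e3 j hj]
        rw [e1, e2, this] at s1
        exact mul_left_cancel₀ h0 (by linarith)
      funext j
      by_cases hj : j ∈ J
      · simp only [J, mem_insert, mem_singleton] at hj
        rcases hj with rfl | rfl | rfl <;> assumption
      · exact e3 j (mem_compl.2 hj)

/-- integer vectors in a box orthogonal to `u` -/
noncomputable def Row (L : ℤ) (u : κ → ℤ) : Finset (κ → ℤ) :=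
  (piFinset fun _ => Icc (-L) L).filter fun y => ∑ j, u j * y j = 0

lemma row_pack (L : ℕ) (u c : κ → ℤ) (hc : ∑ j, u j * c j = 1) (j₀ : κ)
    (h0 : u j₀ ≠ 0) (m : ℕ) (hm : m ≤ (u j₀).natAbs) :
    (Row L u).card * m ≤ (2 * L + 1 + m) ^ (card κ - 1) := by
  have := pack (α := Unit) (piFinset fun _ => Icc (-(L : ℤ)) L)
    (piFinset fun _ => Icc (-(L : ℤ)) (L + m)) u c hc j₀ h0 m hm (by
      intro a ha t ht
      simp only [mem_piFinset, mem_Icc, Pi.add_apply] at ha ⊢
      intro i
      have := ha i
      have := ht i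
      omega)
  have e : (piFinset fun _ : Unit => Icc (-(L : ℤ)) (L + m)).card = 2 * L + 1 + m := by
    simp only [card_piFinset, Int.card_Icc, prod_const, card_univ, card_unique, pow_one]
    omega
  rw [e, card_unique, pow_one] at this
  refine le_trans (Nat.mul_le_mul_right _ ?_) this
  refine card_le_card_of_injOn (fun y j _ => y j) ?_ ?_
  · intro y hy
    simp only [Row, coe_filter, mem_piFinset, Set.mem_ofPred_eq] at hy
    simp only [mem_coe, mem_Sol, mem_piFinset]
    exact ⟨fun j _ => hy.1 j, fun _ => hy.2⟩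
  · intro y _ y' _ h
    funext j
    exact congrFun (congrFun h j) ()

open Classical in
lemma rows_count (A : Finset (α → ℤ)) (L : ℕ) (hL : ∀ a ∈ A, ∀ i, |a i| ≤ L) (K : ℝ)
    (hK : 0 ≤ K) :
    (((piFinset fun _ : κ => A).filter fun x => ∃ u : κ → ℤ, u ≠ 0 ∧
      (∀ i, ∑ j, u j * x j i = 0) ∧ ((Row L u).card : ℝ) ≤ K).card : ℝ) ≤
      ∑ J ∈ (univ : Finset α).powerset with J.card + 1 ≤ card κ,
        ((2 * L + 1 : ℝ) ^ card κ) ^ J.card * K ^ (card α - J.card) := by
  let box : Finset (κ → ℤ) := piFinset fun _ => Icc (-(L : ℤ)) L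
  have hbox : box.card = (2 * L + 1) ^ card κ := by
    simp only [box, card_piFinset, Int.card_Icc, prod_const, card_univ]
    congr 1
    omega
  let cq : (κ → ℤ) → κ → ℚ := fun y j => y j
  let Cl : (α → κ → ℤ) → Finset (κ → ℤ) := fun z =>
    box.filter fun y => cq y ∈ Submodule.span ℚ (Set.range fun i => cq (z i))
  let zr : Finset α → (κ → α → ℤ) → α → κ → ℤ := fun J x i => if i ∈ J then fun j => x j i else 0
  let XJ : Finset α → Finset (κ → α → ℤ) := fun J => (piFinset fun _ : κ => A).filter fun x =>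
    (∀ i, (fun j => x j i) ∈ Cl (zr J x)) ∧ ((Cl (zr J x)).card : ℝ) ≤ K
  have hrow : ∀ x ∈ (piFinset fun _ : κ => A), ∀ i, (fun j => x j i) ∈ box := by
    intro x hx i
    simp only [box, mem_piFinset, mem_Icc] at hx ⊢
    exact fun j => abs_le.1 (hL _ (hx j) i)
  have h1 : ((piFinset fun _ : κ => A).filter fun x => ∃ u : κ → ℤ, u ≠ 0 ∧
      (∀ i, ∑ j, u j * x j i = 0) ∧ ((Row L u).card : ℝ) ≤ K) ⊆
      ((univ : Finset α).powerset.filter fun J => J.card + 1 ≤ card κ).biUnion XJ := by
    intro x hx
    obtain ⟨hxA, u, hu0, hu, hK'⟩ := mem_filter.1 hx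
    obtain ⟨ι, a, ha, hsp, hli⟩ := exists_linearIndependent' ℚ fun i => cq fun j => x j i
    haveI : Finite ι := Finite.of_injective a ha
    haveI := Fintype.ofFinite ι
    let ℓ : (κ → ℚ) →ₗ[ℚ] ℚ := ∑ j, (u j : ℚ) • LinearMap.proj j
    have hℓ : ∀ y : κ → ℤ, ℓ (cq y) = ((∑ j, u j * y j : ℤ) : ℚ) := by
      intro y; simp [ℓ, cq]
    have hℓ0 : ℓ ≠ 0 := by
      intro h
      obtain ⟨j, hj⟩ := Function.ne_iff.1 hu0
      have := hℓ (Pi.single j 1)
      rw [h, Finset.sum_eq_single j] at this
      · simp at this; exact hj (by exact_mod_cast this.symm)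
      · intro b _ hb; simp [hb]
      · simp
    have hcard : card ι + 1 ≤ card κ := by
      have e1 : Submodule.span ℚ (Set.range ((fun i => cq fun j => x j i) ∘ a)) ≤
          LinearMap.ker ℓ := by
        rw [Submodule.span_le]
        rintro _ ⟨i, rfl⟩
        simp only [SetLike.mem_coe, LinearMap.mem_ker, Function.comp]
        rw [hℓ, hu]; simp
      have e2 := Submodule.finrank_mono e1
      rw [finrank_span_eq_card hli] at e2
      have e3 : Module.finrank ℚ (LinearMap.ker ℓ) < Module.finrank ℚ (κ → ℚ) :=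
        Submodule.finrank_lt (fun h => hℓ0 (LinearMap.ker_eq_top.1 h))
      rw [Module.finrank_pi] at e3
      omega
    let J : Finset α := univ.image a
    refine mem_biUnion.2 ⟨J, mem_filter.2 ⟨mem_powerset.2 (subset_univ _), ?_⟩,
      mem_filter.2 ⟨hxA, fun i => mem_filter.2 ⟨hrow x hxA i, ?_⟩, le_trans ?_ hK'⟩⟩
    · rw [card_image_of_injective _ ha, card_univ]; exact hcard
    · have : cq (fun j => x j i) ∈ Submodule.span ℚ (Set.range fun i => cq fun j => x j i) :=
        Submodule.subset_span ⟨i, rfl⟩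
      rw [← hsp] at this
      refine Submodule.span_mono ?_ this
      rintro _ ⟨t, rfl⟩
      refine ⟨a t, ?_⟩
      simp [zr, J]
    · norm_cast
      refine card_le_card fun y hy => ?_
      obtain ⟨hy1, hy2⟩ := mem_filter.1 hy
      refine mem_filter.2 ⟨hy1, ?_⟩
      have e1 : Submodule.span ℚ (Set.range fun i => cq (zr J x i)) ≤ LinearMap.ker ℓ := by
        rw [Submodule.span_le]
        rintro _ ⟨i, rfl⟩
        simp only [SetLike.mem_coe, LinearMap.mem_ker]
        rw [hℓ]
        simp only [zr]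
        split_ifs
        · rw [hu]; simp
        · simp
      have := e1 hy2
      rw [LinearMap.mem_ker, hℓ] at this
      exact_mod_cast this
  have h2 : ∀ J : Finset α, ((XJ J).card : ℝ) ≤
      ((2 * L + 1 : ℝ) ^ card κ) ^ J.card * K ^ (card α - J.card) := by
    intro J
    have e2 := card_pi_ite (Y := κ → ℤ) J (fun _ => box) (fun _ => {0}) box.card 1
      (fun _ => rfl) (fun _ => rfl)
    rw [one_pow, mul_one, hbox] at e2
    have := card_le_fiber (XJ J) (piFinset fun i => if i ∈ J then box else {0}) (zr J) ?_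
      (K ^ (card α - J.card)) ?_
    · rw [e2] at this
      exact_mod_cast this
    · intro x hx
      simp only [mem_piFinset, zr]
      intro i
      split_ifs
      · exact hrow x (mem_filter.1 hx).1 i
      · simp
    · intro z _
      by_cases hz : ((Cl z).card : ℝ) ≤ K
      · have e3 := card_pi_ite (Y := κ → ℤ) J (fun i => {z i}) (fun _ => Cl z) 1 (Cl z).card
          (fun _ => rfl) (fun _ => rfl)
        rw [one_pow, one_mul] at e3
        refine le_trans ?_ (pow_le_pow_left₀ (Nat.cast_nonneg _) hz _)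
        norm_cast
        rw [← e3]
        refine card_le_card_of_injOn (fun x i j => x j i) ?_ ?_
        · intro x hx
          simp only [coe_filter, Set.mem_ofPred_eq] at hx
          simp only [mem_coe, mem_piFinset]
          intro i
          split_ifs with hi
          · rw [← hx.2]; simp [zr, hi]
          · rw [← hx.2]; exact (mem_filter.1 hx.1).2.1 i
        · intro x _ x' _ h
          funext j i
          exact congrFun (congrFun h i) j
      · rw [filter_eq_empty_iff.2]
        · simp only [Finset.card_empty, Nat.cast_zero]; positivity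
        · intro x hx h
          exact hz (h ▸ (mem_filter.1 hx).2.2)
  calc _ ≤ ((((univ : Finset α).powerset.filter fun J => J.card + 1 ≤ card κ).biUnion
        XJ).card : ℝ) := by exact_mod_cast card_le_card h1
    _ ≤ ∑ J ∈ (univ : Finset α).powerset with J.card + 1 ≤ card κ, ((XJ J).card : ℝ) := by
        exact_mod_cast card_biUnion_le
    _ ≤ _ := sum_le_sum fun J _ => h2 J

end Crest.Agent.LC
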