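import Crest.Agent.LC.Hole2
import Crest.Agent.LC.Hole3

/-! Counting dependent subsets. -/

set_option autoImplicit false

namespace Crest.Agent.LC

open Finset Fintype

variable {α κ : Type} [Fintype α] [DecidableEq α] [Fintype κ] [DecidableEq κ]

open Classical in
/-- injective tuples with an affine relation -/
noncomputable def Tup (κ : Type) [Fintype κ] [DecidableEq κ] (A : Finset (α → ℤ)) :
    Finset (κ → α → ℤ) :=
  (piFinset fun _ => A).filter fun x => Function.Injective x ∧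
    ∃ u : κ → ℤ, u ≠ 0 ∧ ∑ j, u j = 0 ∧ ∀ i, ∑ j, u j * x j i = 0

omit [DecidableEq κ] in
lemma primitive (u : κ → ℤ) (hu : u ≠ 0) :
    ∃ (g : ℤ) (v c : κ → ℤ), g ≠ 0 ∧ (∀ j, u j = g * v j) ∧ ∑ j, v j * c j = 1 := by
  obtain ⟨j₀, hj₀⟩ := Function.ne_iff.1 hu
  obtain ⟨v, hv, -⟩ := Finset.extract_gcd u (s := univ) ⟨j₀, mem_univ _⟩
  obtain ⟨c, hc⟩ := Finset.gcd_eq_sum_mul univ u
  have hg : univ.gcd u ≠ 0 := fun h => hj₀ (by rw [hv j₀ (mem_univ _), h, zero_mul]; rfl)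
  refine ⟨univ.gcd u, v, c, hg, fun j => hv j (mem_univ _), mul_left_cancel₀ hg ?_⟩
  rw [mul_one, mul_sum]
  conv_rhs => rw [hc]
  exact sum_congr rfl fun j _ => by rw [← mul_assoc, ← hv j (mem_univ _)]

lemma card_cube (h : ℕ) :
    (piFinset fun _ : κ => Icc (-(h : ℤ)) h).card = (2 * h + 1) ^ card κ := by
  simp only [card_piFinset, Int.card_Icc, prod_const, card_univ]
  congr 1
  omega

open Classical in
lemma tup_count (A Ap : Finset (α → ℤ)) (L s : ℕ) (hs : 0 < s) (hL : ∀ a ∈ A, ∀ i, |a i| ≤ L)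
    (hA : ∀ a ∈ A, ∀ t : α → ℤ, (∀ i, 0 ≤ t i ∧ t i < s) → a + t ∈ Ap)
    (w θ : ℝ) (hθ : 0 ≤ θ) (hw : (A.card : ℝ) ≤ w) (hwp : (Ap.card : ℝ) ≤ w)
    (hB : ∀ e₀ e₁ e₂ : ℤ, |e₀| = 1 → |e₁| = 1 → |e₂| = 1 → ∀ c : α → ℤ,
      (((A ×ˢ A).filter fun z => ∃ a ∈ A,
        ∀ i, e₁ * z.1 i + e₂ * z.2 i + e₀ * a i + c i = 0).card : ℝ) ≤ θ * w ^ 2) :
    ((Tup κ A).card : ℝ) ≤ 3 ^ card κ * (θ * w ^ (card κ - 1)) +
      ∑ h ∈ Icc 2 s, (2 * h + 1 : ℝ) ^ card κ * (w ^ (card κ - 1) / h ^ card α) +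
      ∑ J ∈ (univ : Finset α).powerset with J.card + 1 ≤ card κ,
        ((2 * L + 1 : ℝ) ^ card κ) ^ J.card *
          ((2 * L + 1 + s : ℝ) ^ (card κ - 1) / s) ^ (card α - J.card) := by
  have hw0 : 0 ≤ w := le_trans (Nat.cast_nonneg _) hw
  let U₁ : Finset (κ → ℤ) := (piFinset fun _ : κ => Icc (-((1 : ℕ) : ℤ)) (1 : ℕ)).filter fun u =>
    ∃ j₀ j₁ j₂, j₀ ≠ j₁ ∧ j₀ ≠ j₂ ∧ j₁ ≠ j₂ ∧ u j₀ ≠ 0 ∧ u j₁ ≠ 0 ∧ u j₂ ≠ 0
  let U₂ : ℕ → Finset (κ → ℤ) := fun h => (piFinset fun _ : κ => Icc (-(h : ℤ)) h).filter fun u =>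
    ∃ c : κ → ℤ, ∑ j, u j * c j = 1 ∧ ∃ j₀, (u j₀).natAbs = h
  let K : ℝ := (2 * L + 1 + s : ℝ) ^ (card κ - 1) / s
  let X₃ := (piFinset fun _ : κ => A).filter fun x => ∃ u : κ → ℤ, u ≠ 0 ∧
      (∀ i, ∑ j, u j * x j i = 0) ∧ ((Row L u).card : ℝ) ≤ K
  have hsub : Tup κ A ⊆ (U₁.biUnion (Sol A) ∪ (Icc 2 s).biUnion fun h => (U₂ h).biUnion (Sol A)) ∪
      X₃ := by
    intro x hx
    obtain ⟨hxA, hinj, u, hu0, hu1, hu2⟩ := mem_filter.1 hx
    obtain ⟨g, v, c, hg, hv, hc⟩ := primitive u hu0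
    have hv1 : ∑ j, v j = 0 := by
      simp only [hv] at hu1
      rw [← mul_sum] at hu1
      exact (mul_eq_zero.1 hu1).resolve_left hg
    have hv2 : ∀ i, ∑ j, v j * x j i = 0 := by
      intro i
      have := hu2 i
      simp only [hv, mul_assoc] at this
      rw [← mul_sum] at this
      exact (mul_eq_zero.1 this).resolve_left hg
    have hv0 : v ≠ 0 := by
      rintro rfl
      simp at hc
    obtain ⟨j', hj'⟩ := Function.ne_iff.1 hv0
    obtain ⟨j₀, -, hj₀⟩ := exists_max_image univ (fun j => (v j).natAbs) ⟨j', mem_univ _⟩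
    have hmax : ∀ j, (v j).natAbs ≤ (v j₀).natAbs := fun j => hj₀ j (mem_univ _)
    have hpos : 0 < (v j₀).natAbs := lt_of_lt_of_le (Int.natAbs_pos.2 hj') (hmax j')
    have h0 : v j₀ ≠ 0 := Int.natAbs_pos.1 hpos
    have hsol : x ∈ Sol A v := mem_Sol.2 ⟨mem_piFinset.1 hxA, hv2⟩
    have hbox : v ∈ piFinset fun _ : κ => Icc (-((v j₀).natAbs : ℤ)) (v j₀).natAbs := by
      simp only [mem_piFinset, mem_Icc]
      intro j
      have := hmax j
      omega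
    by_cases h1 : (v j₀).natAbs = 1
    · refine mem_union_left _ (mem_union_left _ (mem_biUnion.2 ⟨v, mem_filter.2 ⟨h1 ▸ hbox, ?_⟩,
        hsol⟩))
      obtain ⟨j₁, hj₁, hj₁'⟩ : ∃ j₁, j₀ ≠ j₁ ∧ v j₁ ≠ 0 := by
        by_contra hh
        push Not at hh
        rw [Finset.sum_eq_single j₀ (fun j _ hj => hh j hj.symm) (by simp)] at hv1
        exact h0 hv1
      by_contra hh
      push Not at hh
      have hz : ∀ j, j ≠ j₀ → j ≠ j₁ → v j = 0 := fun j e1 e2 =>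
        hh j₀ j₁ j hj₁ e1.symm e2.symm h0 hj₁'
      have hs2 : ∀ f : κ → ℤ, ∑ j, v j * f j = v j₀ * f j₀ + v j₁ * f j₁ := by
        intro f
        refine Finset.sum_eq_add_of_mem j₀ j₁ (mem_univ _) (mem_univ _) hj₁ ?_
        intro j _ hj
        rw [hz j hj.1 hj.2, zero_mul]
      have e1 := hs2 fun _ => 1
      simp only [mul_one, hv1] at e1
      refine hj₁ (hinj (funext fun i => ?_))
      have e2 := hs2 fun j => x j i
      rw [hv2, show v j₁ = -v j₀ by linarith] at e2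
      exact mul_left_cancel₀ h0 (by linarith)
    by_cases h2 : (v j₀).natAbs ≤ s
    · exact mem_union_left _ (mem_union_right _ (mem_biUnion.2 ⟨(v j₀).natAbs,
        mem_Icc.2 ⟨by omega, h2⟩, mem_biUnion.2 ⟨v, mem_filter.2 ⟨hbox, c, hc, j₀, rfl⟩, hsol⟩⟩))
    · refine mem_union_right _ (mem_filter.2 ⟨hxA, v, hv0, hv2, ?_⟩)
      have := row_pack L v c hc j₀ h0 s (by omega)
      rw [le_div_iff₀ (by exact_mod_cast hs)]
      exact_mod_cast this
  have c1 : ((U₁.biUnion (Sol A)).card : ℝ) ≤ 3 ^ card κ * (θ * w ^ (card κ - 1)) := by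
    have e1 : ∀ u ∈ U₁, ((Sol A u).card : ℝ) ≤ θ * w ^ (card κ - 1) := by
      intro u hu
      obtain ⟨hu1, j₀, j₁, j₂, h01, h02, h12, a0, a1, a2⟩ := mem_filter.1 hu
      have habs : ∀ j, u j ≠ 0 → |u j| = 1 := by
        intro j hj
        have := mem_Icc.1 (mem_piFinset.1 hu1 j)
        rcases abs_cases (u j) with h | h <;> omega
      have h3 : 3 ≤ card κ := by
        rw [← card_eq_three.2 ⟨j₀, j₁, j₂, h01, h02, h12, rfl⟩]
        exact card_le_univ _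
      refine (triple A u j₀ j₁ j₂ h01 h02 h12 a0 _
        (hB _ _ _ (habs _ a0) (habs _ a1) (habs _ a2))).trans ?_
      have : card κ - 1 = card κ - 3 + 2 := by omega
      rw [this, pow_add, mul_left_comm]
      gcongr
    calc _ ≤ ∑ u ∈ U₁, ((Sol A u).card : ℝ) := by exact_mod_cast card_biUnion_le
      _ ≤ U₁.card • (θ * w ^ (card κ - 1)) := sum_le_card_nsmul _ _ _ e1
      _ ≤ _ := by
        rw [nsmul_eq_mul]
        refine mul_le_mul_of_nonneg_right ?_ (by positivity)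
        have := card_filter_le (piFinset fun _ : κ => Icc (-((1 : ℕ) : ℤ)) (1 : ℕ)) fun u =>
          ∃ j₀ j₁ j₂, j₀ ≠ j₁ ∧ j₀ ≠ j₂ ∧ j₁ ≠ j₂ ∧ u j₀ ≠ 0 ∧ u j₁ ≠ 0 ∧ u j₂ ≠ 0
        rw [card_cube] at this
        exact_mod_cast this
  have c2 : ∀ h ∈ Icc 2 s, (((U₂ h).biUnion (Sol A)).card : ℝ) ≤
      (2 * h + 1 : ℝ) ^ card κ * (w ^ (card κ - 1) / h ^ card α) := by
    intro h hh
    obtain ⟨hh2, hhs⟩ := mem_Icc.1 hh
    have hh0 : (0 : ℝ) < h := by exact_mod_cast (by omega : 0 < h)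
    have e1 : ∀ u ∈ U₂ h, ((Sol A u).card : ℝ) ≤ w ^ (card κ - 1) / h ^ card α := by
      intro u hu
      obtain ⟨-, c, hc, j₀, hj₀⟩ := mem_filter.1 hu
      have := pack A Ap u c hc j₀ (Int.natAbs_pos.1 (by omega)) h hj₀.ge
        fun a ha t ht => hA a ha t fun i => ⟨(ht i).1, by have := (ht i).2; omega⟩
      rw [le_div_iff₀ (by positivity)]
      calc _ ≤ (Ap.card : ℝ) ^ (card κ - 1) := by exact_mod_cast this
        _ ≤ _ := by gcongr
    calc _ ≤ ∑ u ∈ U₂ h, ((Sol A u).card : ℝ) := by exact_mod_cast card_biUnion_le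
      _ ≤ (U₂ h).card • (w ^ (card κ - 1) / h ^ card α) := sum_le_card_nsmul _ _ _ e1
      _ ≤ _ := by
        rw [nsmul_eq_mul]
        refine mul_le_mul_of_nonneg_right ?_ (by positivity)
        have := card_filter_le (piFinset fun _ : κ => Icc (-(h : ℤ)) h) fun u =>
          ∃ c : κ → ℤ, ∑ j, u j * c j = 1 ∧ ∃ j₀, (u j₀).natAbs = h
        rw [card_cube] at this
        exact_mod_cast this
  have c3 := rows_count (κ := κ) A L hL K (by positivity)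
  calc ((Tup κ A).card : ℝ) ≤ (((U₁.biUnion (Sol A) ∪ (Icc 2 s).biUnion
        fun h => (U₂ h).biUnion (Sol A)) ∪ X₃).card : ℝ) := by exact_mod_cast card_le_card hsub
    _ ≤ ((U₁.biUnion (Sol A)).card : ℝ) + ∑ h ∈ Icc 2 s, (((U₂ h).biUnion (Sol A)).card : ℝ) +
        (X₃.card : ℝ) := by
      exact_mod_cast (card_union_le _ _).trans (Nat.add_le_add_right
        ((card_union_le _ _).trans (Nat.add_le_add_left card_biUnion_le _)) _)
    _ ≤ _ := add_le_add (add_le_add c1 (sum_le_sum c2)) c3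

open Classical in
lemma dep_sum (A : Finset (α → ℤ)) (M : ℕ) (q : ℝ) (hq : 0 ≤ q) :
    ∑ W ∈ A.powerset with Dep W ∧ W.card ≤ M + 1, q ^ (W.card - 1) ≤
      ∑ r ∈ range (M + 1), ((Tup (Fin (r + 1)) A).card : ℝ) * q ^ r := by
  rw [← sum_fiberwise_of_maps_to (g := fun W => W.card - 1) (t := range (M + 1))
    (fun W hW => by have := (mem_filter.1 hW).2.2; rw [mem_range]; omega)]
  refine sum_le_sum fun r _ => ?_
  rw [Finset.sum_congr rfl (g := fun _ => q ^ r) (fun W hW => by rw [(mem_filter.1 hW).2]), sum_const,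
    nsmul_eq_mul]
  refine mul_le_mul_of_nonneg_right ?_ (by positivity)
  norm_cast
  refine card_le_card_of_surjOn (fun x => univ.image x) fun W hW => ?_
  simp only [coe_filter, mem_filter, mem_powerset, Set.mem_ofPred_eq] at hW
  obtain ⟨⟨hWA, ⟨u, ⟨a, ha, hua⟩, h1, h2⟩, -⟩, hr⟩ := hW
  have hc : W.card = r + 1 := by
    have := card_pos.2 ⟨a, ha⟩
    omega
  let e := (W.equivFinOfCardEq hc).symm
  have hs : ∀ f : (α → ℤ) → ℤ, ∑ j, f (e j) = ∑ a ∈ W, f a := by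
    intro f
    rw [← sum_coe_sort W]
    exact Equiv.sum_comp e fun a => f a
  refine ⟨fun j => e j, mem_coe.2 (mem_filter.2 ⟨mem_piFinset.2 fun j => hWA (e j).2,
    fun j j' h => e.injective (Subtype.ext h), fun j => u (e j), ?_, (hs u).trans h1,
    fun i => (hs fun a => u a * a i).trans (h2 i)⟩), ?_⟩
  · intro h
    have := congrFun h (e.symm ⟨a, ha⟩)
    simp only [Equiv.apply_symm_apply, Pi.zero_apply] at this
    exact hua this
  · ext b
    simp only [mem_image, mem_univ, true_and]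
    constructor
    · rintro ⟨j, rfl⟩; exact (e j).2
    · intro hb; exact ⟨e.symm ⟨b, hb⟩, by simp⟩

end Crest.Agent.LC
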