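import Mathlib

/-! Lattice points in convex bodies and the pair bound from Young's inequality. -/

set_option autoImplicit false

namespace Crest.Agent.LC

open MeasureTheory Filter Topology Metric BoxIntegral
open scoped Pointwise

variable {α : Type} [Fintype α]

/-- integer points of the dilate -/
def lat (Q : Set (α → ℝ)) (T : ℕ) : Set (α → ℤ) := {a | (fun i => (a i : ℝ) / T) ∈ Q}

lemma lat_bound {Q : Set (α → ℝ)} {R T : ℕ} (hQ : Q ⊆ closedBall 0 R) (hT : 0 < T)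
    {a : α → ℤ} (ha : a ∈ lat Q T) (i : α) : |a i| ≤ ((R * T : ℕ) : ℤ) := by
  have h := hQ ha
  rw [mem_closedBall_zero_iff] at h
  have h2 := (norm_le_pi_norm _ i).trans h
  have hT' : (0 : ℝ) < T := by exact_mod_cast hT
  rw [Real.norm_eq_abs, abs_div, abs_of_pos hT', div_le_iff₀ hT'] at h2
  exact_mod_cast h2

lemma lat_finite {Q : Set (α → ℝ)} {R T : ℕ} (hQ : Q ⊆ closedBall 0 R) (hT : 0 < T) :
    (lat Q T).Finite := by
  refine (Set.Finite.pi' fun _ : α =>
    Set.finite_Icc (-((R * T : ℕ) : ℤ)) ((R * T : ℕ) : ℤ)).subset fun a ha i => ?_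
  exact abs_le.1 (lat_bound hQ hT ha i)

lemma lat_tendsto {Q : Set (α → ℝ)} (h1 : IsCompact Q) (h2 : Convex ℝ Q) :
    Tendsto (fun T : ℕ => ((lat Q T).ncard : ℝ) / (T : ℝ) ^ Fintype.card α) atTop
      (𝓝 (volume Q).toReal) := by
  refine (tendsto_card_div_pow_atTop_volume Q h1.isBounded h1.measurableSet
    (h2.addHaar_frontier _)).congr' ?_
  filter_upwards [eventually_gt_atTop 0] with T hT
  haveI : NeZero T := ⟨hT.ne'⟩
  have hT' : (T : ℝ) ≠ 0 := by exact_mod_cast hT.ne'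
  congr 2
  rw [Nat.card_coe_set_eq]
  symm
  refine Set.ncard_congr (fun a _ i => (a i : ℝ) / T) ?_ ?_ ?_
  · intro a ha
    refine ⟨ha, unitPartition.mem_smul_span_iff.2 fun i => ⟨a i, ?_⟩⟩
    simp only [algebraMap_int_eq, eq_intCast]
    field_simp
  · intro a b _ _ h
    funext i
    have := congrFun h i
    simp only [div_left_inj' hT'] at this
    exact_mod_cast this
  · rintro x ⟨hx, hx'⟩
    choose a ha using unitPartition.mem_smul_span_iff.1 hx'
    have : (fun i => (a i : ℝ) / T) = x := by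
      funext i
      have := ha i
      simp only [algebraMap_int_eq, eq_intCast] at this
      rw [this]; field_simp
    exact ⟨a, by simpa [lat, this] using hx, this⟩

lemma vol_sign (S : Set (α → ℝ)) (e : ℤ) (he : |e| = 1) :
    volume ((fun y : α → ℝ => (e : ℝ) • y) ⁻¹' S) = volume S := by
  have h1 : |(e : ℝ)| = 1 := by exact_mod_cast he
  have h0 : (e : ℝ) ≠ 0 := by
    intro h; rw [h] at h1; simp at h1
  rw [Measure.addHaar_preimage_smul _ h0, abs_inv, abs_pow, h1]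
  simp

open Classical in
lemma pair_bound (c : ℝ) (hc : 0 ≤ c)
    (hY : ∀ (A B C : Set (α → ℝ)), MeasurableSet A → MeasurableSet B → MeasurableSet C →
      ∀ v : ℝ, 0 ≤ v → volume A ≤ ENNReal.ofReal v → volume B ≤ ENNReal.ofReal v →
      volume C ≤ ENNReal.ofReal v →
      volume {p : (α → ℝ) × (α → ℝ) | p.1 ∈ A ∧ p.2 ∈ B ∧ p.1 + p.2 ∈ C} ≤
        ENNReal.ofReal (c ^ Fintype.card α * v ^ 2))
    (Q : Set (α → ℝ)) (δ : ℝ) (T : ℕ) (hT : 0 < T) (hδ : 2 / (T : ℝ) ≤ δ) (v : ℝ) (hv : 0 ≤ v)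
    (hQ : volume (cthickening δ Q) ≤ ENNReal.ofReal v) (A : Finset (α → ℤ))
    (hA : ∀ a ∈ A, a ∈ lat Q T) (e₀ e₁ e₂ : ℤ) (h₀ : |e₀| = 1) (h₁ : |e₁| = 1) (h₂ : |e₂| = 1)
    (d : α → ℤ) :
    (((A ×ˢ A).filter fun z => ∃ a ∈ A,
        ∀ i, e₁ * z.1 i + e₂ * z.2 i + e₀ * a i + d i = 0).card : ℝ) ≤
      c ^ Fintype.card α * ((T : ℝ) ^ Fintype.card α * v) ^ 2 := by
  haveI : NeZero T := ⟨hT.ne'⟩
  have hT' : (0 : ℝ) < T := by exact_mod_cast hT
  set P := (A ×ˢ A).filter fun z => ∃ a ∈ A,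
        ∀ i, e₁ * z.1 i + e₂ * z.2 i + e₀ * a i + d i = 0 with hP
  have hm : MeasurableSet (cthickening δ Q) := isClosed_cthickening.measurableSet
  have hms : ∀ e : ℤ, MeasurableSet ((fun y : α → ℝ => (e : ℝ) • y) ⁻¹' cthickening δ Q) :=
    fun e => (continuous_const_smul (e : ℝ)).measurable hm
  have key := hY _ _ ((fun y => y + fun i => (d i : ℝ) / T) ⁻¹'
      ((fun y : α → ℝ => ((-e₀ : ℤ) : ℝ) • y) ⁻¹' cthickening δ Q)) (hms e₁) (hms e₂)
    ((continuous_add_const _).measurable (hms _)) v hv (by rw [vol_sign _ _ h₁]; exact hQ)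
    (by rw [vol_sign _ _ h₂]; exact hQ)
    (by rw [measure_preimage_add_right, vol_sign _ _ (by rwa [abs_neg])]; exact hQ)
  let C : (α → ℤ) × (α → ℤ) → Set ((α → ℝ) × (α → ℝ)) := fun z =>
    (unitPartition.box T (e₁ • z.1) : Set (α → ℝ)) ×ˢ (unitPartition.box T (e₂ • z.2) : Set (α → ℝ))
  have ne0 : ∀ e : ℤ, |e| = 1 → e ≠ 0 := fun e he h => by rw [h] at he; simp at he
  have sq1 : ∀ e : ℤ, |e| = 1 → (e : ℝ) * e = 1 := by
    intro e he
    have : e * e = 1 := by rw [← abs_mul_abs_self, he, mul_one]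
    exact_mod_cast this
  have abs1 : ∀ e : ℤ, |e| = 1 → |(e : ℝ)| = 1 := fun e he => by exact_mod_cast he
  have hdisj : (P : Set ((α → ℤ) × (α → ℤ))).PairwiseDisjoint C := by
    intro z _ z' _ hne
    rw [Function.onFun, Set.disjoint_prod]
    by_cases h : z.1 = z'.1
    · right
      refine unitPartition.disjoint.1 fun hh => hne (Prod.ext h ?_)
      exact smul_right_injective _ (ne0 _ h₂) hh
    · left
      exact unitPartition.disjoint.1 fun hh => h (smul_right_injective _ (ne0 _ h₁) hh)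
  have hbox : ∀ (b : α → ℤ) (x : α → ℝ), x ∈ unitPartition.box T b →
      ∀ i, |x i - b i / T| ≤ 1 / T := by
    intro b x hx i
    have := unitPartition.mem_box_iff.1 hx i
    rw [add_div] at this
    rw [abs_le]
    have : (0 : ℝ) < 1 / T := by positivity
    constructor <;> linarith [this]
  have hδ0 : 0 ≤ δ := le_trans (by positivity) hδ
  have h12 : 1 / (T : ℝ) ≤ δ := le_trans (by gcongr; norm_num) hδ
  have hone : ∀ (e : ℤ), |e| = 1 → ∀ a ∈ A, ∀ x : α → ℝ, x ∈ unitPartition.box T (e • a) →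
      (e : ℝ) • x ∈ cthickening δ Q := by
    intro e he a ha x hx
    refine mem_cthickening_of_dist_le _ _ _ _ (hA a ha) ((dist_pi_le_iff hδ0).2 fun i => ?_)
    have := hbox _ x hx i
    rw [Real.dist_eq]
    have e1 : ((e : ℝ) • x) i - (a i : ℝ) / T = e * (x i - ((e • a) i : ℤ) / T) := by
      simp only [Pi.smul_apply, smul_eq_mul]
      push_cast
      rw [mul_sub, mul_div_assoc, ← mul_assoc, sq1 e he, one_mul]
    rw [e1, abs_mul, abs1 e he, one_mul]
    exact this.trans h12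
  have hsub : (⋃ z ∈ P, C z) ⊆ {p : (α → ℝ) × (α → ℝ) |
      p.1 ∈ (fun y : α → ℝ => (e₁ : ℝ) • y) ⁻¹' cthickening δ Q ∧
      p.2 ∈ (fun y : α → ℝ => (e₂ : ℝ) • y) ⁻¹' cthickening δ Q ∧
      p.1 + p.2 ∈ (fun y => y + fun i => (d i : ℝ) / T) ⁻¹'
        ((fun y : α → ℝ => ((-e₀ : ℤ) : ℝ) • y) ⁻¹' cthickening δ Q)} := by
    intro p hp
    simp only [Set.mem_iUnion] at hp
    obtain ⟨z, hz, hp1, hp2⟩ := hp
    obtain ⟨hzA, a, ha, hrel⟩ := Finset.mem_filter.1 hz
    obtain ⟨hz1, hz2⟩ := Finset.mem_product.1 hzA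
    refine ⟨hone _ h₁ _ hz1 _ hp1, hone _ h₂ _ hz2 _ hp2, ?_⟩
    refine mem_cthickening_of_dist_le _ _ _ _ (hA a ha) ((dist_pi_le_iff hδ0).2 fun i => ?_)
    have b1 := hbox _ _ hp1 i
    have b2 := hbox _ _ hp2 i
    have r : (e₁ : ℝ) * z.1 i + e₂ * z.2 i + e₀ * a i + d i = 0 := by exact_mod_cast hrel i
    rw [Real.dist_eq]
    have e1 : (((-e₀ : ℤ) : ℝ) • (p.1 + p.2 + fun i => (d i : ℝ) / T)) i - (a i : ℝ) / T =
        -e₀ * ((p.1 i - ((e₁ • z.1) i : ℤ) / T) + (p.2 i - ((e₂ • z.2) i : ℤ) / T)) := by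
      simp only [Pi.smul_apply, smul_eq_mul, Pi.add_apply]
      push_cast
      have hd : (d i : ℝ) = -(e₁ * z.1 i + e₂ * z.2 i + e₀ * a i) := by linarith
      have ha' : (a i : ℝ) / T = (e₀ * e₀) * (a i / T) := by rw [sq1 e₀ h₀, one_mul]
      rw [ha', hd]
      ring
    rw [e1, abs_mul, abs_neg, abs1 e₀ h₀, one_mul]
    refine (abs_add_le _ _).trans (le_trans ?_ hδ)
    rw [show (2 : ℝ) / T = 1 / T + 1 / T by ring]
    exact add_le_add b1 b2
  have hvol : volume (⋃ z ∈ P, C z) =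
      ENNReal.ofReal (P.card * (1 / (T : ℝ) ^ Fintype.card α) ^ 2) := by
    rw [measure_biUnion_finset hdisj fun z _ =>
      (Box.measurableSet_coe _).prod (Box.measurableSet_coe _)]
    simp only [C, Measure.volume_eq_prod, Measure.prod_prod, unitPartition.volume_box,
      Finset.sum_const, nsmul_eq_mul]
    rw [ENNReal.ofReal_mul (Nat.cast_nonneg _), ENNReal.ofReal_natCast,
      ENNReal.ofReal_pow (by positivity), ENNReal.ofReal_div_of_pos (by positivity),
      ENNReal.ofReal_pow (by positivity), ENNReal.ofReal_natCast, ENNReal.ofReal_one, sq]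
  have := (measure_mono hsub).trans key
  rw [hvol, ENNReal.ofReal_le_ofReal_iff (by positivity)] at this
  have e : c ^ Fintype.card α * ((T : ℝ) ^ Fintype.card α * v) ^ 2 =
      (c ^ Fintype.card α * v ^ 2) / (1 / (T : ℝ) ^ Fintype.card α) ^ 2 := by
    field_simp
  rw [e, le_div_iff₀ (by positivity)]
  exact this

end Crest.Agent.LC
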