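import Crest.Agent.LC.Hole1
import Crest.Agent.LC.Hole4
import Crest.Agent.LC.Hole5

/-! The hole probability for one convex body. -/

set_option autoImplicit false

namespace Crest.Agent.LC

open MeasureTheory Filter Topology Metric Finset

lemma hsum (k n s : ℕ) (hn : 3 * k + 2 ≤ n) (hs : 1 ≤ s) :
    ∑ h ∈ Icc 2 s, (2 * h + 1 : ℝ) ^ k / h ^ n ≤ 4 * 8 ^ k / 2 ^ n := by
  obtain ⟨m, rfl⟩ := Nat.exists_eq_add_of_le hn
  have h1 : ∀ h ∈ Icc 2 s, (2 * h + 1 : ℝ) ^ k / h ^ (3 * k + 2 + m) ≤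
      ((h : ℝ) ^ 2)⁻¹ * (1 / 2 ^ m) := by
    intro h hh
    have h2 : (2 : ℝ) ≤ h := by exact_mod_cast (mem_Icc.1 hh).1
    have h3 : (2 * h + 1 : ℝ) ≤ h ^ 3 := by nlinarith [mul_nonneg (sub_nonneg.2 h2) (sq_nonneg (h : ℝ))]
    calc _ ≤ ((h : ℝ) ^ 3) ^ k / h ^ (3 * k + 2 + m) := by gcongr
      _ = ((h : ℝ) ^ 2)⁻¹ * (1 / h ^ m) := by
        rw [← pow_mul, pow_add, pow_add]; field_simp
      _ ≤ _ := by gcongr
  refine (sum_le_sum h1).trans ?_
  rw [← sum_mul]
  have h2 := sum_Ioc_inv_sq_le_sub (α := ℝ) one_ne_zero hs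
  have h3 : Icc 2 s = Ioc 1 s := by ext; simp; omega
  have h4 : (0 : ℝ) ≤ (s : ℝ)⁻¹ := by positivity
  rw [h3]
  calc _ ≤ 1 * (1 / (2 : ℝ) ^ m) := by
        gcongr
        simp only [Nat.cast_one, inv_one] at h2
        linarith
    _ = _ := by
        rw [pow_add, pow_add, pow_mul]; norm_num; field_simp

lemma term_bound (T a b s q C D ρ : ℝ) (r j m : ℕ) (hT : 1 ≤ T) (ha0 : 0 ≤ a) (hb0 : 0 ≤ b)
    (hC : 0 ≤ C) (hD : 0 < D) (hρ : 0 ≤ ρ) (ha : a ≤ C * T) (hb : b ≤ C * T) (hs : T / D ≤ s)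
    (hq0 : 0 ≤ q) (hq : q ≤ ρ / T ^ (j + m)) (hm : j + 1 ≤ m) :
    (a ^ (r + 1)) ^ j * (b ^ r / s) ^ m * q ^ r ≤
      (C ^ ((r + 1) * j + r * m) * D ^ m * ρ ^ r) / T := by
  obtain ⟨l, rfl⟩ := Nat.exists_eq_add_of_le hm
  have hT0 : 0 < T := by linarith
  have hs0 : 0 < T / D := by positivity
  have hs1 : 0 < s := lt_of_lt_of_le hs0 hs
  calc _ ≤ ((C * T) ^ (r + 1)) ^ j * ((C * T) ^ r / (T / D)) ^ (j + 1 + l) *
        (ρ / T ^ (j + (j + 1 + l))) ^ r := by gcongr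
    _ = (C ^ ((r + 1) * j + r * (j + 1 + l)) * D ^ (j + 1 + l) * ρ ^ r) / T * (1 / T ^ l) := by
        simp only [mul_pow, div_pow, ← pow_mul]
        field_simp
        ring
    _ ≤ _ := by
        refine mul_le_of_le_one_right (by positivity) ?_
        rw [div_le_one (by positivity)]
        exact one_le_pow₀ hT

open Classical in
lemma hole_one {α : Type} [Fintype α] [DecidableEq α] (c : ℝ) (hc : 0 ≤ c)
    (hY : ∀ (A B C : Set (α → ℝ)), MeasurableSet A → MeasurableSet B → MeasurableSet C →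
      ∀ v : ℝ, 0 ≤ v → volume A ≤ ENNReal.ofReal v → volume B ≤ ENNReal.ofReal v →
      volume C ≤ ENNReal.ofReal v →
      volume {p : (α → ℝ) × (α → ℝ) | p.1 ∈ A ∧ p.2 ∈ B ∧ p.1 + p.2 ∈ C} ≤
        ENNReal.ofReal (c ^ Fintype.card α * v ^ 2))
    (θ : ℝ) (hcθ : c ≤ θ) (hθ : 1 / 2 ≤ θ)
    (Q : Set (α → ℝ)) (hQ : IsCompact Q) (hQc : Convex ℝ Q) (hQv : 0 < (volume Q).toReal)
    (ρ : ℝ) (hρ : 0 < ρ) (M : ℕ) (hM : Even M) (hVM : 10 * (ρ * (volume Q).toReal) ≤ M)
    (hMn : 10 * (M + 1) ≤ Fintype.card α) (hVn : 24 * (ρ * (volume Q).toReal) ≤ Fintype.card α)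
    (hnum : 8 * (Fintype.card α : ℝ) ^ (M + 1) * θ ^ Fintype.card α ≤
      Real.exp (-(ρ * (volume Q).toReal))) :
    ∀ᶠ T : ℕ in atTop, ∀ (p : ℕ) [Fact p.Prime], ρ * p ≤ (T : ℝ) ^ Fintype.card α →
      (T : ℝ) ^ Fintype.card α ≤ 2 * ρ * p →
      ∑ b : α → ZMod p, (Nat.card {γ : ZMod p // ¬ ∃ a : α → ℤ,
          (fun i => (a i : ℝ) / T) ∈ Q ∧ ∑ i, a i • b i = γ} : ℝ) ≤
        4 * Real.exp (-(ρ * (volume Q).toReal) / 2) * Fintype.card ((α → ZMod p) × ZMod p) := by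
  set n := Fintype.card α with hn
  set v := (volume Q).toReal with hv
  set V := ρ * v with hV
  have hV0 : 0 < V := by positivity
  -- thickening
  obtain ⟨D, hD0, hD⟩ : ∃ D : ℕ, 0 < D ∧
      (volume (cthickening (1 / (D : ℝ)) Q)).toReal < 3 / 2 * v := by
    have h1 := (ENNReal.tendsto_toReal hQ.measure_lt_top.ne).comp
      ((tendsto_measure_cthickening_of_isCompact (μ := volume) hQ).comp
        tendsto_one_div_atTop_nhds_zero_nat)
    obtain ⟨D, h2, h3⟩ := ((h1.eventually (gt_mem_nhds (show v < 3 / 2 * v by linarith))).and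
      (eventually_gt_atTop 0)).exists
    exact ⟨D, h3, h2⟩
  set Qp := cthickening (1 / (D : ℝ)) Q with hQp
  have hQpc : IsCompact Qp := hQ.cthickening
  obtain ⟨R, hR1, hR⟩ : ∃ R : ℕ, 1 ≤ R ∧ Qp ⊆ closedBall 0 R := by
    obtain ⟨r, hr⟩ := hQpc.isBounded.subset_closedBall 0
    exact ⟨⌈r⌉₊ + 1, by omega, hr.trans (closedBall_subset_closedBall (by
      push_cast; linarith [Nat.le_ceil r]))⟩
  have hQQ : Q ⊆ Qp := self_subset_cthickening _
  have hD' : (0 : ℝ) < D := by exact_mod_cast hD0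
  let Ct : ℝ := ∑ r ∈ range (M + 1), ∑ J ∈ (univ : Finset α).powerset with J.card + 1 ≤ r + 1,
    (2 * R + 2 : ℝ) ^ ((r + 1) * J.card + r * (n - J.card)) * (2 * D) ^ (n - J.card) * (2 * ρ) ^ r
  filter_upwards [(lat_tendsto hQ hQc).eventually (lt_mem_nhds (show v / 2 < v by linarith)),
    (lat_tendsto hQpc (hQc.cthickening _)).eventually (gt_mem_nhds hD),
    eventually_ge_atTop (2 * D),
    tendsto_natCast_atTop_atTop.eventually_gt_atTop
      (2 * ρ * (M.factorial * ((n + 1) * R ^ 2) ^ M)),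
    tendsto_natCast_atTop_atTop.eventually_ge_atTop (2 * Ct / Real.exp (-V))]
    with T hT1 hT2 hT3 hT4 hT5 p _ hp1 hp2
  have hT0 : 0 < T := by omega
  have hT1' : (1 : ℝ) ≤ T := by exact_mod_cast hT0
  have hTn : (0 : ℝ) < (T : ℝ) ^ n := by positivity
  have hp0 : (0 : ℝ) < p := by exact_mod_cast (Fact.out : p.Prime).pos
  have hp1' : (1 : ℝ) ≤ p := by exact_mod_cast (Fact.out : p.Prime).pos
  let A := (lat_finite (hQQ.trans hR) hT0).toFinset
  let Ap := (lat_finite hR hT0).toFinset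
  have hAc : (lat Q T).ncard = A.card := Set.ncard_eq_toFinset_card _ _
  have hApc : (lat Qp T).ncard = Ap.card := Set.ncard_eq_toFinset_card _ _
  rw [hAc, lt_div_iff₀ hTn] at hT1
  rw [hApc, div_lt_iff₀ hTn] at hT2
  have hmemA : ∀ a, a ∈ A ↔ a ∈ lat Q T := fun a => Set.Finite.mem_toFinset _
  have hmemAp : ∀ a, a ∈ Ap ↔ a ∈ lat Qp T := fun a => Set.Finite.mem_toFinset _
  set q : ℝ := 1 / p with hq
  have hq0 : 0 ≤ q := by positivity
  have hq1 : q ≤ 1 := by rw [hq, div_le_one hp0]; exact hp1'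
  have hq2 : q ≤ 2 * ρ / (T : ℝ) ^ n := by
    rw [hq, div_le_div_iff₀ hp0 hTn]; linarith
  set w : ℝ := (T : ℝ) ^ n * (3 / 2 * v) with hw
  have hwp : (Ap.card : ℝ) ≤ w := by rw [hw]; linarith
  have hwA : (A.card : ℝ) ≤ w := by
    refine le_trans ?_ hwp
    exact_mod_cast card_le_card fun a ha => (hmemAp a).2 (hQQ ((hmemA a).1 ha))
  have hwq : w * q ≤ 3 * V := by
    calc w * q ≤ w * (2 * ρ / (T : ℝ) ^ n) := by gcongr
      _ = 3 * V := by rw [hw, hV]; field_simp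
  have hAq : V / 2 ≤ A.card * q := by
    rw [hq, mul_one_div, le_div_iff₀ hp0]
    calc V / 2 * p = v / 2 * (ρ * p) := by rw [hV]; ring
      _ ≤ v / 2 * (T : ℝ) ^ n := by gcongr
      _ ≤ _ := hT1.le
  have hL : ∀ a ∈ A, ∀ i, |a i| ≤ ((R * T : ℕ) : ℤ) := fun a ha i =>
    lat_bound (hQQ.trans hR) hT0 ((hmemA a).1 ha) i
  have hRT : 1 ≤ R * T := Nat.mul_pos hR1 hT0
  have main := hole_count (Ω := (α → ZMod p) × ZMod p) Dep Dep.mono not_dep_empty M hM
    (fun ω a => ∑ i, a i • ω.1 i = ω.2) A q hq0 hq1 (by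
      intro U hUA hU hUM
      have := indep_count p U hU ((R * T : ℕ) : ℤ) (by exact_mod_cast hRT)
        (fun a ha => hL a (hUA ha)) (by
          have e1 : ((U.card.factorial : ℝ)) * ((n + 1) * ((R * T : ℕ) : ℝ) ^ 2) ^ U.card < p := by
            have hR' : (1 : ℝ) ≤ ((R * T : ℕ) : ℝ) := by exact_mod_cast hRT
            have hb : (1 : ℝ) ≤ (n + 1) * ((R * T : ℕ) : ℝ) ^ 2 := by
              nlinarith [Nat.cast_nonneg (α := ℝ) n]
            have e2 : (T : ℝ) ^ (2 * M) * T ≤ (T : ℝ) ^ n := by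
              rw [← pow_succ]; exact pow_le_pow_right₀ hT1' (by omega)
            calc _ ≤ (M.factorial : ℝ) * ((n + 1) * ((R * T : ℕ) : ℝ) ^ 2) ^ M := by
                  gcongr
              _ = (M.factorial * ((n + 1) * R ^ 2) ^ M) * (T : ℝ) ^ (2 * M) := by
                  push_cast; rw [pow_mul]; simp only [mul_pow]; ring
              _ < p := by
                  refine lt_of_mul_lt_mul_left (a := 2 * ρ) ?_ (by positivity)
                  rw [← mul_assoc]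
                  refine lt_of_lt_of_le (mul_lt_mul_of_pos_right hT4 (by positivity)) ?_
                  linarith
          exact_mod_cast e1)
      convert this)
  -- the error term
  set s := T / D with hs
  have hs2 : 2 ≤ s := (Nat.le_div_iff_mul_le hD0).2 hT3
  have hsD : s * D ≤ T := Nat.div_mul_le_self _ _
  have hsD' : T < (s + 1) * D := by
    rw [mul_comm]; exact Nat.lt_mul_div_succ _ hD0
  have hsT : s ≤ T := Nat.div_le_self _ _
  have hslow : (T : ℝ) / (2 * D) ≤ s := by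
    rw [div_le_iff₀ (by positivity)]
    have : T ≤ s * (2 * D) := by nlinarith
    exact_mod_cast this
  have hAAp : ∀ a ∈ A, ∀ t : α → ℤ, (∀ i, 0 ≤ t i ∧ t i < s) → a + t ∈ Ap := by
    intro a ha t ht
    refine (hmemAp _).2 (mem_cthickening_of_dist_le _ _ _ _ ((hmemA a).1 ha)
      ((dist_pi_le_iff (by positivity)).2 fun i => ?_))
    have e1 : (0 : ℝ) ≤ t i := by exact_mod_cast (ht i).1
    have e2 : (t i : ℝ) ≤ s := by exact_mod_cast (ht i).2.le
    have e3 : (s : ℝ) * D ≤ T := by exact_mod_cast hsD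
    rw [Real.dist_eq, Pi.add_apply]
    push_cast
    rw [add_div, add_sub_cancel_left, abs_of_nonneg (by positivity),
      div_le_div_iff₀ (by positivity) hD']
    nlinarith
  have hpair := pair_bound c hc hY Q (1 / (D : ℝ)) T hT0 (by
      rw [div_le_div_iff₀ (by positivity) hD']
      have : ((2 * D : ℕ) : ℝ) ≤ T := by exact_mod_cast hT3
      push_cast at this
      linarith) (3 / 2 * v) (by positivity)
    ((ENNReal.le_ofReal_iff_toReal_le hQpc.measure_lt_top.ne (by positivity)).2 hD.le) A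
    fun a ha => (hmemA a).1 ha
  have hn1 : (1 : ℝ) ≤ n := by exact_mod_cast (by omega : 1 ≤ n)
  have hθ0 : 0 ≤ θ := by linarith
  have herr : ∀ r ∈ range (M + 1), ((Tup (Fin (r + 1)) A).card : ℝ) * q ^ r ≤
      40 * (n : ℝ) ^ M * θ ^ n + (∑ J ∈ (univ : Finset α).powerset with J.card + 1 ≤ r + 1,
        (2 * R + 2 : ℝ) ^ ((r + 1) * J.card + r * (n - J.card)) * (2 * D) ^ (n - J.card) *
          (2 * ρ) ^ r) / T := by
    intro r hr
    have hrM : r ≤ M := by have := mem_range.1 hr; omega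
    have h1 := tup_count (κ := Fin (r + 1)) A Ap (R * T) s (by omega) hL hAAp w (c ^ n)
      (by positivity) hwA hwp hpair
    simp only [Fintype.card_fin, Nat.add_sub_cancel] at h1
    refine (mul_le_mul_of_nonneg_right h1 (by positivity)).trans ?_
    rw [add_mul, add_mul]
    have hw0 : 0 ≤ w := by positivity
    have e0 : 8 ^ (r + 1) * (w * q) ^ r ≤ 8 * (n : ℝ) ^ M := by
      calc _ = 8 * (8 * (w * q)) ^ r := by rw [pow_succ, mul_pow 8]; ring
        _ ≤ 8 * (n : ℝ) ^ r := by gcongr; linarith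
        _ ≤ _ := by gcongr
    refine add_le_add ?_ ?_
    · have e1 : 3 ^ (r + 1) * (c ^ n * w ^ r) * q ^ r ≤ 8 * (n : ℝ) ^ M * θ ^ n := by
        calc _ = 3 ^ (r + 1) * (w * q) ^ r * c ^ n := by rw [mul_pow]; ring
          _ ≤ 8 ^ (r + 1) * (w * q) ^ r * θ ^ n := by gcongr; norm_num
          _ ≤ _ := by gcongr
      have e2 : (∑ h ∈ Icc 2 s, (2 * h + 1 : ℝ) ^ (r + 1) * (w ^ r / h ^ n)) * q ^ r ≤
          32 * (n : ℝ) ^ M * θ ^ n := by
        calc _ = (∑ h ∈ Icc 2 s, (2 * h + 1 : ℝ) ^ (r + 1) / h ^ n) * (w * q) ^ r := by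
              rw [sum_mul, sum_mul]
              exact sum_congr rfl fun h _ => by rw [mul_pow]; ring
          _ ≤ (4 * 8 ^ (r + 1) / 2 ^ n) * (w * q) ^ r := by
              gcongr
              exact hsum (r + 1) n s (by omega) (by omega)
          _ = 4 * (8 ^ (r + 1) * (w * q) ^ r) * (1 / 2) ^ n := by rw [one_div_pow]; ring
          _ ≤ 4 * (8 * (n : ℝ) ^ M) * θ ^ n := by gcongr
          _ = _ := by ring
      linarith
    · rw [sum_mul, sum_div]
      refine sum_le_sum fun J hJ => ?_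
      have hJr : J.card ≤ r := by have := (mem_filter.1 hJ).2; omega
      have hsT' : (s : ℝ) ≤ T := by exact_mod_cast hsT
      refine term_bound T _ _ s q _ _ _ r J.card (n - J.card) hT1' (by positivity) (by positivity)
        (by positivity) (by positivity) (by positivity) ?_ ?_ hslow hq0 ?_ (by omega)
      · push_cast; nlinarith
      · push_cast; nlinarith
      · rwa [Nat.add_sub_cancel' (by omega)]
  have herr2 : 2 * ∑ W ∈ A.powerset with Dep W ∧ W.card ≤ M + 1, q ^ (W.card - 1) ≤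
      2 * Real.exp (-V) := by
    have h1 := (dep_sum A M q hq0).trans (sum_le_sum herr)
    rw [sum_add_distrib, ← sum_div, sum_const, card_range, nsmul_eq_mul] at h1
    have h2 : 2 * (Ct / T) ≤ Real.exp (-V) := by
      rw [div_le_iff₀ (Real.exp_pos _)] at hT5
      rw [← mul_div_assoc, div_le_iff₀ (by positivity)]
      linarith
    have h3 : 2 * (((M + 1 : ℕ) : ℝ) * (40 * (n : ℝ) ^ M * θ ^ n)) ≤ Real.exp (-V) := by
      refine le_trans ?_ hnum
      have : ((10 * (M + 1) : ℕ) : ℝ) ≤ n := by exact_mod_cast hMn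
      calc _ = 8 * (((10 * (M + 1) : ℕ) : ℝ) * (n : ℝ) ^ M) * θ ^ n := by push_cast; ring
        _ ≤ 8 * (n * (n : ℝ) ^ M) * θ ^ n := by gcongr
        _ = _ := by ring
    have h4 : 2 * ∑ W ∈ A.powerset with Dep W ∧ W.card ≤ M + 1, q ^ (W.card - 1) ≤
        2 * (((M + 1 : ℕ) : ℝ) * (40 * (n : ℝ) ^ M * θ ^ n)) + 2 * (Ct / T) := by
      rw [← mul_add]
      exact mul_le_mul_of_nonneg_left (by convert h1) (by norm_num)
    linarith
  have e1 : Real.exp (-(A.card * q)) ≤ Real.exp (-V / 2) := Real.exp_le_exp.2 (by linarith)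
  have e2 : Real.exp (-M + Real.exp 1 * (A.card * q)) ≤ Real.exp (-V / 2) := by
    refine Real.exp_le_exp.2 ?_
    have h1 : (A.card : ℝ) * q ≤ 3 * V := le_trans (by gcongr) hwq
    have h2 : Real.exp 1 * (A.card * q) ≤ 3 * (3 * V) := by
      gcongr
      exact Real.exp_one_lt_three.le
    linarith
  have e3 : Real.exp (-V) ≤ Real.exp (-V / 2) := Real.exp_le_exp.2 (by linarith)
  have e4 : ∑ b : α → ZMod p, (Nat.card {γ : ZMod p // ¬ ∃ a : α → ℤ,
      (fun i => (a i : ℝ) / T) ∈ Q ∧ ∑ i, a i • b i = γ} : ℝ) =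
      ((univ.filter fun ω : (α → ZMod p) × ZMod p =>
        ∀ a ∈ A, ¬ ∑ i, a i • ω.1 i = ω.2).card : ℝ) := by
    rw [card_filter, Fintype.sum_prod_type]
    push_cast
    refine sum_congr rfl fun b _ => ?_
    rw [Nat.card_eq_fintype_card, Fintype.card_subtype, card_filter]
    push_cast
    refine sum_congr rfl fun γ _ => ?_
    refine if_congr ?_ rfl rfl
    simp only [not_exists, not_and, hmemA]
    rfl
  rw [e4, mul_comm (4 * Real.exp (-V / 2))]
  refine le_trans (le_of_eq ?_) (main.trans (mul_le_mul_of_nonneg_left ?_ (Nat.cast_nonneg _)))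
  · congr
  · have := herr2
    linarith

end Crest.Agent.LC
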