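import Crest.Agent.LC.Defs
import Crest.Agent.LC.Hole6

/-! The hole probability theorem `HoleStmt`, from `YoungStmt`. -/

set_option autoImplicit false

namespace Crest.Agent.LC

open MeasureTheory Filter Topology Finset

lemma hole_numerics (θ : ℝ) (hθ0 : 0 < θ) (hθ1 : θ < 1) :
    ∃ κ : ℝ, 0 < κ ∧ ∃ n₀ : ℕ, ∀ n : ℕ, n₀ ≤ n → ∃ M : ℕ, Even M ∧
      10 * (κ * n / Real.log n) ≤ M ∧ 10 * (M + 1) ≤ n ∧ 24 * (κ * n / Real.log n) ≤ n ∧
      8 * (n : ℝ) ^ (M + 1) * θ ^ n ≤ Real.exp (-(κ * n / Real.log n)) := by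
  set a := -Real.log θ with ha
  have ha0 : 0 < a := by rw [ha]; linarith [Real.log_neg hθ0 hθ1]
  set κ := min (a / 22) (1 / 200) with hκ
  have hκ0 : 0 < κ := by positivity
  have hκ1 : κ ≤ a / 22 := min_le_left _ _
  have hκ2 : κ ≤ 1 / 200 := min_le_right _ _
  refine ⟨κ, hκ0, ?_⟩
  have h1 : ∀ᶠ x : ℝ in atTop, ‖Real.log x‖ ≤ a / 8 * ‖id x‖ :=
    Real.isLittleO_log_id_atTop.bound (by positivity)
  have h2 : ∀ᶠ x : ℝ in atTop, 1 ≤ Real.log x := Real.tendsto_log_atTop.eventually_ge_atTop 1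
  obtain ⟨n₀, hn₀⟩ := eventually_atTop.1 (((tendsto_natCast_atTop_atTop (R := ℝ)).eventually
    (h1.and h2)).and (eventually_ge_atTop 60))
  refine ⟨n₀, fun n hn => ?_⟩
  obtain ⟨⟨h3, h4⟩, h5⟩ := hn₀ n hn
  have hn' : (60 : ℝ) ≤ n := by exact_mod_cast h5
  rw [id, Real.norm_of_nonneg (by linarith), Real.norm_of_nonneg (by linarith)] at h3
  set L := Real.log n with hL
  set V := κ * n / L with hV
  have hV0 : 0 ≤ V := by positivity
  have hVL : V * L = κ * n := by rw [hV]; field_simp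
  have hV1 : V ≤ κ * n := by nlinarith
  have hV2 : V ≤ n / 200 := by nlinarith
  have hM1 : 5 * V ≤ (⌈5 * V⌉₊ : ℝ) := Nat.le_ceil _
  have hM2 : (⌈5 * V⌉₊ : ℝ) < 5 * V + 1 := Nat.ceil_lt_add_one (by positivity)
  refine ⟨2 * ⌈5 * V⌉₊, even_two_mul _, by push_cast; linarith, ?_, by linarith, ?_⟩
  · have : ((10 * (2 * ⌈5 * V⌉₊ + 1) : ℕ) : ℝ) ≤ n := by push_cast; linarith
    exact_mod_cast this
  · set M := 2 * ⌈5 * V⌉₊ with hM
    have hM' : (M : ℝ) ≤ 10 * V + 2 := by rw [hM]; push_cast; linarith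
    have e1 : (n : ℝ) = Real.exp L := (Real.exp_log (by linarith)).symm
    have e2 : θ = Real.exp (-a) := by rw [ha, neg_neg, Real.exp_log hθ0]
    calc _ ≤ n * (n : ℝ) ^ (M + 1) * θ ^ n := by gcongr; linarith
      _ = Real.exp ((M + 2) * L - a * n) := by
        rw [← pow_succ', sub_eq_add_neg, Real.exp_add]
        congr 1
        · rw [show ((M : ℝ) + 2) = ((M + 1 + 1 : ℕ) : ℝ) by push_cast; ring, Real.exp_nat_mul,
            ← e1]
        · rw [show -(a * n) = n * (-a) by ring, Real.exp_nat_mul, ← e2]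
      _ ≤ _ := by
        refine Real.exp_le_exp.2 ?_
        have : ((M : ℝ) + 2) * L ≤ (10 * V + 4) * L :=
          mul_le_mul_of_nonneg_right (by linarith) (by linarith)
        have h7 : κ * n ≤ a / 22 * n := mul_le_mul_of_nonneg_right hκ1 (by linarith)
        nlinarith

lemma exists_prime_window (ρ : ℝ) (hρ : 0 < ρ) (P₀ : ℕ) (x : ℝ) (hx : 2 * ρ * (P₀ + 1) ≤ x) :
    ∃ p : ℕ, p.Prime ∧ P₀ < p ∧ ρ * p ≤ x ∧ x ≤ 2 * ρ * p := by
  have h0 : (P₀ + 1 : ℝ) ≤ x / (2 * ρ) := by rw [le_div_iff₀ (by positivity)]; linarith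
  set m := ⌊x / (2 * ρ)⌋₊ with hm
  have h1 : P₀ + 1 ≤ m := Nat.le_floor (by push_cast; exact h0)
  obtain ⟨p, hp, h2, h3⟩ := Nat.exists_prime_lt_and_le_two_mul m (by omega)
  have h4 : (m : ℝ) ≤ x / (2 * ρ) := Nat.floor_le (le_trans (by positivity) h0)
  have h5 : x / (2 * ρ) < m + 1 := Nat.lt_floor_add_one _
  rw [le_div_iff₀ (by positivity)] at h4
  rw [div_lt_iff₀ (by positivity)] at h5
  have h2' : (m : ℝ) + 1 ≤ p := by exact_mod_cast h2
  have h3' : (p : ℝ) ≤ 2 * m := by exact_mod_cast h3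
  refine ⟨p, hp, by omega, by nlinarith, by nlinarith⟩

lemma markov_union {B I : Type*} [Fintype B] [Nonempty B] [Fintype I] (f : I → B → ℝ)
    (hf : ∀ ι b, 0 ≤ f ι b) (g : I → ℝ) (hg : ∀ ι, 0 < g ι)
    (h : ∀ ι, ∑ b, f ι b ≤ g ι * Fintype.card B) :
    ∃ b, ∀ ι, f ι b ≤ 2 * Fintype.card I * g ι := by
  by_contra hcon
  push Not at hcon
  obtain ⟨b₀⟩ := ‹Nonempty B›
  obtain ⟨ι₀, -⟩ := hcon b₀
  have hI : (0 : ℝ) < Fintype.card I := by
    exact_mod_cast Fintype.card_pos_iff.2 ⟨ι₀⟩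
  have hB : (0 : ℝ) < Fintype.card B := by
    exact_mod_cast Fintype.card_pos_iff.2 ⟨b₀⟩
  have h1 : ∀ b, 2 * (Fintype.card I : ℝ) ≤ ∑ ι, f ι b / g ι := by
    intro b
    obtain ⟨ι, hι⟩ := hcon b
    refine le_trans ?_ (single_le_sum (f := fun ι => f ι b / g ι)
      (fun ι _ => div_nonneg (hf ι b) (hg ι).le) (mem_univ ι))
    rw [le_div_iff₀ (hg ι)]
    exact hι.le
  have h2 := sum_le_sum fun b (_ : b ∈ univ) => h1 b
  rw [sum_comm, sum_const, card_univ, nsmul_eq_mul] at h2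
  have h3 : ∑ ι, ∑ b, f ι b / g ι ≤ ∑ _ι : I, (Fintype.card B : ℝ) := by
    refine sum_le_sum fun ι _ => ?_
    rw [← sum_div, div_le_iff₀ (hg ι), mul_comm]
    exact h ι
  rw [sum_const, card_univ, nsmul_eq_mul] at h3
  nlinarith

theorem hole_of_young : YoungStmt → HoleStmt := by
  rintro ⟨c, hc0, hc1, hY⟩
  set θ := max c (1 / 2) with hθ
  have hθ1 : θ < 1 := max_lt hc1 (by norm_num)
  have hθ0 : 0 < θ := lt_of_lt_of_le hc0 (le_max_left _ _)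
  obtain ⟨κ, hκ, n₀, hn₀⟩ := hole_numerics θ hθ0 hθ1
  refine ⟨κ, hκ, n₀, fun α _ _ hn I _ Q hQ ρ hρ hV N₀ P₀ hN₀ => ?_⟩
  obtain ⟨M, hM, h1, h2, h3, h4⟩ := hn₀ _ hn
  have hev := eventually_all.2 fun ι => hole_one c hc0.le (hY α) θ (le_max_left _ _)
    (le_max_right _ _) (Q ι) (hQ ι).1 (hQ ι).2.1 (hQ ι).2.2 ρ hρ M hM
    (by linarith [hV ι]) h2 (by linarith [hV ι])
    (h4.trans (Real.exp_le_exp.2 (by linarith [hV ι])))
  obtain ⟨T₀, hT₀⟩ := eventually_atTop.1 (hev.and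
    ((tendsto_natCast_atTop_atTop (R := ℝ)).eventually_ge_atTop (2 * ρ * (P₀ + 1))))
  have hT : T₀ + 1 ≤ N₀ * (T₀ + 1) := Nat.le_mul_of_pos_left _ hN₀
  obtain ⟨h5, h6⟩ := hT₀ (N₀ * (T₀ + 1)) (by omega)
  set T := N₀ * (T₀ + 1) with hTdef
  have hT1 : (1 : ℝ) ≤ T := by exact_mod_cast (by omega : 1 ≤ T)
  obtain ⟨p, hp, hpP, hp1, hp2⟩ := exists_prime_window ρ hρ P₀ ((T : ℝ) ^ Fintype.card α)
    (h6.trans (le_self_pow₀ hT1 (by omega)))
  haveI : Fact p.Prime := ⟨hp⟩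
  have hp0 : (0 : ℝ) < p := by exact_mod_cast hp.pos
  obtain ⟨b, hb⟩ := markov_union (B := α → ZMod p) (I := I)
    (fun ι b => (Nat.card {γ : ZMod p // ¬ ∃ a : α → ℤ,
      (fun i => (a i : ℝ) / T) ∈ Q ι ∧ ∑ i, a i • b i = γ} : ℝ))
    (fun _ _ => Nat.cast_nonneg _)
    (fun ι => 4 * Real.exp (-(ρ * (volume (Q ι)).toReal) / 2) * p) (fun _ => by positivity)
    (fun ι => by
      refine (h5 ι p hp1 hp2).trans (le_of_eq ?_)
      rw [Fintype.card_prod, ZMod.card]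
      push_cast
      ring)
  refine ⟨T, ZMod p, inferInstance, inferInstance, b, by omega, Dvd.intro _ rfl, ?_, ?_, ?_, ?_⟩
  · intro m hm0 hm
    have hm' : (m : ZMod p) ≠ 0 := by
      rw [Ne, ZMod.intCast_zmod_eq_zero_iff_dvd]
      intro hd
      have := Int.le_of_dvd (abs_pos.2 hm0) ((dvd_abs _ _).2 hd)
      omega
    have : (fun h : ZMod p => m • h) = fun h => (m : ZMod p) * h := by
      funext h; rw [zsmul_eq_mul]
    rw [this]
    exact (Equiv.mulLeft₀ _ hm').bijective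
  · rw [ZMod.card]; exact hp1
  · rw [ZMod.card]; exact hp2
  · intro ι
    rw [ZMod.card]
    refine (hb ι).trans (le_of_eq ?_)
    ring

end Crest.Agent.LC
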