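import Mathlib

/-! Bonferroni inequality restricted to independent subsets. -/

set_option autoImplicit false

namespace Crest.Agent.LC

open Finset

open Classical in
lemma bonf {X : Type*} [DecidableEq X] (Dep : Finset X → Prop)
    (hmono : ∀ U U', U ⊆ U' → Dep U → Dep U') (h0 : ¬ Dep ∅) (M : ℕ) (hM : Even M)
    (S : Finset X) :
    (if S = ∅ then (1 : ℝ) else 0) ≤
      ∑ U ∈ S.powerset, ((if ¬ Dep U ∧ U.card ≤ M then (-1 : ℝ) ^ U.card else 0) +
        (if U.card ≤ M + 1 ∧ Dep U ∧ ∃ a ∈ U, ¬ Dep (U.erase a) then (1 : ℝ) else 0)) := by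
  split_ifs with hS
  · subst hS
    simp [h0]
  obtain ⟨a, ha⟩ := nonempty_iff_ne_empty.2 hS
  rw [← insert_erase ha, sum_powerset_insert (notMem_erase a S), ← sum_add_distrib]
  refine sum_nonneg fun U hU => ?_
  have haU : a ∉ U := fun h => notMem_erase a S (mem_powerset.1 hU h)
  have hc : (insert a U).card = U.card + 1 := card_insert_of_notMem haU
  have hg : 0 ≤ (if U.card ≤ M + 1 ∧ Dep U ∧ ∃ a ∈ U, ¬ Dep (U.erase a) then (1 : ℝ) else 0) := by
    split_ifs <;> norm_num
  have hg' : 0 ≤ (if (insert a U).card ≤ M + 1 ∧ Dep (insert a U) ∧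
      ∃ b ∈ insert a U, ¬ Dep ((insert a U).erase b) then (1 : ℝ) else 0) := by
    split_ifs <;> norm_num
  generalize (if U.card ≤ M + 1 ∧ Dep U ∧ ∃ a ∈ U, ¬ Dep (U.erase a) then (1 : ℝ) else 0) = g at hg ⊢
  by_cases h1 : ¬ Dep U ∧ U.card ≤ M
  · rw [if_pos h1]
    by_cases h2 : Dep (insert a U)
    · have h3 : (insert a U).card ≤ M + 1 ∧ Dep (insert a U) ∧
          ∃ b ∈ insert a U, ¬ Dep ((insert a U).erase b) :=
        ⟨by omega, h2, a, mem_insert_self _ _, by rw [erase_insert haU]; exact h1.1⟩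
      have h4 : ¬ (¬ Dep (insert a U) ∧ (insert a U).card ≤ M) := fun h => h.1 h2
      rw [if_pos h3, if_neg h4]
      have : -1 ≤ (-1 : ℝ) ^ U.card := by
        rcases neg_one_pow_eq_or ℝ U.card with h | h <;> rw [h] <;> norm_num
      linarith
    · generalize (if (insert a U).card ≤ M + 1 ∧ Dep (insert a U) ∧
        ∃ b ∈ insert a U, ¬ Dep ((insert a U).erase b) then (1 : ℝ) else 0) = g' at hg' ⊢
      by_cases h3 : U.card + 1 ≤ M
      · rw [if_pos ⟨h2, by omega⟩, hc, pow_succ]
        linarith
      · rw [if_neg (fun h => h3 (by omega))]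
        have : U.card = M := by omega
        rw [this, hM.neg_one_pow]
        linarith
  · have h4 : ¬ (¬ Dep (insert a U) ∧ (insert a U).card ≤ M) := by
      rintro ⟨h2, h3⟩
      exact h1 ⟨fun h => h2 (hmono _ _ (subset_insert _ _) h), by omega⟩
    rw [if_neg h1, if_neg h4]
    linarith

open Classical in
lemma hole_count {X Ω : Type*} [DecidableEq X] [Fintype Ω] (Dep : Finset X → Prop)
    (hmono : ∀ U U', U ⊆ U' → Dep U → Dep U') (h0 : ¬ Dep ∅) (M : ℕ) (hM : Even M)
    (hit : Ω → X → Prop) (A : Finset X) (q : ℝ) (hq0 : 0 ≤ q) (hq1 : q ≤ 1)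
    (hP : ∀ U ⊆ A, ¬ Dep U → U.card ≤ M →
      ((univ.filter fun ω => ∀ a ∈ U, hit ω a).card : ℝ) = Fintype.card Ω * q ^ U.card) :
    ((univ.filter fun ω => ∀ a ∈ A, ¬ hit ω a).card : ℝ) ≤ Fintype.card Ω *
      (Real.exp (-(A.card * q)) + Real.exp (-M + Real.exp 1 * (A.card * q)) +
        2 * ∑ W ∈ A.powerset with Dep W ∧ W.card ≤ M + 1, q ^ (W.card - 1)) := by
  set f : Finset X → ℝ := fun U => (if ¬ Dep U ∧ U.card ≤ M then (-1 : ℝ) ^ U.card else 0) +
    (if U.card ≤ M + 1 ∧ Dep U ∧ ∃ a ∈ U, ¬ Dep (U.erase a) then (1 : ℝ) else 0) with hf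
  set P : Finset X → ℝ := fun U => ((univ.filter fun ω => ∀ a ∈ U, hit ω a).card : ℝ) with hPdef
  have h1 : ((univ.filter fun ω => ∀ a ∈ A, ¬ hit ω a).card : ℝ) ≤
      ∑ U ∈ A.powerset, f U * P U := by
    calc _ = ∑ ω : Ω, (if A.filter (hit ω) = ∅ then (1 : ℝ) else 0) := by
          rw [card_filter]
          push_cast
          refine sum_congr rfl fun ω _ => ?_
          simp only [filter_eq_empty_iff]
      _ ≤ ∑ ω : Ω, ∑ U ∈ (A.filter (hit ω)).powerset, f U :=
          sum_le_sum fun ω _ => bonf Dep hmono h0 M hM _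
      _ = ∑ ω : Ω, ∑ U ∈ A.powerset, (if ∀ a ∈ U, hit ω a then f U else 0) := by
          refine sum_congr rfl fun ω _ => ?_
          rw [← sum_filter]
          congr 1
          ext U
          simp only [mem_powerset, mem_filter, subset_iff]
          exact ⟨fun h => ⟨fun a ha => (h ha).1, fun a ha => (h ha).2⟩,
            fun h a ha => ⟨h.1 ha, h.2 a ha⟩⟩
      _ = _ := by
          rw [sum_comm]
          refine sum_congr rfl fun U _ => ?_
          rw [← sum_filter, sum_const, nsmul_eq_mul, mul_comm]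
  have hΩ : (0 : ℝ) ≤ Fintype.card Ω := Nat.cast_nonneg _
  have h2 : ∀ U ∈ A.powerset, f U * P U ≤ Fintype.card Ω *
      ((-q) ^ U.card + Real.exp (-M) * (Real.exp 1 * q) ^ U.card +
        2 * (if Dep U ∧ U.card ≤ M + 1 then q ^ (U.card - 1) else 0)) := by
    intro U hU
    have hUA := mem_powerset.1 hU
    have e1 : -q ^ U.card ≤ (-q) ^ U.card := by
      have := neg_abs_le ((-q) ^ U.card)
      rwa [abs_pow, abs_neg, abs_of_nonneg hq0] at this
    have e2 : 0 ≤ Real.exp (-M) * (Real.exp 1 * q) ^ U.card := by positivity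
    have e3 : q ^ U.card ≤ q ^ (U.card - 1) := pow_le_pow_of_le_one hq0 hq1 (Nat.sub_le _ _)
    have e4 : M ≤ U.card → q ^ U.card ≤ Real.exp (-M) * (Real.exp 1 * q) ^ U.card := by
      intro h
      rw [mul_pow, ← mul_assoc, ← Real.exp_nat_mul, ← Real.exp_add]
      refine le_mul_of_one_le_left (by positivity) (Real.one_le_exp ?_)
      have : (M : ℝ) ≤ U.card := by exact_mod_cast h
      linarith
    by_cases hD : Dep U
    · by_cases hc : U.card ≤ M + 1
      · rw [if_pos ⟨hD, hc⟩]
        have e5 : f U * P U ≤ Fintype.card Ω * q ^ (U.card - 1) := by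
          simp only [hf]
          rw [if_neg (fun h => h.1 hD), zero_add]
          split_ifs with h
          · obtain ⟨a, ha, hna⟩ := h.2.2
            have hce : (U.erase a).card = U.card - 1 := card_erase_of_mem ha
            rw [one_mul, ← hce, ← hP _ ((erase_subset _ _).trans hUA) hna (by omega)]
            simp only [hPdef]
            exact_mod_cast card_le_card fun ω hω => by
              simp only [mem_filter, mem_univ, true_and] at hω ⊢
              exact fun b hb => hω b (mem_of_mem_erase hb)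
          · rw [zero_mul]; positivity
        refine e5.trans (mul_le_mul_of_nonneg_left ?_ hΩ)
        linarith
      · rw [if_neg (fun h => hc h.2)]
        have : f U = 0 := by
          simp only [hf]
          rw [if_neg (fun h => h.1 hD), if_neg (fun h => hc h.1), add_zero]
        rw [this, zero_mul]
        have := e4 (by omega)
        exact mul_nonneg hΩ (by linarith)
    · rw [if_neg (fun h => hD h.1)]
      by_cases hc : U.card ≤ M
      · have : f U = (-1) ^ U.card := by
          simp only [hf]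
          rw [if_pos ⟨hD, hc⟩, if_neg (fun h => hD h.2.1), add_zero]
        rw [this]
        simp only [hPdef]
        rw [hP U hUA hD hc, mul_left_comm, ← mul_pow, neg_one_mul]
        exact mul_le_mul_of_nonneg_left (by linarith) hΩ
      · have : f U = 0 := by
          simp only [hf]
          rw [if_neg (fun h => hc h.2), if_neg (fun h => hD h.2.1), add_zero]
        rw [this, zero_mul]
        have := e4 (by omega)
        exact mul_nonneg hΩ (by linarith)
  have hpow : ∀ t : ℝ, ∑ U ∈ A.powerset, t ^ U.card = (1 + t) ^ A.card := by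
    intro t
    have := Finset.prod_one_add (f := fun _ : X => t) A
    simpa using this.symm
  refine h1.trans ((sum_le_sum h2).trans ?_)
  rw [← mul_sum]
  refine mul_le_mul_of_nonneg_left ?_ hΩ
  rw [sum_add_distrib, sum_add_distrib, ← mul_sum, ← mul_sum, hpow, hpow, sum_filter]
  have e1 : (1 + -q) ^ A.card ≤ Real.exp (-(A.card * q)) := by
    rw [← mul_neg, Real.exp_nat_mul]
    refine pow_le_pow_left₀ (by linarith) ?_ _
    have := Real.add_one_le_exp (-q)
    linarith
  have e2 : Real.exp (-M) * (1 + Real.exp 1 * q) ^ A.card ≤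
      Real.exp (-M + Real.exp 1 * (A.card * q)) := by
    rw [Real.exp_add, mul_left_comm (Real.exp 1), Real.exp_nat_mul]
    refine mul_le_mul_of_nonneg_left (pow_le_pow_left₀ (by positivity) ?_ _) (by positivity)
    have := Real.add_one_le_exp (Real.exp 1 * q)
    linarith
  linarith

end Crest.Agent.LC
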