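import Mathlib

/-! Affinely independent integer points hash independently modulo a large prime. -/

set_option autoImplicit false

namespace Crest.Agent.LC

open Finset Matrix

/-- a nontrivial affine integer relation among the points of `U` -/
def Dep {α : Type} (U : Finset (α → ℤ)) : Prop :=
  ∃ u : (α → ℤ) → ℤ, (∃ a ∈ U, u a ≠ 0) ∧ ∑ a ∈ U, u a = 0 ∧ ∀ i, ∑ a ∈ U, u a * a i = 0

lemma Dep.mono {α : Type} (U U' : Finset (α → ℤ)) (h : U ⊆ U') (hU : Dep U) : Dep U' := by
  classical
  obtain ⟨u, ⟨a, ha, hu⟩, h1, h2⟩ := hU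
  refine ⟨fun b => if b ∈ U then u b else 0, ⟨a, h ha, by simpa [ha] using hu⟩, ?_, fun i => ?_⟩
  · simp only
    rw [← sum_filter, filter_mem_eq_inter, inter_eq_right.2 h, h1]
  · simp only [ite_mul, zero_mul]
    rw [← sum_filter, filter_mem_eq_inter, inter_eq_right.2 h, h2 i]

lemma not_dep_empty {α : Type} : ¬ Dep (∅ : Finset (α → ℤ)) := by
  rintro ⟨u, ⟨a, ha, -⟩, -⟩
  simp at ha

lemma card_ker_mul {G H : Type*} [AddGroup G] [AddGroup H] (f : G →+ H)
    (hf : Function.Surjective f) : Nat.card G = Nat.card H * Nat.card f.ker := by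
  rw [AddSubgroup.card_eq_card_quotient_mul_card_addSubgroup f.ker,
    Nat.card_congr (QuotientAddGroup.quotientKerEquivOfSurjective f hf).toEquiv]

open Classical in
lemma indep_count {α : Type} [Fintype α] [DecidableEq α] (p : ℕ) [Fact p.Prime]
    (U : Finset (α → ℤ)) (hU : ¬ Dep U) (L : ℤ) (hL1 : 1 ≤ L) (hL : ∀ a ∈ U, ∀ i, |a i| ≤ L)
    (hp : (U.card.factorial : ℤ) * ((Fintype.card α + 1) * L ^ 2) ^ U.card < p) :
    ((univ.filter fun ω : (α → ZMod p) × ZMod p => ∀ a ∈ U, ∑ i, a i • ω.1 i = ω.2).card : ℝ) =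
      Fintype.card ((α → ZMod p) × ZMod p) * (1 / (p : ℝ)) ^ U.card := by
  let X : Matrix U (Option α) ℤ := fun a o => o.elim 1 (fun i => a.1 i)
  have hdet : (X * Xᵀ).det ≠ 0 := by
    intro h
    obtain ⟨v, hv0, hv⟩ := Matrix.exists_mulVec_eq_zero_iff.2 h
    have h1 : Xᵀ *ᵥ v = 0 := by
      have : (Xᵀ *ᵥ v) ⬝ᵥ (Xᵀ *ᵥ v) = 0 := by
        rw [mulVec_transpose, ← dotProduct_mulVec, ← mulVec_transpose, mulVec_mulVec, hv]
        simp
      exact dotProduct_self_eq_zero.1 this
    refine hU ⟨fun a => if h : a ∈ U then v ⟨a, h⟩ else 0, ?_, ?_, fun i => ?_⟩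
    · obtain ⟨a, ha⟩ := Function.ne_iff.1 hv0
      exact ⟨a.1, a.2, by simpa [a.2] using ha⟩
    · have := congrFun h1 none
      simp only [mulVec, dotProduct, transpose_apply, X, Option.elim, one_mul,
        Pi.zero_apply] at this
      rw [← sum_coe_sort U]
      simpa using this
    · have := congrFun h1 (some i)
      simp only [mulVec, dotProduct, transpose_apply, X, Option.elim, Pi.zero_apply] at this
      rw [← sum_coe_sort U]
      simpa [mul_comm] using this
  have hX : ∀ a o, |X a o| ≤ L := by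
    intro a o
    cases o with
    | none => simpa [X] using hL1
    | some i => exact hL a.1 a.2 i
  have hbd : |(X * Xᵀ).det| < p := by
    have := Matrix.det_le (A := X * Xᵀ) (abv := AbsoluteValue.abs)
      (x := (Fintype.card α + 1) * L ^ 2) (fun a b => by
        simp only [AbsoluteValue.abs_apply, Matrix.mul_apply, transpose_apply]
        refine (abs_sum_le_sum_abs _ _).trans ?_
        refine (sum_le_card_nsmul _ _ (L ^ 2) fun o _ => ?_).trans (by simp)
        rw [abs_mul, sq]
        exact mul_le_mul (hX _ _) (hX _ _) (abs_nonneg _) (by linarith))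
    simp only [AbsoluteValue.abs_apply, Fintype.card_coe, nsmul_eq_mul] at this
    exact this.trans_lt hp
  let X' : Matrix U (Option α) (ZMod p) := X.map (Int.castRingHom (ZMod p))
  have hdet' : (X' * X'ᵀ).det ≠ 0 := by
    have : X' * X'ᵀ = (Int.castRingHom (ZMod p)).mapMatrix (X * Xᵀ) := by
      simp only [X', RingHom.mapMatrix_apply, Matrix.map_mul, transpose_map]
    rw [this, ← RingHom.map_det]
    intro h
    rw [eq_intCast, ZMod.intCast_zmod_eq_zero_iff_dvd] at h
    exact hdet (Int.eq_zero_of_abs_lt_dvd h hbd)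
  let ψ : ((α → ZMod p) × ZMod p) →+ (U → ZMod p) :=
    { toFun := fun ω a => ∑ i, a.1 i • ω.1 i - ω.2
      map_zero' := by ext a; simp
      map_add' := by
        intro x y
        ext a
        simp only [Prod.fst_add, Pi.add_apply, smul_add, sum_add_distrib, Prod.snd_add]
        ring }
  have hsurj : Function.Surjective ψ := by
    intro y
    let w := X'ᵀ *ᵥ ((X' * X'ᵀ)⁻¹ *ᵥ y)
    have hw : X' *ᵥ w = y := by
      simp only [w]
      rw [mulVec_mulVec, mulVec_mulVec,
        Matrix.mul_nonsing_inv _ (isUnit_iff_ne_zero.2 hdet'), one_mulVec]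
    refine ⟨(fun i => w (some i), -w none), ?_⟩
    ext a
    rw [← hw]
    simp [ψ, mulVec, dotProduct, X', X, Fintype.sum_option, add_comm]
  have h1 := card_ker_mul ψ hsurj
  have h2 : Nat.card ψ.ker = (univ.filter fun ω : (α → ZMod p) × ZMod p =>
      ∀ a ∈ U, ∑ i, a i • ω.1 i = ω.2).card := by
    rw [← Nat.card_eq_finsetCard]
    refine Nat.card_congr (Equiv.subtypeEquivRight fun ω => ?_)
    simp only [AddMonoidHom.mem_ker, mem_filter, mem_univ, true_and, funext_iff, ψ,
      AddMonoidHom.coe_mk, ZeroHom.coe_mk, Pi.zero_apply, sub_eq_zero, Subtype.forall]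
  rw [h2, Nat.card_eq_fintype_card, Nat.card_fun, Nat.card_zmod, Nat.card_eq_finsetCard] at h1
  have hp0 : (p : ℝ) ≠ 0 := by exact_mod_cast (Fact.out : p.Prime).ne_zero
  rw [h1]
  push_cast
  rw [_root_.one_div_pow]
  field_simp

end Crest.Agent.LC
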