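import Mathlib

set_option autoImplicit false

namespace Crest.Agent.LC.Low

open Finset

variable {H : Type} [Fintype H] [DecidableEq H]

/-- weight of a subset under independent Bernoulli sampling -/
noncomputable def pw (q : H → ℝ) (ω : Finset H) : ℝ := ∏ h, if h ∈ ω then q h else 1 - q h

/-- expectation -/
noncomputable def Ex (q : H → ℝ) (F : Finset H → ℝ) : ℝ := ∑ ω, pw q ω * F ω

/-- probability that `S` is sampled -/
noncomputable def qs (q : H → ℝ) (S : Finset H) : ℝ := ∏ h ∈ S, q h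

variable {q : H → ℝ}

lemma pw_nonneg (h0 : ∀ h, 0 ≤ q h) (h1 : ∀ h, q h ≤ 1) (ω : Finset H) : 0 ≤ pw q ω := by
  apply Finset.prod_nonneg
  intro h _
  split_ifs
  · exact h0 h
  · linarith [h1 h]

lemma sum_pw : ∑ ω, pw q ω = 1 := by
  have h := Fintype.prod_add q (fun h => 1 - q h)
  simp only [add_sub_cancel, Finset.prod_const_one] at h
  rw [h]
  apply Finset.sum_congr rfl
  intro ω _
  rw [pw, Finset.prod_ite]
  congr 1
  · congr 1; ext; simp
  · congr 1; ext; simp

lemma Ex_const (c : ℝ) : Ex q (fun _ => c) = c := by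
  rw [Ex, ← Finset.sum_mul, sum_pw, one_mul]

lemma Ex_mono (h0 : ∀ h, 0 ≤ q h) (h1 : ∀ h, q h ≤ 1) {F G : Finset H → ℝ} (h : ∀ ω, F ω ≤ G ω) :
    Ex q F ≤ Ex q G :=
  Finset.sum_le_sum fun ω _ => mul_le_mul_of_nonneg_left (h ω) (pw_nonneg h0 h1 ω)

lemma Ex_nonneg (h0 : ∀ h, 0 ≤ q h) (h1 : ∀ h, q h ≤ 1) {F : Finset H → ℝ} (h : ∀ ω, 0 ≤ F ω) :
    0 ≤ Ex q F :=
  Finset.sum_nonneg fun ω _ => mul_nonneg (pw_nonneg h0 h1 ω) (h ω)

lemma Ex_sum {ι : Type} (s : Finset ι) (F : ι → Finset H → ℝ) :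
    Ex q (fun ω => ∑ i ∈ s, F i ω) = ∑ i ∈ s, Ex q (F i) := by
  simp only [Ex, Finset.mul_sum]
  exact Finset.sum_comm

lemma Ex_mul (c : ℝ) (F : Finset H → ℝ) : Ex q (fun ω => c * F ω) = c * Ex q F := by
  simp only [Ex, Finset.mul_sum]
  exact Finset.sum_congr rfl fun ω _ => by ring

lemma Ex_add (F G : Finset H → ℝ) : Ex q (fun ω => F ω + G ω) = Ex q F + Ex q G := by
  simp only [Ex, mul_add, Finset.sum_add_distrib]

lemma Ex_sub (F G : Finset H → ℝ) : Ex q (fun ω => F ω - G ω) = Ex q F - Ex q G := by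
  simp only [Ex, mul_sub, Finset.sum_sub_distrib]

lemma Ex_mem (h : H) (F : Finset H → ℝ) :
    Ex q (fun ω => if h ∈ ω then F ω else 0) = q h * Ex q (fun ω => F (insert h ω)) := by
  let R : Finset H → ℝ := fun ω => ∏ h' ∈ univ.erase h, if h' ∈ ω then q h' else 1 - q h'
  have hR : ∀ ω, pw q ω = (if h ∈ ω then q h else 1 - q h) * R ω := fun ω => by
    rw [pw, ← Finset.mul_prod_erase _ _ (mem_univ h)]
  have hRi : ∀ ω, R (insert h ω) = R ω := fun ω => by
    apply Finset.prod_congr rfl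
    intro h' hh'
    simp [Finset.mem_insert, (Finset.mem_erase.mp hh').1]
  have hb : ∑ ω ∈ univ.filter (fun ω : Finset H => ¬ h ∈ ω), R ω * F (insert h ω) =
      ∑ ω ∈ univ.filter (fun ω : Finset H => h ∈ ω), R ω * F ω := by
    refine Finset.sum_bij' (fun ω _ => insert h ω) (fun ω _ => ω.erase h) ?_ ?_ ?_ ?_ ?_
    · intro ω _; simp
    · intro ω _; simp
    · intro ω hω
      exact Finset.erase_insert (by simpa using hω)
    · intro ω hω
      exact Finset.insert_erase (by simpa using hω)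
    · intro ω _; rw [hRi]
  have e1 : Ex q (fun ω => if h ∈ ω then F ω else 0) =
      q h * ∑ ω ∈ univ.filter (fun ω : Finset H => h ∈ ω), R ω * F ω := by
    rw [Ex, Finset.mul_sum, Finset.sum_filter]
    apply Finset.sum_congr rfl
    intro ω _
    rw [hR]
    split_ifs <;> ring
  have e2 : Ex q (fun ω => F (insert h ω)) =
      q h * ∑ ω ∈ univ.filter (fun ω : Finset H => h ∈ ω), R ω * F ω +
      (1 - q h) * ∑ ω ∈ univ.filter (fun ω : Finset H => ¬ h ∈ ω), R ω * F (insert h ω) := by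
    rw [Ex, Finset.mul_sum, Finset.mul_sum, Finset.sum_filter, Finset.sum_filter,
      ← Finset.sum_add_distrib]
    apply Finset.sum_congr rfl
    intro ω _
    rw [hR]
    by_cases hω : h ∈ ω
    · simp only [hω, if_true, not_true, if_false, Finset.insert_eq_of_mem hω]; ring
    · simp only [hω, if_false, not_false_iff, if_true]; ring
  rw [e1, e2, hb]; ring

lemma Ex_subset (S : Finset H) (F : Finset H → ℝ) :
    Ex q (fun ω => if S ⊆ ω then F ω else 0) = qs q S * Ex q (fun ω => F (ω ∪ S)) := by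
  induction S using Finset.induction_on generalizing F with
  | empty => simp [qs]
  | insert a S ha ih =>
    have e1 : (fun ω => if insert a S ⊆ ω then F ω else 0) =
        fun ω => if S ⊆ ω then (if a ∈ ω then F ω else 0) else 0 := by
      funext ω
      by_cases h1 : S ⊆ ω <;> by_cases h2 : a ∈ ω <;> simp [Finset.insert_subset_iff, h1, h2]
    have e2 : (fun ω => if a ∈ ω ∪ S then F (ω ∪ S) else 0) =
        fun ω => if a ∈ ω then F (ω ∪ S) else 0 := by
      funext ω; simp [ha]
    rw [e1, ih, e2, Ex_mem, qs, qs, Finset.prod_insert ha]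
    have e3 : (fun ω => F (insert a ω ∪ S)) = fun ω => F (ω ∪ insert a S) := by
      funext ω; rw [Finset.insert_union, Finset.union_insert]
    rw [e3]; ring

lemma Ex_ind (S : Finset H) (c : ℝ) : Ex q (fun ω => if S ⊆ ω then c else 0) = qs q S * c := by
  rw [Ex_subset S fun _ => c, Ex_const]

lemma harris (h0 : ∀ h, 0 ≤ q h) (h1 : ∀ h, q h ≤ 1) {F G : Finset H → ℝ} (hF0 : ∀ ω, 0 ≤ F ω)
    (hG0 : ∀ ω, 0 ≤ G ω) (hF : Antitone F) (hG : Antitone G) :
    Ex q F * Ex q G ≤ Ex q (fun ω => F ω * G ω) := by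
  have h := fkg (α := (Finset H)ᵒᵈ) (f := fun ω => F (OrderDual.ofDual ω))
    (g := fun ω => G (OrderDual.ofDual ω)) (μ := fun ω => pw q (OrderDual.ofDual ω))
    (fun ω => pw_nonneg h0 h1 _) (fun ω => hF0 _) (fun ω => hG0 _) (fun a b hab => hF hab)
    (fun a b hab => hG hab) (by
      intro a b
      apply le_of_eq
      simp only [pw, ← Finset.prod_mul_distrib]
      apply Finset.prod_congr rfl
      intro h _
      change _ = (if h ∈ OrderDual.ofDual a ∪ OrderDual.ofDual b then q h else 1 - q h) *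
        (if h ∈ OrderDual.ofDual a ∩ OrderDual.ofDual b then q h else 1 - q h)
      by_cases ha : h ∈ OrderDual.ofDual a <;> by_cases hb : h ∈ OrderDual.ofDual b <;>
        simp [ha, hb, mul_comm])
  have e : ∑ a : (Finset H)ᵒᵈ, pw q (OrderDual.ofDual a) = 1 := sum_pw (q := q)
  rw [e, one_mul] at h
  exact h

/-- the weighted count of sampled witnesses -/
noncomputable def WW (c : Finset H → ℝ) (ω : Finset H) : ℝ := ∑ S, if S ⊆ ω then c S else 0

lemma janson_step (h0 : ∀ h, 0 ≤ q h) (h1 : ∀ h, q h ≤ 1) (c : Finset H → ℝ) (hc : ∀ S, 0 ≤ c S)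
    (t : ℝ) (ht : 0 ≤ t) (S : Finset H) :
    (qs q S - t * ∑ S', if Disjoint S S' then 0 else c S' * qs q (S ∪ S')) *
      Ex q (fun ω => Real.exp (-t * WW c ω)) ≤
      Ex q (fun ω => if S ⊆ ω then Real.exp (-t * WW c ω) else 0) := by
  let Y : Finset H → ℝ := fun ω => ∑ S', if Disjoint S S' then 0 else if S' ⊆ ω then c S' else 0
  let Z : Finset H → ℝ := fun ω => ∑ S', if Disjoint S S' then (if S' ⊆ ω then c S' else 0) else 0
  have hW : ∀ ω, WW c ω = Y ω + Z ω := fun ω => by
    simp only [WW, Y, Z, ← Finset.sum_add_distrib]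
    apply Finset.sum_congr rfl
    intro S' _
    split_ifs <;> simp
  have hZ : ∀ ω, Z (ω ∪ S) = Z ω := fun ω => by
    apply Finset.sum_congr rfl
    intro S' _
    by_cases hd : Disjoint S S'
    · have : S' ⊆ ω ∪ S ↔ S' ⊆ ω := by
        constructor
        · intro h x hx
          rcases Finset.mem_union.mp (h hx) with h2 | h2
          · exact h2
          · exact absurd hx (Finset.disjoint_left.mp hd h2)
        · exact fun h => h.trans Finset.subset_union_left
      simp only [hd, if_true, this]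
    · simp only [hd, if_false]
  have hY0 : ∀ ω, 0 ≤ Y ω := fun ω => Finset.sum_nonneg fun S' _ => by
    split_ifs <;> first | exact le_rfl | exact hc _
  have hind : ∀ (S' : Finset H) {a b : Finset H}, a ⊆ b →
      (if S' ⊆ a then c S' else 0) ≤ if S' ⊆ b then c S' else 0 := by
    intro S' a b hab
    by_cases h2 : S' ⊆ a
    · rw [if_pos h2, if_pos (h2.trans hab)]
    · rw [if_neg h2]; split_ifs <;> first | exact le_rfl | exact hc _
  have hYm : Monotone Y := fun a b hab => Finset.sum_le_sum fun S' _ => by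
    by_cases hd : Disjoint S S'
    · simp [hd]
    · simp only [hd, if_false]; exact hind S' hab
  have hZm : Monotone Z := fun a b hab => Finset.sum_le_sum fun S' _ => by
    by_cases hd : Disjoint S S'
    · simp only [hd, if_true]; exact hind S' hab
    · simp [hd]
  have hq : 0 ≤ qs q S := Finset.prod_nonneg fun h _ => h0 h
  rw [Ex_subset]
  have e1 : (fun ω => Real.exp (-t * WW c (ω ∪ S))) =
      fun ω => Real.exp (-t * Y (ω ∪ S)) * Real.exp (-t * Z ω) := by
    funext ω; rw [hW, hZ, ← Real.exp_add]; ring_nf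
  rw [e1]
  have h2 := harris h0 h1 (F := fun ω => Real.exp (-t * Y (ω ∪ S)))
    (G := fun ω => Real.exp (-t * Z ω)) (fun _ => (Real.exp_pos _).le)
    (fun _ => (Real.exp_pos _).le)
    (fun a b hab => Real.exp_le_exp.mpr (by
      have := hYm (Finset.union_subset_union_left (t := S) hab); nlinarith))
    (fun a b hab => Real.exp_le_exp.mpr (by have := hZm hab; nlinarith))
  have h3 : Ex q (fun ω => Real.exp (-t * WW c ω)) ≤ Ex q (fun ω => Real.exp (-t * Z ω)) :=
    Ex_mono h0 h1 fun ω => Real.exp_le_exp.mpr (by rw [hW]; have := hY0 ω; nlinarith)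
  have h4 : 1 - t * Ex q (fun ω => Y (ω ∪ S)) ≤ Ex q (fun ω => Real.exp (-t * Y (ω ∪ S))) := by
    rw [← Ex_mul, ← Ex_const (q := q) 1, ← Ex_sub]
    apply Ex_mono h0 h1
    intro ω
    have := Real.add_one_le_exp (-t * Y (ω ∪ S))
    linarith
  have h5 : qs q S * Ex q (fun ω => Y (ω ∪ S)) =
      ∑ S', if Disjoint S S' then 0 else c S' * qs q (S ∪ S') := by
    rw [← Ex_subset]
    have : (fun ω => if S ⊆ ω then Y ω else 0) = fun ω => ∑ S',
        if S ∪ S' ⊆ ω then (if Disjoint S S' then 0 else c S') else 0 := by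
      funext ω
      by_cases hS : S ⊆ ω
      · rw [if_pos hS]
        apply Finset.sum_congr rfl
        intro S' _
        by_cases hd : Disjoint S S' <;> by_cases h2 : S' ⊆ ω <;>
          simp [hd, h2, hS, Finset.union_subset_iff]
      · rw [if_neg hS]
        symm
        apply Finset.sum_eq_zero
        intro S' _
        rw [if_neg]
        exact fun h => hS (Finset.subset_union_left.trans h)
    rw [this, Ex_sum]
    apply Finset.sum_congr rfl
    intro S' _
    rw [Ex_ind]
    split_ifs <;> ring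
  have h6 : 0 ≤ Ex q (fun ω => Real.exp (-t * WW c ω)) :=
    Ex_nonneg h0 h1 fun _ => (Real.exp_pos _).le
  have h7 : 0 ≤ Ex q (fun ω => Real.exp (-t * Y (ω ∪ S))) :=
    Ex_nonneg h0 h1 fun _ => (Real.exp_pos _).le
  rw [← h5]
  calc (qs q S - t * (qs q S * Ex q fun ω => Y (ω ∪ S))) * Ex q (fun ω => Real.exp (-t * WW c ω))
      = qs q S * ((1 - t * Ex q fun ω => Y (ω ∪ S)) *
          Ex q (fun ω => Real.exp (-t * WW c ω))) := by ring
    _ ≤ qs q S * (Ex q (fun ω => Real.exp (-t * Y (ω ∪ S))) *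
          Ex q (fun ω => Real.exp (-t * Z ω))) := by
        apply mul_le_mul_of_nonneg_left _ hq
        exact (mul_le_mul_of_nonneg_right h4 h6).trans (mul_le_mul_of_nonneg_left h3 h7)
    _ ≤ _ := mul_le_mul_of_nonneg_left h2 hq

/-- weighted Janson inequality -/
theorem janson (h0 : ∀ h, 0 ≤ q h) (h1 : ∀ h, q h ≤ 1) (c : Finset H → ℝ) (hc : ∀ S, 0 ≤ c S)
    (μ Δ : ℝ) (hμ : ∑ S, c S * qs q S = μ)
    (hΔ : ∑ S, ∑ S', (if Disjoint S S' then 0 else c S * c S' * qs q (S ∪ S')) ≤ Δ)
    (t : ℝ) (ht : 0 ≤ t) :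
    Ex q (fun ω => Real.exp (-t * WW c ω)) ≤ Real.exp (-t * μ + t ^ 2 * Δ / 2) := by
  let Ψ : ℝ → ℝ := fun t => Ex q (fun ω => Real.exp (-t * WW c ω))
  have hΨ : ∀ t, HasDerivAt Ψ (- Ex q (fun ω => WW c ω * Real.exp (-t * WW c ω))) t := by
    intro t
    have : - Ex q (fun ω => WW c ω * Real.exp (-t * WW c ω)) =
        ∑ ω, pw q ω * (Real.exp (-t * WW c ω) * (-1 * WW c ω)) := by
      rw [Ex, ← Finset.sum_neg_distrib]
      exact Finset.sum_congr rfl fun ω _ => by ring
    rw [this]
    apply HasDerivAt.fun_sum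
    intro ω _
    exact (((hasDerivAt_id t).neg.mul_const (WW c ω)).exp).const_mul _
  have hkey : ∀ t, 0 ≤ t → (μ - t * Δ) * Ψ t ≤
      Ex q (fun ω => WW c ω * Real.exp (-t * WW c ω)) := by
    intro t ht
    have e1 : (fun ω => WW c ω * Real.exp (-t * WW c ω)) =
        fun ω => ∑ S, c S * (if S ⊆ ω then Real.exp (-t * WW c ω) else 0) := by
      funext ω
      conv_lhs => rw [WW, Finset.sum_mul]
      apply Finset.sum_congr rfl
      intro S _
      split_ifs <;> simp [WW]
    rw [e1, Ex_sum]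
    have h6 : 0 ≤ Ψ t := Ex_nonneg h0 h1 fun _ => (Real.exp_pos _).le
    calc (μ - t * Δ) * Ψ t
        ≤ (μ - t * ∑ S, ∑ S', (if Disjoint S S' then 0 else c S * c S' * qs q (S ∪ S'))) * Ψ t := by
          apply mul_le_mul_of_nonneg_right _ h6
          nlinarith
      _ = ∑ S, c S * ((qs q S - t * ∑ S', if Disjoint S S' then 0 else c S' * qs q (S ∪ S')) *
            Ψ t) := by
          rw [← hμ, Finset.mul_sum, ← Finset.sum_sub_distrib, Finset.sum_mul]
          apply Finset.sum_congr rfl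
          intro S _
          have : ∑ S', (if Disjoint S S' then 0 else c S * c S' * qs q (S ∪ S')) =
              c S * ∑ S', if Disjoint S S' then 0 else c S' * qs q (S ∪ S') := by
            rw [Finset.mul_sum]
            exact Finset.sum_congr rfl fun S' _ => by split_ifs <;> ring
          rw [this]; ring
      _ ≤ _ := by
          apply Finset.sum_le_sum
          intro S _
          rw [Ex_mul]
          exact mul_le_mul_of_nonneg_left (janson_step h0 h1 c hc t ht S) (hc S)
  let g : ℝ → ℝ := fun t => Ψ t * Real.exp (t * μ - t ^ 2 * Δ / 2)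
  have hg : ∀ t, HasDerivAt g ((- Ex q (fun ω => WW c ω * Real.exp (-t * WW c ω)) +
      (μ - t * Δ) * Ψ t) * Real.exp (t * μ - t ^ 2 * Δ / 2)) t := by
    intro t
    have h2 : HasDerivAt (fun t : ℝ => t * μ - t ^ 2 * Δ / 2) (μ - t * Δ) t := by
      have := ((hasDerivAt_id t).mul_const μ).sub
        ((((hasDerivAt_id t).pow 2).mul_const Δ).div_const 2)
      refine this.congr_deriv ?_
      simp only [id, one_mul, Nat.cast_ofNat, mul_one]; ring
    refine ((hΨ t).mul h2.exp).congr_deriv ?_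
    ring
  have hanti : AntitoneOn g (Set.Ici 0) := by
    apply antitoneOn_of_deriv_nonpos (convex_Ici 0)
    · exact fun t _ => (hg t).continuousAt.continuousWithinAt
    · exact fun t _ => (hg t).differentiableAt.differentiableWithinAt
    · intro t ht
      rw [(hg t).deriv]
      have := hkey t (interior_subset ht)
      exact mul_nonpos_of_nonpos_of_nonneg (by linarith) (Real.exp_pos _).le
  have h2 := hanti (Set.mem_Ici.mpr le_rfl) (Set.mem_Ici.mpr ht) ht
  have h3 : g 0 = 1 := by simp [g, Ψ, Ex_const]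
  rw [h3] at h2
  have h4 : Real.exp (-t * μ + t ^ 2 * Δ / 2) * Real.exp (t * μ - t ^ 2 * Δ / 2) = 1 := by
    rw [← Real.exp_add]; ring_nf; exact Real.exp_zero
  exact le_of_mul_le_mul_right (h2.trans_eq h4.symm) (Real.exp_pos _)

end Crest.Agent.LC.Low
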