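import Crest.Agent.LC.LowH

set_option autoImplicit false

namespace Crest.Agent.LC.Low

open Finset

lemma card_near_le (T : ℕ) (w ρ : ℝ) (hρ : 0 ≤ ρ) :
    (((range T).filter fun m : ℕ => ((m : ℝ) - w) ^ 2 ≤ ρ ^ 2).card : ℝ) ≤ 2 * ρ + 1 := by
  set S := (range T).filter fun m : ℕ => ((m : ℝ) - w) ^ 2 ≤ ρ ^ 2 with hS
  rcases S.eq_empty_or_nonempty with h | h
  · rw [h]; simp; linarith
  · have hm : ∀ m ∈ S, |(m : ℝ) - w| ≤ ρ := fun m hm =>
      abs_le_of_sq_le_sq (Finset.mem_filter.mp hm).2 hρ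
    have h1 : S ⊆ Icc (S.min' h) (S.min' h + ⌊2 * ρ⌋₊) := by
      intro m hmS
      rw [Finset.mem_Icc]
      have h2 := S.min'_le m hmS
      refine ⟨h2, ?_⟩
      have h3 := abs_le.mp (hm m hmS)
      have h4 := abs_le.mp (hm _ (S.min'_mem h))
      have h5 : m - S.min' h ≤ ⌊2 * ρ⌋₊ := Nat.le_floor (by
        rw [Nat.cast_sub h2]; linarith [h3.2, h4.1])
      omega
    have h2 := Finset.card_le_card h1
    rw [Nat.card_Icc] at h2
    have h3 : S.card ≤ ⌊2 * ρ⌋₊ + 1 := by omega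
    have h4 : (S.card : ℝ) ≤ ⌊2 * ρ⌋₊ + 1 := by exact_mod_cast h3
    linarith [Nat.floor_le (show 0 ≤ 2 * ρ by linarith)]

variable {n : ℕ}

/-- test points -/
def pt (θ : ℝ) (m : Fin n → ℕ) : Fin n → ℝ := fun i => θ * m i

/-- index set of the test points -/
def Ym (n T : ℕ) : Finset (Fin n → ℕ) := Fintype.piFinset fun _ => range T

lemma card_Ym (n T : ℕ) : (Ym n T).card = T ^ n := by simp [Ym]

open Classical in
lemma count_near {T : ℕ} {θ α : ℝ} (hθ : n * θ ^ 2 * T ^ 2 = 1) (hα0 : 0 < α) (hα1 : α ≤ 1)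
    (hT : 4 ≤ α ^ 2 * T) (v : Fin n → ℝ) :
    (((Ym n T).filter fun m => sq (pt θ m - v) ≤ (α ^ 2 / 4) ^ 2).card : ℝ) ≤ (2 * α * T) ^ n := by
  have hθ0 : θ ≠ 0 := by rintro rfl; simp at hθ
  set ρ : ℝ := 3 / 2 * (α ^ 2 / 4) * T with hρ
  have hρ0 : 0 < ρ := by rw [hρ]; nlinarith
  let φ : Fin n → ℕ → ℝ := fun i m => if ((m : ℝ) - v i / θ) ^ 2 ≤ ρ ^ 2 then α⁻¹ else α
  have hφ0 : ∀ i m, 0 ≤ φ i m := fun i m => by
    simp only [φ]; split_ifs <;> positivity
  have h1 : ∀ m : Fin n → ℕ, sq (pt θ m - v) ≤ (α ^ 2 / 4) ^ 2 → 1 ≤ ∏ i, φ i (m i) := by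
    intro m hm
    simp only [φ]
    rw [Finset.prod_ite, Finset.prod_const, Finset.prod_const]
    set a := (univ.filter fun i => ((m i : ℝ) - v i / θ) ^ 2 ≤ ρ ^ 2).card with ha
    set F := (univ.filter fun i => ¬ ((m i : ℝ) - v i / θ) ^ 2 ≤ ρ ^ 2) with hF
    have hsum : a + F.card = n := by
      rw [ha, hF, Finset.card_filter_add_card_filter_not]; simp
    have h2 : F.card * ρ ^ 2 ≤ ∑ i, ((m i : ℝ) - v i / θ) ^ 2 := by
      refine le_trans ?_ (Finset.sum_le_sum_of_subset_of_nonneg (Finset.subset_univ F)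
        fun _ _ _ => sq_nonneg _)
      rw [← nsmul_eq_mul, ← Finset.sum_const]
      exact Finset.sum_le_sum fun i hi => (not_le.mp (Finset.mem_filter.mp hi).2).le
    have h3 : ∑ i, ((m i : ℝ) - v i / θ) ^ 2 = n * T ^ 2 * sq (pt θ m - v) := by
      rw [sq, Finset.mul_sum]
      refine Finset.sum_congr rfl fun i _ => ?_
      have : (n : ℝ) * T ^ 2 = (θ ^ 2)⁻¹ := by
        field_simp; linarith
      rw [this]
      simp only [pt, Pi.sub_apply]
      field_simp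
    have h4 : (2 * F.card : ℝ) ≤ n := by
      have h5 : 0 < (α ^ 2 / 4 * T) ^ 2 := by
        have : 0 < α ^ 2 / 4 * T := by nlinarith
        positivity
      have h6 := mul_le_mul_of_nonneg_left hm (show (0 : ℝ) ≤ n * T ^ 2 by positivity)
      have h7 : (2 * F.card : ℝ) * (α ^ 2 / 4 * T) ^ 2 ≤ n * (α ^ 2 / 4 * T) ^ 2 := by
        have h8 : (0 : ℝ) ≤ F.card := Nat.cast_nonneg _
        rw [hρ] at h2
        nlinarith [mul_nonneg h8 h5.le]
      exact le_of_mul_le_mul_right h7 h5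
    have h5 : F.card ≤ a := by
      have : 2 * F.card ≤ n := by exact_mod_cast h4
      omega
    rw [inv_pow, inv_mul_eq_div, le_div_iff₀ (by positivity), one_mul]
    exact pow_le_pow_of_le_one hα0.le hα1 h5
  calc (((Ym n T).filter fun m => sq (pt θ m - v) ≤ (α ^ 2 / 4) ^ 2).card : ℝ)
      = ∑ m ∈ (Ym n T).filter fun m => sq (pt θ m - v) ≤ (α ^ 2 / 4) ^ 2, (1 : ℝ) := by simp
    _ ≤ ∑ m ∈ (Ym n T).filter fun m => sq (pt θ m - v) ≤ (α ^ 2 / 4) ^ 2, ∏ i, φ i (m i) :=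
        Finset.sum_le_sum fun m hm => h1 m (Finset.mem_filter.mp hm).2
    _ ≤ ∑ m ∈ Ym n T, ∏ i, φ i (m i) :=
        Finset.sum_le_sum_of_subset_of_nonneg (Finset.filter_subset _ _)
          fun m _ _ => Finset.prod_nonneg fun i _ => hφ0 _ _
    _ = ∏ i, ∑ m ∈ range T, φ i m := (Finset.prod_univ_sum _ _).symm
    _ ≤ ∏ _i : Fin n, (2 * α * T) := by
        refine Finset.prod_le_prod (fun i _ => Finset.sum_nonneg fun m _ => hφ0 _ _) fun i _ => ?_
        simp only [φ]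
        rw [Finset.sum_ite, Finset.sum_const, Finset.sum_const, nsmul_eq_mul, nsmul_eq_mul]
        have h2 := card_near_le T (v i / θ) ρ hρ0.le
        have h3 : (((range T).filter fun m : ℕ => ¬ ((m : ℝ) - v i / θ) ^ 2 ≤ ρ ^ 2).card : ℝ) ≤ T := by
          exact_mod_cast (Finset.card_filter_le _ _).trans (Finset.card_range T).le
        have h4 : 2 * ρ + 1 ≤ α ^ 2 * T := by rw [hρ]; linarith
        have h5 := mul_le_mul_of_nonneg_right (h2.trans h4) (inv_pos.mpr hα0).le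
        have h6 : α ^ 2 * T * α⁻¹ = α * T := by field_simp
        nlinarith
    _ = _ := by simp

/-- level of depth -/
noncomputable def lev (z : Fin n → ℝ) : ℕ := ⌊n * (1 - sq z) / 4⌋₊

open Classical in
/-- candidates -/
noncomputable def cand (N : ℕ) (X : Finset (Fin n → ℝ)) (η : Fin n → ℝ) : Finset (Fin n → ℝ) :=
  (X.image fun x => η - x).filter fun z => N * sq z ≤ N + 2

/-- groups -/
abbrev Gp (n : ℕ) : Type := (Fin n → ℝ) × Finset (Fin n → ℝ) × ℕ

open Classical in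
/-- intensity of the hyperplanes cutting a group -/
noncomputable def cutq (N : ℕ) (g : Gp n) (h : HH n N) : ℝ :=
  if ∀ z ∈ g.2.1, ((h.2 : ℕ) : ℝ) + 2 < Af h.1 z then qq n N h else 0

/-- planted law of a group -/
noncomputable def tau (N : ℕ) (g : Gp n) (h : HH n N) : ℝ := cutq N g h / ∑ h', cutq N g h'

lemma cutq_nonneg (N : ℕ) (g : Gp n) (h : HH n N) : 0 ≤ cutq N g h := by
  unfold cutq; split_ifs; exacts [(qq_pos h).le, le_rfl]

lemma tau_nonneg (N : ℕ) (g : Gp n) (h : HH n N) : 0 ≤ tau N g h :=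
  div_nonneg (cutq_nonneg N g h) (Finset.sum_nonneg fun h _ => cutq_nonneg N g h)

lemma eps_le {N : ℕ} (hN : 0 < N) {g g' : Gp n} {a a' : ℝ} (hg : g.1 ∈ g.2.1) (hg' : g'.1 ∈ g'.2.1)
    (hc : N * sq g.1 ≤ N + 2) (hc' : N * sq g'.1 ≤ N + 2)
    (h1 : Real.exp (-a) ≤ ∑ h, cutq N g h) (h1' : Real.exp (-a') ≤ ∑ h, cutq N g' h) :
    eps (qq n N) (tau N) g g' ≤
      Real.exp a * Real.exp a' * Real.exp (-(N * sq (g.1 - g'.1)) / 8) := by
  classical
  have h2 := sigma_le hN hc hc' (fun h => (∀ z ∈ g.2.1, ((h.2 : ℕ) : ℝ) + 2 < Af h.1 z) ∧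
    ∀ z ∈ g'.2.1, ((h.2 : ℕ) : ℝ) + 2 < Af h.1 z) fun h hh => ⟨hh.1 _ hg, hh.2 _ hg'⟩
  have p1 := (Real.exp_pos _).trans_le h1
  have p2 := (Real.exp_pos _).trans_le h1'
  have e1 : eps (qq n N) (tau N) g g' = (∑ h, cutq N g h)⁻¹ * (∑ h, cutq N g' h)⁻¹ *
      ∑ h : HH n N, if (∀ z ∈ g.2.1, ((h.2 : ℕ) : ℝ) + 2 < Af h.1 z) ∧
        ∀ z ∈ g'.2.1, ((h.2 : ℕ) : ℝ) + 2 < Af h.1 z then qq n N h else 0 := by
    rw [eps, Finset.mul_sum]
    refine Finset.sum_congr rfl fun h _ => ?_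
    simp only [tau]
    generalize ∑ h, cutq N g h = s at p1
    generalize ∑ h, cutq N g' h = s' at p2
    have := qq_pos h
    by_cases c1 : ∀ z ∈ g.2.1, ((h.2 : ℕ) : ℝ) + 2 < Af h.1 z
    · by_cases c2 : ∀ z ∈ g'.2.1, ((h.2 : ℕ) : ℝ) + 2 < Af h.1 z
      · rw [cutq, cutq, if_pos c1, if_pos c2, if_pos ⟨c1, c2⟩]; field_simp
      · rw [cutq, cutq, if_neg c2, if_neg (fun hh : _ ∧ _ => c2 hh.2)]; simp
    · rw [cutq, cutq, if_neg c1, if_neg (fun hh : _ ∧ _ => c1 hh.1)]; simp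
  rw [e1]
  have i1 : (∑ h, cutq N g h)⁻¹ ≤ Real.exp a := by
    rw [inv_le_comm₀ p1 (Real.exp_pos _), ← Real.exp_neg]; exact h1
  have i2 : (∑ h, cutq N g' h)⁻¹ ≤ Real.exp a' := by
    rw [inv_le_comm₀ p2 (Real.exp_pos _), ← Real.exp_neg]; exact h1'
  refine mul_le_mul (mul_le_mul i1 i2 (inv_pos.mpr p2).le (Real.exp_pos _).le) h2
    (Finset.sum_nonneg fun h _ => ?_) (by positivity)
  split_ifs; exacts [(qq_pos h).le, le_rfl]

lemma prod_six_le {κ : Type} (L : List κ) (u : κ → ℕ) (C : ℝ) (hu : ∀ g ∈ L, 1 ≤ u g) :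
    (L.map fun g => 6 * Real.exp (C * u g)).prod ≤ Real.exp ((C + 2) * ((L.map u).sum : ℕ)) := by
  induction L with
  | nil => simp
  | cons g L ih =>
    simp only [List.map_cons, List.prod_cons, List.sum_cons, Nat.cast_add, mul_add, Real.exp_add]
    refine mul_le_mul ?_ (ih fun g hg => hu g (List.mem_cons_of_mem _ hg))
      (List.prod_nonneg fun x hx => ?_) (Real.exp_pos _).le
    · have h1 : (1 : ℝ) ≤ u g := by exact_mod_cast hu g List.mem_cons_self
      have h2 : 6 ≤ Real.exp 2 := by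
        have := Real.exp_one_gt_d9
        rw [show (2 : ℝ) = 1 + 1 by norm_num, Real.exp_add]; nlinarith
      have h3 : Real.exp 2 ≤ Real.exp (2 * u g) := Real.exp_le_exp.mpr (by linarith)
      rw [add_mul, Real.exp_add]
      nlinarith [Real.exp_pos (C * u g)]
    · obtain ⟨g, -, rfl⟩ := List.mem_map.mp hx
      positivity

open Classical in
theorem config_bound {β N T P A : ℕ} {θ α : ℝ} (hNβ : N = β * n) (hN : 4 ≤ N)
    (hθ : n * θ ^ 2 * T ^ 2 = 1) (hα0 : 0 < α) (hα1 : α ≤ 1) (hT : 4 ≤ α ^ 2 * T) (hT2 : 6400 ≤ T)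
    (U : ℕ) (hU : Nat.log 2 P + 1 ≤ U)
    (H1 : 6 + 17 * U + 2 * β * U ≤ (N : ℝ) / 2)
    (H2 : P ^ 2 * Real.exp (2 * ((25 + 2 * β) * U) - N * (α ^ 2 / 4) ^ 2 / 8) ≤ 1)
    (H3 : 12 * 5 ^ n * (P ^ 2 * Real.exp (2 * ((25 + 2 * β) * U) - N * (1 / 6400) ^ 2 / 8)) ≤ 1)
    (H4 : 9 * (P * A : ℝ) ≤ 4 ^ n)
    (H5 : 3 * 5 ^ n * (P * A * (2 * α) ^ n * Real.exp (2 * ((25 + 2 * β + 2) * P))) ≤ 1)
    (X : Finset (Fin n → ℝ)) (hX : X.card ≤ A) (Yg : Finset (Fin n → ℕ)) (hY : Yg ⊆ Ym n T)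
    (hYc : T ^ n ≤ 2 * Yg.card) (hgood : ∀ m ∈ Yg, ∑ z ∈ cand N X (pt θ m), 2 ^ lev z ≤ P) :
    Ex (qq n N) (fun ω => if ∃ m ∈ Yg, ∀ z ∈ cand N X (pt θ m), ∃ h ∈ ω,
      ((h.2 : ℕ) : ℝ) + 2 < Af h.1 z then 0 else 1) ≤ Real.exp (-(5 ^ n / 4)) := by
  have hN0 : 0 < N := by omega
  choose L hL1 hL2 hL3 hL4 hL5 using fun m : Fin n → ℕ =>
    grouping (fun c z : Fin n → ℝ => N * sq (c - z)) (fun c => by simp [sq]) lev
      (cand N X (pt θ m))
  set C : ℝ := 25 + 2 * β with hC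
  have hC0 : 0 ≤ C := by positivity
  have hcand : ∀ m, ∀ z ∈ cand N X (pt θ m), N * sq z ≤ N + 2 := fun m z hz =>
    (Finset.mem_filter.mp hz).2
  have hUg : ∀ m ∈ Yg, ∀ g ∈ L m, (g.2.2 : ℝ) ≤ U := fun m hm g hg => by
    have := (hL2 m g hg).2.2.2.2.2
    have h2 := Nat.log_mono_right (b := 2) (hgood m hm)
    exact_mod_cast (by omega : g.2.2 ≤ U)
  have hnu : ∀ m ∈ Yg, ∀ g ∈ L m, Real.exp (-(C * g.2.2)) ≤ ∑ h, cutq N g h := by
    intro m hm g hg
    obtain ⟨a1, a2, a3, a4, a5, -⟩ := hL2 m g hg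
    have := nu_ge (N := N) (b := 4 * β) (by omega) a1 a3 a5 (fun z hz => ⟨(a4 z hz).1, ?_,
      hcand m z (a2 hz)⟩) (by
        have := hUg m hm g hg
        have h2 : (0 : ℝ) ≤ β := Nat.cast_nonneg _
        nlinarith)
    · rw [show 25 + 4 * (β : ℝ) / 2 = C by rw [hC]; ring] at this
      convert this using 3
      simp only [cutq]
    · have h1 : n * (1 - sq z) / 4 < lev z + 1 := Nat.lt_floor_add_one _
      have h2 : ((lev z + 1 : ℕ) : ℝ) ≤ g.2.2 := by exact_mod_cast (a4 z hz).2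
      have h3 : (0 : ℝ) ≤ β := Nat.cast_nonneg _
      push_cast at h2
      rw [hNβ]; push_cast
      nlinarith
  have htau : ∀ m ∈ Yg, ∀ g ∈ L m, ∑ h, tau N g h = 1 := fun m hm g hg => by
    simp only [tau]
    rw [← Finset.sum_div, div_self ((Real.exp_pos _).trans_le (hnu m hm g hg)).ne']
  have heps : ∀ m ∈ Yg, ∀ m' ∈ Yg, ∀ g ∈ L m, ∀ g' ∈ L m', eps (qq n N) (tau N) g g' ≤
      Real.exp (C * g.2.2) * Real.exp (C * g'.2.2) * Real.exp (-(N * sq (g.1 - g'.1)) / 8) :=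
    fun m hm m' hm' g hg g' hg' => eps_le hN0 (hL2 m g hg).1 (hL2 m' g' hg').1
      (hcand m _ ((hL2 m g hg).2.1 (hL2 m g hg).1))
      (hcand m' _ ((hL2 m' g' hg').2.1 (hL2 m' g' hg').1)) (hnu m hm g hg) (hnu m' hm' g' hg')
  have hlen : ∀ m ∈ Yg, ((L m).length : ℝ) ≤ P := fun m hm => by
    have h1 : (L m).length ≤ ((L m).map fun g => g.2.2).sum := by
      have := List.sum_le_sum (l := L m) (f := fun _ => 1) (g := fun g => g.2.2)
        fun g hg => (hL2 m g hg).2.2.2.2.1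
      simpa using this
    exact_mod_cast h1.trans ((hL3 m).trans (hgood m hm))
  have hself : ∀ m ∈ Yg, Phi (qq n N) (tau N) (L m) (L m) ≤ Real.exp (2 * ((C + 2) * P)) := by
    intro m hm
    have h1 := Phi_le_self (q := qq n N) qq_pos (tau_nonneg N) (fun _ _ => (Real.exp_pos _).le)
      (a := fun g : Gp n => Real.exp (C * g.2.2))
      (fun g => Real.one_le_exp (by positivity)) (htau m hm) (heps m hm m hm) (hL5 m)
      _ _ (List.Sublist.refl _) (List.Sublist.refl _)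
    have h2 := prod_six_le (L m) (fun g => g.2.2) C fun g hg => (hL2 m g hg).2.2.2.2.1
    have h3 : ((((L m).map fun g => g.2.2).sum : ℕ) : ℝ) ≤ P := by
      exact_mod_cast (hL3 m).trans (hgood m hm)
    have h4 := h2.trans (Real.exp_le_exp.mpr (mul_le_mul_of_nonneg_left h3 (by positivity)))
    have h5 : 0 ≤ ((L m).map fun g => 6 * Real.exp (C * g.2.2)).prod :=
      List.prod_nonneg fun x hx => by
        obtain ⟨g, -, rfl⟩ := List.mem_map.mp hx
        positivity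
    rw [two_mul ((C + 2) * P), Real.exp_add]
    exact h1.trans (mul_le_mul h4 h4 h5 (Real.exp_pos _).le)
  let nr : ℝ → (Fin n → ℕ) → (Fin n → ℕ) → Prop := fun r m m' =>
    ∃ g ∈ L m, ∃ g' ∈ L m', sq (g.1 - g'.1) ≤ r ^ 2
  have hfar : ∀ r, ∀ m ∈ Yg, ∀ m' ∈ Yg, ¬ nr r m m' → Phi (qq n N) (tau N) (L m) (L m') ≤
      Real.exp (P ^ 2 * Real.exp (2 * (C * U) - N * r ^ 2 / 8)) := by
    intro r m hm m' hm' hn
    refine (Phi_le_far (q := qq n N) qq_pos (tau_nonneg N) (htau m hm) (htau m' hm')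
      (Real.exp_pos (2 * (C * U) - N * r ^ 2 / 8)).le fun g hg g' hg' => ?_).trans ?_
    · refine (heps m hm m' hm' g hg g' hg').trans ?_
      rw [← Real.exp_add, ← Real.exp_add, Real.exp_le_exp]
      have h1 : r ^ 2 ≤ sq (g.1 - g'.1) := by
        by_contra h
        exact hn ⟨g, hg, g', hg', (not_le.mp h).le⟩
      have h2 := mul_le_mul_of_nonneg_left (hUg m hm g hg) hC0
      have h3 := mul_le_mul_of_nonneg_left (hUg m' hm' g' hg') hC0
      have h4 := mul_le_mul_of_nonneg_left h1 (Nat.cast_nonneg N)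
      linarith
    · rw [Real.exp_le_exp, pow_two (P : ℝ)]
      exact mul_le_mul_of_nonneg_right
        (mul_le_mul (hlen m hm) (hlen m' hm') (Nat.cast_nonneg _) (Nat.cast_nonneg _))
        (Real.exp_pos _).le
  have hcount : ∀ a : ℝ, 0 < a → a ≤ 1 → 4 ≤ a ^ 2 * T → ∀ m ∈ Yg,
      ((Yg.filter fun m' => nr (a ^ 2 / 4) m m').card : ℝ) ≤ P * A * (2 * a * T) ^ n := by
    intro a a0 a1 aT m hm
    have h1 : (Yg.filter fun m' => nr (a ^ 2 / 4) m m') ⊆
        (cand N X (pt θ m) ×ˢ X).biUnion fun p =>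
          (Ym n T).filter fun m' => sq (pt θ m' - (p.1 + p.2)) ≤ (a ^ 2 / 4) ^ 2 := by
      intro m' hm'
      obtain ⟨hm'Y, g, hg, g', hg', hd⟩ := Finset.mem_filter.mp hm'
      have h2 := (hL2 m' g' hg').2.1 (hL2 m' g' hg').1
      obtain ⟨x, hx, hx'⟩ := Finset.mem_image.mp (Finset.mem_filter.mp h2).1
      refine Finset.mem_biUnion.mpr ⟨(g.1, x), Finset.mem_product.mpr
        ⟨(hL2 m g hg).2.1 (hL2 m g hg).1, hx⟩, Finset.mem_filter.mpr ⟨hY hm'Y, ?_⟩⟩
      rw [← sq_neg]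
      convert hd using 2
      rw [← hx']; simp only; abel
    have h2 : ((Yg.filter fun m' => nr (a ^ 2 / 4) m m').card : ℝ) ≤
        ∑ p ∈ cand N X (pt θ m) ×ˢ X, (((Ym n T).filter fun m' =>
          sq (pt θ m' - (p.1 + p.2)) ≤ (a ^ 2 / 4) ^ 2).card : ℝ) := by
      exact_mod_cast (Finset.card_le_card h1).trans Finset.card_biUnion_le
    refine h2.trans ((Finset.sum_le_sum fun p _ => count_near hθ a0 a1 aT _).trans ?_)
    rw [Finset.sum_const, nsmul_eq_mul, Finset.card_product]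
    apply mul_le_mul_of_nonneg_right _ (by positivity)
    have h3 : (cand N X (pt θ m)).card ≤ P := by
      refine le_trans ?_ (hgood m hm)
      rw [Finset.card_eq_sum_ones]
      exact Finset.sum_le_sum fun z _ => Nat.one_le_two_pow
    exact_mod_cast Nat.mul_le_mul h3 hX
  have h5n : (0 : ℝ) < 5 ^ n := by positivity
  have hTn : (0 : ℝ) < (T : ℝ) ^ n := by
    have : (0 : ℝ) < T := by exact_mod_cast (by omega : 0 < T)
    positivity
  have hrow : ∀ m ∈ Yg, ∑ m' ∈ Yg, min (Phi (qq n N) (tau N) (L m) (L m'))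
      (2 * (Phi (qq n N) (tau N) (L m) (L m') - 1)) ≤ T ^ n / 5 ^ n := by
    intro m hm
    have h1 : ∀ m' ∈ Yg, min (Phi (qq n N) (tau N) (L m) (L m'))
        (2 * (Phi (qq n N) (tau N) (L m) (L m') - 1)) ≤ 1 / (3 * 5 ^ n) +
        (if nr ((1 / 40) ^ 2 / 4) m m' then 3 else 0) +
        (if nr (α ^ 2 / 4) m m' then Real.exp (2 * ((C + 2) * P)) else 0) := by
      intro m' hm'
      have p0 : (0 : ℝ) ≤ 1 / (3 * 5 ^ n) := by positivity
      by_cases c1 : nr (α ^ 2 / 4) m m'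
      · rw [if_pos c1]
        have h2 := Phi_le_avg (τ := tau N) qq_pos (fun h => (qq_le hN h).trans (by norm_num))
          (L m) (L m')
        have h3 : (0 : ℝ) ≤ if nr ((1 / 40) ^ 2 / 4) m m' then 3 else 0 := by
          split_ifs <;> norm_num
        linarith [hself m hm, hself m' hm', min_le_left (Phi (qq n N) (tau N) (L m) (L m'))
          (2 * (Phi (qq n N) (tau N) (L m) (L m') - 1))]
      rw [if_neg c1, add_zero]
      by_cases c2 : nr ((1 / 40) ^ 2 / 4) m m'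
      · rw [if_pos c2]
        have h2 := (hfar _ m hm m' hm' c1).trans (Real.exp_le_exp.mpr H2)
        linarith [Real.exp_one_lt_d9, min_le_left (Phi (qq n N) (tau N) (L m) (L m'))
          (2 * (Phi (qq n N) (tau N) (L m) (L m') - 1))]
      · rw [if_neg c2, add_zero]
        have h2 := hfar _ m hm m' hm' c2
        rw [show ((1 / 40 : ℝ) ^ 2 / 4) = 1 / 6400 by norm_num] at h2
        set x := P ^ 2 * Real.exp (2 * (C * U) - N * (1 / 6400) ^ 2 / 8) with hx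
        have hx0 : 0 ≤ x := by positivity
        have h15 : (1 : ℝ) ≤ 5 ^ n := one_le_pow₀ (by norm_num)
        have hx1 : x ≤ 1 := by nlinarith
        have h3 := Real.abs_exp_sub_one_le (x := x) (by rw [abs_of_nonneg hx0]; exact hx1)
        rw [abs_of_nonneg hx0] at h3
        have h4 := le_abs_self (Real.exp x - 1)
        refine (min_le_right _ _).trans ?_
        rw [le_div_iff₀ (by positivity)]
        nlinarith
    refine (Finset.sum_le_sum h1).trans ?_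
    rw [Finset.sum_add_distrib, Finset.sum_add_distrib, ← Finset.sum_filter, ← Finset.sum_filter,
      Finset.sum_const, Finset.sum_const, Finset.sum_const, nsmul_eq_mul, nsmul_eq_mul,
      nsmul_eq_mul]
    have c0 : (Yg.card : ℝ) ≤ T ^ n := by
      exact_mod_cast (Finset.card_le_card hY).trans (card_Ym n T).le
    have c1 := hcount (1 / 40) (by norm_num) (by norm_num) (by
      have : (6400 : ℝ) ≤ T := by exact_mod_cast hT2
      linarith) m hm
    have c2 := hcount α hα0 hα1 hT m hm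
    have d0 : (Yg.card : ℝ) * (1 / (3 * 5 ^ n)) ≤ T ^ n / 5 ^ n / 3 := by
      refine (mul_le_mul_of_nonneg_right c0 (by positivity)).trans (le_of_eq ?_)
      field_simp
    have d1 : P * A * (2 * (1 / 40) * (T : ℝ)) ^ n * 3 ≤ T ^ n / 5 ^ n / 3 := by
      have e : (2 * (1 / 40) * (T : ℝ)) ^ n = T ^ n / 5 ^ n / 4 ^ n := by
        rw [← div_pow, ← div_pow]; congr 1; ring
      rw [e, le_div_iff₀ (by norm_num)]
      have h4n : (0 : ℝ) < 4 ^ n := by positivity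
      have : P * A * ((T : ℝ) ^ n / 5 ^ n / 4 ^ n) * 3 * 3 =
          T ^ n / 5 ^ n * (9 * (P * A) / 4 ^ n) := by ring
      rw [this]
      exact mul_le_of_le_one_right (by positivity) ((div_le_one h4n).mpr H4)
    have d2 : P * A * (2 * α * (T : ℝ)) ^ n * Real.exp (2 * ((C + 2) * P)) ≤
        T ^ n / 5 ^ n / 3 := by
      have : P * A * (2 * α * (T : ℝ)) ^ n * Real.exp (2 * ((C + 2) * P)) = T ^ n / 5 ^ n / 3 *
          (3 * 5 ^ n * (P * A * (2 * α) ^ n * Real.exp (2 * ((C + 2) * P)))) := by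
        rw [mul_pow]; field_simp
      rw [this]
      exact mul_le_of_le_one_right (by positivity) H5
    have d1' := mul_le_mul_of_nonneg_right c1 (show (0 : ℝ) ≤ 3 by norm_num)
    have d2' := mul_le_mul_of_nonneg_right c2 (Real.exp_pos (2 * ((C + 2) * P))).le
    linarith
  have hpl := planted (q := qq n N) qq_pos (qq_le hN) (tau_nonneg N) Yg L htau
    (Yg.card * (T ^ n / 5 ^ n)) (by
      refine (Finset.sum_le_sum hrow).trans (le_of_eq ?_)
      rw [Finset.sum_const, nsmul_eq_mul]) (5 ^ n / T ^ n) (by positivity)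
  refine le_trans (Ex_mono (fun h => (qq_pos h).le) (fun h => (qq_le hN h).trans (by norm_num))
    fun ω => ?_) (hpl.trans (Real.exp_le_exp.mpr ?_))
  · split_ifs with c1 c2 c2
    · exact le_rfl
    · norm_num
    · exfalso
      obtain ⟨m, hm, hω⟩ := c2
      refine c1 ⟨m, hm, fun z hz => ?_⟩
      obtain ⟨g, hg, hzg⟩ := hL1 m z hz
      obtain ⟨h, hh, hτ⟩ := hω g hg
      refine ⟨h, hh, ?_⟩
      by_contra hcon
      apply hτ
      rw [tau, cutq, if_neg (fun hall => hcon (hall z hzg)), zero_div]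
    · exact le_rfl
  · have e : -(5 ^ n / T ^ n) * (Yg.card : ℝ) + (5 ^ n / T ^ n) ^ 2 *
        (Yg.card * (T ^ n / 5 ^ n)) / 2 = -(5 ^ n / 4) * (2 * Yg.card / T ^ n) := by
      field_simp; ring
    rw [e]
    have h1 : (1 : ℝ) ≤ 2 * Yg.card / T ^ n := by
      rw [le_div_iff₀ hTn, one_mul]; exact_mod_cast hYc
    nlinarith

end Crest.Agent.LC.Low
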