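import Crest.Agent.LC.LowP

set_option autoImplicit false

namespace Crest.Agent.LC.Low

open Finset

lemma sum_half_pow_le (s : Finset ℕ) : ∑ b ∈ s, ((1 : ℝ) / 2) ^ b ≤ 2 := by
  have h := summable_geometric_two.sum_le_tsum s (fun b _ => by positivity)
  rwa [tsum_geometric_two] at h

lemma exp_neg_two_le (b : ℕ) : Real.exp (-(2 * (b : ℝ))) ≤ (1 / 4) ^ b := by
  rw [mul_comm, ← mul_neg, Real.exp_nat_mul]
  apply pow_le_pow_left₀ (Real.exp_pos _).le
  rw [Real.exp_neg, inv_le_comm₀ (Real.exp_pos _) (by norm_num)]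
  have := Real.quadratic_le_exp_of_nonneg (show (0 : ℝ) ≤ 2 by norm_num)
  norm_num at this ⊢
  linarith

lemma later_sum {E : Type} [DecidableEq E] (δ : E → ℝ) (Z : Finset E) (j : ℕ)
    (hj : ∀ i : ℕ, j < i → (Z.filter fun z => δ z ≤ 16 * (i : ℝ)).card < 2 ^ i) :
    ∑ z ∈ Z \ Z.filter (fun z => δ z ≤ 16 * ((j + 1 : ℕ) : ℝ)), Real.exp (-δ z / 8) ≤ 4 := by
  set Z' := Z \ Z.filter (fun z => δ z ≤ 16 * ((j + 1 : ℕ) : ℝ)) with hZ'
  let ι : E → ℕ := fun z => ⌈δ z / 16⌉₊ - 1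
  have hmem : ∀ z ∈ Z', z ∈ Z ∧ j + 1 ≤ ι z ∧ 16 * (ι z : ℝ) < δ z ∧
      δ z ≤ 16 * ((ι z + 1 : ℕ) : ℝ) := by
    intro z hz
    rw [hZ', Finset.mem_sdiff, Finset.mem_filter] at hz
    have h1 : 16 * ((j + 1 : ℕ) : ℝ) < δ z := by
      by_contra h; exact hz.2 ⟨hz.1, not_lt.mp h⟩
    have h2 : j + 1 < ⌈δ z / 16⌉₊ := Nat.lt_ceil.mpr (by linarith)
    have h3 : ι z + 1 = ⌈δ z / 16⌉₊ := by simp only [ι]; omega
    refine ⟨hz.1, by omega, ?_, ?_⟩
    · have : (ι z : ℝ) < δ z / 16 := Nat.lt_ceil.mp (by omega)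
      linarith
    · rw [h3]
      have := Nat.le_ceil (δ z / 16)
      linarith
  calc ∑ z ∈ Z', Real.exp (-δ z / 8) ≤ ∑ z ∈ Z', ((1 : ℝ) / 4) ^ ι z := by
        apply Finset.sum_le_sum
        intro z hz
        refine le_trans (Real.exp_le_exp.mpr ?_) (exp_neg_two_le _)
        linarith [(hmem z hz).2.2.1]
    _ = ∑ b ∈ Z'.image ι, (Z'.filter fun z => ι z = b).card • ((1 : ℝ) / 4) ^ b :=
        Finset.sum_comp (fun b => ((1 : ℝ) / 4) ^ b) ι
    _ ≤ ∑ b ∈ Z'.image ι, 2 * ((1 : ℝ) / 2) ^ b := by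
        apply Finset.sum_le_sum
        intro b hb
        obtain ⟨z₀, hz₀, hb₀⟩ := Finset.mem_image.mp hb
        have h1 : (Z'.filter fun z => ι z = b).card ≤ 2 ^ (b + 1) := by
          refine le_trans (Finset.card_le_card ?_) (hj (b + 1) ?_).le
          · intro z hz
            rw [Finset.mem_filter] at hz ⊢
            have := hmem z hz.1
            rw [hz.2] at this
            exact ⟨this.1, this.2.2.2⟩
          · have := (hmem z₀ hz₀).2.1
            omega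
        have h2 : ((Z'.filter fun z => ι z = b).card : ℝ) ≤ 2 ^ (b + 1) := by exact_mod_cast h1
        rw [nsmul_eq_mul]
        refine (mul_le_mul_of_nonneg_right h2 (by positivity)).trans (le_of_eq ?_)
        rw [pow_succ, mul_comm (2 ^ b : ℝ) 2, mul_assoc, ← mul_pow]
        norm_num
    _ ≤ 4 := by
        rw [← Finset.mul_sum]
        linarith [sum_half_pow_le (Z'.image ι)]

theorem grouping {E : Type} [DecidableEq E] (d : E → E → ℝ) (hd : ∀ c, d c c = 0) (lev : E → ℕ)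
    (Z : Finset E) : ∃ L : List (E × Finset E × ℕ),
    (∀ z ∈ Z, ∃ g ∈ L, z ∈ g.2.1) ∧
    (∀ g ∈ L, g.1 ∈ g.2.1 ∧ g.2.1 ⊆ Z ∧ g.2.1.card ≤ 2 ^ g.2.2 ∧
      (∀ z ∈ g.2.1, d g.1 z ≤ 16 * (g.2.2 : ℝ) ∧ lev z + 1 ≤ g.2.2) ∧ 1 ≤ g.2.2 ∧
      g.2.2 ≤ Nat.log 2 (∑ z ∈ Z, 2 ^ lev z) + 1) ∧
    (L.map fun g => g.2.2).sum ≤ ∑ z ∈ Z, 2 ^ lev z ∧
    (∀ φ : E → ℝ, (∀ z, 0 ≤ φ z) → (L.map fun g => φ g.1).sum ≤ ∑ z ∈ Z, φ z) ∧
    Gd (fun g g' => Real.exp (- d g.1 g'.1 / 8)) L := by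
  classical
  induction Z using Finset.strongInduction with
  | H Z ih =>
  rcases Z.eq_empty_or_nonempty with rfl | ⟨c, hc⟩
  · exact ⟨[], by simp, by simp, by simp, by simp, trivial⟩
  let Nn : ℕ → ℕ := fun i => (Z.filter fun z => d c z ≤ 16 * (i : ℝ)).card
  let j := Nat.findGreatest (fun i => 2 ^ i ≤ Nn i) Z.card
  have hj1 : 2 ^ j ≤ Nn j := by
    apply Nat.findGreatest_spec (P := fun i => 2 ^ i ≤ Nn i) (Nat.zero_le _)
    exact Finset.card_pos.mpr ⟨c, by simp [hc, hd]⟩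
  have hj2 : ∀ i, j < i → Nn i < 2 ^ i := by
    intro i hi
    by_cases h : i ≤ Z.card
    · exact not_le.mp (Nat.findGreatest_is_greatest (P := fun i => 2 ^ i ≤ Nn i) hi h)
    · have h1 : Nn i ≤ Z.card := Finset.card_filter_le _ _
      have h2 : i < 2 ^ i := Nat.lt_two_pow_self
      omega
  set G := Z.filter (fun z => d c z ≤ 16 * ((j + 1 : ℕ) : ℝ)) with hG
  have hcG : c ∈ G := by
    rw [hG, Finset.mem_filter, hd]; exact ⟨hc, by positivity⟩
  have hGZ : G ⊆ Z := Finset.filter_subset _ _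
  set w := ∑ z ∈ G, 2 ^ lev z with hw
  have hGw : G.card ≤ w := by
    rw [Finset.card_eq_sum_ones]
    exact Finset.sum_le_sum fun z _ => Nat.one_le_two_pow
  have hjG : 2 ^ j ≤ G.card := hj1.trans (Finset.card_le_card fun z hz => by
    rw [Finset.mem_filter] at hz ⊢
    refine ⟨hz.1, hz.2.trans ?_⟩
    push_cast; linarith)
  have hw0 : w ≠ 0 := by
    have := Finset.card_pos.mpr ⟨c, hcG⟩
    omega
  have hsplit : ∀ {M : Type} [AddCommMonoid M] (f : E → M),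
      ∑ z ∈ Z \ G, f z + ∑ z ∈ G, f z = ∑ z ∈ Z, f z := fun f => Finset.sum_sdiff hGZ
  obtain ⟨L, h1, h2, h3, h4, h5⟩ := ih (Z \ G) (Finset.sdiff_ssubset hGZ ⟨c, hcG⟩)
  have hs := hsplit fun z => 2 ^ lev z
  refine ⟨(c, G, Nat.log 2 w + 1) :: L, ?_, ?_, ?_, ?_, ?_, h5⟩
  · intro z hz
    by_cases h : z ∈ G
    · exact ⟨_, List.mem_cons_self, h⟩
    · obtain ⟨g, hg, hz'⟩ := h1 z (Finset.mem_sdiff.mpr ⟨hz, h⟩)
      exact ⟨g, List.mem_cons_of_mem _ hg, hz'⟩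
  · intro g hg
    rcases List.mem_cons.mp hg with rfl | hg
    · refine ⟨hcG, hGZ, hGw.trans (Nat.lt_pow_succ_log_self (by norm_num) w).le, ?_, by simp, ?_⟩
      · intro z hz
        constructor
        · have h6 : j ≤ Nat.log 2 w := Nat.le_log_of_pow_le (by norm_num) (hjG.trans hGw)
          have h7 : ((j + 1 : ℕ) : ℝ) ≤ ((Nat.log 2 w + 1 : ℕ) : ℝ) := by exact_mod_cast (by omega)
          have h8 := (Finset.mem_filter.mp hz).2
          simp only at h8 ⊢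
          linarith
        · have h6 : 2 ^ lev z ≤ w :=
            Finset.single_le_sum (f := fun z => 2 ^ lev z) (fun _ _ => Nat.zero_le _) hz
          have := Nat.le_log_of_pow_le (by norm_num) h6
          simp only; omega
      · exact Nat.succ_le_succ (Nat.log_mono_right (by omega))
    · obtain ⟨a1, a2, a3, a4, a5, a6⟩ := h2 g hg
      exact ⟨a1, a2.trans Finset.sdiff_subset, a3, a4, a5,
        a6.trans (Nat.succ_le_succ (Nat.log_mono_right (by omega)))⟩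
  · have := Nat.log_lt_self 2 hw0
    simp only [List.map_cons, List.sum_cons]
    omega
  · intro φ hφ
    have h6 := h4 φ hφ
    have h7 := hsplit φ
    have h8 : φ c ≤ ∑ z ∈ G, φ z := Finset.single_le_sum (fun z _ => hφ z) hcG
    simp only [List.map_cons, List.sum_cons]
    linarith
  · have h6 := h4 (fun z => Real.exp (- d c z / 8)) fun z => (Real.exp_pos _).le
    have h7 := later_sum (d c) Z j hj2
    simp only [List.map_cons, List.sum_cons, hd, neg_zero, zero_div, Real.exp_zero]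
    linarith

end Crest.Agent.LC.Low
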