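import Crest.Agent.LC.LowG

set_option autoImplicit false

namespace Crest.Agent.LC.Low

open Finset

/-- sign patterns -/
abbrev Sg (n N : ℕ) : Type := Fin n × Fin (N ^ 3) → Bool

/-- hyperplanes: sign pattern and threshold -/
abbrev HH (n N : ℕ) : Type := Sg n N × Fin (2 * n * N ^ 2)

/-- squared Euclidean norm -/
def sq {n : ℕ} (z : Fin n → ℝ) : ℝ := ∑ i, z i ^ 2

/-- the linear form of a sign pattern -/
noncomputable def Af {n N : ℕ} (ε : Sg n N) : (Fin n → ℝ) →ₗ[ℝ] ℝ where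
  toFun z := ∑ p, (if ε p then 1 else -1) * (z p.1 / N)
  map_add' x y := by
    rw [← Finset.sum_add_distrib]
    exact Finset.sum_congr rfl fun p _ => by simp only [Pi.add_apply]; ring
  map_smul' c x := by
    simp only [smul_eq_mul, RingHom.id_apply, Finset.mul_sum, Pi.smul_apply]
    exact Finset.sum_congr rfl fun p _ => by ring

/-- sampling probabilities -/
noncomputable def qq (n N : ℕ) (h : HH n N) : ℝ :=
  Real.exp (((h.2 : ℕ) : ℝ) - N / 2) / (4 * 2 ^ (n * N ^ 3))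

variable {n N : ℕ}

lemma Af_apply (ε : Sg n N) (z : Fin n → ℝ) :
    Af ε z = ∑ p, (if ε p then 1 else -1) * (z p.1 / N) := rfl

lemma sq_nonneg' (z : Fin n → ℝ) : 0 ≤ sq z := Finset.sum_nonneg fun _ _ => sq_nonneg _

lemma sq_apply_le (z : Fin n → ℝ) (i : Fin n) : z i ^ 2 ≤ sq z :=
  Finset.single_le_sum (f := fun i => z i ^ 2) (fun _ _ => sq_nonneg _) (mem_univ i)

lemma sq_neg (z : Fin n → ℝ) : sq (-z) = sq z := by simp [sq]

lemma sq_smul (c : ℝ) (z : Fin n → ℝ) : sq (c • z) = c ^ 2 * sq z := by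
  simp [sq, Finset.mul_sum, mul_pow]

lemma sum_prod_fst (f : Fin n → ℝ) :
    ∑ p : Fin n × Fin (N ^ 3), f p.1 = (N : ℝ) ^ 3 * ∑ i, f i := by
  rw [Fintype.sum_prod_type, Finset.mul_sum]
  simp

lemma abs_Af_le (hN : 0 < N) (ε : Sg n N) {z : Fin n → ℝ} {b : ℝ} (h : ∀ i, |z i| ≤ b) :
    |Af ε z| ≤ n * N ^ 2 * b := by
  have hN' : (0 : ℝ) < N := by exact_mod_cast hN
  rw [Af_apply]
  refine (Finset.abs_sum_le_sum_abs _ _).trans ?_
  refine (Finset.sum_le_sum (g := fun _ => b / N) fun p _ => ?_).trans (le_of_eq ?_)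
  · rw [abs_mul, abs_div, abs_of_pos hN']
    have : |(if ε p then (1 : ℝ) else -1)| = 1 := by split_ifs <;> simp
    rw [this, one_mul]
    exact div_le_div_of_nonneg_right (h _) hN'.le
  · simp; field_simp

lemma sum_exp_Af (u : Fin n → ℝ) : ∑ ε : Sg n N, Real.exp (Af ε u) =
    2 ^ (n * N ^ 3) * ∏ p : Fin n × Fin (N ^ 3), Real.cosh (u p.1 / N) := by
  have h := Finset.prod_univ_sum (fun _ : Fin n × Fin (N ^ 3) => (univ : Finset Bool))
    (fun p b => Real.exp ((if b then 1 else -1) * (u p.1 / N)))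
  rw [Fintype.piFinset_univ] at h
  simp only [Af_apply, Real.exp_sum]
  rw [← h]
  have : (2 : ℝ) ^ (n * N ^ 3) = ∏ _p : Fin n × Fin (N ^ 3), (2 : ℝ) := by simp
  rw [this, ← Finset.prod_mul_distrib]
  apply Finset.prod_congr rfl
  intro p _
  rw [Real.cosh_eq]
  simp; ring

lemma mgf_le (hN : 0 < N) (u : Fin n → ℝ) : ∑ ε : Sg n N, Real.exp (Af ε u) ≤
    2 ^ (n * N ^ 3) * Real.exp (N * sq u / 2) := by
  have hN' : (0 : ℝ) < N := by exact_mod_cast hN
  rw [sum_exp_Af]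
  apply mul_le_mul_of_nonneg_left _ (by positivity)
  refine (Finset.prod_le_prod (fun p _ => (Real.cosh_pos _).le)
    fun p _ => Real.cosh_le_exp_half_sq _).trans (le_of_eq ?_)
  rw [← Real.exp_sum, sum_prod_fst fun i => (u i / N) ^ 2 / 2, sq, Finset.mul_sum,
    Finset.mul_sum, Finset.sum_div]
  congr 1
  exact Finset.sum_congr rfl fun i _ => by field_simp

lemma exp_le_cosh (x : ℝ) : Real.exp (x ^ 2 / 2 - x ^ 4 / 4) ≤ Real.cosh x := by
  have h1 : 1 + x ^ 2 / 2 ≤ Real.cosh x := by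
    have e1 : Real.cosh x = 1 + 2 * Real.sinh (x / 2) ^ 2 := by
      have := Real.cosh_two_mul (x / 2)
      rw [show 2 * (x / 2) = x by ring] at this
      rw [this, Real.cosh_sq]; ring
    have e2 : |x / 2| ≤ |Real.sinh (x / 2)| := by
      rw [Real.abs_sinh]; exact Real.self_le_sinh_iff.mpr (abs_nonneg _)
    have e3 := sq_le_sq.mpr e2
    nlinarith
  refine le_trans ?_ h1
  set y := x ^ 2 / 2 with hy
  have hy0 : 0 ≤ y := by positivity
  have e : x ^ 2 / 2 - x ^ 4 / 4 = y - y ^ 2 := by rw [hy]; ring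
  rw [e]
  have h2 := Real.add_one_le_exp (-(y - y ^ 2))
  have h3 : Real.exp (y - y ^ 2) * Real.exp (-(y - y ^ 2)) = 1 := by
    rw [← Real.exp_add]; simp
  have h4 := Real.exp_pos (y - y ^ 2)
  nlinarith [mul_le_mul_of_nonneg_left h2 (mul_nonneg h4.le (show 0 ≤ 1 + y by linarith)),
    mul_nonneg h4.le (pow_nonneg hy0 3)]

lemma mgf_ge (hN : 0 < N) {u : Fin n → ℝ} (hu : sq u ≤ 2) :
    2 ^ (n * N ^ 3) * Real.exp (N * sq u / 2 - 1) ≤ ∑ ε : Sg n N, Real.exp (Af ε u) := by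
  have hN' : (0 : ℝ) < N := by exact_mod_cast hN
  have hN1 : (1 : ℝ) ≤ N := by exact_mod_cast hN
  rw [sum_exp_Af]
  apply mul_le_mul_of_nonneg_left _ (by positivity)
  refine le_trans ?_ (Finset.prod_le_prod (fun p _ => (Real.exp_pos _).le)
    fun p _ => exp_le_cosh _)
  rw [← Real.exp_sum, sum_prod_fst fun i => (u i / N) ^ 2 / 2 - (u i / N) ^ 4 / 4,
    Real.exp_le_exp]
  have e1 : (N : ℝ) ^ 3 * ∑ i, ((u i / N) ^ 2 / 2 - (u i / N) ^ 4 / 4) =
      N * sq u / 2 - (∑ i, u i ^ 4) / (4 * N) := by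
    rw [sq, Finset.mul_sum, Finset.mul_sum, Finset.sum_div, Finset.sum_div,
      ← Finset.sum_sub_distrib]
    exact Finset.sum_congr rfl fun i _ => by field_simp
  have e2 : ∑ i, u i ^ 4 ≤ 4 := by
    calc ∑ i, u i ^ 4 ≤ ∑ i, 2 * u i ^ 2 := Finset.sum_le_sum fun i _ => by
          have := (sq_apply_le u i).trans hu
          nlinarith [sq_nonneg (u i)]
      _ ≤ 4 := by rw [← Finset.mul_sum]; unfold sq at hu; linarith
  have e3 : (∑ i, u i ^ 4) / (4 * N) ≤ 1 := by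
    rw [div_le_one (by positivity)]; linarith
  linarith

lemma sum_exp_le (m : ℕ) : ∑ k ∈ range m, Real.exp k ≤ Real.exp m := by
  induction m with
  | zero => simp
  | succ m ih =>
    rw [Finset.sum_range_succ, Nat.cast_succ, Real.exp_add]
    have := Real.add_one_le_exp 1
    nlinarith [Real.exp_pos (m : ℝ)]

lemma thr_le (K : ℕ) (A : ℝ) :
    ∑ k : Fin K, (if ((k : ℕ) : ℝ) + 1 < A then Real.exp (k : ℕ) else 0) ≤ Real.exp A := by
  rw [Fin.sum_univ_eq_sum_range (fun k : ℕ => if (k : ℝ) + 1 < A then Real.exp k else 0),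
    ← Finset.sum_filter]
  by_cases hA : 0 ≤ A
  · refine le_trans (Finset.sum_le_sum_of_subset_of_nonneg (t := range ⌊A⌋₊) ?_
      fun _ _ _ => (Real.exp_pos _).le) ((sum_exp_le _).trans (Real.exp_le_exp.mpr (Nat.floor_le hA)))
    intro k hk
    rw [Finset.mem_filter] at hk
    rw [Finset.mem_range]
    have : k + 1 ≤ ⌊A⌋₊ := Nat.le_floor (by push_cast; exact hk.2.le)
    omega
  · rw [Finset.sum_eq_zero]
    · exact (Real.exp_pos _).le
    · intro k hk
      have := (Finset.mem_filter.mp hk).2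
      have h0 : (0 : ℝ) ≤ k := Nat.cast_nonneg k
      linarith

lemma thr_ge (K : ℕ) (A : ℝ) (hA : A ≤ K + 2) : Real.exp (A - 3) - 1 ≤
    ∑ k : Fin K, (if ((k : ℕ) : ℝ) + 2 < A then Real.exp (k : ℕ) else 0) := by
  have hnn : ∀ k : Fin K, 0 ≤ (if ((k : ℕ) : ℝ) + 2 < A then Real.exp (k : ℕ) else 0) :=
    fun k => by split_ifs; exacts [(Real.exp_pos _).le, le_rfl]
  by_cases h : A ≤ 3
  · have : Real.exp (A - 3) ≤ 1 := Real.exp_le_one_iff.mpr (by linarith)
    linarith [Finset.sum_nonneg (s := univ) fun k _ => hnn k]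
  · have h1 : 3 < ⌈A⌉₊ := Nat.lt_ceil.mpr (by push_cast; linarith)
    have h2 : ⌈A⌉₊ ≤ K + 2 := Nat.ceil_le.mpr (by push_cast; linarith)
    have h3 : ((⌈A⌉₊ - 3 : ℕ) : ℝ) = ⌈A⌉₊ - 3 := by rw [Nat.cast_sub h1.le]; norm_num
    have h4 := Nat.le_ceil A
    have h5 := Nat.ceil_lt_add_one (show 0 ≤ A by linarith)
    have h6 := Finset.single_le_sum (fun k _ => hnn k) (mem_univ (⟨⌈A⌉₊ - 3, by omega⟩ : Fin K))
    simp only [h3] at h6
    rw [if_pos (by linarith)] at h6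
    have := Real.exp_le_exp.mpr (show A - 3 ≤ ⌈A⌉₊ - 3 by linarith)
    linarith

lemma qq_pos (h : HH n N) : 0 < qq n N h := by unfold qq; positivity

lemma qq_le (hN : 4 ≤ N) (h : HH n N) : qq n N h ≤ 1 / 2 := by
  have h1 : Real.exp (((h.2 : ℕ) : ℝ) - N / 2) ≤ 2 ^ (n * N ^ 3) := by
    have h2 : ((h.2 : ℕ) : ℝ) - N / 2 ≤ ((2 * n * N ^ 2 : ℕ) : ℝ) * 1 := by
      have : ((h.2 : ℕ) : ℝ) ≤ ((2 * n * N ^ 2 : ℕ) : ℝ) := by exact_mod_cast h.2.2.le
      have : (0 : ℝ) ≤ N := Nat.cast_nonneg N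
      linarith
    refine (Real.exp_le_exp.mpr h2).trans ?_
    rw [Real.exp_nat_mul]
    have h3 : Real.exp 1 ≤ 2 ^ 2 := by linarith [Real.exp_one_lt_d9]
    refine (pow_le_pow_left₀ (Real.exp_pos _).le h3 _).trans ?_
    rw [← pow_mul]
    apply pow_le_pow_right₀ (by norm_num)
    calc 2 * (2 * n * N ^ 2) = n * N ^ 2 * 4 := by ring
      _ ≤ n * N ^ 2 * N := Nat.mul_le_mul_left _ hN
      _ = n * N ^ 3 := by ring
  unfold qq
  rw [div_le_iff₀ (by positivity)]
  have : (0 : ℝ) < 2 ^ (n * N ^ 3) := by positivity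
  linarith

lemma sum_qq (P : HH n N → Prop) [DecidablePred P] : ∑ h, (if P h then qq n N h else 0) =
    Real.exp (-(N / 2)) / (4 * 2 ^ (n * N ^ 3)) *
      ∑ ε : Sg n N, ∑ k : Fin (2 * n * N ^ 2), if P (ε, k) then Real.exp (k : ℕ) else 0 := by
  rw [Fintype.sum_prod_type, Finset.mul_sum]
  refine Finset.sum_congr rfl fun ε _ => ?_
  rw [Finset.mul_sum]
  refine Finset.sum_congr rfl fun k _ => ?_
  split_ifs
  · simp only [qq, sub_eq_add_neg, Real.exp_add]; ring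
  · simp

lemma int_le (hN : 0 < N) (P : HH n N → Prop) [DecidablePred P] (u : Fin n → ℝ)
    (hP : ∀ h, P h → ((h.2 : ℕ) : ℝ) + 1 < Af h.1 u) :
    ∑ h, (if P h then qq n N h else 0) ≤ Real.exp (N * sq u / 2 - N / 2) / 4 := by
  rw [sum_qq]
  have h1 : ∑ ε : Sg n N, ∑ k : Fin (2 * n * N ^ 2), (if P (ε, k) then Real.exp (k : ℕ) else 0) ≤
      2 ^ (n * N ^ 3) * Real.exp (N * sq u / 2) := by
    refine le_trans (Finset.sum_le_sum fun ε _ => ?_) (mgf_le hN u)
    refine le_trans (Finset.sum_le_sum fun k _ => ?_) (thr_le _ _)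
    by_cases h : P (ε, k)
    · rw [if_pos h, if_pos (hP _ h)]
    · rw [if_neg h]; split_ifs; exacts [(Real.exp_pos _).le, le_rfl]
  refine (mul_le_mul_of_nonneg_left h1 (by positivity)).trans (le_of_eq ?_)
  rw [sub_eq_add_neg, Real.exp_add]
  field_simp

lemma cut_one (hN : 0 < N) {z : Fin n → ℝ} (hz : sq z ≤ 1) :
    ∑ h : HH n N, (if ((h.2 : ℕ) : ℝ) + 1 < |Af h.1 z| then qq n N h else 0) ≤ 1 / 2 := by
  have hN' : (0 : ℝ) < N := by exact_mod_cast hN
  have h1 := int_le hN (fun h => ((h.2 : ℕ) : ℝ) + 1 < Af h.1 z) z fun h hh => hh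
  have h2 := int_le hN (fun h => ((h.2 : ℕ) : ℝ) + 1 < Af h.1 (-z)) (-z) fun h hh => hh
  rw [sq_neg] at h2
  have h3 : Real.exp (N * sq z / 2 - N / 2) ≤ 1 := Real.exp_le_one_iff.mpr (by nlinarith)
  refine le_trans (Finset.sum_le_sum fun h _ => ?_)
    ((Finset.sum_add_distrib.trans_le (add_le_add h1 h2)).trans (by linarith))
  have := qq_pos h
  rw [map_neg]
  split_ifs with a b c <;> first | linarith | skip
  rcases lt_abs.mp a with h | h <;> contradiction

lemma sq_mid (c c' : Fin n → ℝ) :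
    sq ((1 / 2 : ℝ) • (c + c')) = (sq c + sq c') / 2 - sq (c - c') / 4 := by
  simp only [sq, ← Finset.sum_add_distrib, Finset.sum_div, ← Finset.sum_sub_distrib]
  exact Finset.sum_congr rfl fun i _ => by simp; ring

lemma sq_refl (c z : Fin n → ℝ) :
    sq ((2 : ℝ) • c - z) = 2 * sq c - sq z + 2 * sq (c - z) := by
  simp only [sq, ← Finset.sum_add_distrib, Finset.mul_sum, ← Finset.sum_sub_distrib]
  exact Finset.sum_congr rfl fun i _ => by simp; ring

lemma sigma_le (hN : 0 < N) {c c' : Fin n → ℝ} (hc : N * sq c ≤ N + 2) (hc' : N * sq c' ≤ N + 2)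
    (P : HH n N → Prop) [DecidablePred P]
    (hP : ∀ h, P h → ((h.2 : ℕ) : ℝ) + 2 < Af h.1 c ∧ ((h.2 : ℕ) : ℝ) + 2 < Af h.1 c') :
    ∑ h, (if P h then qq n N h else 0) ≤ Real.exp (-(N * sq (c - c')) / 8) := by
  refine (int_le hN P ((1 / 2 : ℝ) • (c + c')) fun h hh => ?_).trans ?_
  · have := hP h hh
    rw [map_smul, map_add, smul_eq_mul]
    linarith [this.1, this.2]
  · rw [sq_mid]
    have h1 : N * ((sq c + sq c') / 2 - sq (c - c') / 4) / 2 - N / 2 ≤
        -(N * sq (c - c')) / 8 + 1 := by nlinarith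
    have h2 := Real.exp_le_exp.mpr h1
    rw [Real.exp_add] at h2
    nlinarith [Real.exp_one_lt_d9, Real.exp_pos (-(N * sq (c - c')) / 8)]

open Classical in
lemma nu_ge (hN : 2 ≤ N) {c : Fin n → ℝ} {G : Finset (Fin n → ℝ)} {u : ℕ} {b : ℝ} (hc : c ∈ G)
    (hG : G.card ≤ 2 ^ u) (hu : 1 ≤ u)
    (hz : ∀ z ∈ G, N * sq (c - z) ≤ 16 * u ∧ N - b * u ≤ N * sq z ∧ N * sq z ≤ N + 2)
    (hbig : 6 + 17 * u + b * u / 2 ≤ N / 2) :
    Real.exp (-((25 + b / 2) * u)) ≤
      ∑ h : HH n N, (if ∀ z ∈ G, ((h.2 : ℕ) : ℝ) + 2 < Af h.1 z then qq n N h else 0) := by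
  have hN0 : 0 < N := by omega
  have hN' : (2 : ℝ) ≤ N := by exact_mod_cast hN
  have hc2 : sq c ≤ 2 := by have := (hz c hc).2.2; nlinarith
  let m : Sg n N → ℝ := fun ε => G.inf' ⟨c, hc⟩ fun z => Af ε z
  set M : ℝ := 2 ^ (n * N ^ 3) with hM
  have hM0 : 0 < M := by positivity
  have hm1 : ∀ ε, m ε ≤ ((2 * n * N ^ 2 : ℕ) : ℝ) + 2 := fun ε => by
    have h1 : m ε ≤ Af ε c := Finset.inf'_le (fun z => Af ε z) hc
    have h2 := abs_Af_le hN0 ε (z := c) (b := 2) fun i => by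
      have := (sq_apply_le c i).trans hc2
      exact abs_le_of_sq_le_sq' (by linarith) (by norm_num) |> abs_le.mpr
    have h3 := le_abs_self (Af ε c)
    push_cast
    linarith
  have h1 : ∑ ε, (Real.exp (m ε - 3) - 1) ≤ ∑ ε : Sg n N, ∑ k : Fin (2 * n * N ^ 2),
      if ∀ z ∈ G, ((k : ℕ) : ℝ) + 2 < Af ε z then Real.exp (k : ℕ) else 0 := by
    refine Finset.sum_le_sum fun ε _ => (thr_ge _ _ (hm1 ε)).trans (le_of_eq ?_)
    refine Finset.sum_congr rfl fun k _ => ?_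
    simp only [m, Finset.lt_inf'_iff]
  have h2 : (∑ ε : Sg n N, Real.exp (Af ε c)) ^ 2 ≤
      (∑ ε, Real.exp (m ε)) * ∑ ε, Real.exp (2 * Af ε c - m ε) := by
    have := Finset.sum_mul_sq_le_sq_mul_sq univ (fun ε => Real.exp (m ε / 2))
      (fun ε => Real.exp (Af ε c - m ε / 2))
    simp only [← Real.exp_add, ← Real.exp_nat_mul] at this
    have e1 : ∀ ε, m ε / 2 + (Af ε c - m ε / 2) = Af ε c := fun ε => by ring
    have e2 : ∀ ε, ((2 : ℕ) : ℝ) * (m ε / 2) = m ε := fun ε => by push_cast; ring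
    have e3 : ∀ ε, ((2 : ℕ) : ℝ) * (Af ε c - m ε / 2) = 2 * Af ε c - m ε := fun ε => by
      push_cast; ring
    simpa only [e1, e2, e3] using this
  have h3 : ∑ ε, Real.exp (2 * Af ε c - m ε) ≤
      M * Real.exp (N * sq c - N / 2 + b * u / 2 + 17 * u) := by
    calc ∑ ε, Real.exp (2 * Af ε c - m ε)
        ≤ ∑ ε : Sg n N, ∑ z ∈ G, Real.exp (Af ε ((2 : ℝ) • c - z)) := by
          refine Finset.sum_le_sum fun ε _ => ?_
          obtain ⟨z, hz1, hz2⟩ := Finset.exists_mem_eq_inf' ⟨c, hc⟩ fun z => Af ε z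
          refine le_trans (le_of_eq ?_) (Finset.single_le_sum
            (f := fun z => Real.exp (Af ε ((2 : ℝ) • c - z))) (fun _ _ => (Real.exp_pos _).le) hz1)
          simp only [m, hz2, map_sub, map_smul, smul_eq_mul]
      _ ≤ ∑ z ∈ G, M * Real.exp (N * sq c - N / 2 + b * u / 2 + 16 * u) := by
          rw [Finset.sum_comm]
          refine Finset.sum_le_sum fun z hz' => (mgf_le hN0 _).trans ?_
          apply mul_le_mul_of_nonneg_left (Real.exp_le_exp.mpr _) hM0.le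
          rw [sq_refl]
          have := hz z hz'
          nlinarith [this.1, this.2.1]
      _ ≤ _ := by
          rw [Finset.sum_const, nsmul_eq_mul]
          have e1 : (G.card : ℝ) ≤ Real.exp u := by
            have : (G.card : ℝ) ≤ 2 ^ u := by exact_mod_cast hG
            refine this.trans ?_
            rw [← mul_one (u : ℝ), Real.exp_nat_mul]
            exact pow_le_pow_left₀ (by norm_num) (by linarith [Real.add_one_le_exp 1]) _
          refine (mul_le_mul_of_nonneg_right e1 (by positivity)).trans (le_of_eq ?_)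
          rw [mul_left_comm, ← Real.exp_add]; ring_nf
  have h4 : M * Real.exp (N / 2 - 2 - b * u / 2 - 17 * u) ≤ ∑ ε, Real.exp (m ε) := by
    have h5 := mgf_ge hN0 hc2
    rw [← hM] at h5
    have h6 := pow_le_pow_left₀ (by positivity) h5 2
    have h7 := mul_le_mul_of_nonneg_left h3
      (Finset.sum_nonneg (s := univ) fun ε _ => (Real.exp_pos (m ε)).le)
    have h8 : (M * Real.exp (N * sq c / 2 - 1)) ^ 2 = M * Real.exp (N / 2 - 2 - b * u / 2 - 17 * u) *
        (M * Real.exp (N * sq c - N / 2 + b * u / 2 + 17 * u)) := by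
      rw [mul_pow, ← Real.exp_nat_mul, mul_mul_mul_comm, ← Real.exp_add]
      push_cast; ring_nf
    rw [h8] at h6
    exact le_of_mul_le_mul_right (h6.trans (h2.trans h7)) (by positivity)
  have h5 : ∑ ε, (Real.exp (m ε - 3) - 1) = Real.exp (-3) * ∑ ε, Real.exp (m ε) - M := by
    rw [Finset.sum_sub_distrib, Finset.mul_sum]
    congr 1
    · exact Finset.sum_congr rfl fun ε _ => by rw [← Real.exp_add]; ring_nf
    · simp [hM]
  rw [sum_qq, ← hM]
  refine le_trans ?_ (mul_le_mul_of_nonneg_left h1 (by positivity))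
  rw [h5]
  have h6 := mul_le_mul_of_nonneg_left h4 (Real.exp_pos (-3)).le
  refine le_trans ?_ (mul_le_mul_of_nonneg_left (sub_le_sub_right h6 M) (by positivity))
  set x := Real.exp (-5 - b * u / 2 - 17 * u) with hx
  have e1 : Real.exp (-(N / 2)) / (4 * M) * (Real.exp (-3) *
      (M * Real.exp (N / 2 - 2 - b * u / 2 - 17 * u)) - M) = (x - Real.exp (-(N / 2))) / 4 := by
    have : x = Real.exp (-(N / 2)) * (Real.exp (-3) * Real.exp (N / 2 - 2 - b * u / 2 - 17 * u)) := by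
      rw [hx, ← Real.exp_add, ← Real.exp_add]; ring_nf
    rw [this]; field_simp
  have e2 : Real.exp (-(N / 2)) * Real.exp 1 ≤ x := by
    rw [← Real.exp_add, hx, Real.exp_le_exp]; linarith
  have e3 : Real.exp (-((25 + b / 2) * u)) * Real.exp 3 ≤ x := by
    have : (1 : ℝ) ≤ u := by exact_mod_cast hu
    rw [← Real.exp_add, hx, Real.exp_le_exp]; linarith
  have e4 : 8 ≤ Real.exp 3 := by
    have := Real.quadratic_le_exp_of_nonneg (show (0 : ℝ) ≤ 3 by norm_num)
    norm_num at this ⊢; linarith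
  have e5 := Real.add_one_le_exp 1
  rw [e1]
  nlinarith [Real.exp_pos (-((25 + b / 2) * u)), Real.exp_pos (-((N : ℝ) / 2))]

end Crest.Agent.LC.Low
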