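import Crest.Agent.LC.LowV

set_option autoImplicit false

namespace Crest.Agent.LC.Low

open Finset MeasureTheory

/-- grid points -/
noncomputable def emb (n N : ℕ) (a : Fin n → ℤ) : Fin n → ℝ := fun i => a i / (n * N ^ 2)

/-- the box of grid points -/
noncomputable def box (n N : ℕ) : Finset (Fin n → ℤ) :=
  Fintype.piFinset fun _ => Icc (-((3 * n * N ^ 2 : ℕ) : ℤ)) ((3 * n * N ^ 2 : ℕ) : ℤ)

lemma card_box (n N : ℕ) : (box n N).card = (6 * n * N ^ 2 + 1) ^ n := by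
  simp only [box, Fintype.card_piFinset, Int.card_Icc, Finset.prod_const, Finset.card_univ,
    Fintype.card_fin]
  congr 1
  rw [show ((3 * n * N ^ 2 : ℕ) : ℤ) + 1 - -((3 * n * N ^ 2 : ℕ) : ℤ) =
    ((6 * n * N ^ 2 + 1 : ℕ) : ℤ) by push_cast; ring, Int.toNat_natCast]

lemma card_small_subsets {α : Type} [DecidableEq α] (Γ : Finset α) (hΓ : 1 ≤ Γ.card) (A : ℕ) :
    (Γ.powerset.filter fun S => S.card ≤ A).card ≤ (2 * Γ.card) ^ A := by
  have h1 : (Γ.powerset.filter fun S => S.card ≤ A) ⊆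
      (range (A + 1)).biUnion fun k => Γ.powersetCard k := by
    intro S hS
    rw [Finset.mem_filter, Finset.mem_powerset] at hS
    exact Finset.mem_biUnion.mpr ⟨S.card, Finset.mem_range.mpr (by omega),
      Finset.mem_powersetCard.mpr ⟨hS.1, rfl⟩⟩
  refine (Finset.card_le_card h1).trans (Finset.card_biUnion_le.trans ?_)
  refine (Finset.sum_le_sum (g := fun _ => Γ.card ^ A) fun k hk => ?_).trans ?_
  · rw [Finset.card_powersetCard]
    exact (Nat.choose_le_pow _ _).trans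
      (Nat.pow_le_pow_right hΓ (by have := Finset.mem_range.mp hk; omega))
  · rw [Finset.sum_const, Finset.card_range, smul_eq_mul, mul_pow]
    exact Nat.mul_le_mul_right _ Nat.lt_two_pow_self

open Classical in
/-- light test points -/
noncomputable def Yl (n N T P : ℕ) (θ : ℝ) (X : Finset (Fin n → ℝ)) : Finset (Fin n → ℕ) :=
  (Ym n T).filter fun m => ∑ z ∈ cand N X (pt θ m), 2 ^ lev z ≤ P

open Classical in
/-- every light configuration leaves a test point uncovered -/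
def Nice (n N T P A : ℕ) (θ : ℝ) (ω : Finset (HH n N)) : Prop :=
  ∀ S ⊆ box n N, S.card ≤ A → T ^ n ≤ 2 * (Yl n N T P θ (S.image (emb n N))).card →
    ∃ m ∈ Ym n T, ∀ z ∈ cand N (S.image (emb n N)) (pt θ m), ∃ h ∈ ω,
      ((h.2 : ℕ) : ℝ) + 2 < Af h.1 z

open Classical in
theorem exists_nice {n N T P A : ℕ} {θ : ℝ} (hN : 4 ≤ N)
    (hb : ∀ (X : Finset (Fin n → ℝ)), X.card ≤ A → ∀ Yg : Finset (Fin n → ℕ), Yg ⊆ Ym n T →
      T ^ n ≤ 2 * Yg.card → (∀ m ∈ Yg, ∑ z ∈ cand N X (pt θ m), 2 ^ lev z ≤ P) →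
      Ex (qq n N) (fun ω => if ∃ m ∈ Yg, ∀ z ∈ cand N X (pt θ m), ∃ h ∈ ω,
        ((h.2 : ℕ) : ℝ) + 2 < Af h.1 z then 0 else 1) ≤ Real.exp (-(5 ^ n / 4)))
    (H6 : 3 * (((2 * (6 * n * N ^ 2 + 1) ^ n) ^ A : ℕ) * Real.exp (-(5 ^ n / 4))) < 1) :
    ∃ ω : Finset (HH n N), volume.real (Bl n 1) / 4 ≤ volume.real (Kb ω) ∧
      Nice n N T P A θ ω := by
  have hq0 : ∀ h, 0 ≤ qq n N h := fun h => (qq_pos h).le
  have hq1 : ∀ h, qq n N h ≤ 1 := fun h => (qq_le hN h).trans (by norm_num)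
  let Cf := ((box n N).powerset.filter fun S => S.card ≤ A).filter fun S =>
    T ^ n ≤ 2 * (Yl n N T P θ (S.image (emb n N))).card
  let bad : Finset (Fin n → ℤ) → Finset (HH n N) → ℝ := fun S ω =>
    if ∃ m ∈ Yl n N T P θ (S.image (emb n N)), ∀ z ∈ cand N (S.image (emb n N)) (pt θ m),
      ∃ h ∈ ω, ((h.2 : ℕ) : ℝ) + 2 < Af h.1 z then 0 else 1
  have hV := vol_Bl_pos (n := n)
  have hbad0 : ∀ S ω, 0 ≤ bad S ω := fun S ω => by
    simp only [bad]; split_ifs <;> norm_num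
  have h1 : ∀ S ∈ Cf, Ex (qq n N) (bad S) ≤ Real.exp (-(5 ^ n / 4)) := by
    intro S hS
    simp only [Cf, Finset.mem_filter] at hS
    exact hb _ (Finset.card_image_le.trans hS.1.2) _ (Finset.filter_subset _ _) hS.2
      fun m hm => (Finset.mem_filter.mp hm).2
  have h2 : (Cf.card : ℝ) ≤ ((2 * (6 * n * N ^ 2 + 1) ^ n) ^ A : ℕ) := by
    have := card_small_subsets (box n N) (by rw [card_box]; exact Nat.one_le_pow _ _ (by omega)) A
    rw [card_box] at this
    exact_mod_cast (Finset.card_filter_le _ _).trans this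
  have h3 : Ex (qq n N) (fun ω => (4 / (3 * volume.real (Bl n 1))) * volume.real (Bl n 1 \ Kb ω) +
      ∑ S ∈ Cf, bad S ω) < 1 := by
    rw [Ex_add, Ex_mul, Ex_sum]
    have h4 := Finset.sum_le_sum h1
    rw [Finset.sum_const, nsmul_eq_mul] at h4
    have h5 := mul_le_mul_of_nonneg_right h2 (Real.exp_pos (-(5 ^ n / 4))).le
    have h6 := mul_le_mul_of_nonneg_left (Ex_vol (n := n) hN)
      (show 0 ≤ 4 / (3 * volume.real (Bl n 1)) by positivity)
    have h7 : 4 / (3 * volume.real (Bl n 1)) * (volume.real (Bl n 1) / 2) = 2 / 3 := by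
      field_simp; ring
    linarith
  by_contra hcon
  refine absurd h3 (not_lt.mpr ?_)
  refine le_trans (le_of_eq (Ex_const (q := qq n N) 1).symm) (Ex_mono hq0 hq1 fun ω => ?_)
  by_cases hv : volume.real (Bl n 1) / 4 ≤ volume.real (Kb ω)
  · have hn : ¬ Nice n N T P A θ ω := fun h => hcon ⟨ω, hv, h⟩
    simp only [Nice, not_forall] at hn
    obtain ⟨S, a1, a2, a3, a4⟩ := hn
    have hS : S ∈ Cf := by
      simp only [Cf, Finset.mem_filter, Finset.mem_powerset]; exact ⟨⟨a1, a2⟩, a3⟩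
    have h4 := Finset.single_le_sum (f := fun S => bad S ω) (fun S _ => hbad0 S ω) hS
    have h5 : bad S ω = 1 := if_neg fun ⟨m, hm, h⟩ => a4 ⟨m, Finset.filter_subset _ _ hm, h⟩
    have h6 : 0 ≤ 4 / (3 * volume.real (Bl n 1)) * volume.real (Bl n 1 \ Kb ω) := by positivity
    linarith
  · have h4 : volume.real (Bl n 1 \ Kb ω) = volume.real (Bl n 1) - volume.real (Kb ω) :=
      measureReal_sdiff (fun z hz => hz.1) (isClosed_Kb ω).measurableSet
        (isCompact_Bl 1).measure_lt_top.ne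
    have h5 : 1 ≤ 4 / (3 * volume.real (Bl n 1)) * volume.real (Bl n 1 \ Kb ω) := by
      rw [div_mul_eq_mul_div, le_div_iff₀ (by positivity), h4]; linarith
    linarith [Finset.sum_nonneg (s := Cf) fun S _ => hbad0 S ω]

theorem no_cover {n N T P : ℕ} {θ : ℝ} (hn : 0 < n) (hN : 4 ≤ N) (hnN : 2 * n ≤ N) (hP : 0 < P)
    (hθ : n * θ ^ 2 * T ^ 2 = 1) {ω : Finset (HH n N)} (hω : Nice n N T P (P * 3 ^ n) θ ω)
    (X : Set (Fin n → ℝ)) (hX : ∀ R : ℝ, (X ∩ {x | ∀ i, |x i| ≤ R}).Finite)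
    (hcov : ∀ y : Fin n → ℝ, ∃ x ∈ X, y - x ∈ Kb ω) {D : ℝ} (hD0 : 0 ≤ D)
    (hD : ∀ᶠ R : ℝ in Filter.atTop, ((X ∩ {x | ∀ i, |x i| ≤ R}).ncard : ℝ) ≤ D * (2 * R) ^ n)
    (hDP : 28 * D * volume.real (Bl n 1) ≤ P) : False := by
  classical
  have hn' : (1 : ℝ) ≤ n := by exact_mod_cast hn
  have hN' : (4 : ℝ) ≤ N := by exact_mod_cast hN
  have hP' : (0 : ℝ) < P := by exact_mod_cast hP
  have hT : (0 : ℝ) < T := by
    rcases Nat.eq_zero_or_pos T with h | h
    · simp [h] at hθ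
    · exact_mod_cast h
  have hTn : (0 : ℝ) < (T : ℝ) ^ n := by positivity
  have h3n : (0 : ℝ) < 3 ^ n := by positivity
  let φ : (Fin n → ℝ) → ℝ := fun v => (Bl n (3 ^ 2)).indicator (fun _ => ((3 : ℝ) ^ n)⁻¹) v +
    ((T : ℝ) ^ n)⁻¹ * ∑ m ∈ Ym n T, uw n N (pt θ m - v)
  have i1 : ∀ m : Fin n → ℕ, Integrable fun v => uw n N (pt θ m - v) := fun m =>
    integrable_uw.comp_sub_left _
  have i2 : Integrable fun v => ((T : ℝ) ^ n)⁻¹ * ∑ m ∈ Ym n T, uw n N (pt θ m - v) :=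
    (integrable_finsetSum _ fun m _ => i1 m).const_mul _
  have p1 : ∀ v, 0 ≤ (Bl n (3 ^ 2)).indicator (fun _ => ((3 : ℝ) ^ n)⁻¹) v := fun v =>
    Set.indicator_nonneg (fun _ _ => by positivity) _
  have p2 : ∀ v, 0 ≤ ((T : ℝ) ^ n)⁻¹ * ∑ m ∈ Ym n T, uw n N (pt θ m - v) := fun v =>
    mul_nonneg (by positivity) (Finset.sum_nonneg fun _ _ => uw_nonneg _)
  have hφ : ∫ v, φ v ≤ 7 * volume.real (Bl n 1) := by
    simp only [φ]
    rw [integral_add (integrable_Bl _ _) i2, integral_const_mul,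
      integral_finsetSum _ fun m _ => i1 m,
      integral_indicator_const _ (isClosed_Bl _).measurableSet]
    simp only [integral_sub_left_eq_self]
    rw [Finset.sum_const, card_Ym, nsmul_eq_mul, smul_eq_mul, Nat.cast_pow,
      inv_mul_cancel_left₀ hTn.ne']
    have h1 := vol_Bl_sq (n := n) (show (0 : ℝ) ≤ 3 by norm_num)
    have h2 : volume.real (Bl n (3 ^ 2)) * ((3 : ℝ) ^ n)⁻¹ ≤ volume.real (Bl n 1) := by
      rw [mul_inv_le_iff₀ h3n]; linarith
    linarith [integral_uw hn hnN]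
  obtain ⟨y, F, hF, hsum⟩ := exists_transl X hX hD0 hD φ (fun v => add_nonneg (p1 v) (p2 v))
    ((integrable_Bl _ _).add i2)
  have hs : ∑ x ∈ F, φ (x - y) ≤ P / 2 := by
    have := mul_le_mul_of_nonneg_left hφ (show 0 ≤ 2 * D by linarith)
    linarith
  simp only [φ, Finset.sum_add_distrib] at hs
  set Xy := F.filter fun x => sq (x - y) ≤ 3 ^ 2 with hXy
  let fl : (Fin n → ℝ) → Fin n → ℤ := fun x i => ⌊(x i - y i) * (n * N ^ 2)⌋
  have hc : (0 : ℝ) < n * N ^ 2 := by positivity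
  have he : ∀ x i, |(emb n N (fl x) - (x - y)) i| ≤ 1 / (n * N ^ 2) := by
    intro x i
    have h1 := Int.floor_le ((x i - y i) * (n * N ^ 2))
    have h2 := Int.lt_floor_add_one ((x i - y i) * (n * N ^ 2))
    have h3 : (emb n N (fl x) - (x - y)) i =
        ((⌊(x i - y i) * (n * N ^ 2)⌋ : ℝ) - (x i - y i) * (n * N ^ 2)) / (n * N ^ 2) := by
      simp only [emb, fl, Pi.sub_apply]; field_simp
    rw [h3, abs_div, abs_of_pos hc]
    exact div_le_div_of_nonneg_right (abs_le.mpr ⟨by linarith, by linarith⟩) hc.le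
  have hS1 : Xy.image fl ⊆ box n N := by
    intro a ha
    obtain ⟨x, hx, rfl⟩ := Finset.mem_image.mp ha
    rw [box, Fintype.mem_piFinset]
    intro i
    have h1 : |x i - y i| ≤ 3 := abs_le_of_sq_le_sq
      ((sq_apply_le (x - y) i).trans (Finset.mem_filter.mp hx).2) (by norm_num)
    rw [abs_le] at h1
    rw [Finset.mem_Icc]
    constructor
    · exact Int.le_floor.mpr (by push_cast; nlinarith)
    · exact Int.floor_le_iff.mpr (by push_cast; nlinarith)
  have hS2 : (Xy.image fl).card ≤ P * 3 ^ n := by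
    have h1 : ∑ x ∈ F, (Bl n (3 ^ 2)).indicator (fun _ => ((3 : ℝ) ^ n)⁻¹) (x - y) =
        Xy.card * ((3 : ℝ) ^ n)⁻¹ := by
      rw [← nsmul_eq_mul, ← Finset.sum_const, hXy, Finset.sum_filter]
      exact Finset.sum_congr rfl fun x _ => by simp only [Set.indicator, Bl, Set.mem_ofPred_eq]
    have h2 := Finset.sum_nonneg (s := F) fun x _ => p2 (x - y)
    have h3 : Xy.card * ((3 : ℝ) ^ n)⁻¹ ≤ P := by linarith
    rw [mul_inv_le_iff₀ h3n] at h3
    exact Finset.card_image_le.trans (by exact_mod_cast h3)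
  let wt : (Fin n → ℕ) → ℝ := fun m => ∑ x ∈ F, uw n N (pt θ m - (x - y))
  have hwt : ∀ m, ((∑ z ∈ cand N ((Xy.image fl).image (emb n N)) (pt θ m), 2 ^ lev z : ℕ) : ℝ) ≤
      wt m := by
    intro m
    push_cast
    rw [cand, Finset.sum_filter, Finset.image_image, Finset.image_image]
    refine (Finset.sum_image_le_of_nonneg fun z _ => ?_).trans (le_trans (Finset.sum_le_sum
      fun x _ => ?_) (Finset.sum_le_sum_of_subset_of_nonneg (Finset.filter_subset _ _)
        fun _ _ _ => uw_nonneg _))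
    · split_ifs <;> positivity
    · simp only [Function.comp]
      split_ifs with h
      · have := two_pow_lev_le hn (by omega) h (he x)
        rwa [show pt θ m - emb n N (fl x) + (emb n N (fl x) - (x - y)) = pt θ m - (x - y) by abel]
          at this
      · exact uw_nonneg _
  have hS3 : T ^ n ≤ 2 * (Yl n N T P θ ((Xy.image fl).image (emb n N))).card := by
    set Y := Yl n N T P θ ((Xy.image fl).image (emb n N)) with hY
    have hYs : Y ⊆ Ym n T := Finset.filter_subset _ _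
    have h1 : ∑ m ∈ Ym n T, wt m ≤ T ^ n * (P / 2) := by
      have h2 := Finset.sum_nonneg (s := F) fun x _ => p1 (x - y)
      rw [← Finset.mul_sum, Finset.sum_comm] at hs
      rw [← inv_mul_le_iff₀ hTn]
      linarith
    have h2 : ((Ym n T \ Y).card : ℝ) * P ≤ ∑ m ∈ Ym n T, wt m := by
      refine le_trans ?_ (Finset.sum_le_sum_of_subset_of_nonneg (Finset.sdiff_subset (t := Y))
        fun m _ _ => Finset.sum_nonneg fun _ _ => uw_nonneg _)
      rw [← nsmul_eq_mul, ← Finset.sum_const]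
      refine Finset.sum_le_sum fun m hm => le_trans ?_ (hwt m)
      rw [Finset.mem_sdiff, hY, Yl, Finset.mem_filter] at hm
      exact_mod_cast (not_le.mp fun h => hm.2 ⟨hm.1, h⟩).le
    have h3 : (Ym n T \ Y).card + Y.card = T ^ n := by
      rw [Finset.card_sdiff_add_card_eq_card hYs, card_Ym]
    have h4 : ((Ym n T \ Y).card : ℝ) + Y.card = T ^ n := by exact_mod_cast h3
    have h5 : (T : ℝ) ^ n ≤ 2 * Y.card := by nlinarith
    exact_mod_cast h5
  obtain ⟨m, hm, hcut⟩ := hω _ hS1 hS2 hS3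
  obtain ⟨x, hx, hK⟩ := hcov (y + pt θ m)
  have e1 : y + pt θ m - x = pt θ m - (x - y) := by abel
  rw [e1] at hK
  have hm1 : sq (pt θ m) ≤ 1 := by
    rw [← hθ]
    refine (Finset.sum_le_sum (g := fun _ => θ ^ 2 * T ^ 2) fun i _ => ?_).trans (le_of_eq ?_)
    · have h1 : m i < T := Finset.mem_range.mp (Fintype.mem_piFinset.mp hm i)
      have h2 : (m i : ℝ) ≤ T := by exact_mod_cast h1.le
      simp only [pt, mul_pow]
      exact mul_le_mul_of_nonneg_left (pow_le_pow_left₀ (Nat.cast_nonneg _) h2 2) (sq_nonneg _)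
    · simp [mul_assoc]
  have hxy : sq (x - y) ≤ 3 ^ 2 := by
    have h1 := sq_mid (pt θ m) (-(pt θ m - (x - y)))
    have h2 : pt θ m + -(pt θ m - (x - y)) = x - y := by abel
    rw [h2, sq_smul, sq_neg] at h1
    have h3 := sq_nonneg' (pt θ m - -(pt θ m - (x - y)))
    linarith [hK.1]
  have hxF : x ∈ Xy := Finset.mem_filter.mpr ⟨hF x hx fun i =>
    abs_le_of_sq_le_sq ((sq_apply_le (x - y) i).trans hxy) (by norm_num), hxy⟩
  have e2 : pt θ m - emb n N (fl x) = pt θ m - (x - y) + -(emb n N (fl x) - (x - y)) := by abel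
  obtain ⟨h, hh, hlt⟩ := hcut (pt θ m - emb n N (fl x)) (by
    rw [cand, Finset.mem_filter]
    refine ⟨Finset.mem_image_of_mem _ (Finset.mem_image_of_mem _ (Finset.mem_image_of_mem _ hxF)),
      ?_⟩
    rw [e2]
    have := sq_add_le hn (show 3 ≤ N by omega) (z := pt θ m - (x - y))
      (e := -(emb n N (fl x) - (x - y))) (by linarith [hK.1])
      fun i => by rw [Pi.neg_apply, abs_neg]; exact he x i
    nlinarith [hK.1])
  rw [e2, map_add, map_neg] at hlt
  have h1 := abs_le.mp (hK.2 h hh)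
  have h2 := abs_le.mp (abs_Af_le (show 0 < N by omega) h.1 (he x))
  rw [mul_one_div_cancel hc.ne'] at h2
  linarith [h1.2, h2.1]

end Crest.Agent.LC.Low
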