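import Crest.Agent.LC.LowM

set_option autoImplicit false

namespace Crest.Agent.LC.Low

open Finset MeasureTheory Filter

lemma le_exp_nat (c : ℝ) (k : ℕ) (h : c ≤ 2 ^ k) : c ≤ Real.exp k := by
  refine h.trans ?_
  rw [← mul_one (k : ℝ), Real.exp_nat_mul]
  exact pow_le_pow_left₀ (by norm_num) Real.exp_one_gt_two.le _

lemma pow_le_exp_mul {c : ℝ} (hc : 0 ≤ c) {k : ℝ} (h : c ≤ Real.exp k) (n : ℕ) :
    c ^ n ≤ Real.exp (n * k) := by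
  rw [Real.exp_nat_mul]; exact pow_le_pow_left₀ hc h n

lemma exp_quarter_le (n : ℕ) : Real.exp (n / 4) * 3 ^ n ≤ 4 ^ n := by
  rw [div_eq_mul_one_div, Real.exp_nat_mul, ← mul_pow]
  apply pow_le_pow_left₀ (by positivity)
  have h1 := Real.add_one_le_exp (-(1 / 4))
  have h2 : Real.exp (1 / 4) * Real.exp (-(1 / 4)) = 1 := by rw [← Real.exp_add]; simp
  nlinarith [Real.exp_pos (1 / 4)]

lemma eventually_big (K : ℝ) : ∀ᶠ n : ℕ in atTop,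
    K * (Real.log n + 1) ≤ Real.exp (Real.log n / 2) ∧ 80 ≤ Real.log n := by
  have h1 : Tendsto (fun n : ℕ => Real.log n) atTop atTop :=
    Real.tendsto_log_atTop.comp tendsto_natCast_atTop_atTop
  filter_upwards [h1.eventually_ge_atTop 80, h1.eventually_ge_atTop (16 * |K|)] with n h2 h3
  refine ⟨?_, h2⟩
  have h4 := Real.quadratic_le_exp_of_nonneg (show 0 ≤ Real.log n / 2 by linarith)
  have h5 := le_abs_self K
  have h6 := abs_nonneg K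
  nlinarith

lemma e16 : (16 : ℝ) ≤ Real.exp 3 := by
  have h1 := Real.exp_one_gt_d9
  rw [show (3 : ℝ) = 1 + 1 + 1 by norm_num, Real.exp_add, Real.exp_add]
  nlinarith

lemma e5 : (5 : ℝ) ≤ Real.exp 2 := by
  have := Real.quadratic_le_exp_of_nonneg (show (0 : ℝ) ≤ 2 by norm_num)
  norm_num at this ⊢; linarith

lemma num0 {β n ℓ s : ℝ} (hβ : 10 ^ 9 ≤ β) (h80 : 80 ≤ ℓ) (hL : 20 * β * (ℓ + 1) ≤ s)
    (hss : s * s = n) : 20 * β * (ℓ + 1) ≤ n ∧ 400 * β ^ 2 ≤ n ∧ 20 * (ℓ + 1) ≤ n := by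
  have hs1 : 20 * β ≤ s := by nlinarith
  have hsn : s ≤ n := by nlinarith
  refine ⟨hL.trans hsn, by nlinarith, by nlinarith⟩

lemma num1 {β n ℓ x : ℝ} (hβ : 10 ^ 9 ≤ β) (h80 : 80 ≤ ℓ) (hnβ : 400 * β ^ 2 ≤ n)
    (hℓn : 20 * (ℓ + 1) ≤ n) (hx' : x * (32 * (27 + 2 * β)) = n * ℓ) : 2 ≤ x ∧ x ≤ n * n := by
  have hx2 : 2 ≤ x := by
    by_contra h
    have h1 : x * (32 * (27 + 2 * β)) ≤ 2 * (32 * (27 + 2 * β)) :=
      mul_le_mul_of_nonneg_right (by linarith) (by positivity)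
    nlinarith
  refine ⟨hx2, ?_⟩
  nlinarith

lemma numH2 {β ℓ s P U : ℝ} (hβ : 10 ^ 9 ≤ β) (h80 : 80 ≤ ℓ) (hL : 20 * β * (ℓ + 1) ≤ s)
    (hPP : P ^ 2 ≤ Real.exp (4 * ℓ)) (hCU : 2 * ((25 + 2 * β) * U) ≤ 18 * β * (ℓ + 1)) :
    P ^ 2 * Real.exp (2 * ((25 + 2 * β) * U) - β * s / 128) ≤ 1 := by
  refine (mul_le_mul_of_nonneg_right hPP (Real.exp_pos _).le).trans ?_
  rw [← Real.exp_add, Real.exp_le_one_iff]
  have h2 : β * (20 * β * (ℓ + 1)) ≤ β * s := mul_le_mul_of_nonneg_left hL (by positivity)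
  have h3 : β * (ℓ + 1) * 128 ≤ β * (ℓ + 1) * β :=
    mul_le_mul_of_nonneg_left (by linarith) (by positivity)
  have h4 : 4 * (ℓ + 1) ≤ β * (ℓ + 1) := mul_le_mul_of_nonneg_right (by linarith) (by linarith)
  linarith

lemma numH3 {β ℓ P U : ℝ} {n : ℕ} (hβ : 10 ^ 9 ≤ β) (h80 : 80 ≤ ℓ) (hLn : 20 * β * (ℓ + 1) ≤ n)
    (hPP : P ^ 2 ≤ Real.exp (4 * ℓ)) (hCU : 2 * ((25 + 2 * β) * U) ≤ 18 * β * (ℓ + 1)) :
    12 * 5 ^ n * (P ^ 2 * Real.exp (2 * ((25 + 2 * β) * U) - β * n * (1 / 6400) ^ 2 / 8)) ≤ 1 := by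
  have h2 := pow_le_exp_mul (show (0 : ℝ) ≤ 5 by norm_num) e5 n
  refine (mul_le_mul (mul_le_mul (show (12 : ℝ) ≤ Real.exp 3 by linarith [e16]) h2 (by positivity)
    (Real.exp_pos _).le) (mul_le_mul_of_nonneg_right hPP (Real.exp_pos _).le) (by positivity)
    (by positivity)).trans ?_
  rw [← Real.exp_add, ← Real.exp_add, ← Real.exp_add, Real.exp_le_one_iff]
  have h3 : (10 : ℝ) ^ 9 * n ≤ β * n := mul_le_mul_of_nonneg_right hβ (Nat.cast_nonneg n)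
  have h4 : 4 * (ℓ + 1) ≤ β * (ℓ + 1) := mul_le_mul_of_nonneg_right (by linarith) (by linarith)
  linarith

lemma numH4 {ℓ P : ℝ} {n : ℕ} (hPP : P ^ 2 ≤ Real.exp (4 * ℓ))
    (e34 : Real.exp (3 + 4 * ℓ) * 3 ^ n ≤ 4 ^ n) : 9 * (P * (P * 3 ^ n)) ≤ 4 ^ n := by
  refine le_trans ?_ e34
  rw [Real.exp_add]
  have := mul_le_mul (show (9 : ℝ) ≤ Real.exp 3 by linarith [e16]) hPP (by positivity)
    (Real.exp_pos _).le
  have h2 := mul_le_mul_of_nonneg_right this (show (0 : ℝ) ≤ 3 ^ n by positivity)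
  linarith

lemma numH5 {β ℓ P : ℝ} {n : ℕ} (h80 : 80 ≤ ℓ) (hℓn : 20 * (ℓ + 1) ≤ n)
    (hPP : P ^ 2 ≤ Real.exp (4 * ℓ)) (hP : P * (32 * (27 + 2 * β)) ≤ n * ℓ) :
    3 * 5 ^ n * (P * (P * 3 ^ n) * (2 * Real.exp (-(ℓ / 8))) ^ n *
      Real.exp (2 * ((25 + 2 * β + 2) * P))) ≤ 1 := by
  have h30 : (30 : ℝ) ≤ Real.exp 4 := by
    rw [show (4 : ℝ) = 3 + 1 by norm_num, Real.exp_add]
    nlinarith [Real.exp_one_gt_two, e16]
  have h1 := pow_le_exp_mul (show (0 : ℝ) ≤ 30 by norm_num) h30 n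
  have h3 : Real.exp (2 * ((25 + 2 * β + 2) * P)) ≤ Real.exp (n * ℓ / 16) := by
    rw [Real.exp_le_exp]
    linarith
  have e : 3 * 5 ^ n * (P * (P * 3 ^ n) * (2 * Real.exp (-(ℓ / 8))) ^ n *
      Real.exp (2 * ((25 + 2 * β + 2) * P))) = 3 * 30 ^ n * P ^ 2 * Real.exp (n * -(ℓ / 8)) *
      Real.exp (2 * ((25 + 2 * β + 2) * P)) := by
    rw [show (30 : ℝ) = 5 * 3 * 2 by norm_num, mul_pow, mul_pow, mul_pow, Real.exp_nat_mul]; ring
  rw [e]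
  refine (mul_le_mul (mul_le_mul_of_nonneg_right (mul_le_mul (mul_le_mul
    (show (3 : ℝ) ≤ Real.exp 3 by linarith [e16]) h1 (by positivity) (Real.exp_pos _).le) hPP
    (by positivity) (by positivity)) (Real.exp_pos _).le) h3 (Real.exp_pos _).le
    (by positivity)).trans ?_
  rw [← Real.exp_add, ← Real.exp_add, ← Real.exp_add, ← Real.exp_add, Real.exp_le_one_iff]
  have h4 : (n : ℝ) * 80 ≤ n * ℓ := mul_le_mul_of_nonneg_left h80 (Nat.cast_nonneg n)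
  linarith

lemma numH6 {β n P : ℕ} {ℓ : ℝ} (hβ : 1 ≤ β) (hn : 0 < n) (hexp : Real.exp ℓ = n)
    (hℓn : 4 * ℓ ≤ n) (hnβ : 400 * (β : ℝ) ^ 2 ≤ n) (a1 : (P : ℝ) ≤ n * n)
    (e34 : Real.exp (3 + 4 * ℓ) * 3 ^ n ≤ 4 ^ n) :
    3 * (((2 * (6 * n * (β * n) ^ 2 + 1) ^ n) ^ (P * 3 ^ n) : ℕ) * Real.exp (-(5 ^ n / 4))) < 1 := by
  have hn4 : (n : ℝ) ^ 4 = Real.exp (4 * ℓ) := by
    rw [← hexp, ← Real.exp_nat_mul]; norm_num
  have hn1 : (1 : ℝ) ≤ n := by exact_mod_cast hn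
  have hβ1 : (1 : ℝ) ≤ β := by exact_mod_cast hβ
  have h1 : ((6 * n * (β * n) ^ 2 + 1 : ℕ) : ℝ) ≤ Real.exp n := by
    refine le_trans ?_ (Real.exp_le_exp.mpr hℓn)
    rw [← hn4]
    have h3 := mul_le_mul_of_nonneg_right hnβ (show (0 : ℝ) ≤ n ^ 3 by positivity)
    have h4 : (1 : ℝ) ≤ β ^ 2 * n ^ 3 := one_le_mul_of_one_le_of_one_le (one_le_pow₀ hβ1)
      (one_le_pow₀ hn1)
    push_cast
    linarith
  have h2 : ((2 * (6 * n * (β * n) ^ 2 + 1) ^ n : ℕ) : ℝ) ≤ Real.exp (2 * (n * n)) := by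
    have h3 := pow_le_exp_mul (Nat.cast_nonneg _) h1 n
    have h4 : (2 : ℝ) ≤ Real.exp (n * n) :=
      Real.exp_one_gt_two.le.trans (Real.exp_le_exp.mpr (by nlinarith))
    rw [Nat.cast_mul, Nat.cast_pow, two_mul ((n : ℝ) * n), Real.exp_add]
    exact mul_le_mul h4 h3 (by positivity) (Real.exp_pos _).le
  have h3 := pow_le_exp_mul (Nat.cast_nonneg _) h2 (P * 3 ^ n)
  rw [Nat.cast_pow]
  have h4 : ((P * 3 ^ n : ℕ) : ℝ) * (2 * (n * n)) + 2 ≤ 5 ^ n / 4 := by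
    have a3 : (4 : ℝ) ^ n ≤ 5 ^ n := pow_le_pow_left₀ (by norm_num) (by norm_num) n
    rw [Real.exp_add, ← hn4] at e34
    have a5 := mul_le_mul_of_nonneg_right e16 (show (0 : ℝ) ≤ n ^ 4 * 3 ^ n by positivity)
    have a6 := mul_le_mul_of_nonneg_right a1 (show (0 : ℝ) ≤ 3 ^ n * (2 * (n * n)) by positivity)
    have a7 : (1 : ℝ) ≤ n ^ 4 * 3 ^ n := one_le_mul_of_one_le_of_one_le (one_le_pow₀ hn1)
      (one_le_pow₀ (by norm_num))
    push_cast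
    linarith
  refine lt_of_le_of_lt (mul_le_mul_of_nonneg_left
    (mul_le_mul_of_nonneg_right h3 (Real.exp_pos _).le) (by norm_num)) ?_
  rw [← Real.exp_add]
  refine lt_of_lt_of_le (mul_lt_mul_of_pos_right (show 3 < Real.exp 2 by linarith [e5])
    (Real.exp_pos _)) ?_
  rw [← Real.exp_add, Real.exp_le_one_iff]
  linarith

lemma log2_le {P : ℕ} {ℓ : ℝ} (hP0 : 0 < P) (hPn : (P : ℝ) ≤ Real.exp (2 * ℓ)) :
    ((Nat.log 2 P + 1 : ℕ) : ℝ) ≤ 3 * (ℓ + 1) := by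
  have h1 : ((2 ^ Nat.log 2 P : ℕ) : ℝ) ≤ P := by
    exact_mod_cast Nat.pow_log_le_self 2 hP0.ne'
  have h2 : Real.exp (Nat.log 2 P * Real.log 2) ≤ Real.exp (2 * ℓ) := by
    rw [Real.exp_nat_mul, Real.exp_log (by norm_num)]
    push_cast at h1; linarith
  have h3 := Real.exp_le_exp.mp h2
  have h4 := Real.log_two_gt_d9
  have h5 : (0 : ℝ) ≤ Nat.log 2 P := Nat.cast_nonneg _
  push_cast
  nlinarith

theorem exists_good_body (β : ℕ) (hβ : 10 ^ 9 ≤ β) {n : ℕ}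
    (hL : 20 * β * (Real.log n + 1) ≤ Real.exp (Real.log n / 2)) (h80 : 80 ≤ Real.log n) :
    ∃ (T P : ℕ) (θ : ℝ) (ω : Finset (HH n (β * n))), 0 < n ∧ 0 < P ∧ n * θ ^ 2 * T ^ 2 = 1 ∧
      1 / (64 * (27 + 2 * β)) * n * Real.log n ≤ P ∧
      volume.real (Bl n 1) / 4 ≤ volume.real (Kb ω) ∧ Nice n (β * n) T P (P * 3 ^ n) θ ω := by
  have hn : 0 < n := by
    rcases Nat.eq_zero_or_pos n with rfl | h
    · norm_num at h80
    · exact h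
  have hn0 : (0 : ℝ) < n := by exact_mod_cast hn
  have hβ' : (10 : ℝ) ^ 9 ≤ β := by exact_mod_cast hβ
  obtain ⟨ℓ, hℓ⟩ : ∃ ℓ, ℓ = Real.log n := ⟨_, rfl⟩
  rw [← hℓ] at hL h80 ⊢
  have hexp : Real.exp ℓ = n := by rw [hℓ, Real.exp_log hn0]
  obtain ⟨s, hs⟩ : ∃ s, s = Real.exp (ℓ / 2) := ⟨_, rfl⟩
  rw [← hs] at hL
  have hss : s * s = n := by rw [hs, ← Real.exp_add, ← hexp]; ring_nf
  obtain ⟨hLn, hnβ, hℓn⟩ := num0 hβ' h80 hL hss
  have hn1600 : 1600 ≤ n := by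
    have : (1600 : ℝ) ≤ n := by linarith
    exact_mod_cast this
  obtain ⟨x, hx⟩ : ∃ x : ℝ, x = 1 / (32 * (27 + 2 * β)) * n * ℓ := ⟨_, rfl⟩
  have hx' : x * (32 * (27 + 2 * β)) = n * ℓ := by rw [hx]; field_simp
  obtain ⟨hx2, hxn⟩ := num1 hβ' h80 hnβ hℓn hx'
  obtain ⟨P, hP⟩ : ∃ P, P = ⌊x⌋₊ := ⟨_, rfl⟩
  have hP1 : (P : ℝ) ≤ x := by rw [hP]; exact Nat.floor_le (by linarith)
  have hP2 : x < P + 1 := by rw [hP]; exact Nat.lt_floor_add_one x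
  have hP0 : 0 < P := by
    have : (0 : ℝ) < P := by linarith
    exact_mod_cast this
  have hPn : (P : ℝ) ≤ Real.exp (2 * ℓ) := by
    rw [two_mul, Real.exp_add, hexp]
    linarith
  have hPP : (P : ℝ) ^ 2 ≤ Real.exp (4 * ℓ) := by
    have := pow_le_exp_mul (Nat.cast_nonneg P) hPn 2
    convert this using 2; push_cast; ring
  have hU3 := log2_le hP0 hPn
  obtain ⟨U, hU⟩ : ∃ U, U = Nat.log 2 P + 1 := ⟨_, rfl⟩
  rw [← hU] at hU3
  have hU1 : (1 : ℝ) ≤ U := by exact_mod_cast (by omega : 1 ≤ U)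
  have hCU : 2 * ((25 + 2 * β) * (U : ℝ)) ≤ 18 * β * (ℓ + 1) := by
    have h1 : (25 + 2 * β) * (U : ℝ) ≤ (3 * β) * (3 * (ℓ + 1)) :=
      mul_le_mul (by linarith) hU3 (by linarith) (by linarith)
    linarith
  have hT : (0 : ℝ) < 4 * n * Real.sqrt n := by positivity
  have hθ : n * (1 / (4 * n * Real.sqrt n)) ^ 2 * ((4 * n : ℕ) : ℝ) ^ 2 = 1 := by
    have := Real.sq_sqrt hn0.le
    push_cast
    field_simp
    linarith
  have e34 : Real.exp (3 + 4 * ℓ) * 3 ^ n ≤ 4 ^ n :=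
    le_trans (mul_le_mul_of_nonneg_right (Real.exp_le_exp.mpr (by linarith)) (by positivity))
      (exp_quarter_le n)
  have hN : 4 ≤ β * n := le_trans (by omega) (Nat.mul_le_mul hβ hn1600)
  refine (exists_nice (n := n) (N := β * n) (T := 4 * n) (P := P) (A := P * 3 ^ n)
    (θ := 1 / (4 * n * Real.sqrt n)) hN (fun X hX Yg hY hYc hg =>
      config_bound (β := β) (α := Real.exp (-(ℓ / 8))) rfl hN hθ (Real.exp_pos _) ?_ ?_ (by omega)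
        U hU.ge ?_ ?_ ?_ ?_ ?_ X hX Yg hY hYc hg)
      (numH6 (by omega) hn hexp (by linarith) hnβ (hP1.trans hxn) e34)).elim
    fun ω hω => ⟨4 * n, P, _, ω, hn, hP0, hθ, ?_, hω.1, hω.2⟩
  · exact Real.exp_le_one_iff.mpr (by linarith)
  · have h1 : 1 ≤ Real.exp (-(ℓ / 8)) ^ 2 * n := by
      rw [← Real.exp_nat_mul, ← hexp, ← Real.exp_add]
      exact Real.one_le_exp (by push_cast; linarith)
    push_cast; linarith
  · push_cast
    have h1 : (β : ℝ) * U ≤ β * (3 * (ℓ + 1)) := mul_le_mul_of_nonneg_left hU3 (by positivity)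
    have h2 : (β : ℝ) * (20 * (ℓ + 1)) ≤ β * n := mul_le_mul_of_nonneg_left hℓn (by positivity)
    have h3 : 23 * (U : ℝ) ≤ β * U := mul_le_mul_of_nonneg_right (by linarith) (by linarith)
    linarith
  · have hα4 : (Real.exp (-(ℓ / 8)) ^ 2) ^ 2 * s = 1 := by
      rw [hs, ← pow_mul, ← Real.exp_nat_mul, ← Real.exp_add, ← Real.exp_zero]
      congr 1; push_cast; ring
    have h1 : ((β * n : ℕ) : ℝ) * (Real.exp (-(ℓ / 8)) ^ 2 / 4) ^ 2 / 8 = β * s / 128 := by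
      rw [Nat.cast_mul, ← hss]
      linear_combination (β * s / 128) * hα4
    rw [h1]
    exact numH2 hβ' h80 hL hPP hCU
  · rw [Nat.cast_mul]
    exact numH3 hβ' h80 hLn hPP hCU
  · rw [Nat.cast_mul, Nat.cast_pow, Nat.cast_ofNat]
    exact numH4 hPP e34
  · rw [Nat.cast_mul, Nat.cast_pow, Nat.cast_ofNat]
    refine numH5 h80 hℓn hPP ?_
    rw [← hx']
    exact mul_le_mul_of_nonneg_right hP1 (by positivity)
  · have : 1 / (64 * (27 + 2 * (β : ℝ))) * n * ℓ = x / 2 := by rw [hx]; field_simp; ring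
    rw [this]; linarith

end Crest.Agent.LC.Low
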