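import Crest.Agent.LC.LowB

set_option autoImplicit false

namespace Crest.Agent.LC.Low

open Finset

variable {H : Type} [Fintype H] [DecidableEq H] {κ : Type}

/-- expectation under the planted law: one element of `H` for each item of the list -/
noncomputable def EE (τ : κ → H → ℝ) : List κ → (Finset H → ℝ) → ℝ
  | [], F => F ∅
  | i :: L, F => ∑ h, τ i h * EE τ L (fun S => F (insert h S))

/-- the planted law -/
noncomputable def lw (τ : κ → H → ℝ) (L : List κ) (S : Finset H) : ℝ :=
  EE τ L (fun S' => if S' = S then 1 else 0)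

/-- all ways of picking one item out of a list -/
def picks : List κ → List (κ × List κ)
  | [] => []
  | i :: L => (i, L) :: (picks L).map fun p => (p.1, i :: p.2)

lemma picks_map_fst (L : List κ) : (picks L).map Prod.fst = L := by
  induction L with
  | nil => rfl
  | cons i L ih => simp [picks, List.map_map, Function.comp_def, ih]

lemma picks_sublist {L : List κ} {p : κ × List κ} (h : p ∈ picks L) : p.2.Sublist L := by
  induction L generalizing p with
  | nil => simp [picks] at h
  | cons i L ih =>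
    simp only [picks, List.mem_cons, List.mem_map] at h
    rcases h with rfl | ⟨p', h1, rfl⟩
    · exact List.sublist_cons_self _ _
    · exact (ih h1).cons_cons _

lemma picks_perm {L : List κ} {p : κ × List κ} (h : p ∈ picks L) : L.Perm (p.1 :: p.2) := by
  induction L generalizing p with
  | nil => simp [picks] at h
  | cons i L ih =>
    simp only [picks, List.mem_cons, List.mem_map] at h
    rcases h with rfl | ⟨p', h1, rfl⟩
    · exact List.Perm.refl _
    · exact ((ih h1).cons i).trans (List.Perm.swap _ _ _)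

variable {τ : κ → H → ℝ}

lemma EE_sum {ι : Type} (L : List κ) (s : Finset ι) (F : ι → Finset H → ℝ) :
    EE τ L (fun S => ∑ x ∈ s, F x S) = ∑ x ∈ s, EE τ L (F x) := by
  induction L generalizing F with
  | nil => rfl
  | cons i L ih =>
    simp only [EE, ih, Finset.mul_sum]
    exact Finset.sum_comm

lemma EE_mul (L : List κ) (c : ℝ) (F : Finset H → ℝ) :
    EE τ L (fun S => c * F S) = c * EE τ L F := by
  induction L generalizing F with
  | nil => rfl
  | cons i L ih =>
    simp only [EE, ih, Finset.mul_sum]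
    exact Finset.sum_congr rfl fun h _ => by ring

lemma EE_eq (L : List κ) (F : Finset H → ℝ) : EE τ L F = ∑ S, lw τ L S * F S := by
  have : F = fun S' => ∑ S, F S * (if S' = S then 1 else 0) := by
    funext S'; simp
  conv_lhs => rw [this, EE_sum]
  apply Finset.sum_congr rfl
  intro S _
  rw [EE_mul, lw, mul_comm]

lemma EE_nonneg (h0 : ∀ i h, 0 ≤ τ i h) (L : List κ) {F : Finset H → ℝ} (hF : ∀ S, 0 ≤ F S) :
    0 ≤ EE τ L F := by
  induction L generalizing F with
  | nil => exact hF _
  | cons i L ih => exact Finset.sum_nonneg fun h _ => mul_nonneg (h0 i h) (ih fun S => hF _)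

lemma lw_nonneg (h0 : ∀ i h, 0 ≤ τ i h) (L : List κ) (S : Finset H) : 0 ≤ lw τ L S :=
  EE_nonneg h0 L fun S' => by split_ifs <;> norm_num

lemma EE_mono (h0 : ∀ i h, 0 ≤ τ i h) (L : List κ) {F G : Finset H → ℝ} (h : ∀ S, F S ≤ G S) :
    EE τ L F ≤ EE τ L G := by
  rw [EE_eq, EE_eq]
  exact Finset.sum_le_sum fun S _ => mul_le_mul_of_nonneg_left (h S) (lw_nonneg h0 L S)

lemma EE_add (L : List κ) (F G : Finset H → ℝ) :
    EE τ L (fun S => F S + G S) = EE τ L F + EE τ L G := by
  simp only [EE_eq, mul_add, Finset.sum_add_distrib]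

lemma EE_lsum {ι : Type} (L : List κ) (s : List ι) (F : ι → Finset H → ℝ) :
    EE τ L (fun S => (s.map fun x => F x S).sum) = (s.map fun x => EE τ L (F x)).sum := by
  induction s with
  | nil => simp [EE_eq]
  | cons x s ih => simp only [List.map_cons, List.sum_cons, EE_add, ih]

lemma EE_const {L : List κ} (h1 : ∀ i ∈ L, ∑ h, τ i h = 1) (c : ℝ) : EE τ L (fun _ => c) = c := by
  induction L with
  | nil => rfl
  | cons i L ih =>
    simp only [EE, ih fun j hj => h1 j (List.mem_cons_of_mem _ hj)]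
    rw [← Finset.sum_mul, h1 i List.mem_cons_self, one_mul]

lemma EE_supp (L : List κ) {F : Finset H → ℝ}
    (hF : ∀ S, (∀ i ∈ L, ∃ h ∈ S, τ i h ≠ 0) → F S = 0) : EE τ L F = 0 := by
  induction L generalizing F with
  | nil => exact hF _ (by simp)
  | cons i L ih =>
    apply Finset.sum_eq_zero
    intro h _
    by_cases hh : τ i h = 0
    · simp [hh]
    · rw [ih, mul_zero]
      intro S hS
      apply hF
      intro j hj
      rcases List.mem_cons.mp hj with rfl | hj
      · exact ⟨h, Finset.mem_insert_self _ _, hh⟩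
      · obtain ⟨h', h1, h2⟩ := hS j hj
        exact ⟨h', Finset.mem_insert_of_mem h1, h2⟩

lemma lsum_finsum {ι α : Type} (s : List ι) (t : Finset α) (F : ι → α → ℝ) :
    ∑ a ∈ t, (s.map fun x => F x a).sum = (s.map fun x => ∑ a ∈ t, F x a).sum := by
  induction s with
  | nil => simp
  | cons x s ih => simp only [List.map_cons, List.sum_cons, Finset.sum_add_distrib, ih]

lemma EE_mem_le (h0 : ∀ i h, 0 ≤ τ i h) (L : List κ) (h : H) {F : Finset H → ℝ}
    (hF : ∀ S, 0 ≤ F S) (hinv : ∀ S, F (insert h S) = F S) :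
    EE τ L (fun S => if h ∈ S then F S else 0) ≤
      ((picks L).map fun p => τ p.1 h * EE τ p.2 F).sum := by
  induction L generalizing F with
  | nil => simp [EE, picks]
  | cons i L ih =>
    have e1 : ∀ h', τ i h' * EE τ L (fun S => if h ∈ insert h' S then F (insert h' S) else 0) ≤
        (if h' = h then τ i h * EE τ L F else 0) +
        τ i h' * ((picks L).map fun p => τ p.1 h * EE τ p.2 fun S => F (insert h' S)).sum := by
      intro h'
      have hnn : 0 ≤ ((picks L).map fun p => τ p.1 h * EE τ p.2 fun S => F (insert h' S)).sum := by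
        apply List.sum_nonneg
        intro x hx
        obtain ⟨p, -, rfl⟩ := List.mem_map.mp hx
        exact mul_nonneg (h0 _ _) (EE_nonneg h0 _ fun S => hF _)
      by_cases hh : h' = h
      · subst hh
        simp only [Finset.mem_insert_self, if_true, hinv]
        simp only [hinv] at hnn
        linarith [mul_nonneg (h0 i h') hnn]
      · rw [if_neg hh, zero_add]
        apply mul_le_mul_of_nonneg_left _ (h0 i h')
        have := ih (F := fun S => F (insert h' S)) (fun S => hF _)
          (fun S => by rw [Finset.insert_comm, hinv])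
        simpa [Finset.mem_insert, Ne.symm hh] using this
    simp only [EE, picks, List.map_cons, List.sum_cons, List.map_map, Function.comp_def]
    refine (Finset.sum_le_sum fun h' _ => e1 h').trans (le_of_eq ?_)
    rw [Finset.sum_add_distrib, Finset.sum_ite_eq' univ h, if_pos (mem_univ _)]
    congr 1
    simp only [← List.sum_map_mul_left]
    rw [lsum_finsum]
    congr 1
    apply List.map_congr_left
    intro p _
    rw [Finset.mul_sum]
    exact Finset.sum_congr rfl fun h' _ => by ring

/-- second moment of two planted witnesses -/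
noncomputable def Phi (q : H → ℝ) (τ : κ → H → ℝ) (L L' : List κ) : ℝ :=
  EE τ L fun S => EE τ L' fun S' => (qs q (S ∩ S'))⁻¹

/-- overlap of two items -/
noncomputable def eps (q : H → ℝ) (τ : κ → H → ℝ) (i i' : κ) : ℝ := ∑ h, τ i h * τ i' h / q h

variable {q : H → ℝ}

omit [Fintype H] [DecidableEq H] in
lemma qs_pos (hq : ∀ h, 0 < q h) (S : Finset H) : 0 < qs q S := Finset.prod_pos fun h _ => hq h

lemma Phi_eq (L L' : List κ) :
    Phi q τ L L' = ∑ S, ∑ S', lw τ L S * lw τ L' S' * (qs q (S ∩ S'))⁻¹ := by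
  simp only [Phi, EE_eq, Finset.mul_sum, mul_assoc]

lemma Phi_symm (L L' : List κ) : Phi q τ L L' = Phi q τ L' L := by
  rw [Phi_eq, Phi_eq, Finset.sum_comm]
  refine Finset.sum_congr rfl fun S _ => Finset.sum_congr rfl fun S' _ => ?_
  rw [Finset.inter_comm]; ring

lemma Phi_nonneg (hq : ∀ h, 0 < q h) (h0 : ∀ i h, 0 ≤ τ i h) (L L' : List κ) :
    0 ≤ Phi q τ L L' :=
  EE_nonneg h0 _ fun _ => EE_nonneg h0 _ fun _ => (inv_pos.mpr (qs_pos hq _)).le

lemma Phi_nil {L : List κ} (h1 : ∀ i ∈ L, ∑ h, τ i h = 1) : Phi q τ [] L = 1 := by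
  simp only [Phi, EE, Finset.empty_inter, qs, Finset.prod_empty, inv_one]
  exact EE_const h1 1

lemma Phi_cons (hq : ∀ h, 0 < q h) (h0 : ∀ i h, 0 ≤ τ i h) {i : κ} (h1 : ∑ h, τ i h = 1)
    (L L' : List κ) : Phi q τ (i :: L) L' ≤
      Phi q τ L L' + ((picks L').map fun p => eps q τ i p.1 * Phi q τ L p.2).sum := by
  have hG : ∀ S, 0 ≤ (qs q S)⁻¹ := fun S => (inv_pos.mpr (qs_pos hq _)).le
  have e1 : ∀ h S, EE τ L' (fun S' => (qs q (insert h S ∩ S'))⁻¹) ≤
      EE τ L' (fun S' => (qs q (S ∩ S'))⁻¹) + (q h)⁻¹ *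
        ((picks L').map fun p => τ p.1 h * EE τ p.2 fun S' => (qs q (S ∩ S'))⁻¹).sum := by
    intro h S
    by_cases hS : h ∈ S
    · rw [Finset.insert_eq_of_mem hS]
      refine le_add_of_nonneg_right (mul_nonneg (inv_pos.mpr (hq h)).le (List.sum_nonneg ?_))
      intro x hx
      obtain ⟨p, -, rfl⟩ := List.mem_map.mp hx
      exact mul_nonneg (h0 _ _) (EE_nonneg h0 _ fun S => hG _)
    · have h2 := EE_mem_le h0 L' h (F := fun S' => (qs q (S ∩ S'))⁻¹) (fun S => hG _)
        (fun S' => by rw [Finset.inter_insert_of_notMem hS])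
      refine le_trans ?_ (add_le_add_right (mul_le_mul_of_nonneg_left h2 (inv_pos.mpr (hq h)).le) _)
      rw [← EE_mul, ← EE_add]
      apply EE_mono h0
      intro S'
      by_cases hS' : h ∈ S'
      · rw [if_pos hS', Finset.insert_inter_of_mem hS', qs,
          Finset.prod_insert (fun hh => hS (Finset.mem_inter.mp hh).1), mul_inv]
        exact le_add_of_nonneg_left (hG _)
      · rw [if_neg hS', Finset.insert_inter_of_notMem hS']; simp
  have e2 : ∀ h, τ i h * EE τ L (fun S => EE τ L' (fun S' => (qs q (insert h S ∩ S'))⁻¹)) ≤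
      τ i h * Phi q τ L L' + ((picks L').map fun p => τ i h * τ p.1 h / q h * Phi q τ L p.2).sum := by
    intro h
    have h2 := EE_mono h0 L (e1 h)
    rw [EE_add, EE_mul, EE_lsum] at h2
    refine (mul_le_mul_of_nonneg_left h2 (h0 i h)).trans (le_of_eq ?_)
    rw [mul_add, ← List.sum_map_mul_left, ← List.sum_map_mul_left]
    congr 2
    apply List.map_congr_left
    intro p _
    rw [EE_mul, Phi]; ring
  refine (Finset.sum_le_sum fun h _ => e2 h).trans (le_of_eq ?_)
  rw [Finset.sum_add_distrib, ← Finset.sum_mul, h1, one_mul, lsum_finsum]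
  congr 2
  apply List.map_congr_left
  intro p _
  rw [eps, Finset.sum_mul]

lemma lsum_le_of_picks {L : List κ} {f : κ × List κ → ℝ} {g : κ → ℝ}
    (h : ∀ p ∈ picks L, f p ≤ g p.1) : ((picks L).map f).sum ≤ (L.map g).sum := by
  conv_rhs => rw [← picks_map_fst L, List.map_map]
  exact List.sum_le_sum h

/-- weakly overlapping witnesses -/
lemma Phi_le_far (hq : ∀ h, 0 < q h) (h0 : ∀ i h, 0 ≤ τ i h) {L L' : List κ}
    (h1 : ∀ i ∈ L, ∑ h, τ i h = 1) (h1' : ∀ i ∈ L', ∑ h, τ i h = 1) {e : ℝ} (he : 0 ≤ e)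
    (hε : ∀ i ∈ L, ∀ i' ∈ L', eps q τ i i' ≤ e) :
    Phi q τ L L' ≤ Real.exp (L.length * L'.length * e) := by
  have key : ∀ L'' : List κ, L''.Sublist L' → Phi q τ L L'' ≤ (1 + L'.length * e) ^ L.length := by
    induction L with
    | nil =>
      intro L'' h
      rw [Phi_nil fun i hi => h1' i (h.subset hi)]; simp
    | cons i L ih =>
      intro L'' h
      have ih' := ih (fun j hj => h1 j (List.mem_cons_of_mem _ hj))
        (fun j hj => hε j (List.mem_cons_of_mem _ hj))
      have hB : 0 ≤ (1 + L'.length * e) ^ L.length := by positivity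
      refine (Phi_cons hq h0 (h1 i List.mem_cons_self) L L'').trans ?_
      have h2 : ((picks L'').map fun p => eps q τ i p.1 * Phi q τ L p.2).sum ≤
          (L''.map fun _ => e * (1 + L'.length * e) ^ L.length).sum := by
        apply lsum_le_of_picks (g := fun _ => e * (1 + L'.length * e) ^ L.length)
        intro p hp
        have hp1 : p.1 ∈ L' := h.subset ((picks_perm hp).symm.subset List.mem_cons_self)
        exact mul_le_mul (hε i List.mem_cons_self _ hp1) (ih' _ ((picks_sublist hp).trans h))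
          (Phi_nonneg hq h0 _ _) he
      rw [List.map_const', List.sum_replicate, nsmul_eq_mul] at h2
      have h3 : (L''.length : ℝ) ≤ L'.length := by exact_mod_cast h.length_le
      have h4 := ih' L'' h
      rw [List.length_cons, pow_succ]
      nlinarith [mul_le_mul_of_nonneg_right h3 (mul_nonneg he hB)]
  refine (key L' (List.Sublist.refl _)).trans ?_
  rw [mul_assoc, Real.exp_nat_mul]
  apply pow_le_pow_left₀ (by positivity)
  linarith [Real.add_one_le_exp (L'.length * e)]

/-- the suffix property of the greedy grouping -/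
def Gd (s : κ → κ → ℝ) : List κ → Prop
  | [] => True
  | i :: R => ((i :: R).map (s i)).sum ≤ 5 ∧ Gd s R

lemma Phi_le_self (hq : ∀ h, 0 < q h) (h0 : ∀ i h, 0 ≤ τ i h) {s : κ → κ → ℝ}
    (hs : ∀ i j, 0 ≤ s i j) {a : κ → ℝ} (ha : ∀ i, 1 ≤ a i) {L : List κ}
    (h1 : ∀ i ∈ L, ∑ h, τ i h = 1)
    (hε : ∀ i ∈ L, ∀ i' ∈ L, eps q τ i i' ≤ a i * a i' * s i i') (hG : Gd s L) :
    ∀ L₁ L₂ : List κ, L₁.Sublist L → L₂.Sublist L →
      Phi q τ L₁ L₂ ≤ (L₁.map fun i => 6 * a i).prod * (L₂.map fun i => 6 * a i).prod := by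
  have hP : ∀ M : List κ, 0 ≤ (M.map fun i => 6 * a i).prod := fun M =>
    List.prod_nonneg fun x hx => by
      obtain ⟨i, -, rfl⟩ := List.mem_map.mp hx
      linarith [ha i]
  induction L with
  | nil =>
    intro L₁ L₂ h₁ h₂
    rw [List.sublist_nil.mp h₁, List.sublist_nil.mp h₂, Phi_nil (by simp)]; simp
  | cons i R ih =>
    have ih' := ih (fun j hj => h1 j (List.mem_cons_of_mem _ hj))
      (fun j hj j' hj' => hε j (List.mem_cons_of_mem _ hj) j' (List.mem_cons_of_mem _ hj')) hG.2
    have step : ∀ L₁ L₂ : List κ, L₂.Sublist (i :: R) →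
        (∀ L₃ : List κ, L₃.Sublist L₂ → Phi q τ L₁ L₃ ≤
          (L₁.map fun i => 6 * a i).prod * (L₃.map fun i => 6 * a i).prod) →
        Phi q τ (i :: L₁) L₂ ≤
          ((i :: L₁).map fun i => 6 * a i).prod * (L₂.map fun i => 6 * a i).prod := by
      intro L₁ L₂ h₂ hrec
      refine (Phi_cons hq h0 (h1 i List.mem_cons_self) L₁ L₂).trans ?_
      set B := (L₁.map fun i => 6 * a i).prod * (L₂.map fun i => 6 * a i).prod with hB
      have hB0 : 0 ≤ B := mul_nonneg (hP _) (hP _)
      have h2 : ((picks L₂).map fun p => eps q τ i p.1 * Phi q τ L₁ p.2).sum ≤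
          (L₂.map fun j => a i * B * s i j).sum := by
        apply lsum_le_of_picks (g := fun j => a i * B * s i j)
        intro p hp
        have hp1 : p.1 ∈ i :: R := h₂.subset ((picks_perm hp).symm.subset List.mem_cons_self)
        have h3 := mul_le_mul (hε i List.mem_cons_self _ hp1) (hrec _ (picks_sublist hp))
          (Phi_nonneg hq h0 _ _) (mul_nonneg (mul_nonneg (by linarith [ha i]) (by linarith [ha p.1]))
            (hs _ _))
        refine h3.trans ?_
        have h4 : (L₂.map fun i => 6 * a i).prod = 6 * a p.1 * (p.2.map fun i => 6 * a i).prod := by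
          rw [((picks_perm hp).map _).prod_eq]; simp
        rw [hB, h4]
        have h5 := mul_nonneg (mul_nonneg (mul_nonneg (show 0 ≤ a i by linarith [ha i])
          (show 0 ≤ a p.1 by linarith [ha p.1])) (hs i p.1)) (mul_nonneg (hP L₁) (hP p.2))
        nlinarith
      have h3 : (L₂.map fun j => a i * B * s i j).sum ≤ a i * B * 5 := by
        rw [List.sum_map_mul_left]
        apply mul_le_mul_of_nonneg_left _ (mul_nonneg (by linarith [ha i]) hB0)
        refine le_trans ((h₂.map _).sum_le_sum ?_) hG.1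
        intro x hx
        obtain ⟨j, -, rfl⟩ := List.mem_map.mp hx
        exact hs _ _
      have h4 := hrec L₂ (List.Sublist.refl _)
      rw [List.map_cons, List.prod_cons, mul_assoc, ← hB]
      nlinarith [mul_le_mul_of_nonneg_right (ha i) hB0]
    have half : ∀ L₁ L₂ : List κ, L₁.Sublist R → L₂.Sublist (i :: R) →
        Phi q τ L₁ L₂ ≤ (L₁.map fun i => 6 * a i).prod * (L₂.map fun i => 6 * a i).prod := by
      intro L₁ L₂ h₁ h₂
      rcases List.sublist_cons_iff.mp h₂ with h | ⟨L₃, rfl, h⟩
      · exact ih' _ _ h₁ h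
      · rw [Phi_symm, mul_comm]
        exact step L₃ L₁ (h₁.cons _) fun L₄ h₄ => ih' _ _ h (h₄.trans h₁)
    intro L₁ L₂ h₁ h₂
    rcases List.sublist_cons_iff.mp h₁ with h | ⟨L₃, rfl, h⟩
    · exact half _ _ h h₂
    · exact step L₃ L₂ h₂ fun L₄ h₄ => half _ _ h (h₄.trans h₂)

lemma qs_union (hq : ∀ h, 0 < q h) (S S' : Finset H) :
    qs q (S ∪ S') = qs q S * qs q S' * (qs q (S ∩ S'))⁻¹ := by
  have h := Finset.prod_union_inter (s₁ := S) (s₂ := S') (f := q)
  have h2 := qs_pos hq (S ∩ S')
  simp only [qs] at h2 ⊢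
  rw [← h]; field_simp

lemma Phi_eq_Ex (hq : ∀ h, 0 < q h) (L L' : List κ) :
    Phi q τ L L' = Ex q fun ω => WW (fun S => lw τ L S / qs q S) ω *
      WW (fun S => lw τ L' S / qs q S) ω := by
  have : (fun ω => WW (fun S => lw τ L S / qs q S) ω * WW (fun S => lw τ L' S / qs q S) ω) =
      fun ω => ∑ S, ∑ S', if S ∪ S' ⊆ ω then lw τ L S / qs q S * (lw τ L' S' / qs q S') else 0 := by
    funext ω
    simp only [WW, Finset.sum_mul_sum]
    refine Finset.sum_congr rfl fun S _ => Finset.sum_congr rfl fun S' _ => ?_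
    by_cases h1 : S ⊆ ω <;> by_cases h2 : S' ⊆ ω <;> simp [h1, h2, Finset.union_subset_iff]
  rw [this, Ex_sum, Phi_eq]
  refine Finset.sum_congr rfl fun S _ => ?_
  rw [Ex_sum]
  refine Finset.sum_congr rfl fun S' _ => ?_
  rw [Ex_ind, qs_union hq]
  have := qs_pos hq S
  have := qs_pos hq S'
  field_simp

lemma Phi_le_avg (hq : ∀ h, 0 < q h) (hq1 : ∀ h, q h ≤ 1) (L L' : List κ) :
    2 * Phi q τ L L' ≤ Phi q τ L L + Phi q τ L' L' := by
  rw [Phi_eq_Ex hq, Phi_eq_Ex hq, Phi_eq_Ex hq, ← Ex_mul, ← Ex_add]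
  apply Ex_mono (fun h => (hq h).le) hq1
  intro ω
  nlinarith [sq_nonneg (WW (fun S => lw τ L S / qs q S) ω - WW (fun S => lw τ L' S / qs q S) ω)]

open Classical in
/-- no planted witness is sampled with small probability -/
theorem planted (hq : ∀ h, 0 < q h) (hq2 : ∀ h, q h ≤ 1 / 2) (h0 : ∀ i h, 0 ≤ τ i h)
    {ι : Type} (Y : Finset ι) (L : ι → List κ) (h1 : ∀ η ∈ Y, ∀ i ∈ L η, ∑ h, τ i h = 1)
    (Δ : ℝ) (hΔ : ∑ η ∈ Y, ∑ η' ∈ Y,
      min (Phi q τ (L η) (L η')) (2 * (Phi q τ (L η) (L η') - 1)) ≤ Δ) (t : ℝ) (ht : 0 ≤ t) :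
    Ex q (fun ω => if ∃ η ∈ Y, ∀ i ∈ L η, ∃ h ∈ ω, τ i h ≠ 0 then 0 else 1) ≤
      Real.exp (-t * Y.card + t ^ 2 * Δ / 2) := by
  have hq0 : ∀ h, 0 ≤ q h := fun h => (hq h).le
  have hq1 : ∀ h, q h ≤ 1 := fun h => by linarith [hq2 h]
  let c : Finset H → ℝ := fun S => ∑ η ∈ Y, lw τ (L η) S / qs q S
  have hsum : ∀ η ∈ Y, ∑ S, lw τ (L η) S = 1 := fun η hη => by
    have := EE_const (h1 η hη) 1
    rw [EE_eq] at this
    simpa using this
  have hJ := janson hq0 hq1 c (fun S => Finset.sum_nonneg fun η _ =>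
    div_nonneg (lw_nonneg h0 _ _) (qs_pos hq S).le) Y.card Δ ?_ ?_ t ht
  · refine le_trans (Ex_mono hq0 hq1 fun ω => ?_) hJ
    split_ifs with hω
    · exact (Real.exp_pos _).le
    · have : WW c ω = 0 := by
        apply Finset.sum_eq_zero
        intro S _
        split_ifs with hS
        · apply Finset.sum_eq_zero
          intro η hη
          rw [lw, EE_supp, zero_div]
          intro S' hS'
          rw [if_neg]
          rintro rfl
          exact hω ⟨η, hη, fun i hi => (hS' i hi).imp fun h hh => ⟨hS hh.1, hh.2⟩⟩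
        · rfl
      rw [this]; simp
  · simp only [c, Finset.sum_mul]
    rw [Finset.sum_comm, Finset.card_eq_sum_ones, Nat.cast_sum]
    refine Finset.sum_congr rfl fun η hη => ?_
    rw [Nat.cast_one, ← hsum η hη]
    exact Finset.sum_congr rfl fun S _ => div_mul_cancel₀ _ (qs_pos hq S).ne'
  · refine le_trans (le_of_eq ?_) (le_trans (Finset.sum_le_sum fun η hη =>
      Finset.sum_le_sum fun η' hη' => (?_ : (∑ S, ∑ S', lw τ (L η) S * lw τ (L η') S' *
        (if Disjoint S S' then 0 else (qs q (S ∩ S'))⁻¹)) ≤ _)) hΔ)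
    · have : ∀ S S', (if Disjoint S S' then 0 else c S * c S' * qs q (S ∪ S')) =
          ∑ η ∈ Y, ∑ η' ∈ Y, lw τ (L η) S * lw τ (L η') S' *
            (if Disjoint S S' then 0 else (qs q (S ∩ S'))⁻¹) := by
        intro S S'
        split_ifs
        · simp
        · simp only [c]
          rw [Finset.sum_mul_sum, Finset.sum_mul]
          refine Finset.sum_congr rfl fun η _ => ?_
          rw [Finset.sum_mul]
          refine Finset.sum_congr rfl fun η' _ => ?_
          rw [qs_union hq]
          have := qs_pos hq S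
          have := qs_pos hq S'
          field_simp
      simp only [this]
      rw [Finset.sum_congr rfl fun S _ => Finset.sum_comm, Finset.sum_comm]
      refine Finset.sum_congr rfl fun η _ => ?_
      rw [Finset.sum_congr rfl fun S _ => Finset.sum_comm, Finset.sum_comm]
    · have hnn : ∀ S S', 0 ≤ lw τ (L η) S * lw τ (L η') S' := fun S S' =>
        mul_nonneg (lw_nonneg h0 _ _) (lw_nonneg h0 _ _)
      apply le_min
      · rw [Phi_eq]
        refine Finset.sum_le_sum fun S _ => Finset.sum_le_sum fun S' _ =>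
          mul_le_mul_of_nonneg_left ?_ (hnn S S')
        split_ifs
        · exact (inv_pos.mpr (qs_pos hq _)).le
        · exact le_rfl
      · have e1 : (1 : ℝ) = ∑ S, ∑ S', lw τ (L η) S * lw τ (L η') S' := by
          rw [← Finset.sum_mul_sum, hsum η hη, hsum η' hη', one_mul]
        rw [Phi_eq]
        conv_rhs => rw [e1]
        rw [← Finset.sum_sub_distrib, Finset.mul_sum]
        refine Finset.sum_le_sum fun S _ => ?_
        rw [← Finset.sum_sub_distrib, Finset.mul_sum]
        refine Finset.sum_le_sum fun S' _ => ?_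
        have e2 : (if Disjoint S S' then 0 else (qs q (S ∩ S'))⁻¹) ≤
            2 * ((qs q (S ∩ S'))⁻¹ - 1) := by
          split_ifs with hd
          · rw [Finset.disjoint_iff_inter_eq_empty.mp hd]; simp [qs]
          · obtain ⟨h, hh⟩ := Finset.not_disjoint_iff_nonempty_inter.mp hd
            have h2 : qs q (S ∩ S') ≤ 1 / 2 := by
              rw [qs, ← Finset.mul_prod_erase _ _ hh]
              have h3 : ∏ x ∈ (S ∩ S').erase h, q x ≤ 1 :=
                Finset.prod_le_one (fun x _ => hq0 x) fun x _ => hq1 x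
              nlinarith [hq0 h, hq2 h]
            have h3 : 2 ≤ (qs q (S ∩ S'))⁻¹ := by
              rw [le_inv_comm₀ (by norm_num) (qs_pos hq _)]
              linarith
            linarith
        nlinarith [mul_le_mul_of_nonneg_left e2 (hnn S S')]

end Crest.Agent.LC.Low
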