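import Crest.Agent.LC.LowC

set_option autoImplicit false

namespace Crest.Agent.LC.Low

open Finset MeasureTheory
open scoped Pointwise

variable {n N : ℕ}

/-- Euclidean ball of squared radius `t` -/
def Bl (n : ℕ) (t : ℝ) : Set (Fin n → ℝ) := {z | sq z ≤ t}

lemma continuous_sq : Continuous (sq : (Fin n → ℝ) → ℝ) := by
  unfold sq; fun_prop

lemma isClosed_Bl (t : ℝ) : IsClosed (Bl n t) := isClosed_le continuous_sq continuous_const

lemma isCompact_Bl (t : ℝ) : IsCompact (Bl n t) := by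
  refine (isCompact_closedBall (0 : Fin n → ℝ) (|t| + 1)).of_isClosed_subset (isClosed_Bl t) ?_
  intro z hz
  rw [mem_closedBall_zero_iff, pi_norm_le_iff_of_nonneg (by positivity)]
  intro i
  have h1 := (sq_apply_le z i).trans hz
  have h2 := le_abs_self t
  exact abs_le_of_sq_le_sq (by nlinarith [abs_nonneg t]) (by positivity)

lemma convex_Bl (t : ℝ) : Convex ℝ (Bl n t) := by
  intro x hx y hy a b ha hb hab
  have h : sq (a • x + b • y) ≤ a * sq x + b * sq y := by
    simp only [sq, Finset.mul_sum, ← Finset.sum_add_distrib]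
    refine Finset.sum_le_sum fun i _ => ?_
    simp only [Pi.add_apply, Pi.smul_apply, smul_eq_mul]
    have : b = 1 - a := by linarith
    subst this
    nlinarith [mul_nonneg (mul_nonneg ha hb) (sq_nonneg (x i - y i))]
  have h1 := mul_le_mul_of_nonneg_left (show sq x ≤ t from hx) ha
  have h2 := mul_le_mul_of_nonneg_left (show sq y ≤ t from hy) hb
  have h3 : a * t + b * t = t := by rw [← add_mul, hab, one_mul]
  exact h.trans (by linarith)

lemma Bl_nhds : Bl n 1 ∈ nhds (0 : Fin n → ℝ) := by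
  have : {z : Fin n → ℝ | sq z < 1} ∈ nhds (0 : Fin n → ℝ) :=
    (isOpen_lt continuous_sq continuous_const).mem_nhds (by simp [sq])
  exact Filter.mem_of_superset this fun z hz => (le_of_lt hz : sq z ≤ 1)

lemma vol_Bl_pos : 0 < volume.real (Bl n 1) :=
  ENNReal.toReal_pos (Measure.measure_pos_of_mem_nhds volume Bl_nhds).ne'
    (isCompact_Bl 1).measure_lt_top.ne

lemma vol_Bl_sq {r : ℝ} (hr : 0 ≤ r) :
    volume.real (Bl n (r ^ 2)) ≤ r ^ n * volume.real (Bl n 1) := by
  have h1 : Bl n (r ^ 2) ⊆ r • Bl n 1 := by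
    intro z hz
    rcases hr.eq_or_lt with rfl | hr'
    · refine ⟨0, by simp [Bl, sq], ?_⟩
      funext i
      have := (sq_apply_le z i).trans hz
      simp only [zero_smul, Pi.zero_apply]
      nlinarith [sq_nonneg (z i)]
    · refine ⟨r⁻¹ • z, ?_, by simp [smul_smul, hr'.ne']⟩
      change sq (r⁻¹ • z) ≤ 1
      rw [sq_smul, inv_pow, inv_mul_le_iff₀ (by positivity), mul_one]
      exact hz
  have h2 : volume (r • Bl n 1) = ENNReal.ofReal (r ^ n) * volume (Bl n 1) := by
    rw [Measure.addHaar_smul_of_nonneg volume hr]; simp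
  refine (measureReal_mono h1 ?_).trans (le_of_eq ?_)
  · rw [h2]; exact ENNReal.mul_ne_top ENNReal.ofReal_ne_top (isCompact_Bl 1).measure_lt_top.ne
  · rw [measureReal_def, h2, ENNReal.toReal_mul, ENNReal.toReal_ofReal (by positivity),
      measureReal_def]

lemma vol_Bl_le (t : ℝ) :
    volume.real (Bl n t) ≤ Real.exp (n * ((t - 1) / 2)) * volume.real (Bl n 1) := by
  by_cases ht : 0 ≤ t
  · have h1 := vol_Bl_sq (n := n) (Real.sqrt_nonneg t)
    rw [Real.sq_sqrt ht] at h1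
    refine h1.trans (mul_le_mul_of_nonneg_right ?_ vol_Bl_pos.le)
    rw [Real.exp_nat_mul]
    apply pow_le_pow_left₀ (Real.sqrt_nonneg t)
    have h2 := Real.add_one_le_exp ((t - 1) / 2)
    have h3 := Real.sq_sqrt ht
    nlinarith [sq_nonneg (Real.sqrt t - 1)]
  · have : Bl n t = ∅ := Set.eq_empty_of_forall_notMem fun z hz =>
      ht ((sq_nonneg' z).trans hz)
    rw [this, measureReal_empty]
    exact mul_nonneg (Real.exp_pos _).le vol_Bl_pos.le

/-- the random convex body -/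
def Kb (ω : Finset (HH n N)) : Set (Fin n → ℝ) :=
  {z | sq z ≤ 1 ∧ ∀ h ∈ ω, |Af h.1 z| ≤ ((h.2 : ℕ) : ℝ) + 1}

lemma continuous_Af (ε : Sg n N) : Continuous (Af ε) := (Af ε).continuous_of_finiteDimensional

lemma isClosed_Kb (ω : Finset (HH n N)) : IsClosed (Kb ω) := by
  have : Kb ω = Bl n 1 ∩ ⋂ h ∈ ω, {z | |Af h.1 z| ≤ ((h.2 : ℕ) : ℝ) + 1} := by
    ext z; simp [Kb, Bl]
  rw [this]
  exact (isClosed_Bl 1).inter (isClosed_biInter fun h _ =>
    isClosed_le (continuous_Af h.1).abs continuous_const)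

lemma isCompact_Kb (ω : Finset (HH n N)) : IsCompact (Kb ω) :=
  (isCompact_Bl 1).of_isClosed_subset (isClosed_Kb ω) fun _ hz => hz.1

lemma convex_Kb (ω : Finset (HH n N)) : Convex ℝ (Kb ω) := by
  intro x hx y hy a b ha hb hab
  refine ⟨convex_Bl 1 hx.1 hy.1 ha hb hab, fun h hh => ?_⟩
  rw [map_add, map_smul, map_smul, smul_eq_mul, smul_eq_mul]
  refine (abs_add_le _ _).trans ?_
  rw [abs_mul, abs_mul, abs_of_nonneg ha, abs_of_nonneg hb]
  have h1 := mul_le_mul_of_nonneg_left (hx.2 h hh) ha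
  have h2 := mul_le_mul_of_nonneg_left (hy.2 h hh) hb
  have h3 : a * (((h.2 : ℕ) : ℝ) + 1) + b * (((h.2 : ℕ) : ℝ) + 1) = ((h.2 : ℕ) : ℝ) + 1 := by
    rw [← add_mul, hab, one_mul]
  linarith

lemma interior_Kb (ω : Finset (HH n N)) : (interior (Kb ω)).Nonempty := by
  refine ⟨0, mem_interior_iff_mem_nhds.mpr ?_⟩
  have h1 : ∀ᶠ z in nhds (0 : Fin n → ℝ), ∀ h ∈ ω, |Af h.1 z| ≤ ((h.2 : ℕ) : ℝ) + 1 := by
    rw [Filter.eventually_all_finset]
    intro h _
    have : {z : Fin n → ℝ | |Af h.1 z| < ((h.2 : ℕ) : ℝ) + 1} ∈ nhds (0 : Fin n → ℝ) :=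
      (isOpen_lt (continuous_Af h.1).abs continuous_const).mem_nhds (by
        simp only [Set.mem_ofPred_eq, map_zero, abs_zero]; positivity)
    exact Filter.mem_of_superset this fun z hz =>
      (le_of_lt hz : |Af h.1 z| ≤ ((h.2 : ℕ) : ℝ) + 1)
  exact Filter.mem_of_superset (Filter.inter_mem Bl_nhds h1) fun z hz => ⟨hz.1, hz.2⟩

lemma neg_mem_Kb (ω : Finset (HH n N)) {x : Fin n → ℝ} (hx : x ∈ Kb ω) : -x ∈ Kb ω :=
  ⟨by rw [sq_neg]; exact hx.1, fun h hh => by rw [map_neg, abs_neg]; exact hx.2 h hh⟩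

lemma Ex_vol (hN : 4 ≤ N) : Ex (qq n N) (fun ω => volume.real (Bl n 1 \ Kb ω)) ≤
    volume.real (Bl n 1) / 2 := by
  classical
  let S : HH n N → Set (Fin n → ℝ) := fun h => {z | ((h.2 : ℕ) : ℝ) + 1 < |Af h.1 z|}
  have hS : ∀ h, MeasurableSet (S h) := fun h =>
    (isOpen_lt continuous_const (continuous_Af h.1).abs).measurableSet
  have hB : volume (Bl n 1) ≠ ⊤ := (isCompact_Bl 1).measure_lt_top.ne
  have h1 : ∀ ω : Finset (HH n N), volume.real (Bl n 1 \ Kb ω) ≤
      ∑ h, if {h} ⊆ ω then volume.real (Bl n 1 ∩ S h) else 0 := by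
    intro ω
    have e : ∑ h, (if {h} ⊆ ω then volume.real (Bl n 1 ∩ S h) else 0) =
        ∑ h ∈ ω, volume.real (Bl n 1 ∩ S h) := by
      simp only [Finset.singleton_subset_iff]
      rw [← Finset.sum_filter]; congr 1; ext; simp
    rw [e]
    refine le_trans (measureReal_mono ?_ ?_) (measureReal_biUnion_finset_le ω _)
    · intro z hz
      have h2 : ¬ ∀ h ∈ ω, |Af h.1 z| ≤ ((h.2 : ℕ) : ℝ) + 1 := fun h => hz.2 ⟨hz.1, h⟩
      push Not at h2
      obtain ⟨h, hh, h3⟩ := h2
      exact Set.mem_biUnion hh ⟨hz.1, h3⟩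
    · exact measure_ne_top_of_subset (Set.iUnion₂_subset fun _ _ => Set.inter_subset_left) hB
  refine (Ex_mono (fun h => (qq_pos h).le) (fun h => (qq_le hN h).trans (by norm_num)) h1).trans ?_
  rw [Ex_sum]
  simp only [Ex_ind, qs, Finset.prod_singleton]
  have hint : ∀ h, IntegrableOn ((S h).indicator fun _ => qq n N h) (Bl n 1) volume := fun h =>
    (integrableOn_const hB).indicator (hS h)
  have e1 : ∀ h, qq n N h * volume.real (Bl n 1 ∩ S h) =
      ∫ z in Bl n 1, (S h).indicator (fun _ => qq n N h) z := fun h => by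
    rw [setIntegral_indicator (hS h), setIntegral_const, smul_eq_mul, mul_comm]
  simp only [e1]
  rw [← integral_finsetSum _ fun h _ => hint h]
  refine (setIntegral_mono_on (integrable_finsetSum _ fun h _ => hint h) (integrableOn_const hB)
    (isClosed_Bl 1).measurableSet (g := fun _ => 1 / 2) fun z hz => ?_).trans (le_of_eq ?_)
  · refine le_trans (le_of_eq ?_) (cut_one (N := N) (by omega) hz)
    refine Finset.sum_congr rfl fun h _ => ?_
    simp only [Set.indicator, S, Set.mem_ofPred_eq]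
  · rw [setIntegral_const, smul_eq_mul]; ring

/-- averaging over translations -/
lemma exists_transl (X : Set (Fin n → ℝ)) (hX : ∀ R : ℝ, (X ∩ {x | ∀ i, |x i| ≤ R}).Finite)
    {D : ℝ} (hD0 : 0 ≤ D)
    (hD : ∀ᶠ R : ℝ in Filter.atTop, ((X ∩ {x | ∀ i, |x i| ≤ R}).ncard : ℝ) ≤ D * (2 * R) ^ n)
    (φ : (Fin n → ℝ) → ℝ) (hφ0 : ∀ v, 0 ≤ φ v) (hφ : Integrable φ) :
    ∃ (y : Fin n → ℝ) (F : Finset (Fin n → ℝ)), (∀ x ∈ X, (∀ i, |x i - y i| ≤ 3) → x ∈ F) ∧
      ∑ x ∈ F, φ (x - y) ≤ 2 * D * ∫ v, φ v := by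
  have h1 : ∀ᶠ R : ℝ in Filter.atTop, (2 * (R + 3)) ^ n ≤ 2 * (2 * R) ^ n := by
    have h2 : Filter.Tendsto (fun R : ℝ => (1 + 3 * R⁻¹) ^ n) Filter.atTop (nhds ((1 + 3 * 0) ^ n)) :=
      (tendsto_const_nhds.add (tendsto_inv_atTop_zero.const_mul 3)).pow n
    rw [mul_zero, add_zero, one_pow] at h2
    filter_upwards [h2.eventually (gt_mem_nhds (show (1 : ℝ) < 2 by norm_num)),
      Filter.eventually_gt_atTop 0] with R h3 h4
    have : 2 * (R + 3) = (1 + 3 * R⁻¹) * (2 * R) := by field_simp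
    rw [this, mul_pow]
    exact mul_le_mul_of_nonneg_right h3.le (by positivity)
  obtain ⟨R, hR1, hR2, hR3⟩ := (h1.and (((Filter.tendsto_atTop_add_const_right _ 3
    Filter.tendsto_id).eventually hD).and (Filter.eventually_gt_atTop 0))).exists
  simp only [id] at hR2
  set F := (hX (R + 3)).toFinset with hF
  have hFc : (F.card : ℝ) ≤ 2 * D * (2 * R) ^ n := by
    rw [hF, ← Set.ncard_eq_toFinset_card _ (hX (R + 3))]
    nlinarith [mul_le_mul_of_nonneg_left hR1 hD0]
  have hvol : volume (Metric.closedBall (0 : Fin n → ℝ) R) = ENNReal.ofReal ((2 * R) ^ n) := by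
    rw [Real.volume_pi_closedBall _ hR3.le]; simp
  have hint : ∀ x, Integrable fun y => φ (x - y) := fun x => hφ.comp_sub_left x
  obtain ⟨y, hy, h2⟩ := exists_le_setAverage (μ := volume)
    (s := Metric.closedBall (0 : Fin n → ℝ) R) (f := fun y => ∑ x ∈ F, φ (x - y))
    (by rw [hvol]; simp; positivity) (by rw [hvol]; exact ENNReal.ofReal_ne_top)
    (integrable_finsetSum _ fun x _ => hint x).integrableOn
  refine ⟨y, F, fun x hx h => ?_, h2.trans ?_⟩
  · rw [hF, Set.Finite.mem_toFinset]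
    refine ⟨hx, fun i => ?_⟩
    rw [mem_closedBall_zero_iff, pi_norm_le_iff_of_nonneg hR3.le] at hy
    have h3 : |y i| ≤ R := hy i
    have h4 := abs_add_le (x i - y i) (y i)
    rw [sub_add_cancel] at h4
    linarith [h i]
  · rw [setAverage_eq, measureReal_def, hvol, ENNReal.toReal_ofReal (by positivity), smul_eq_mul,
      inv_mul_le_iff₀ (by positivity)]
    refine (setIntegral_le_integral (integrable_finsetSum _ fun x _ => hint x)
      (Filter.Eventually.of_forall fun y => Finset.sum_nonneg fun x _ => hφ0 _)).trans ?_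
    rw [integral_finsetSum _ fun x _ => hint x]
    simp only [integral_sub_left_eq_self]
    rw [Finset.sum_const, nsmul_eq_mul]
    have := mul_le_mul_of_nonneg_right hFc (integral_nonneg (μ := volume) hφ0)
    linarith

/-- the depth weight -/
noncomputable def uw (n N : ℕ) (z : Fin n → ℝ) : ℝ :=
  ∑ j ∈ range (n + 1), (Bl n (1 + 4 / N - 4 * j / n)).indicator (fun _ => (2 : ℝ) ^ j) z

lemma integrable_Bl (t c : ℝ) : Integrable ((Bl n t).indicator fun _ => c) :=
  (integrable_indicator_iff (isClosed_Bl t).measurableSet).mpr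
    (integrableOn_const (isCompact_Bl t).measure_lt_top.ne)

lemma uw_nonneg (z : Fin n → ℝ) : 0 ≤ uw n N z :=
  Finset.sum_nonneg fun _ _ => Set.indicator_nonneg (fun _ _ => by positivity) _

lemma integrable_uw : Integrable (uw n N) :=
  integrable_finsetSum _ fun _ _ => integrable_Bl _ _

lemma integral_uw (hn : 0 < n) (hN : 2 * n ≤ N) : ∫ z, uw n N z ≤ 6 * volume.real (Bl n 1) := by
  have hn' : (0 : ℝ) < n := by exact_mod_cast hn
  have hN' : (2 * n : ℝ) ≤ N := by exact_mod_cast hN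
  unfold uw
  rw [integral_finsetSum _ fun _ _ => integrable_Bl _ _]
  have h1 : ∀ j ∈ range (n + 1), ∫ z, (Bl n (1 + 4 / N - 4 * j / n)).indicator
      (fun _ => (2 : ℝ) ^ j) z ≤ 3 * volume.real (Bl n 1) * (1 / 2) ^ j := by
    intro j _
    rw [integral_indicator_const _ (isClosed_Bl _).measurableSet, smul_eq_mul]
    refine (mul_le_mul_of_nonneg_right (vol_Bl_le _) (by positivity)).trans ?_
    have e1 : (n : ℝ) * ((1 + 4 / N - 4 * j / n - 1) / 2) = 2 * n / N + -(2 * j) := by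
      field_simp; ring
    have e2 : 2 * (n : ℝ) / N ≤ 1 := (div_le_one (by linarith)).mpr hN'
    have e3 : Real.exp (2 * n / N) ≤ 3 := (Real.exp_le_exp.mpr e2).trans Real.exp_one_lt_three.le
    have e4 : ((1 : ℝ) / 2) ^ j = (1 / 4) ^ j * 2 ^ j := by rw [← mul_pow]; norm_num
    rw [e1, Real.exp_add, e4]
    have := mul_le_mul e3 (exp_neg_two_le j) (Real.exp_pos _).le (by norm_num)
    have h2 := mul_le_mul_of_nonneg_right this
      (mul_nonneg (vol_Bl_pos (n := n)).le (show (0 : ℝ) ≤ 2 ^ j by positivity))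
    linarith
  refine (Finset.sum_le_sum h1).trans ?_
  rw [← Finset.mul_sum]
  nlinarith [sum_half_pow_le (range (n + 1)), vol_Bl_pos (n := n)]

lemma sq_add_le (hn : 0 < n) (hN : 3 ≤ N) {z e : Fin n → ℝ} (hz : sq z ≤ 2)
    (he : ∀ i, |e i| ≤ 1 / (n * N ^ 2)) : N * sq (z + e) ≤ N * sq z + 2 := by
  have hn' : (1 : ℝ) ≤ n := by exact_mod_cast hn
  have hN' : (3 : ℝ) ≤ N := by exact_mod_cast hN
  set h : ℝ := 1 / (n * N ^ 2) with hh
  have h0 : 0 < h := by positivity
  have h1 : h ≤ 1 := by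
    rw [hh, div_le_one (by positivity)]; nlinarith
  have h2 : sq (z + e) ≤ sq z + ∑ _i : Fin n, 5 * h := by
    rw [sq, sq, ← Finset.sum_add_distrib]
    refine Finset.sum_le_sum fun i _ => ?_
    have a1 : |z i| ≤ 2 := abs_le_of_sq_le_sq (by linarith [sq_apply_le z i]) (by norm_num)
    have a2 : z i * e i ≤ 2 * h := (le_abs_self _).trans (by
      rw [abs_mul]; exact mul_le_mul a1 (he i) (abs_nonneg _) (by norm_num))
    have a3 : e i ^ 2 ≤ h := by
      rw [← sq_abs]; nlinarith [abs_nonneg (e i), he i]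
    simp only [Pi.add_apply]
    nlinarith
  rw [Finset.sum_const, nsmul_eq_mul, Finset.card_univ, Fintype.card_fin] at h2
  have h3 : N * (n * (5 * h)) = 5 / N := by rw [hh]; field_simp
  have h4 : (5 : ℝ) / N ≤ 2 := by rw [div_le_iff₀ (by linarith)]; linarith
  nlinarith

lemma two_pow_lev_le (hn : 0 < n) (hN : 3 ≤ N) {z e : Fin n → ℝ} (hz : N * sq z ≤ N + 2)
    (he : ∀ i, |e i| ≤ 1 / (n * N ^ 2)) : (2 : ℝ) ^ lev z ≤ uw n N (z + e) := by
  have hn' : (0 : ℝ) < n := by exact_mod_cast hn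
  have hN' : (3 : ℝ) ≤ N := by exact_mod_cast hN
  have h0 := sq_nonneg' z
  have h1 := sq_add_le hn hN (z := z) (by nlinarith) he
  have h2 : lev z ∈ range (n + 1) := by
    rw [Finset.mem_range]
    have : lev z ≤ n := Nat.floor_le_of_le (by nlinarith)
    omega
  refine le_trans (le_of_eq ?_) (Finset.single_le_sum (f := fun j : ℕ =>
    (Bl n (1 + 4 / N - 4 * j / n)).indicator (fun _ => (2 : ℝ) ^ j) (z + e))
    (fun _ _ => Set.indicator_nonneg (fun _ _ => by positivity) _) h2)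
  rw [Set.indicator_of_mem]
  change sq (z + e) ≤ _
  have h3 : sq (z + e) ≤ sq z + 2 / N := by
    rw [add_div' _ _ _ (by linarith), le_div_iff₀ (by linarith)]; linarith
  have h4 : (0 : ℝ) < 2 / N := by positivity
  have h5 : (4 : ℝ) / N = 2 / N + 2 / N := by ring
  rcases Nat.eq_zero_or_pos (lev z) with h6 | h6
  · have h7 : sq z ≤ 1 + 2 / N := by
      rw [add_div' _ _ _ (by linarith), le_div_iff₀ (by linarith)]; linarith
    rw [h6]; simp; linarith
  · have h7 : (lev z : ℝ) ≤ n * (1 - sq z) / 4 := Nat.floor_le (by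
      have := Nat.floor_pos.mp h6
      linarith)
    have h8 : 4 * (lev z : ℝ) / n ≤ 1 - sq z := by rw [div_le_iff₀ hn']; linarith
    linarith

end Crest.Agent.LC.Low
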