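import Crest.Agent.LC.Blk

/-! The cube level of a random stage. -/

set_option autoImplicit false
open Finset

namespace Crest.Agent.LC

lemma mgf_prod {d : ℕ} (E : Finset ℤ) (π ψ : ℤ → ℝ) (hπ : ∀ x ∈ E, 0 ≤ π x) (h1 : ∑ x ∈ E, π x = 1)
    (hψ0 : ∑ x ∈ E, π x * ψ x = 0) {R t : ℝ} (hψ : ∀ x ∈ E, |ψ x| ≤ R) (ht : |t| * R ≤ 1) :
    ∑ x ∈ Fintype.piFinset (fun _ : Fin d => E), (∏ i, π (x i)) * Real.exp (t * ∑ i, ψ (x i)) ≤
      Real.exp (d * (t ^ 2 * R ^ 2)) := by
  have e : ∀ x : Fin d → ℤ, (∏ i, π (x i)) * Real.exp (t * ∑ i, ψ (x i)) =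
      ∏ i, (π (x i) * Real.exp (t * ψ (x i))) := by
    intro x; rw [mul_sum, Real.exp_sum, prod_mul_distrib]
  simp only [e]
  rw [← prod_univ_sum (fun _ : Fin d => E) (fun _ x => π x * Real.exp (t * ψ x))]
  simp only [prod_const, card_univ, Fintype.card_fin]
  rw [Real.exp_nat_mul]
  apply pow_le_pow_left₀ (sum_nonneg fun x hx => mul_nonneg (hπ x hx) (Real.exp_pos _).le)
  calc _ ≤ ∑ x ∈ E, π x * (1 + t * ψ x + t ^ 2 * R ^ 2) := by
        refine sum_le_sum fun x hx => mul_le_mul_of_nonneg_left ?_ (hπ x hx)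
        have h2 : |t * ψ x| ≤ |t| * R := by
          rw [abs_mul]; exact mul_le_mul_of_nonneg_left (hψ x hx) (abs_nonneg _)
        have h3 := Real.abs_exp_sub_one_sub_id_le (h2.trans ht)
        have h4 : (t * ψ x) ^ 2 ≤ (|t| * R) ^ 2 := by
          rw [← sq_abs (t * ψ x)]; exact pow_le_pow_left₀ (abs_nonneg _) h2 2
        rw [mul_pow |t|, sq_abs] at h4
        linarith [le_abs_self (Real.exp (t * ψ x) - 1 - t * ψ x)]
    _ = 1 + t ^ 2 * R ^ 2 := by
        have : ∀ x, π x * (1 + t * ψ x + t ^ 2 * R ^ 2) =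
            (1 + t ^ 2 * R ^ 2) * π x + t * (π x * ψ x) := fun x => by ring
        simp only [this, sum_add_distrib, ← mul_sum, h1, hψ0]; ring
    _ ≤ _ := by linarith [Real.add_one_le_exp (t ^ 2 * R ^ 2)]

lemma conc_prod {d : ℕ} (E : Finset ℤ) (π φ : ℤ → ℝ) (hπ : ∀ x ∈ E, 0 ≤ π x)
    (h1 : ∑ x ∈ E, π x = 1) {L R t w : ℝ} (hφ : ∀ x ∈ E, L ≤ φ x ∧ φ x ≤ L + R) (ht0 : 0 ≤ t)
    (ht : t * R ≤ 1) :
    ∑ x ∈ Fintype.piFinset (fun _ : Fin d => E), (∏ i, π (x i)) *
      (if w < |∑ i, φ (x i) - d * ∑ y ∈ E, π y * φ y| then 1 else 0) ≤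
      2 * Real.exp (-(t * w) + d * (t ^ 2 * R ^ 2)) := by
  set m := ∑ y ∈ E, π y * φ y with hm
  have hm1 : L ≤ m := by
    calc L = ∑ y ∈ E, π y * L := by rw [← sum_mul, h1, one_mul]
      _ ≤ m := sum_le_sum fun y hy => mul_le_mul_of_nonneg_left (hφ y hy).1 (hπ y hy)
  have hm2 : m ≤ L + R := by
    calc m ≤ ∑ y ∈ E, π y * (L + R) :=
          sum_le_sum fun y hy => mul_le_mul_of_nonneg_left (hφ y hy).2 (hπ y hy)
      _ = _ := by rw [← sum_mul, h1, one_mul]
  have hψ0 : ∑ x ∈ E, π x * (φ x - m) = 0 := by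
    simp only [mul_sub, sum_sub_distrib, ← sum_mul, h1, ← hm]; ring
  have hψ : ∀ x ∈ E, |φ x - m| ≤ R := fun x hx => by
    have := hφ x hx; rw [abs_le]; constructor <;> linarith
  have a1 := mgf_prod (d := d) E π (fun x => φ x - m) hπ h1 hψ0 hψ (t := t)
    (by rwa [abs_of_nonneg ht0])
  have a2 := mgf_prod (d := d) E π (fun x => φ x - m) hπ h1 hψ0 hψ (t := -t)
    (by rwa [abs_neg, abs_of_nonneg ht0])
  rw [neg_sq] at a2
  calc _ ≤ ∑ x ∈ Fintype.piFinset (fun _ : Fin d => E), Real.exp (-(t * w)) *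
        ((∏ i, π (x i)) * Real.exp (t * ∑ i, (φ (x i) - m)) +
          (∏ i, π (x i)) * Real.exp (-t * ∑ i, (φ (x i) - m))) := by
        refine sum_le_sum fun x hx => ?_
        have hp : 0 ≤ ∏ i, π (x i) := prod_nonneg fun i _ => hπ _ (Fintype.mem_piFinset.1 hx i)
        rw [← mul_add, mul_left_comm]
        apply mul_le_mul_of_nonneg_left _ hp
        have e : ∑ i, (φ (x i) - m) = ∑ i, φ (x i) - d * m := by simp [sum_sub_distrib]
        rw [e, mul_add, ← Real.exp_add, ← Real.exp_add]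
        set u := ∑ i, φ (x i) - d * m
        have b1 := Real.exp_pos (-(t * w) + t * u)
        have b2 := Real.exp_pos (-(t * w) + -t * u)
        split_ifs with hw
        · rcases lt_abs.1 hw with hw | hw
          · have : 1 ≤ Real.exp (-(t * w) + t * u) := Real.one_le_exp (by nlinarith)
            linarith
          · have : 1 ≤ Real.exp (-(t * w) + -t * u) := Real.one_le_exp (by nlinarith)
            linarith
        · linarith
    _ ≤ _ := by
        rw [← mul_sum, sum_add_distrib, Real.exp_add]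
        have := Real.exp_pos (-(t * w))
        nlinarith

section
variable (Q : ℕ) [NeZero Q]

noncomputable def fib (c : ZMod Q) : Finset ℤ := (Finset.Ico (-(Q : ℤ)) Q).filter (fun x => (x : ZMod Q) = c)

lemma fib_eq (c : ZMod Q) : fib Q c = {(c.val : ℤ), (c.val : ℤ) - Q} := by
  have hc := ZMod.val_lt c
  ext x
  simp only [fib, mem_filter, mem_Ico, mem_insert, mem_singleton]
  constructor
  · rintro ⟨⟨h1, h2⟩, h3⟩
    have h4 : ((x - c.val : ℤ) : ZMod Q) = 0 := by push_cast; rw [h3]; simp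
    obtain ⟨u, hu⟩ := (ZMod.intCast_zmod_eq_zero_iff_dvd _ _).1 h4
    have hQ : (0 : ℤ) < Q := by omega
    have h5 : u < 1 := by by_contra h; push Not at h; nlinarith
    have h6 : -2 < u := by by_contra h; push Not at h; nlinarith
    have : u = 0 ∨ u = -1 := by omega
    rcases this with rfl | rfl
    · left; linarith
    · right; linarith
  · rintro (rfl | rfl)
    · exact ⟨⟨by omega, by omega⟩, by simp⟩
    · exact ⟨⟨by omega, by omega⟩, by simp⟩

lemma sum_fib (c : ZMod Q) (a : ℤ → ℝ) : ∑ x ∈ fib Q c, a x = a c.val + a (c.val - Q) := by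
  have : (0 : ℤ) < Q := by exact_mod_cast Nat.pos_of_ne_zero (NeZero.ne Q)
  rw [fib_eq, sum_pair (by omega)]

end

theorem stageA (d Q : ℕ) [NeZero Q] {h w t : ℝ} (hh : 3 ≤ h) (hQ : 2 * h ^ 2 ≤ Q)
    (hdη : d * (h / Q) ≤ 1 / 2) (ht0 : 0 ≤ t) (ht : t * h ^ 2 ≤ 1) :
    ∃ (JA : (Fin d → ZMod Q) → Finset (Fin d → ℤ)) (W A : ℝ),
      (∀ c, ∀ x ∈ JA c, (fun i => (x i : ZMod Q)) = c ∧ (∀ i, |x i| ≤ Q) ∧
        Real.exp (A - w) ≤ ∏ i, h * gau (h / Q * x i) ∧
        ∏ i, h * gau (h / Q * x i) ≤ Real.exp (A + w)) ∧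
      (∀ c, Tree (JA c)) ∧
      (∀ c, ∑ x ∈ JA c, ∏ i, h * gau (h / Q * x i) ≤ Real.exp (W + w)) ∧
      av (fun c => if (JA c).Nonempty then (1 : ℝ) else 0) ≤ 2 * Real.exp (-(W - w)) ∧
      1 - d * (Real.exp (-h ^ 2 / 2) + h / Q) - 8 * Real.exp (-(t * w) + d * (t ^ 2 * (h ^ 2) ^ 2)) ≤
        av (fun c => ∑ x ∈ JA c, ∏ i, h * gau (h / Q * x i)) ∧
      av (fun c => ∑ x ∈ JA c, ∏ i, h * gau (h / Q * x i)) ≤ 2 ∧
      d * (Real.exp (-h ^ 2 / 8) / (60 * h)) ≤ W - A ∧ d * (Real.log h - 14) ≤ A ∧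
      W ≤ d * Real.log h := by
  classical
  have hh0 : 0 < h := by linarith
  have hQ0 : (0 : ℝ) < Q := by nlinarith
  set η := h / Q with hη
  have hη0 : 0 < η := by positivity
  have hηh : 2 * η ≤ 1 / h := by
    rw [hη, le_div_iff₀ hh0, ← mul_div_assoc, div_mul_eq_mul_div, div_le_one hQ0]; nlinarith
  have hη6 : η ≤ 1 / 6 := by
    have : 1 / h ≤ 1 / 3 := one_div_le_one_div_of_le (by norm_num) hh
    linarith
  have hηQ : η * Q = h := by rw [hη]; field_simp
  let E := Finset.Ico (-(Q : ℤ)) Q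
  let a : ℤ → ℝ := fun x => h * gau (η * x)
  have ha0 : ∀ x, 0 < a x := fun x => mul_pos hh0 (gau_pos _)
  let S : ZMod Q → ℝ := fun c => ∑ x ∈ fib Q c, a x
  set Z := ∑ x ∈ E, η * gau (η * x) with hZ
  have hZ1 : Z ≤ 1 + η := sum_Ico_gs_le hη0 Q
  have hZ2 : 1 - Real.exp (-h ^ 2 / 2) - η ≤ Z := by
    have := sum_Ico_gs_ge hη0 Q; rwa [hηQ] at this
  have hexp : Real.exp (-h ^ 2 / 2) ≤ 1 / 4 := by
    have : Real.exp (-h ^ 2 / 2) = (Real.exp (h ^ 2 / 2))⁻¹ := by rw [← Real.exp_neg]; ring_nf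
    rw [this, one_div]
    apply inv_anti₀ (by norm_num)
    nlinarith [Real.add_one_le_exp (h ^ 2 / 2)]
  have hZh : 1 / 2 ≤ Z := by linarith
  have hZ0 : 0 < Z := by linarith
  let π : ℤ → ℝ := fun x => η * gau (η * x) / Z
  have hπ0 : ∀ x, 0 ≤ π x := fun x => div_nonneg (mul_nonneg hη0.le (gau_pos _).le) hZ0.le
  have hπ1 : ∑ x ∈ E, π x = 1 := by simp only [π]; rw [← sum_div, ← hZ, div_self hZ0.ne']
  have haπ : ∀ x, a x = Q * Z * π x := by
    intro x; simp only [a, π]; rw [← hηQ]; field_simp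
  have hEabs : ∀ x ∈ E, |x| ≤ Q := fun x hx => by
    have := mem_Ico.1 hx; rw [abs_le]; omega
  have hEsq : ∀ x ∈ E, (η * x) ^ 2 ≤ h ^ 2 := fun x hx => by
    have h1 : |(x : ℝ)| ≤ Q := by exact_mod_cast hEabs x hx
    rw [← sq_abs, abs_mul, abs_of_pos hη0, ← hηQ]; gcongr
  have hfibE : ∀ c, fib Q c ⊆ E := fun c => filter_subset _ _
  have hself : ∀ x ∈ E, x ∈ fib Q (x : ZMod Q) := fun x hx => mem_filter.2 ⟨hx, rfl⟩
  have haS : ∀ x ∈ E, a x ≤ S (x : ZMod Q) := fun x hx =>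
    single_le_sum (f := a) (fun y _ => (ha0 y).le) (hself x hx)
  have hS0 : ∀ c, 0 < S c := fun c => by
    simp only [S]; rw [sum_fib]; exact add_pos (ha0 _) (ha0 _)
  have hS1 : ∀ c, S c ≤ 2 * (h * gau 0) := fun c => by
    simp only [S]; rw [sum_fib]
    have h1 : ∀ x, a x ≤ h * gau 0 := fun x =>
      mul_le_mul_of_nonneg_left (gau_le_of_sq (by simpa using sq_nonneg _)) hh0.le
    linarith [h1 c.val, h1 (c.val - Q)]
  have hSh : ∀ c, S c ≤ h := fun c => by nlinarith [hS1 c, gau_le_half 0]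
  set L := Real.log (h * gau h) with hL
  have hLa : ∀ x ∈ E, L ≤ Real.log (a x) := fun x hx =>
    Real.log_le_log (mul_pos hh0 (gau_pos _))
      (mul_le_mul_of_nonneg_left (gau_le_of_sq (hEsq x hx)) hh0.le)
  have hLS : ∀ c, Real.log (S c) ≤ L + h ^ 2 := fun c => by
    refine (Real.log_le_log (hS0 c) (hS1 c)).trans ?_
    rw [hL, Real.log_mul (by norm_num) (mul_pos hh0 (gau_pos _)).ne',
      Real.log_mul hh0.ne' (gau_pos _).ne', Real.log_mul hh0.ne' (gau_pos _).ne', log_gau, log_gau]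
    have := Real.log_le_sub_one_of_pos (by norm_num : (0 : ℝ) < 2)
    nlinarith
  have hlaS : ∀ x ∈ E, Real.log (a x) ≤ Real.log (S x) := fun x hx =>
    Real.log_le_log (ha0 x) (haS x hx)
  set sb := ∑ y ∈ E, π y * Real.log (S y) with hsb
  set ab := ∑ y ∈ E, π y * Real.log (a y) with hab
  have c1 := conc_prod (d := d) E π (fun x => Real.log (S x)) (fun x _ => hπ0 x) hπ1 (w := w)
    (fun x hx => ⟨(hLa x hx).trans (hlaS x hx), hLS _⟩) ht0 ht
  have c2 := conc_prod (d := d) E π (fun x => Real.log (a x)) (fun x _ => hπ0 x) hπ1 (w := w)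
    (fun x hx => ⟨hLa x hx, (hlaS x hx).trans (hLS _)⟩) ht0 ht
  rw [← hsb] at c1; rw [← hab] at c2
  let Gd : (Fin d → ℤ) → Prop := fun x => |∑ i, Real.log (S (x i)) - d * sb| ≤ w ∧
    |∑ i, Real.log (a (x i)) - d * ab| ≤ w
  let C : (Fin d → ZMod Q) → Finset (Fin d → ℤ) := fun c => Fintype.piFinset fun i => fib Q (c i)
  have hC : ∀ c, ∀ x ∈ C c, ∀ i, (x i : ZMod Q) = c i := fun c x hx i =>
    (mem_filter.1 (Fintype.mem_piFinset.1 hx i)).2
  have hCS : ∀ c, ∑ x ∈ C c, ∏ i, a (x i) = ∏ i, S (c i) := fun c =>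
    (prod_univ_sum (fun i => fib Q (c i)) (fun _ x => a x)).symm
  have hGS : ∀ c, ∀ x ∈ (C c).filter Gd, Real.exp (d * sb - w) ≤ ∏ i, S (c i) ∧
      ∏ i, S (c i) ≤ Real.exp (d * sb + w) := by
    intro c x hx
    obtain ⟨hx1, hx2, -⟩ := mem_filter.1 hx
    simp only [hC c x hx1] at hx2
    have e : ∏ i, S (c i) = Real.exp (∑ i, Real.log (S (c i))) := by
      rw [Real.exp_sum]; simp only [Real.exp_log (hS0 _)]
    rw [e, Real.exp_le_exp, Real.exp_le_exp]
    have := abs_le.1 hx2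
    constructor <;> linarith [this.1, this.2]
  have hZd : Z ^ d ≤ 2 := by
    calc Z ^ d ≤ Real.exp η ^ d :=
          pow_le_pow_left₀ hZ0.le (by linarith [Real.add_one_le_exp η]) d
      _ = Real.exp (d * η) := (Real.exp_nat_mul _ _).symm
      _ ≤ Real.exp (Real.log 2) := Real.exp_le_exp.2 (by linarith [Real.log_two_gt_d9])
      _ = 2 := Real.exp_log (by norm_num)
  have hcard : (Fintype.card (Fin d → ZMod Q) : ℝ) = Q ^ d := by simp [ZMod.card]
  have havS : av (fun c : Fin d → ZMod Q => ∏ i, S (c i)) = Z ^ d := by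
    unfold av
    rw [hcard, ← Fintype.piFinset_univ, ← prod_univ_sum (fun _ => univ) (fun _ c => S c)]
    have : ∑ c, S c = Q * Z := by
      simp only [S, fib]
      rw [sum_fiberwise (s := E) (g := fun x : ℤ => (x : ZMod Q)) (f := a)]
      simp only [haπ, ← mul_sum, hπ1, mul_one]
    simp only [this, prod_const, card_univ, Fintype.card_fin, mul_pow]
    field_simp
  have havG : av (fun c => ∑ x ∈ (C c).filter Gd, ∏ i, a (x i)) =
      Z ^ d * ∑ x ∈ (Fintype.piFinset fun _ : Fin d => E).filter Gd, ∏ i, π (x i) := by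
    unfold av
    rw [hcard, ← sum_fiberwise (s := (Fintype.piFinset fun _ : Fin d => E).filter Gd)
      (g := fun x i => (x i : ZMod Q)), sum_div, mul_sum univ]
    refine sum_congr rfl fun c _ => ?_
    have : (C c).filter Gd = ((Fintype.piFinset fun _ : Fin d => E).filter Gd).filter
        (fun x => (fun i => (x i : ZMod Q)) = c) := by
      ext x
      simp only [C, mem_filter, Fintype.mem_piFinset, fib, funext_iff, E, forall_and]
      tauto
    rw [this, sum_div, mul_sum (filter _ _)]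
    refine sum_congr rfl fun x _ => ?_
    simp only [haπ, prod_mul_distrib, prod_const, card_univ, Fintype.card_fin]
    field_simp
  have htot : ∑ x ∈ (Fintype.piFinset fun _ : Fin d => E), ∏ i, π (x i) = 1 := by
    rw [← prod_univ_sum (fun _ : Fin d => E) (fun _ x => π x)]; simp [hπ1]
  have hpp : ∀ x : Fin d → ℤ, 0 ≤ ∏ i, π (x i) := fun x => prod_nonneg fun i _ => hπ0 _
  refine ⟨fun c => (C c).filter Gd, d * sb, d * ab, ?_, ?_, ?_, ?_, ?_, ?_, ?_, ?_, ?_⟩
  · intro c x hx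
    obtain ⟨hx1, -, hx2⟩ := mem_filter.1 hx
    refine ⟨funext (hC c x hx1), fun i => hEabs _ (hfibE _ (Fintype.mem_piFinset.1 hx1 i)), ?_⟩
    have e : ∏ i, h * gau (η * x i) = Real.exp (∑ i, Real.log (a (x i))) := by
      rw [Real.exp_sum]; simp only [Real.exp_log (ha0 _)]; rfl
    rw [e, Real.exp_le_exp, Real.exp_le_exp]
    have := abs_le.1 hx2
    constructor <;> linarith [this.1, this.2]
  · intro c i x hx y hy z hz _
    have h1 := Fintype.mem_piFinset.1 (mem_filter.1 hx).1 i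
    have h2 := Fintype.mem_piFinset.1 (mem_filter.1 hy).1 i
    have h3 := Fintype.mem_piFinset.1 (mem_filter.1 hz).1 i
    rw [fib_eq, mem_insert, mem_singleton] at h1 h2 h3
    omega
  · intro c
    rcases ((C c).filter Gd).eq_empty_or_nonempty with h0 | ⟨x, hx⟩
    · simp only [h0, sum_empty]; exact (Real.exp_pos _).le
    · refine le_trans ?_ (hGS c x hx).2
      rw [← hCS]
      exact sum_le_sum_of_subset_of_nonneg (filter_subset _ _)
        fun x _ _ => prod_nonneg fun i _ => (ha0 _).le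
  · calc _ ≤ av (fun c : Fin d → ZMod Q => Real.exp (-(d * sb - w)) * ∏ i, S (c i)) := by
          refine av_mono fun c => ?_
          split_ifs with hc
          · obtain ⟨x, hx⟩ := hc
            rw [Real.exp_neg, le_inv_mul_iff₀ (Real.exp_pos _), mul_one]
            exact (hGS c x hx).1
          · exact mul_nonneg (Real.exp_pos _).le (prod_nonneg fun i _ => (hS0 _).le)
      _ ≤ _ := by
          rw [av_const_mul, havS, mul_comm]
          exact mul_le_mul_of_nonneg_right hZd (Real.exp_pos _).le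
  · refine le_trans ?_ havG.ge
    set P := Real.exp (-(t * w) + d * (t ^ 2 * (h ^ 2) ^ 2))
    have b1 : 1 - 4 * P ≤
        ∑ x ∈ (Fintype.piFinset fun _ : Fin d => E).filter Gd, ∏ i, π (x i) := by
      have := add_le_add c1 c2
      rw [← sum_add_distrib] at this
      rw [sum_filter, ← htot]
      have b2 : ∑ x ∈ (Fintype.piFinset fun _ : Fin d => E), ∏ i, π (x i) ≤
          ∑ x ∈ (Fintype.piFinset fun _ : Fin d => E), ((if Gd x then ∏ i, π (x i) else 0) +
          ((∏ i, π (x i)) * (if w < |∑ i, Real.log (S (x i)) - d * sb| then 1 else 0) +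
            (∏ i, π (x i)) * (if w < |∑ i, Real.log (a (x i)) - d * ab| then 1 else 0))) := by
        refine sum_le_sum fun x _ => ?_
        have := hpp x
        by_cases g1 : w < |∑ i, Real.log (S (x i)) - d * sb| <;>
        by_cases g2 : w < |∑ i, Real.log (a (x i)) - d * ab|
        · rw [if_pos g1, if_pos g2]; split_ifs <;> linarith
        · rw [if_pos g1, if_neg g2]; split_ifs <;> linarith
        · rw [if_neg g1, if_pos g2]; split_ifs <;> linarith
        · rw [if_pos ⟨not_lt.1 g1, not_lt.1 g2⟩, if_neg g1, if_neg g2]; linarith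
      rw [sum_add_distrib] at b2
      linarith
    have b3 : 1 - d * (Real.exp (-h ^ 2 / 2) + η) ≤ Z ^ d := by
      have := one_add_mul_le_pow (a := -(Real.exp (-h ^ 2 / 2) + η)) (by linarith) d
      refine le_trans (by linarith) (this.trans (pow_le_pow_left₀ (by linarith) (by linarith) d))
    have b4 : 0 < P := Real.exp_pos _
    have b5 : 0 ≤ Z ^ d := by positivity
    nlinarith [mul_le_mul_of_nonneg_left b1 b5]
  · refine havG.le.trans ?_
    have : ∑ x ∈ (Fintype.piFinset fun _ : Fin d => E).filter Gd, ∏ i, π (x i) ≤ 1 := by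
      rw [← htot]
      exact sum_le_sum_of_subset_of_nonneg (filter_subset _ _) fun x _ _ => hpp x
    have b5 : 0 ≤ Z ^ d := by positivity
    nlinarith
  · rw [← mul_sub]
    apply mul_le_mul_of_nonneg_left _ (Nat.cast_nonneg _)
    rw [hsb, hab, ← sum_sub_distrib]
    let x0 : ℕ := Q / 2 + 1
    let n0 : ℕ := ⌈Q / h ^ 2⌉₊
    have hx0 : (x0 : ℝ) ≤ Q / 2 + 1 := by
      simp only [x0]; push_cast; linarith [Nat.cast_div_le (α := ℝ) (m := Q) (n := 2)]
    have hn0 : (n0 : ℝ) ≤ Q / h ^ 2 + 1 := (Nat.ceil_lt_add_one (by positivity)).le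
    have hn1 : Q / h ^ 2 ≤ (n0 : ℝ) := Nat.le_ceil _
    have hF : ∀ x ∈ Finset.Ico (x0 : ℤ) (x0 + n0), η * x ≤ h / 2 + 2 / h := by
      intro x hx
      have h1 : (x : ℝ) ≤ x0 + n0 := by exact_mod_cast (mem_Ico.1 hx).2.le
      have h2 : η * (Q / 2 + 1 + (Q / h ^ 2 + 1)) = h / 2 + 1 / h + 2 * η := by
        rw [← hηQ]; field_simp; ring
      have h3 : η * x ≤ η * (Q / 2 + 1 + (Q / h ^ 2 + 1)) :=
        mul_le_mul_of_nonneg_left (by linarith) hη0.le
      have h4 : 2 / h = 1 / h + 1 / h := by ring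
      linarith
    have h2h : 2 / h ≤ 2 / 3 := div_le_div_of_nonneg_left (by norm_num) (by norm_num) hh
    have hFQ : ∀ x ∈ Finset.Ico (x0 : ℤ) (x0 + n0), x < Q := by
      intro x hx
      have h1 : η * x < η * Q := by rw [hηQ]; linarith [hF x hx]
      exact_mod_cast lt_of_mul_lt_mul_left h1 hη0.le
    have hFE : Finset.Ico (x0 : ℤ) (x0 + n0) ⊆ E := by
      intro x hx
      have := hFQ x hx; have := (mem_Ico.1 hx).1
      exact mem_Ico.2 ⟨by omega, by omega⟩
    refine le_trans ?_ (sum_le_sum_of_subset_of_nonneg hFE fun x hx _ => by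
      rw [← mul_sub]; exact mul_nonneg (hπ0 x) (sub_nonneg.2 (hlaS x hx)))
    have hterm : ∀ x ∈ Finset.Ico (x0 : ℤ) (x0 + n0), η * Real.exp (-h ^ 2 / 8) / 60 ≤
        π x * Real.log (S x) - π x * Real.log (a x) := by
      intro x hx
      have h1 := hFQ x hx
      have h2 := (mem_Ico.1 hx).1
      have h3 : (Q : ℤ) ≤ 2 * x := by simp only [x0] at h2; push_cast at h2; omega
      have hval : (((x : ZMod Q).val : ℕ) : ℤ) = x := by
        rw [ZMod.val_intCast]; exact Int.emod_eq_of_lt (by omega) h1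
      have h4 : 2 * a x ≤ S x := by
        simp only [S]; rw [sum_fib, hval]
        have : a x ≤ a (x - Q) := by
          apply mul_le_mul_of_nonneg_left (gau_le_of_sq _) hh0.le
          have h3' : (Q : ℝ) ≤ 2 * x := by exact_mod_cast h3
          push_cast
          rw [mul_pow, mul_pow]
          apply mul_le_mul_of_nonneg_left _ (sq_nonneg _)
          nlinarith
        linarith
      have h5 : 1 / 2 ≤ Real.log (S x) - Real.log (a x) := by
        have := Real.log_le_log (by linarith [ha0 x]) h4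
        rw [Real.log_mul (by norm_num) (ha0 x).ne'] at this
        linarith [Real.log_two_gt_d9]
      have h6 : Real.exp (-h ^ 2 / 8) / 15 ≤ gau (η * x) := by
        refine le_trans ?_ (exp_le_gau _)
        have hx0' : (0 : ℝ) ≤ η * x := mul_nonneg hη0.le (by exact_mod_cast (by omega : 0 ≤ x))
        have h7 : (η * x) ^ 2 ≤ (h / 2 + 2 / h) ^ 2 := pow_le_pow_left₀ hx0' (hF x hx) 2
        have h8 : (h / 2 + 2 / h) ^ 2 = h ^ 2 / 4 + 2 + (2 / h) ^ 2 := by field_simp; ring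
        have h9 : (2 / h) ^ 2 ≤ 1 := by
          have : 0 ≤ 2 / h := by positivity
          nlinarith
        have h10 : Real.exp (-h ^ 2 / 8) ≤ Real.exp (3 / 2) * Real.exp (-(η * x) ^ 2 / 2) := by
          rw [← Real.exp_add]; apply Real.exp_le_exp.2; linarith
        have h11 : Real.exp (3 / 2) ≤ 5 := by
          have e1 : Real.exp (3 / 2) ^ 2 = Real.exp 1 ^ 3 := by
            rw [← Real.exp_nat_mul, ← Real.exp_nat_mul]; norm_num
          have e2 := Real.exp_one_lt_d9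
          have e3 : Real.exp 1 ^ 3 ≤ 2.8 ^ 3 := pow_le_pow_left₀ (Real.exp_pos _).le (by linarith) 3
          nlinarith [Real.exp_pos (3 / 2)]
        nlinarith [Real.exp_pos (-(η * x) ^ 2 / 2)]
      have h7 : η * Real.exp (-h ^ 2 / 8) / 30 ≤ π x := by
        simp only [π]
        rw [le_div_iff₀ hZ0]
        have := mul_le_mul_of_nonneg_left h6 hη0.le
        have h8 : 0 ≤ η * Real.exp (-h ^ 2 / 8) := by positivity
        nlinarith
      rw [← mul_sub]
      have := mul_le_mul h7 h5 (by norm_num) (hπ0 x)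
      linarith
    refine le_trans ?_ (sum_le_sum hterm)
    simp only [sum_const, Int.card_Ico, add_sub_cancel_left, Int.toNat_natCast, nsmul_eq_mul]
    have e : Real.exp (-h ^ 2 / 8) / (60 * h) = Q / h ^ 2 * (η * Real.exp (-h ^ 2 / 8) / 60) := by
      rw [hη]; field_simp
    rw [e]
    exact mul_le_mul_of_nonneg_right hn1 (by positivity)
  · apply mul_le_mul_of_nonneg_left _ (Nat.cast_nonneg _)
    have h1 : ∀ x, Real.log h - 2 - (η * x) ^ 2 / 2 ≤ Real.log (a x) := by
      intro x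
      simp only [a]
      rw [Real.log_mul hh0.ne' (gau_pos _).ne', log_gau]
      have := Real.log_le_sub_one_of_pos (lt_of_lt_of_le (by norm_num) sqrt2pi_ge)
      linarith [sqrt2pi_le]
    have h2 : ∑ x ∈ E, π x * (η * x) ^ 2 ≤ 24 := by
      have := sum_Ico_gs_sq_le hη0 (by linarith) Q
      simp only [π, div_mul_eq_mul_div]
      rw [← sum_div, div_le_iff₀ hZ0]
      linarith
    calc _ ≤ ∑ x ∈ E, π x * (Real.log h - 2 - (η * x) ^ 2 / 2) := by
          have : ∀ x, π x * (Real.log h - 2 - (η * x) ^ 2 / 2) =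
              (Real.log h - 2) * π x - (1 / 2) * (π x * (η * x) ^ 2) := fun x => by ring
          simp only [this, sum_sub_distrib, ← mul_sum, hπ1]
          linarith
      _ ≤ ab := sum_le_sum fun x _ => mul_le_mul_of_nonneg_left (h1 x) (hπ0 x)
  · apply mul_le_mul_of_nonneg_left _ (Nat.cast_nonneg _)
    calc sb ≤ ∑ x ∈ E, π x * Real.log h :=
          sum_le_sum fun x _ => mul_le_mul_of_nonneg_left (Real.log_le_log (hS0 _) (hSh _)) (hπ0 x)
      _ = _ := by rw [← sum_mul, hπ1, one_mul]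

end Crest.Agent.LC
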