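import Crest.Agent.LC.StageA

/-! The selection level of a random stage, and the flat stages. -/

set_option autoImplicit false
open Finset

namespace Crest.Agent.LC

lemma invUp_zmod (d Q q : ℕ) (hQ : Q.Prime) (hq : q < Q) : InvUp (Fin d → ZMod Q) q := by
  intro m hm hmq
  have := Fact.mk hQ
  have h1 : (m : ZMod Q) ≠ 0 := by
    intro h
    have := Int.le_of_dvd (abs_pos.2 hm) ((dvd_abs _ _).2 ((ZMod.intCast_zmod_eq_zero_iff_dvd _ _).1 h))
    omega
  constructor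
  · intro x y h
    funext i
    have := congrFun h i
    simp only [Pi.smul_apply, zsmul_eq_mul] at this
    exact mul_left_cancel₀ h1 this
  · intro y
    refine ⟨fun i => (m : ZMod Q)⁻¹ * y i, funext fun i => ?_⟩
    simp only [Pi.smul_apply, zsmul_eq_mul]
    rw [← mul_assoc, mul_inv_cancel₀ h1, one_mul]

lemma tree_cons {d : ℕ} {J : Finset (Fin d → ℤ)} (hJ : Tree J) (j : ℤ) [DecidableEq (Fin (d + 1) → ℤ)] :
    Tree (J.image (fun x => (Fin.cons j x : Fin (d + 1) → ℤ))) := by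
  intro i z1 h1 z2 h2 z3 h3 hj
  obtain ⟨x, hx, rfl⟩ := mem_image.1 h1
  obtain ⟨y, hy, rfl⟩ := mem_image.1 h2
  obtain ⟨z, hz, rfl⟩ := mem_image.1 h3
  refine Fin.cases (fun _ => ?_) (fun i hj => ?_) i hj
  · simp
  · simp only [Fin.cons_succ]
    refine hJ i x hx y hy z hz fun j hji => ?_
    simpa using hj j.succ (Fin.succ_lt_succ_iff.2 hji)

theorem stageB (d Q q X : ℕ) [NeZero Q] (hQ : Q.Prime) (hq : q < Q) {h w z W A e1 y : ℝ}
    (hh : 0 < h) (hhQ : h ≤ Q) (hz : 0 < z) (hzX : z ≤ X) (hXq : 2 * X ≤ q) (hzy : z ≤ y)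
    (hhy : h ≤ y) (he1 : e1 ≤ 1) (he10 : 0 ≤ e1)
    (JA : (Fin d → ZMod Q) → Finset (Fin d → ℤ))
    (h1 : ∀ c, ∀ x ∈ JA c, (fun i => (x i : ZMod Q)) = c ∧ (∀ i, |x i| ≤ Q) ∧
        Real.exp (A - w) ≤ ∏ i, h * gau (h / Q * x i) ∧
        ∏ i, h * gau (h / Q * x i) ≤ Real.exp (A + w))
    (h2 : ∀ c, Tree (JA c))
    (h3 : ∀ c, ∑ x ∈ JA c, ∏ i, h * gau (h / Q * x i) ≤ Real.exp (W + w))
    (h4 : av (fun c => if (JA c).Nonempty then (1 : ℝ) else 0) ≤ 2 * Real.exp (-(W - w)))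
    (h5 : 1 - e1 ≤ av (fun c => ∑ x ∈ JA c, ∏ i, h * gau (h / Q * x i)))
    (h6 : av (fun c => ∑ x ∈ JA c, ∏ i, h * gau (h / Q * x i)) ≤ 2)
    (h7 : 4 * X * Real.exp (-(W - w)) ≤ 1) :
    ∃ B : Blk, B.k = d + 1 ∧ Fintype.card B.T = Q ^ d ∧ B.ν = 1 ∧
      B.Basic q (2 * Q) (z / X * (z + 1) + d * (h / Q * (h + 1))) y ∧
      B.Stage (z / X * Real.exp (W + w)) (z / X * Real.exp (A + w)) (Real.exp (W - A + 2 * w))
        (Real.exp (-z ^ 2 / 2) + z / X + e1 + 4 * X * Real.exp (-(W - w))) := by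
  classical
  have hX0 : (0 : ℝ) < X := by linarith
  have hQ0 : (0 : ℝ) < Q := by linarith
  set ζ := z / X with hζ
  have hζ0 : 0 < ζ := by positivity
  have hζ1 : ζ ≤ 1 := (div_le_one hX0).2 hzX
  have hζX : ζ * X = z := by rw [hζ]; field_simp
  set η := h / Q with hη
  have hη0 : 0 < η := by positivity
  have hη1 : η ≤ 1 := (div_le_one hQ0).2 hhQ
  have hηQ : η * Q = h := by rw [hη]; field_simp
  let T := Fin d → ZMod Q
  have hT : InvUp T q := invUp_zmod d Q q hQ hq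
  let E := Finset.Ico (-(X : ℤ)) X
  let g : ℤ → ℝ := fun j => ζ * gau (ζ * j)
  have hg0 : ∀ j, 0 ≤ g j := fun j => mul_nonneg hζ0.le (gau_pos _).le
  have hg1 : ∀ j, g j ≤ ζ := fun j => by
    have := gau_le_half (ζ * j); simp only [g]; nlinarith
  let mA : T → ℝ := fun c => ∑ x ∈ JA c, ∏ i, h * gau (η * x i)
  have hmA0 : ∀ c, 0 ≤ mA c := fun c =>
    sum_nonneg fun x _ => prod_nonneg fun i _ => mul_nonneg hh.le (gau_pos _).le
  let gd : T → ℝ := fun c => if (JA c).Nonempty then 1 else 0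
  have hgd0 : ∀ c, 0 ≤ gd c := fun c => by simp only [gd]; split_ifs <;> norm_num
  let low : T → T → ℝ := fun α γ =>
    ∑ j ∈ E, g j * (mA (γ - j • α) - ∑ j' ∈ E.erase j, mA (γ - j • α) * gd (γ - j' • α))
  have hE1 : ∑ j ∈ E, g j ≤ 1 + ζ := sum_Ico_gs_le hζ0 X
  have hE2 : 1 - Real.exp (-z ^ 2 / 2) - ζ ≤ ∑ j ∈ E, g j := by
    have := sum_Ico_gs_ge hζ0 X; rwa [hζX] at this
  have hEabs : ∀ j ∈ E, |j| ≤ X := fun x hx => by
    have := mem_Ico.1 hx; rw [abs_le]; omega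
  set P := 4 * X * Real.exp (-(W - w)) with hP
  have hP0 : 0 ≤ P := by positivity
  have hlow : (∑ j ∈ E, g j) * (av mA * (1 - P)) ≤ av (fun α => av (low α)) := by
    simp only [low, av_sum, av_const_mul, av_sub, av_sub_right mA, av_const]
    rw [sum_mul]
    refine sum_le_sum fun j hj => mul_le_mul_of_nonneg_left ?_ (hg0 j)
    have e : ∑ j' ∈ E.erase j, av (fun α : T => av (fun γ => mA (γ - j • α) * gd (γ - j' • α))) =
        ∑ j' ∈ E.erase j, av mA * av gd := by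
      refine sum_congr rfl fun j' hj' => av_pair_smul (hT _ ?_ ?_).2 _ _
      · exact sub_ne_zero.2 (ne_of_mem_erase hj').symm
      · have := abs_sub j j'; have := hEabs j hj; have := hEabs j' (mem_of_mem_erase hj'); omega
    rw [e, sum_const, nsmul_eq_mul]
    have c1 : ((E.erase j).card : ℝ) ≤ 2 * X := by
      have : (E.erase j).card ≤ 2 * X := by
        refine card_erase_le.trans ?_; simp only [E, Int.card_Ico]; omega
      exact_mod_cast this
    have c2 : ((E.erase j).card : ℝ) * av gd ≤ P := by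
      calc _ ≤ (2 * X) * (2 * Real.exp (-(W - w))) :=
            mul_le_mul c1 h4 (av_nonneg hgd0) (by positivity)
        _ = P := by rw [hP]; ring
    nlinarith [mul_le_mul_of_nonneg_left c2 (av_nonneg hmA0)]
  obtain ⟨α, hα⟩ := exists_av_le (fun α => av (low α))
  let cst : (Fin d → ℤ) →+ T :=
    AddMonoidHom.pi fun i => (Int.castAddHom (ZMod Q)).comp (Pi.evalAddMonoidHom _ i)
  let hm : (Fin (d + 1) → ℤ) →+ T :=
    cst.comp (AddMonoidHom.pi fun i => Pi.evalAddMonoidHom _ (Fin.succ i)) +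
      (zmultiplesHom T α).comp (Pi.evalAddMonoidHom _ 0)
  have hhm : ∀ j x, hm (Fin.cons j x) = (fun i => (x i : ZMod Q)) + j • α := by
    intro j x; rfl
  let J : T → Finset (Fin (d + 1) → ℤ) := fun γ =>
    if hγ : ∃ j ∈ E, (JA (γ - j • α)).Nonempty then
      (JA (γ - hγ.choose • α)).image (fun x => Fin.cons hγ.choose x) else ∅
  let B : Blk := ⟨d + 1, T, hm, J, Fin.cons ζ (fun _ => η), 1⟩
  have hcard : Fintype.card B.T = Q ^ d := by
    change Fintype.card (Fin d → ZMod Q) = _; simp [ZMod.card]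
  have hwt : ∀ j x, B.wt (Fin.cons j x) = g j * ∏ i, h * gau (η * x i) := by
    intro j x
    unfold Blk.wt
    rw [hcard]
    change 1 * _ * ∏ i : Fin (d + 1), (Fin.cons ζ (fun _ => η) : Fin (d + 1) → ℝ) i *
      gau ((Fin.cons ζ (fun _ => η) : Fin (d + 1) → ℝ) i * ((Fin.cons j x : Fin (d + 1) → ℤ) i)) = _
    rw [Fin.prod_univ_succ]
    simp only [Fin.cons_zero, Fin.cons_succ, ← hηQ, g, prod_mul_distrib, prod_const, card_univ,
      Fintype.card_fin]
    push_cast; ring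
  have hJ : ∀ γ, (J γ = ∅ ∧ ∀ j ∈ E, JA (γ - j • α) = ∅) ∨ ∃ j ∈ E, (JA (γ - j • α)).Nonempty ∧
      J γ = (JA (γ - j • α)).image (fun x => Fin.cons j x) := by
    intro γ
    by_cases hγ : ∃ j ∈ E, (JA (γ - j • α)).Nonempty
    · exact Or.inr ⟨hγ.choose, hγ.choose_spec.1, hγ.choose_spec.2, dif_pos hγ⟩
    · refine Or.inl ⟨dif_neg hγ, fun j hj => ?_⟩
      by_contra hc
      exact hγ ⟨j, hj, nonempty_iff_ne_empty.2 hc⟩
  have hJm : ∀ γ, ∀ u ∈ J γ, ∃ j ∈ E, ∃ x ∈ JA (γ - j • α), Fin.cons j x = u := by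
    intro γ u hu
    rcases hJ γ with ⟨h0, -⟩ | ⟨j, hj, -, h0⟩
    · rw [h0] at hu; simp at hu
    · rw [h0] at hu; exact ⟨j, hj, mem_image.1 hu⟩
  have hmass : ∀ γ j, J γ = (JA (γ - j • α)).image (fun x => Fin.cons j x) →
      B.mass γ = g j * mA (γ - j • α) := by
    intro γ j h0
    change ∑ u ∈ J γ, B.wt u = _
    rw [h0, sum_image (fun x _ y _ h => cons_inj j h)]
    simp only [hwt, mA, mul_sum]
  have hmass0 : ∀ γ, J γ = ∅ → B.mass γ = 0 := by
    intro γ h0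
    change ∑ u ∈ J γ, B.wt u = _
    rw [h0, sum_empty]
  have hζj : ∀ j ∈ E, |ζ * j| ≤ z := fun j hj => by
    have : |(j : ℝ)| ≤ X := by exact_mod_cast hEabs j hj
    rw [abs_mul, abs_of_pos hζ0, ← hζX]; gcongr
  have hηx : ∀ c, ∀ x ∈ JA c, ∀ i, |η * x i| ≤ h := fun c x hx i => by
    have : |(x i : ℝ)| ≤ Q := by exact_mod_cast (h1 c x hx).2.1 i
    rw [abs_mul, abs_of_pos hη0, ← hηQ]; gcongr
  refine ⟨B, rfl, hcard, rfl, ⟨?_, ?_, ?_, ?_, hT, ?_, ?_, ?_, ?_, le_rfl⟩, ⟨?_, ?_, ?_, ?_, ?_⟩⟩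
  · intro γ
    refine ⟨Fin.cons 0 (fun i => ((γ i).val : ℤ)), ?_⟩
    change hm _ = _
    rw [hhm]; funext i; simp
  · intro γ u hu
    obtain ⟨j, hj, x, hx, rfl⟩ := hJm γ u hu
    change hm _ = _
    rw [hhm, (h1 _ x hx).1]; simp
  · intro γ
    change Tree (J γ)
    rcases hJ γ with ⟨h0, -⟩ | ⟨j, hj, -, h0⟩
    · rw [h0]; intro i x hx; simp at hx
    · rw [h0]; exact tree_cons (h2 _) j
  · intro γ u hu i
    obtain ⟨j, hj, x, hx, rfl⟩ := hJm γ u hu
    refine Fin.cases ?_ (fun i => ?_) i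
    · have := hEabs j hj; simp only [Fin.cons_zero]; push_cast; omega
    · have := (h1 _ x hx).2.1 i; simp only [Fin.cons_succ]; push_cast; omega
  · intro i; refine Fin.cases ?_ (fun i => ?_) i
    · exact hζ0
    · exact hη0
  · intro i; refine Fin.cases ?_ (fun i => ?_) i
    · exact hζ1
    · exact hη1
  · intro γ u hu
    obtain ⟨j, hj, x, hx, rfl⟩ := hJm γ u hu
    change ∑ i : Fin (d + 1), (Fin.cons ζ (fun _ => η) : Fin (d + 1) → ℝ) i *
      (|(Fin.cons ζ (fun _ => η) : Fin (d + 1) → ℝ) i * ((Fin.cons j x : Fin (d + 1) → ℤ) i)| +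
        (Fin.cons ζ (fun _ => η) : Fin (d + 1) → ℝ) i) ≤ _
    rw [Fin.sum_univ_succ]
    simp only [Fin.cons_zero, Fin.cons_succ]
    apply add_le_add
    · have := hζj j hj; gcongr
    · calc _ ≤ ∑ _i : Fin d, η * (h + 1) := sum_le_sum fun i _ => by
            have := hηx _ x hx i; gcongr
        _ = _ := by simp
  · intro γ u hu i
    obtain ⟨j, hj, x, hx, rfl⟩ := hJm γ u hu
    refine Fin.cases ?_ (fun i => ?_) i
    · exact (hζj j hj).trans hzy
    · exact (hηx _ x hx i).trans hhy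
  · intro γ u hu
    obtain ⟨j, hj, x, hx, rfl⟩ := hJm γ u hu
    rw [hwt]
    exact mul_le_mul (hg1 j) (h1 _ x hx).2.2.2
      (prod_nonneg fun i _ => mul_nonneg hh.le (gau_pos _).le) hζ0.le
  · intro γ
    change ((J γ).card : ℝ) ≤ _
    rcases hJ γ with ⟨h0, -⟩ | ⟨j, hj, -, h0⟩
    · rw [h0]; simp [(Real.exp_pos _).le]
    · rw [h0, card_image_of_injective _ (cons_inj j)]
      have c1 : ((JA (γ - j • α)).card : ℝ) * Real.exp (A - w) ≤ Real.exp (W + w) := by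
        refine le_trans ?_ (h3 (γ - j • α))
        rw [← nsmul_eq_mul, ← sum_const]
        exact sum_le_sum fun x hx => (h1 _ x hx).2.2.1
      rw [← le_div_iff₀ (Real.exp_pos _), ← Real.exp_sub] at c1
      refine c1.trans (le_of_eq ?_); congr 1; ring
  · intro γ
    rcases hJ γ with ⟨h0, -⟩ | ⟨j, hj, -, h0⟩
    · rw [hmass0 γ h0]; positivity
    · rw [hmass γ j h0]; exact mul_le_mul (hg1 j) (h3 _) (hmA0 _) hζ0.le
  · have c1 : av (low α) ≤ av B.mass := by
      refine av_mono fun γ => ?_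
      rcases hJ γ with ⟨h0, h0'⟩ | ⟨j, hj, hne, h0⟩
      · rw [hmass0 γ h0]
        refine sum_nonpos fun j hj => ?_
        simp only [mA, h0' j hj]; simp
      · rw [hmass γ j h0]
        simp only [low]
        rw [← add_sum_erase _ _ hj]
        have c2 : ∑ j' ∈ E.erase j, g j' * (mA (γ - j' • α) -
            ∑ j'' ∈ E.erase j', mA (γ - j' • α) * gd (γ - j'' • α)) ≤ 0 := by
          refine sum_nonpos fun j' hj' => mul_nonpos_of_nonneg_of_nonpos (hg0 _) ?_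
          have := single_le_sum (f := fun j'' => mA (γ - j' • α) * gd (γ - j'' • α))
            (fun _ _ => mul_nonneg (hmA0 _) (hgd0 _))
            (mem_erase.2 ⟨(ne_of_mem_erase hj').symm, hj⟩)
          simp only [gd, if_pos hne, mul_one] at this ⊢
          linarith
        have c3 : 0 ≤ ∑ j' ∈ E.erase j, mA (γ - j • α) * gd (γ - j' • α) :=
          sum_nonneg fun _ _ => mul_nonneg (hmA0 _) (hgd0 _)
        nlinarith [mul_nonneg (hg0 j) c3]
    refine le_trans ?_ (hlow.trans (hα.trans c1))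
    set G := ∑ j ∈ E, g j
    set e0 := Real.exp (-z ^ 2 / 2) + ζ with he0
    have hG0 : 0 ≤ G := sum_nonneg fun j _ => hg0 j
    have he00 : 0 ≤ e0 := by positivity
    have hG : 1 - e0 ≤ G := by rw [he0]; linarith
    have h5' : 1 - e1 ≤ av mA := h5
    have c5 : (1 - e1) * (1 - P) ≤ av mA * (1 - P) :=
      mul_le_mul_of_nonneg_right h5' (by linarith)
    have c6 : 0 ≤ (1 - e1) * (1 - P) := mul_nonneg (by linarith) (by linarith)
    have c7 := mul_le_mul hG c5 c6 hG0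
    refine le_trans ?_ c7
    have c8 : (1 - e1) * (1 - P) ≤ 1 := mul_le_one₀ (by linarith) (by linarith) (by linarith)
    nlinarith [mul_le_mul_of_nonneg_left c8 he00, mul_nonneg he10 hP0]
  · calc av B.mass ≤ av (fun γ => ∑ j ∈ E, g j * mA (γ - j • α)) := by
          refine av_mono fun γ => ?_
          rcases hJ γ with ⟨h0, -⟩ | ⟨j, hj, -, h0⟩
          · rw [hmass0 γ h0]; exact sum_nonneg fun _ _ => mul_nonneg (hg0 _) (hmA0 _)
          · rw [hmass γ j h0]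
            exact single_le_sum (f := fun j => g j * mA (γ - j • α))
              (fun _ _ => mul_nonneg (hg0 _) (hmA0 _)) hj
      _ = (∑ j ∈ E, g j) * av mA := by
          simp only [av_sum, av_const_mul, av_sub_right mA, sum_mul]
      _ ≤ 2 * 2 := mul_le_mul (by linarith) h6 (av_nonneg hmA0) (by norm_num)
      _ = 4 := by norm_num

theorem flat (b : ℕ) (hb : 1 ≤ b) : ∃ B : Blk, B.k = b ∧ Fintype.card B.T = 1 ∧
    (∀ lo, B.Basic lo 2 (1 / 8) 1) ∧ (∀ ε, 0 ≤ ε → B.Stage 2 (2 / 2 ^ b) (2 ^ b) ε) ∧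
    ∀ γ, 1 ≤ B.mass γ := by
  classical
  have hb' : (1 : ℝ) ≤ b := by exact_mod_cast hb
  set η : ℝ := 1 / (4 * b) with hη
  have hη0 : 0 < η := by positivity
  have hηb : η * b = 1 / 4 := by rw [hη]; field_simp
  have hη1 : η ≤ 1 / 4 := by nlinarith
  set g0 := η * gau 0 with hg0
  have hg : 0 < g0 := mul_pos hη0 (gau_pos _)
  have hg1 : 2 * g0 ≤ 1 := by nlinarith [gau_le_half 0]
  let J0 : Finset (Fin b → ℤ) := Fintype.piFinset fun _ => {0, 1}
  let B : Blk := ⟨b, PUnit, 0, fun _ => J0, fun _ => η, 2 / (2 * g0) ^ b⟩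
  have hJ : ∀ x ∈ J0, ∀ i, x i = 0 ∨ x i = 1 := fun x hx i => by
    simpa using Fintype.mem_piFinset.1 hx i
  have hJ' : ∀ x ∈ J0, ∀ i, |η * x i| ≤ η := fun x hx i => by
    rcases hJ x hx i with h | h <;> simp [h, abs_of_pos hη0, hη0.le]
  have hcard : (J0.card : ℝ) = 2 ^ b := by simp [J0]
  have hwt : ∀ x, B.wt x = 2 / 2 ^ b * Real.exp (∑ i, -(η * x i) ^ 2 / 2) := by
    intro x
    change 2 / (2 * g0) ^ b * (Fintype.card PUnit : ℕ) * ∏ i : Fin b, η * gau (η * x i) = _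
    have : ∀ i, η * gau (η * x i) = g0 * Real.exp (-(η * x i) ^ 2 / 2) := fun i => by
      rw [gau_eq_mul 0 (η * x i), hg0]; simp; ring
    simp only [this, prod_mul_distrib, prod_const, card_univ, Fintype.card_fin, Real.exp_sum,
      Fintype.card_punit, mul_pow]
    field_simp; simp; rfl
  have hw1 : ∀ x, B.wt x ≤ 2 / 2 ^ b := fun x => by
    rw [hwt]
    refine mul_le_of_le_one_right (by positivity) (Real.exp_le_one_iff.2 (sum_nonpos fun i _ => ?_))
    nlinarith [sq_nonneg (η * x i)]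
  have hw2 : ∀ x ∈ J0, 1 / 2 ^ b ≤ B.wt x := fun x hx => by
    rw [hwt]
    have h1 : -(1 / 2) ≤ ∑ i, -(η * x i) ^ 2 / 2 := by
      calc _ ≤ ∑ _i : Fin b, -η ^ 2 / 2 := by simp; nlinarith
        _ ≤ _ := sum_le_sum fun i _ => by
            have := pow_le_pow_left₀ (abs_nonneg _) (hJ' x hx i) 2
            rw [sq_abs] at this; linarith
    have h2 := Real.add_one_le_exp (∑ i, -(η * x i) ^ 2 / 2)
    have h3 : (1 : ℝ) / 2 ^ b = 2 / 2 ^ b * (1 / 2) := by ring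
    rw [h3]; gcongr; linarith
  have hm1 : ∀ γ, 1 ≤ B.mass γ := fun γ => by
    calc (1 : ℝ) = ∑ _x ∈ J0, 1 / 2 ^ b := by rw [sum_const, nsmul_eq_mul, hcard]; field_simp
      _ ≤ _ := sum_le_sum hw2
  have hm2 : ∀ γ, B.mass γ ≤ 2 := fun γ => by
    calc _ ≤ ∑ _x ∈ J0, (2 : ℝ) / 2 ^ b := sum_le_sum fun x _ => hw1 x
      _ = _ := by rw [sum_const, nsmul_eq_mul, hcard]; field_simp
  refine ⟨B, rfl, rfl, fun lo => ⟨fun γ => ⟨0, rfl⟩, fun _ _ _ => rfl, ?_, ?_, ?_, fun _ => hη0,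
    fun _ => by change η ≤ 1; linarith, ?_, ?_, ?_⟩,
    fun ε hε => ⟨fun _ x _ => hw1 x, fun _ => hcard.le, hm2, ?_, ?_⟩, hm1⟩
  · intro γ i x hx y hy z hz _
    have := hJ x hx i; have := hJ y hy i; have := hJ z hz i; omega
  · intro γ x hx i
    rcases hJ x hx i with h | h <;> simp [h]
  · intro m _ _; exact ⟨fun _ _ _ => rfl, fun _ => ⟨0, rfl⟩⟩
  · intro γ x hx
    calc _ ≤ ∑ _i : Fin b, η * (η + η) := sum_le_sum fun i _ => by
          have := hJ' x hx i; change η * (|η * x i| + η) ≤ _; gcongr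
      _ ≤ _ := by simp; nlinarith
  · intro γ x hx i; exact (hJ' x hx i).trans (by linarith)
  · change 1 ≤ 2 / (2 * g0) ^ b
    rw [le_div_iff₀ (by positivity)]
    linarith [pow_le_one₀ (n := b) (by positivity) hg1]
  · refine le_trans ?_ (av_mono (f := fun _ => 1) hm1); rw [av_const]; linarith
  · refine le_trans (av_mono (g := fun _ => 2) hm2) ?_; rw [av_const]; norm_num

end Crest.Agent.LC
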