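import Crest.Agent.LC.StageB

/-! The random stage with explicit parameters. -/

set_option autoImplicit false
open Finset

namespace Crest.Agent.LC

lemma Blk.Stage.mono {B : Blk} {cap ω M ε cap' ε' : ℝ} (h : B.Stage cap ω M ε) (h1 : cap ≤ cap')
    (h2 : ε ≤ ε') : B.Stage cap' ω M ε' :=
  ⟨h.wt_le, h.card_le, fun γ => (h.mass_le γ).trans h1, by linarith [h.av_ge], h.av_le⟩

lemma sq_le_two_exp {x : ℝ} (hx : 0 ≤ x) : x ^ 2 / 2 ≤ Real.exp x := by
  simpa using Real.pow_div_factorial_le_exp x hx 2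

theorem rstage : ∃ V : ℕ, ∀ v : ℕ, V ≤ v → ∀ q : ℕ, Real.exp ((v : ℝ) ^ 21) ≤ q →
    ∃ (B : Blk) (ω M : ℝ), B.k = v ^ 20 + 1 ∧ (Fintype.card B.T : ℝ) ≤ (2 * q) ^ (v ^ 20) ∧ B.ν = 1 ∧
      B.Basic q (4 * q) (1 / v) v ∧ 0 < ω ∧ ω ≤ Real.exp (-(v : ℝ) ^ 13) ∧
      M * ω ≤ Real.exp (5 * (v : ℝ) ^ 11) ∧ B.Stage (Real.exp (3 * (v : ℝ) ^ 11)) ω M (6 / v) := by
  refine ⟨⌈Real.exp (Real.exp 28 + 10 ^ 6)⌉₊, fun n hn q hq => ?_⟩
  set v : ℝ := (n : ℝ) with hv
  have hv1 : Real.exp (Real.exp 28 + 10 ^ 6) ≤ v := Nat.ceil_le.1 hn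
  have hv0 : 0 < v := lt_of_lt_of_le (Real.exp_pos _) hv1
  set L := Real.log v with hL
  have hL1 : Real.exp 28 + 10 ^ 6 ≤ L := (Real.le_log_iff_exp_le hv0).2 hv1
  have he28 := Real.exp_pos 28
  have hL6 : 10 ^ 6 ≤ L := by linarith
  have hvL : Real.exp L = v := Real.exp_log hv0
  have hL3 : 10 ^ 5 * L ^ 2 ≤ v := by
    have := Real.pow_div_factorial_le_exp L (by linarith) 3
    rw [hvL] at this
    norm_num [Nat.factorial] at this
    nlinarith [sq_nonneg L]
  have hvb : 10 ^ 6 ≤ v := by nlinarith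
  have hv1' : 1 ≤ v := by linarith
  set h := Real.sqrt (48 * L) with hh
  have hh2 : h ^ 2 = 48 * L := Real.sq_sqrt (by linarith)
  have hh0 : 0 < h := Real.sqrt_pos.2 (by linarith)
  have hh14 : 14 ≤ Real.log h := by
    rw [Real.le_log_iff_exp_le hh0]
    apply Real.le_sqrt_of_sq_le
    rw [← Real.exp_nat_mul]; norm_num; linarith
  have hh3 : 3 ≤ h := by linarith [Real.log_le_sub_one_of_pos hh0]
  have hhv : 120 * h ≤ v := by
    apply abs_le_of_sq_le_sq' _ hv0.le |>.2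
    nlinarith only [hh2, hL3, hL6, hvb]
  have hpow : ∀ a b : ℕ, a ≤ b → v ^ a ≤ v ^ b := fun a b hab => pow_le_pow_right₀ hv1' hab
  have hpow' : ∀ a : ℕ, 1000 * v ^ a ≤ v ^ (a + 1) := fun a => by
    rw [pow_succ]; nlinarith [pow_pos hv0 a]
  have hq23 : 4 * v ^ 23 ≤ q := by
    have h1 := sq_le_two_exp (x := v ^ 21) (by positivity)
    have h2 : 1000 * v ^ 23 ≤ v ^ 24 := hpow' 23
    have h3 := hpow 24 42 (by norm_num)
    have h4 : (v ^ 21) ^ 2 = v ^ 42 := by ring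
    linarith only [pow_pos hv0 23, h1, h2, h3, h4, hq]
  have hq0 : q ≠ 0 := by
    rintro rfl; have := pow_pos hv0 23; simp at hq23; linarith
  obtain ⟨Q, hQp, hQ1, hQ2⟩ := Nat.exists_prime_lt_and_le_two_mul q hq0
  have : NeZero Q := ⟨hQp.ne_zero⟩
  have hQq : (q : ℝ) ≤ Q := by exact_mod_cast hQ1.le
  have hQ23 : 4 * v ^ 23 ≤ Q := hq23.trans hQq
  have hQ0 : (0 : ℝ) < Q := lt_of_lt_of_le (by positivity) hQ23
  have hd : ((n ^ 20 : ℕ) : ℝ) = v ^ 20 := by push_cast; rfl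
  have hhv' : h ≤ v := by linarith
  have hrob2 : v ^ 20 * (h / Q * (h + 1)) ≤ 1 / (2 * v) := by
    rw [le_div_iff₀ (by positivity)]
    have h1 : h * (h + 1) ≤ v * (2 * v) := mul_le_mul hhv' (by linarith) (by linarith) hv0.le
    calc _ = v ^ 20 * (h * (h + 1)) * (2 * v) / Q := by ring
      _ ≤ v ^ 20 * (v * (2 * v)) * (2 * v) / Q := by gcongr
      _ = 4 * v ^ 23 / Q := by ring
      _ ≤ 1 := (div_le_one hQ0).2 hQ23
  have hrob3 : v ^ 20 * (h / Q) ≤ 1 / (2 * v) := by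
    refine le_trans ?_ hrob2
    have : 0 ≤ h / Q := by positivity
    gcongr; nlinarith only [this, hh0]
  have hinv : 1 / (2 * v) ≤ 1 / 2 := one_div_le_one_div_of_le (by norm_num) (by linarith)
  obtain ⟨JA, W, A, a1, a2, a3, a4, a5, a6, a7, a8, a9⟩ := stageA (n ^ 20) Q (h := h) (w := v ^ 11)
    (t := 1 / (h ^ 2 * v ^ 10)) hh3
    (by have := hpow 2 23 (by norm_num); nlinarith only [this, hQ23, hhv', hh0])
    (by rw [hd]; linarith) (by positivity)
    (by
      have : 1 / (h ^ 2 * v ^ 10) * h ^ 2 = 1 / v ^ 10 := by field_simp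
      rw [this, div_le_one (by positivity)]; exact one_le_pow₀ hv1')
  rw [hd] at a5 a7 a8 a9
  have hexpL : ∀ k : ℕ, Real.exp (-(k * L)) = 1 / v ^ k := fun k => by
    rw [Real.exp_neg, Real.exp_nat_mul, hvL, one_div]
  have b7 : 2 * v ^ 13 ≤ W - A := by
    refine le_trans ?_ a7
    have : -h ^ 2 / 8 = -((6 : ℕ) * L) := by rw [hh2]; push_cast; ring
    rw [this, hexpL]
    have e : v ^ 20 * (1 / v ^ 6 / (60 * h)) = v ^ 13 * v / (60 * h) := by field_simp
    rw [e, le_div_iff₀ (by positivity)]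
    nlinarith only [mul_le_mul_of_nonneg_left hhv (pow_pos hv0 13).le]
  have b8 : 0 ≤ A := le_trans (mul_nonneg (by positivity) (by linarith)) a8
  have b9 : W ≤ v ^ 21 := by
    refine a9.trans ?_
    rw [pow_succ v 20]
    exact mul_le_mul_of_nonneg_left (by linarith [Real.log_le_sub_one_of_pos hh0]) (by positivity)
  have h1113 : 1000 * v ^ 11 ≤ v ^ 13 := (hpow' 11).trans (hpow 12 13 (by norm_num))
  have h11 : 0 < v ^ 11 := by positivity
  have hWw : v ^ 13 ≤ W - v ^ 11 := by linarith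
  set E := Real.exp (W - v ^ 11) with hE
  have hE0 : 0 < E := Real.exp_pos _
  have hE1 : v ^ 26 / 2 ≤ E := by
    have h1 := sq_le_two_exp (x := v ^ 13) (by positivity)
    have h4 : (v ^ 13) ^ 2 = v ^ 26 := by ring
    rw [h4] at h1
    exact h1.trans (Real.exp_le_exp.2 hWw)
  have hE2 : 100 * v ^ 4 ≤ E := by
    have h5 : 1000 * v ^ 4 ≤ v ^ 5 := hpow' 4
    have h6 := hpow 5 26 (by norm_num)
    linarith only [pow_pos hv0 4, h5, h6, hE1]
  have h24 : v ^ 2 ≤ v ^ 4 := hpow 2 4 (by norm_num)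
  have h14 : v ≤ v ^ 4 := by simpa using hpow 1 4 (by norm_num)
  set X := ⌊E / (4 * v)⌋₊ with hX
  have hX1 : (X : ℝ) ≤ E / (4 * v) := Nat.floor_le (by positivity)
  have hX2 : E / (8 * v) ≤ X := by
    have h1 := Nat.lt_floor_add_one (E / (4 * v))
    have h2 : 1 ≤ E / (8 * v) := by rw [le_div_iff₀ (by positivity)]; linarith only [hE2, h14, hv0]
    have h3 : E / (4 * v) = 2 * (E / (8 * v)) := by field_simp; norm_num
    linarith
  have hX3 : v ≤ X := by
    refine le_trans ?_ hX2; rw [le_div_iff₀ (by positivity)]; nlinarith only [hE2, h24, hv0]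
  have hX0 : (0 : ℝ) < X := by linarith
  have hζ : v / X ≤ 8 * v ^ 2 / E := by
    rw [div_le_div_iff₀ hX0 hE0]
    rw [div_le_iff₀ (by positivity)] at hX2
    nlinarith only [mul_le_mul_of_nonneg_left hX2 hv0.le]
  have hEneg : Real.exp (-(W - v ^ 11)) = 1 / E := by rw [Real.exp_neg, one_div]
  have hP : 4 * X * Real.exp (-(W - v ^ 11)) ≤ 1 / v := by
    rw [hEneg, mul_one_div, div_le_div_iff₀ hE0 hv0]
    rw [le_div_iff₀ (by positivity)] at hX1
    linarith
  have hv1v : 1 / v ≤ 1 / 10 := one_div_le_one_div_of_le (by norm_num) (by linarith)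
  set e1 := v ^ 20 * (Real.exp (-h ^ 2 / 2) + h / Q) +
    8 * Real.exp (-(1 / (h ^ 2 * v ^ 10) * v ^ 11) +
      v ^ 20 * ((1 / (h ^ 2 * v ^ 10)) ^ 2 * (h ^ 2) ^ 2)) with he1
  have he1v : e1 ≤ 3 * (1 / v) := by
    have c1 : v ^ 20 * Real.exp (-h ^ 2 / 2) ≤ 1 / v := by
      have : -h ^ 2 / 2 = -((24 : ℕ) * L) := by rw [hh2]; push_cast; ring
      rw [this, hexpL]
      have e : v ^ 20 * (1 / v ^ 24) = 1 / v ^ 4 := by field_simp
      rw [e]; exact one_div_le_one_div_of_le hv0 h14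
    have c2 : 8 * Real.exp (-(1 / (h ^ 2 * v ^ 10) * v ^ 11) +
        v ^ 20 * ((1 / (h ^ 2 * v ^ 10)) ^ 2 * (h ^ 2) ^ 2)) ≤ 1 / v := by
      have e : -(1 / (h ^ 2 * v ^ 10) * v ^ 11) +
          v ^ 20 * ((1 / (h ^ 2 * v ^ 10)) ^ 2 * (h ^ 2) ^ 2) = -(v / (48 * L)) + 1 := by
        rw [← hh2]; field_simp
      rw [e]
      have c3 : L + 8 ≤ v / (48 * L) := by
        rw [le_div_iff₀ (by positivity)]; nlinarith only [hL3, hL6]
      have c4 : Real.exp (-(v / (48 * L)) + 1) ≤ Real.exp (-((1 : ℕ) * L)) * Real.exp (-7) := by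
        rw [← Real.exp_add]; apply Real.exp_le_exp.2; push_cast; linarith
      rw [hexpL, pow_one] at c4
      have c5 : Real.exp (-7) ≤ 1 / 8 := by
        rw [Real.exp_neg, one_div]
        exact inv_anti₀ (by norm_num) (by linarith [Real.add_one_le_exp 7])
      have c6 : 0 < 1 / v := by positivity
      nlinarith only [c4, c5, c6]
    have c7 : 1 / (2 * v) ≤ 1 / v := one_div_le_one_div_of_le hv0 (by linarith)
    rw [he1, mul_add]; linarith
  have hXq : 2 * X ≤ q := by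
    have : (2 * X : ℝ) ≤ q := by
      refine le_trans ?_ hq
      have c1 : E ≤ Real.exp (v ^ 21) := Real.exp_le_exp.2 (by linarith)
      have c2 : E / (4 * v) ≤ E / 2 := div_le_div_of_nonneg_left hE0.le (by norm_num) (by linarith)
      linarith
    exact_mod_cast this
  obtain ⟨B, c1, c2, c3, c4, c5⟩ := stageB (n ^ 20) Q q X hQp hQ1 (h := h) (w := v ^ 11) (z := v)
    (W := W) (A := A) (e1 := e1) (y := v) hh0
    (by have := hpow 1 23 (by norm_num); simp only [pow_one] at this; linarith) hv0 hX3 hXq le_rfl hhv'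
    (by linarith) (by positivity) JA a1 a2 a3 a4 (by linarith) a6 (by linarith)
  have hζ2 : v / X * (v + 1) ≤ 1 / (2 * v) := by
    refine le_trans (mul_le_mul hζ (by linarith : v + 1 ≤ 2 * v) (by linarith) (by positivity)) ?_
    rw [div_mul_eq_mul_div, div_le_div_iff₀ hE0 (by positivity)]
    nlinarith only [hE2, pow_pos hv0 4]
  have h8 : 8 * v ^ 2 ≤ Real.exp (v ^ 11) := by
    have h1 := sq_le_two_exp (x := v ^ 11) (by positivity)
    have h4 : (v ^ 11) ^ 2 = v ^ 22 := by ring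
    have h5 : 1000 * v ^ 2 ≤ v ^ 3 := hpow' 2
    have h6 := hpow 3 22 (by norm_num)
    linarith only [pow_pos hv0 2, h1, h4, h5, h6]
  have hζ3 : v / X ≤ Real.exp (2 * v ^ 11 - W) := by
    refine hζ.trans ?_
    rw [div_le_iff₀ hE0, hE, ← Real.exp_add]
    refine h8.trans (le_of_eq ?_); congr 1; ring
  have hω : v / X * Real.exp (A + v ^ 11) ≤ Real.exp (3 * v ^ 11 - (W - A)) := by
    refine le_trans (mul_le_mul_of_nonneg_right hζ3 (Real.exp_pos _).le) (le_of_eq ?_)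
    rw [← Real.exp_add]; congr 1; ring
  refine ⟨B, _, _, c1, ?_, c3, c4.mono le_rfl (by omega) ?_ le_rfl, by positivity, ?_, ?_,
    c5.mono ?_ ?_⟩
  · rw [c2]; push_cast
    exact pow_le_pow_left₀ hQ0.le (by exact_mod_cast hQ2) _
  · rw [hd]
    have : 1 / v = 1 / (2 * v) + 1 / (2 * v) := by field_simp; norm_num
    linarith
  · exact hω.trans (Real.exp_le_exp.2 (by linarith))
  · refine le_trans (mul_le_mul_of_nonneg_left hω (Real.exp_pos _).le) (le_of_eq ?_)
    rw [← Real.exp_add]; congr 1; ring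
  · refine le_trans (mul_le_mul_of_nonneg_right hζ3 (Real.exp_pos _).le) (le_of_eq ?_)
    rw [← Real.exp_add]; congr 1; ring
  · have d1 : Real.exp (-v ^ 2 / 2) ≤ 1 / v := by
      have : -v ^ 2 / 2 = -(v ^ 2 / 2) := by ring
      rw [this, Real.exp_neg, one_div]
      exact inv_anti₀ hv0 (by nlinarith only [Real.add_one_le_exp (v ^ 2 / 2), hvb])
    have d2 : v / X ≤ 1 / v := by
      have c7 : 1 / (2 * v) ≤ 1 / v := one_div_le_one_div_of_le hv0 (by linarith)
      have : 0 ≤ v / X := by positivity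
      nlinarith only [this, c7, hζ2, hv0]
    have : 6 / v = 6 * (1 / v) := by ring
    linarith

end Crest.Agent.LC
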