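import Mathlib
import Crest.Agent.LC.Defs

set_option autoImplicit false
open MeasureTheory Set Filter
open scoped ENNReal NNReal Topology

namespace Crest.Agent.LC

theorem yg_median {F : ℝ → ℝ≥0∞} (h1 : ∫⁻ x, F x = 1) :
    ∃ m : ℝ, ∫⁻ x in Iic m, F x = 1 / 2 ∧ ∫⁻ x in Ioi m, F x = 1 / 2 := by
  set μ : Measure ℝ := volume.withDensity F with hμ
  have : IsProbabilityMeasure μ := ⟨by
    rw [hμ, withDensity_apply _ MeasurableSet.univ, Measure.restrict_univ, h1]⟩
  have hc : Continuous (ProbabilityTheory.cdf μ) := by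
    rw [continuous_iff_continuousAt]
    intro x
    rw [(ProbabilityTheory.monotone_cdf μ).continuousAt_iff_leftLim_eq_rightLim,
      StieltjesFunction.rightLim_eq]
    have h0 : (ProbabilityTheory.cdf μ).measure {x} = 0 := by
      rw [ProbabilityTheory.measure_cdf, hμ, withDensity_apply _ (measurableSet_singleton x)]
      simp
    rw [StieltjesFunction.measure_singleton, ENNReal.ofReal_eq_zero] at h0
    have := (ProbabilityTheory.monotone_cdf μ).leftLim_le (le_refl x)
    linarith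
  obtain ⟨a, ha⟩ := ((ProbabilityTheory.tendsto_cdf_atBot μ).eventually
    (gt_mem_nhds (show (0 : ℝ) < 1 / 2 by norm_num))).exists
  obtain ⟨b, hb⟩ := ((ProbabilityTheory.tendsto_cdf_atTop μ).eventually
    (lt_mem_nhds (show (1 / 2 : ℝ) < 1 by norm_num))).exists
  obtain ⟨m, hm⟩ := intermediate_value_univ a b hc ⟨ha.le, hb.le⟩
  have hI : ∫⁻ x in Iic m, F x = 1 / 2 := by
    rw [← withDensity_apply _ measurableSet_Iic, ← hμ, ← ProbabilityTheory.ofReal_cdf, hm]
    rw [ENNReal.ofReal_div_of_pos (by norm_num)]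
    simp
  refine ⟨m, hI, ?_⟩
  have h2 := lintegral_add_compl (μ := volume) F (measurableSet_Iic (a := m))
  rw [compl_Iic, hI, h1] at h2
  have h3 : (1 / 2 : ℝ≥0∞) + 1 / 2 = 1 := by
    rw [ENNReal.add_halves]
  exact (ENNReal.add_right_inj (a := 1 / 2) (by simp)).1 (h2.trans h3.symm)

theorem yg_split {F : ℝ → ℝ≥0∞} (hF : Measurable F) (m : ℝ) (s t : ℝ≥0∞) :
    ∫⁻ x, (if m < x then s else t) * F x =
      s * (∫⁻ x in Ioi m, F x) + t * ∫⁻ x in Iic m, F x := by
  rw [← lintegral_add_compl (μ := volume) _ (measurableSet_Ioi (a := m)), compl_Ioi,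
    ← lintegral_const_mul _ hF, ← lintegral_const_mul _ hF]
  congr 1
  · apply setLIntegral_congr_fun measurableSet_Ioi
    intro x hx
    simp only [mem_Ioi] at hx
    simp [hx]
  · apply setLIntegral_congr_fun measurableSet_Iic
    intro x hx
    simp only [mem_Iic] at hx
    simp [not_lt.2 hx]

theorem yg_J {F H : ℝ → ℝ≥0∞} (hF : Measurable F) (hH : Measurable H) (hH1 : ∫⁻ x, H x = 1)
    {a : ℝ} (ha1 : ∫⁻ x in Iic a, F x = 1 / 2) (ha2 : ∫⁻ x in Ioi a, F x = 1 / 2) (t : ℝ) :
    ∫⁻ x, ∫⁻ y, (if t < x + y then (if a < x then 17 else 15) else 16) * (F x * H (x + y))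
      = 16 := by
  set h1 := ∫⁻ x in Ioi t, H x
  set h0 := ∫⁻ x in Iic t, H x
  have hs : h1 + h0 = 1 := by
    have h2 := lintegral_add_compl (μ := volume) H (measurableSet_Ioi (a := t))
    rw [compl_Ioi, hH1] at h2
    exact h2
  have key : ∀ x, ∫⁻ y, (if t < x + y then (if a < x then 17 else 15) else 16) * (F x * H (x + y))
      = (if a < x then 17 * h1 + 16 * h0 else 15 * h1 + 16 * h0) * F x := by
    intro x
    have e1 := lintegral_add_left_eq_self (μ := volume)
      (fun z => (if t < z then (if a < x then (17 : ℝ≥0∞) else 15) else 16) * (F x * H z)) x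
    rw [e1]
    have e2 : ∀ z, (if t < z then (if a < x then (17 : ℝ≥0∞) else 15) else 16) * (F x * H z)
        = F x * ((if t < z then (if a < x then (17 : ℝ≥0∞) else 15) else 16) * H z) := by
      intro z; ring
    simp_rw [e2]
    rw [lintegral_const_mul, yg_split hH]
    · split_ifs <;> ring
    · exact (Measurable.ite measurableSet_Ioi measurable_const measurable_const).mul hH
  simp_rw [key]
  rw [yg_split hF, ha1, ha2]
  have : (17 * h1 + 16 * h0) * (1 / 2) + (15 * h1 + 16 * h0) * (1 / 2)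
      = 16 * (h1 + h0) * (1 / 2 + 1 / 2) + (0 : ℝ≥0∞) := by
    have h2 : (2 : ℝ≥0∞) * (1 / 2) = 1 := by
      rw [one_div, ENNReal.mul_inv_cancel] <;> simp
    ring
  rw [this, hs, ENNReal.add_halves]
  simp

theorem yg_I {F G : ℝ → ℝ≥0∞} (hF : Measurable F) (hG : Measurable G)
    {a b : ℝ} (ha1 : ∫⁻ x in Iic a, F x = 1 / 2) (ha2 : ∫⁻ x in Ioi a, F x = 1 / 2)
    (hb1 : ∫⁻ x in Iic b, G x = 1 / 2) (hb2 : ∫⁻ x in Ioi b, G x = 1 / 2) :
    ∫⁻ x, ∫⁻ y, (if b < y then (if a < x then 14 else 16) else 16) * (F x * G y)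
      = 31 * (1 / 2) := by
  have h2 : (2 : ℝ≥0∞) * (1 / 2) = 1 := by
    rw [one_div, ENNReal.mul_inv_cancel] <;> simp
  have key : ∀ x, ∫⁻ y, (if b < y then (if a < x then 14 else 16) else 16) * (F x * G y)
      = (if a < x then 15 else 16) * F x := by
    intro x
    have e2 : ∀ z, (if b < z then (if a < x then (14 : ℝ≥0∞) else 16) else 16) * (F x * G z)
        = F x * ((if b < z then (if a < x then (14 : ℝ≥0∞) else 16) else 16) * G z) := by
      intro z; ring
    simp_rw [e2]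
    rw [lintegral_const_mul, yg_split hG, hb1, hb2]
    · split_ifs
      · calc F x * (14 * (1 / 2) + 16 * (1 / 2)) = 15 * F x * (2 * (1 / 2)) := by ring
          _ = _ := by rw [h2, mul_one]
      · calc F x * (16 * (1 / 2) + 16 * (1 / 2)) = 16 * F x * (2 * (1 / 2)) := by ring
          _ = _ := by rw [h2, mul_one]
    · exact (Measurable.ite measurableSet_Ioi measurable_const measurable_const).mul hG
  simp_rw [key]
  rw [yg_split hF, ha1, ha2]
  ring

theorem yg_real {u v w α β γ k : ℝ} (hu : 0 ≤ u) (hv : 0 ≤ v) (hw : 0 ≤ w) (hα : 0 ≤ α)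
    (hβ : 0 ≤ β) (hγ : 0 ≤ γ) (h : k ^ 3 ≤ α * β * γ) :
    3 * k * (u * v * w) ^ (2 / 3 : ℝ) ≤ α * (u * v) + β * (v * w) + γ * (u * w) := by
  have ht : ((u * v * w) ^ (2 / 3 : ℝ)) ^ 3 = (u * v * w) ^ 2 := by
    rw [← Real.rpow_natCast, ← Real.rpow_mul (by positivity)]
    norm_num
  set t := (u * v * w) ^ (2 / 3 : ℝ)
  set X := α * (u * v)
  set Y := β * (v * w)
  set Z := γ * (u * w)
  have hX : 0 ≤ X := by positivity
  have hY : 0 ≤ Y := by positivity
  have hZ : 0 ≤ Z := by positivity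
  have am : 27 * (X * Y * Z) ≤ (X + Y + Z) ^ 3 := by
    nlinarith [mul_nonneg hX (sq_nonneg (Y - Z)), mul_nonneg hY (sq_nonneg (X - Z)),
      mul_nonneg hZ (sq_nonneg (X - Y)),
      mul_nonneg (add_nonneg (add_nonneg hX hY) hZ) (sq_nonneg (X - Y)),
      mul_nonneg (add_nonneg (add_nonneg hX hY) hZ) (sq_nonneg (Y - Z)),
      mul_nonneg (add_nonneg (add_nonneg hX hY) hZ) (sq_nonneg (X - Z))]
  have hp : X * Y * Z = α * β * γ * (u * v * w) ^ 2 := by
    simp only [X, Y, Z]; ring
  refine le_of_pow_le_pow_left₀ (n := 3) (by norm_num) (by positivity) ?_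
  calc (3 * k * t) ^ 3 = 27 * (k ^ 3 * t ^ 3) := by ring
    _ ≤ 27 * (α * β * γ * (u * v * w) ^ 2) := by
      rw [ht]; gcongr
    _ ≤ _ := by rw [← hp]; exact am

theorem yg_enn (u v w : ℝ≥0∞) {α β γ k : ℝ≥0} (hα : α ≠ 0) (hβ : β ≠ 0)
    (h : k ^ 3 ≤ α * β * γ) :
    3 * k * (u * v * w) ^ (2 / 3 : ℝ) ≤ α * (u * v) + β * (v * w) + γ * (u * w) := by
  by_cases h0 : u * v * w = 0
  · rw [h0, ENNReal.zero_rpow_of_pos (by norm_num)]; simp
  have hu0 : u ≠ 0 := fun h => h0 (by simp [h])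
  have hv0 : v ≠ 0 := fun h => h0 (by simp [h])
  have hw0 : w ≠ 0 := fun h => h0 (by simp [h])
  by_cases hu : u = ⊤
  · simp [hu, hv0, hα]
  by_cases hv : v = ⊤
  · simp [hv, hu0, hα]
  by_cases hw : w = ⊤
  · simp [hw, hv0, hβ]
  lift u to ℝ≥0 using hu
  lift v to ℝ≥0 using hv
  lift w to ℝ≥0 using hw
  have := yg_real u.2 v.2 w.2 α.2 β.2 γ.2 (k := k) (by exact_mod_cast h)
  have h2 : 3 * k * (u * v * w) ^ (2 / 3 : ℝ) ≤ α * (u * v) + β * (v * w) + γ * (u * w) := by
    exact_mod_cast this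
  have h3 := ENNReal.coe_le_coe.2 h2
  push_cast at h3
  rw [ENNReal.coe_rpow_of_nonneg _ (by norm_num)] at h3
  push_cast at h3
  exact h3

/-- The Young constant. -/
noncomputable def ygc : ℝ≥0 := 475 / 477

theorem yg_norm {F G H : ℝ → ℝ≥0∞} (hF : Measurable F) (hG : Measurable G) (hH : Measurable H)
    (hF1 : ∫⁻ x, F x = 1) (hG1 : ∫⁻ x, G x = 1) (hH1 : ∫⁻ x, H x = 1) :
    ∫⁻ x, ∫⁻ y, (F x * G y * H (x + y)) ^ (2 / 3 : ℝ) ≤ ygc := by
  obtain ⟨a, ha1, ha2⟩ := yg_median hF1
  obtain ⟨b, hb1, hb2⟩ := yg_median hG1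
  set t := a + b with ht
  let α : ℝ × ℝ → ℝ≥0∞ := fun p =>
    (if b < p.2 then (if a < p.1 then 14 else 16) else 16) * (F p.1 * G p.2)
  let β : ℝ × ℝ → ℝ≥0∞ := fun p =>
    (if t < p.2 + p.1 then (if b < p.2 then 17 else 15) else 16) * (G p.2 * H (p.2 + p.1))
  let γ : ℝ × ℝ → ℝ≥0∞ := fun p =>
    (if t < p.1 + p.2 then (if a < p.1 then 17 else 15) else 16) * (F p.1 * H (p.1 + p.2))
  have m1 : MeasurableSet {p : ℝ × ℝ | a < p.1} := measurableSet_lt measurable_const measurable_fst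
  have m2 : MeasurableSet {p : ℝ × ℝ | b < p.2} := measurableSet_lt measurable_const measurable_snd
  have m3 : MeasurableSet {p : ℝ × ℝ | t < p.1 + p.2} :=
    measurableSet_lt measurable_const (measurable_fst.add measurable_snd)
  have m4 : MeasurableSet {p : ℝ × ℝ | t < p.2 + p.1} :=
    measurableSet_lt measurable_const (measurable_snd.add measurable_fst)
  have hα : Measurable α :=
    (Measurable.ite m2 (Measurable.ite m1 measurable_const measurable_const)
      measurable_const).mul ((hF.comp measurable_fst).mul (hG.comp measurable_snd))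
  have hβ : Measurable β :=
    (Measurable.ite m4 (Measurable.ite m2 measurable_const measurable_const)
      measurable_const).mul ((hG.comp measurable_snd).mul
        (hH.comp (measurable_snd.add measurable_fst)))
  have hγ : Measurable γ :=
    (Measurable.ite m3 (Measurable.ite m1 measurable_const measurable_const)
      measurable_const).mul ((hF.comp measurable_fst).mul
        (hH.comp (measurable_fst.add measurable_snd)))
  have hΦ : Measurable (fun p : ℝ × ℝ => (F p.1 * G p.2 * H (p.1 + p.2)) ^ (2 / 3 : ℝ)) :=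
    (((hF.comp measurable_fst).mul (hG.comp measurable_snd)).mul
        (hH.comp (measurable_fst.add measurable_snd))).pow_const _
  have pt : ∀ p : ℝ × ℝ, 3 * ((159 / 10 : ℝ≥0) : ℝ≥0∞) *
      (F p.1 * G p.2 * H (p.1 + p.2)) ^ (2 / 3 : ℝ) ≤ α p + β p + γ p := by
    rintro ⟨x, y⟩
    simp only [α, β, γ, add_comm y x]
    have gen : ∀ A B C : ℕ, A ≠ 0 → B ≠ 0 → 4046 ≤ A * B * C →
        3 * ((159 / 10 : ℝ≥0) : ℝ≥0∞) * (F x * G y * H (x + y)) ^ (2 / 3 : ℝ) ≤
        A * (F x * G y) + B * (G y * H (x + y)) + C * (F x * H (x + y)) := by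
      intro A B C hA hB hABC
      have := yg_enn (F x) (G y) (H (x + y)) (α := A) (β := B) (γ := C) (k := 159 / 10)
        (by exact_mod_cast hA) (by exact_mod_cast hB) (by
          have h1 : ((4046 : ℕ) : ℝ≥0) ≤ ((A * B * C : ℕ) : ℝ≥0) := by exact_mod_cast hABC
          push_cast at h1
          refine le_trans ?_ h1
          rw [← NNReal.coe_le_coe]
          push_cast
          norm_num)
      simpa using this
    by_cases h1 : a < x <;> by_cases h2 : b < y <;> by_cases h3 : t < x + y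
    · simpa [h1, h2, h3] using gen 14 17 17 (by norm_num) (by norm_num) (by norm_num)
    · exact absurd (by linarith) h3
    · simpa [h1, h2, h3] using gen 16 15 17 (by norm_num) (by norm_num) (by norm_num)
    · simpa [h1, h2, h3] using gen 16 16 16 (by norm_num) (by norm_num) (by norm_num)
    · simpa [h1, h2, h3] using gen 16 17 15 (by norm_num) (by norm_num) (by norm_num)
    · simpa [h1, h2, h3] using gen 16 16 16 (by norm_num) (by norm_num) (by norm_num)
    · exact absurd h3 (by push Not at h1 h2 ⊢; linarith)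
    · simpa [h1, h2, h3] using gen 16 16 16 (by norm_num) (by norm_num) (by norm_num)
  have iα : ∫⁻ p, α p ∂((volume : Measure ℝ).prod volume) = 31 * (1 / 2) := by
    rw [lintegral_prod _ hα.aemeasurable]
    exact yg_I hF hG ha1 ha2 hb1 hb2
  have iβ : ∫⁻ p, β p ∂((volume : Measure ℝ).prod volume) = 16 := by
    rw [lintegral_prod_symm _ hβ.aemeasurable]
    exact yg_J hG hH hH1 hb1 hb2 t
  have iγ : ∫⁻ p, γ p ∂((volume : Measure ℝ).prod volume) = 16 := by
    rw [lintegral_prod _ hγ.aemeasurable]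
    exact yg_J hF hH hH1 ha1 ha2 t
  have tot := lintegral_mono (μ := (volume : Measure ℝ).prod volume) pt
  rw [lintegral_const_mul _ hΦ, lintegral_add_right _ hγ, lintegral_add_right _ hβ, iα, iβ, iγ,
    lintegral_prod _ hΦ.aemeasurable] at tot
  simp only at tot
  set I := ∫⁻ x, ∫⁻ y, (F x * G y * H (x + y)) ^ (2 / 3 : ℝ)
  have e : (31 * (1 / 2) + 16 + 16 : ℝ≥0∞) = 3 * ((159 / 10 : ℝ≥0) : ℝ≥0∞) * (ygc : ℝ≥0∞) := by
    have : (31 * (1 / 2) + 16 + 16 : ℝ≥0) = 3 * (159 / 10) * ygc := by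
      rw [← NNReal.coe_inj]; simp only [ygc]; push_cast; norm_num
    have h2 := congrArg (fun z : ℝ≥0 => (z : ℝ≥0∞)) this
    simp only [ENNReal.coe_add, ENNReal.coe_mul, ENNReal.coe_ofNat] at h2
    rw [← h2, ENNReal.coe_div (by norm_num)]
    simp
  rw [e] at tot
  exact (ENNReal.mul_le_mul_iff_right (by simp) (by finiteness)).1 tot

/-- Young property of a measure on a group. -/
def HasY (c : ℝ≥0∞) {E : Type*} [AddCommGroup E] [MeasurableSpace E] (μ : Measure E) : Prop :=
  ∀ F G H : E → ℝ≥0∞, Measurable F → Measurable G → Measurable H →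
    ∫⁻ x, ∫⁻ y, (F x * G y * H (x + y)) ^ (2 / 3 : ℝ) ∂μ ∂μ ≤
      c * ((∫⁻ x, F x ∂μ) * (∫⁻ x, G x ∂μ) * (∫⁻ x, H x ∂μ)) ^ (2 / 3 : ℝ)

theorem hasY_real : HasY ygc (volume : Measure ℝ) := by
  intro F G H hF hG hH
  have z23 : (0 : ℝ≥0∞) ^ (2 / 3 : ℝ) = 0 := ENNReal.zero_rpow_of_pos (by norm_num)
  by_cases hF0 : ∫⁻ x, F x = 0
  · have := (lintegral_eq_zero_iff hF).1 hF0
    refine le_of_eq_of_le ?_ (zero_le)
    rw [← lintegral_zero (μ := (volume : Measure ℝ))]
    apply lintegral_congr_ae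
    filter_upwards [this] with x hx
    simp only [Pi.zero_apply] at hx
    simp [hx, z23]
  by_cases hG0 : ∫⁻ x, G x = 0
  · have := (lintegral_eq_zero_iff hG).1 hG0
    refine le_of_eq_of_le ?_ (zero_le)
    rw [← lintegral_zero (μ := (volume : Measure ℝ))]
    apply lintegral_congr
    intro x
    rw [← lintegral_zero (μ := (volume : Measure ℝ))]
    apply lintegral_congr_ae
    filter_upwards [this] with y hy
    simp only [Pi.zero_apply] at hy
    simp [hy, z23]
  by_cases hH0 : ∫⁻ x, H x = 0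
  · have := (lintegral_eq_zero_iff hH).1 hH0
    refine le_of_eq_of_le ?_ (zero_le)
    rw [← lintegral_zero (μ := (volume : Measure ℝ))]
    apply lintegral_congr
    intro x
    rw [← lintegral_zero (μ := (volume : Measure ℝ))]
    apply lintegral_congr_ae
    filter_upwards [(measurePreserving_add_left volume x).quasiMeasurePreserving.ae this] with y hy
    simp only [Pi.zero_apply] at hy
    simp [hy, z23]
  set a := ∫⁻ x, F x with ha
  set b := ∫⁻ x, G x with hb
  set c := ∫⁻ x, H x with hc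
  have hy0 : (ygc : ℝ≥0∞) ≠ 0 := by simp [ygc]
  by_cases htop : a * b * c = ⊤
  · rw [htop, ENNReal.top_rpow_of_pos (by norm_num), ENNReal.mul_top hy0]
    exact le_top
  have hat : a ≠ ⊤ := fun h => htop (by simp [h, hG0, hH0])
  have hbt : b ≠ ⊤ := fun h => htop (by simp [h, hF0, hH0])
  have hct : c ≠ ⊤ := fun h => htop (by simp [h, hF0, hG0])
  have := yg_norm (F := fun x => a⁻¹ * F x) (G := fun x => b⁻¹ * G x) (H := fun x => c⁻¹ * H x)
    (hF.const_mul _) (hG.const_mul _) (hH.const_mul _)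
    (by rw [lintegral_const_mul _ hF, ENNReal.inv_mul_cancel hF0 hat])
    (by rw [lintegral_const_mul _ hG, ENNReal.inv_mul_cancel hG0 hbt])
    (by rw [lintegral_const_mul _ hH, ENNReal.inv_mul_cancel hH0 hct])
  have e : ∀ x y, (F x * G y * H (x + y)) ^ (2 / 3 : ℝ) = (a * b * c) ^ (2 / 3 : ℝ) *
      (a⁻¹ * F x * (b⁻¹ * G y) * (c⁻¹ * H (x + y))) ^ (2 / 3 : ℝ) := by
    intro x y
    rw [← ENNReal.mul_rpow_of_nonneg _ _ (by norm_num)]
    congr 1
    calc F x * G y * H (x + y) = (a * a⁻¹) * (b * b⁻¹) * (c * c⁻¹) * (F x * G y * H (x + y)) := by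
          rw [ENNReal.mul_inv_cancel hF0 hat, ENNReal.mul_inv_cancel hG0 hbt,
            ENNReal.mul_inv_cancel hH0 hct]; simp
      _ = _ := by ring
  simp_rw [e]
  have hne : (a * b * c) ^ (2 / 3 : ℝ) ≠ ⊤ := ENNReal.rpow_ne_top_of_nonneg (by norm_num) htop
  simp_rw [lintegral_const_mul' _ _ hne]
  rw [mul_comm]
  gcongr

theorem HasY.prod {c d : ℝ≥0∞} (hd : d ≠ ⊤) {E E' : Type*} [AddCommGroup E] [MeasurableSpace E]
    [MeasurableAdd₂ E] [AddCommGroup E'] [MeasurableSpace E'] [MeasurableAdd₂ E']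
    {μ : Measure E} {ν : Measure E'}
    [SFinite μ] [SFinite ν] (hμ : HasY c μ) (hν : HasY d ν) : HasY (c * d) (μ.prod ν) := by
  intro F G H hF hG hH
  have hadd : Measurable (fun p : (E × E') × (E × E') => p.1 + p.2) :=
    (measurable_fst.fst.add measurable_snd.fst).prodMk (measurable_fst.snd.add measurable_snd.snd)
  have hΦ : Measurable (fun p : (E × E') × (E × E') =>
      (F p.1 * G p.2 * H (p.1 + p.2)) ^ (2 / 3 : ℝ)) :=
    (((hF.comp measurable_fst).mul (hG.comp measurable_snd)).mul (hH.comp hadd)).pow_const _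
  rw [lintegral_prod _ hΦ.lintegral_prod_right'.aemeasurable, lintegral_prod _ hF.aemeasurable,
    lintegral_prod _ hG.aemeasurable, lintegral_prod _ hH.aemeasurable]
  have step : ∀ x : E, ∫⁻ x', ∫⁻ y, (F (x, x') * G y * H ((x, x') + y)) ^ (2 / 3 : ℝ)
      ∂(μ.prod ν) ∂ν ≤ d * ∫⁻ y, ((∫⁻ u, F (x, u) ∂ν) * (∫⁻ u, G (y, u) ∂ν) *
        (∫⁻ u, H (x + y, u) ∂ν)) ^ (2 / 3 : ℝ) ∂μ := by
    intro x
    have h1 : ∀ x' : E', ∫⁻ y, (F (x, x') * G y * H ((x, x') + y)) ^ (2 / 3 : ℝ) ∂(μ.prod ν)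
        = ∫⁻ y, ∫⁻ y', (F (x, x') * G (y, y') * H (x + y, x' + y')) ^ (2 / 3 : ℝ) ∂ν ∂μ := by
      intro x'
      rw [lintegral_prod]
      · rfl
      · exact (hΦ.comp (measurable_prodMk_left (x := (x, x')))).aemeasurable
    simp_rw [h1]
    rw [lintegral_lintegral_swap, ← lintegral_const_mul' _ _ hd]
    · apply lintegral_mono
      intro y
      exact hν (fun u => F (x, u)) (fun u => G (y, u)) (fun u => H (x + y, u))
        (hF.comp measurable_prodMk_left) (hG.comp measurable_prodMk_left)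
        (hH.comp measurable_prodMk_left)
    · apply Measurable.aemeasurable
      apply Measurable.lintegral_prod_right
      have : Measurable (fun q : (E' × E) × E' => (((x, q.1.1), (q.1.2, q.2)) :
          (E × E') × (E × E'))) := by fun_prop
      exact hΦ.comp this
  refine (lintegral_mono step).trans ?_
  rw [lintegral_const_mul' _ _ hd, mul_comm c d, mul_assoc]
  gcongr
  exact hμ (fun x => ∫⁻ u, F (x, u) ∂ν) (fun x => ∫⁻ u, G (x, u) ∂ν) (fun x => ∫⁻ u, H (x, u) ∂ν)
    hF.lintegral_prod_right' hG.lintegral_prod_right' hH.lintegral_prod_right'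

theorem HasY.of_equiv {c : ℝ≥0∞} {E E' : Type*} [AddCommGroup E] [MeasurableSpace E]
    [AddCommGroup E'] [MeasurableSpace E'] [MeasurableAdd₂ E']
    {μ : Measure E} {ν : Measure E'} [SFinite ν]
    (hμ : HasY c μ) (e : E → E') (he : MeasurePreserving e μ ν)
    (hlin : ∀ x y, e (x + y) = e x + e y) : HasY c ν := by
  intro F G H hF hG hH
  have hΦ : Measurable (fun p : E' × E' =>
      (F p.1 * G p.2 * H (p.1 + p.2)) ^ (2 / 3 : ℝ)) :=
    (((hF.comp measurable_fst).mul (hG.comp measurable_snd)).mul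
        (hH.comp (measurable_fst.add measurable_snd))).pow_const _
  rw [← he.lintegral_comp hF, ← he.lintegral_comp hG, ← he.lintegral_comp hH,
    ← he.lintegral_comp hΦ.lintegral_prod_right']
  refine le_of_eq_of_le ?_ (hμ _ _ _ (hF.comp he.measurable) (hG.comp he.measurable)
    (hH.comp he.measurable))
  apply lintegral_congr
  intro x
  have := he.lintegral_comp (hΦ.comp (measurable_prodMk_left (x := e x)))
  simp only [Function.comp_apply, hlin] at this ⊢
  exact this.symm

theorem hasY_pi (n : ℕ) : HasY ((ygc : ℝ≥0∞) ^ n) (volume : Measure (Fin n → ℝ)) := by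
  induction n with
  | zero =>
    intro f g h hf hg hh
    have hv : (volume : Measure (Fin 0 → ℝ)) = Measure.dirac 0 := by
      rw [volume_pi, Measure.pi_of_empty]
      congr 1
      exact Subsingleton.elim _ _
    rw [hv]
    simp only [lintegral_dirac]
    simp
  | succ n ih =>
    have h1 : HasY ((ygc : ℝ≥0∞) * (ygc : ℝ≥0∞) ^ n) (volume : Measure (ℝ × (Fin n → ℝ))) :=
      hasY_real.prod (by finiteness) ih
    rw [pow_succ']
    refine h1.of_equiv _
      (volume_preserving_piFinSuccAbove (fun _ : Fin (n + 1) => ℝ) 0).symm ?_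
    intro x y
    ext i
    refine Fin.cases ?_ (fun j => ?_) i <;>
      simp [MeasurableEquiv.piFinSuccAbove_symm_apply, Fin.insertNthEquiv]

theorem hasY_fintype (α : Type) [Fintype α] :
    HasY ((ygc : ℝ≥0∞) ^ Fintype.card α) (volume : Measure (α → ℝ)) := by
  refine (hasY_pi (Fintype.card α)).of_equiv _
    (volume_preserving_arrowCongr' (Fintype.equivFin α).symm (MeasurableEquiv.refl ℝ)
      (MeasurePreserving.id _)) ?_
  intro x y
  rfl

theorem young : YoungStmt := by
  refine ⟨ygc, by simp [ygc], by simp only [ygc]; push_cast; norm_num, ?_⟩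
  intro α _ A B C hA hB hC v hv h1 h2 h3
  have key := hasY_fintype α (A.indicator 1) (B.indicator 1) (C.indicator 1)
    (measurable_one.indicator hA) (measurable_one.indicator hB) (measurable_one.indicator hC)
  rw [lintegral_indicator_one hA, lintegral_indicator_one hB, lintegral_indicator_one hC] at key
  have hS : MeasurableSet {p : (α → ℝ) × (α → ℝ) | p.1 ∈ A ∧ p.2 ∈ B ∧ p.1 + p.2 ∈ C} :=
    (measurable_fst hA).inter ((measurable_snd hB).inter ((measurable_fst.add measurable_snd) hC))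
  rw [← lintegral_indicator_one hS, Measure.volume_eq_prod,
    lintegral_prod _ (measurable_one.indicator hS).aemeasurable]
  refine le_of_eq_of_le ?_ (key.trans ?_)
  · apply lintegral_congr; intro x
    apply lintegral_congr; intro y
    by_cases ha : x ∈ A <;> by_cases hb : y ∈ B <;> by_cases hc : x + y ∈ C <;>
      simp [indicator, ha, hb, hc]
  · rw [ENNReal.ofReal_mul (by positivity), ENNReal.ofReal_pow NNReal.zero_le_coe,
      ENNReal.ofReal_coe_nnreal, ENNReal.ofReal_pow hv]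
    gcongr
    calc (volume A * volume B * volume C) ^ (2 / 3 : ℝ)
        ≤ (ENNReal.ofReal v * ENNReal.ofReal v * ENNReal.ofReal v) ^ (2 / 3 : ℝ) := by gcongr
      _ = (ENNReal.ofReal v ^ ((3 : ℕ) : ℝ)) ^ (2 / 3 : ℝ) := by
        rw [ENNReal.rpow_natCast]; ring_nf
      _ = _ := by
        rw [← ENNReal.rpow_mul, ← ENNReal.rpow_natCast]; norm_num

end Crest.Agent.LC
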